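import Vale.Agent.Lib.P309.Cubes

/-! # P309 module CZ: multi-stage Calderon-Zygmund decomposition of a finite measure -/

open MeasureTheory ProbabilityTheory
open scoped ENNReal NNReal

namespace P309

variable {d : ℕ}

/-- `Q` is heavy for threshold `lam` in the residual set `R`. -/
def heavy (μ : Measure (E d)) (a : ℕ) (lam : ℝ) (R : Set (E d)) (Q : Cube d) : Prop :=
  ENNReal.ofReal (lam * Q.side ^ a) ≤ μ (Q.carrier ∩ R)

/-- `Q` is a maximal heavy cube. -/
def selected (μ : Measure (E d)) (a : ℕ) (lam : ℝ) (R : Set (E d)) (Q : Cube d) : Prop :=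
  heavy μ a lam R Q ∧ ∀ Q' : Cube d, Q'.i < Q.i → Q.carrier ⊆ Q'.carrier → ¬ heavy μ a lam R Q'

/-- Residual sets: `czR 0 = univ`, remove selected cubes at each stage; threshold `lam0 / 2^j`. -/
noncomputable def czR (μ : Measure (E d)) (a : ℕ) (lam0 : ℝ) : ℕ → Set (E d)
  | 0 => Set.univ
  | j + 1 => czR μ a lam0 j \ ⋃₀ {C | ∃ Q : Cube d,
      selected μ a (lam0 / 2 ^ j) (czR μ a lam0 j) Q ∧ C = Q.carrier}

/-- The pieces of stage `j`. -/
def czSel (μ : Measure (E d)) (a : ℕ) (lam0 : ℝ) (j : ℕ) (Q : Cube d) : Prop :=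
  selected μ a (lam0 / 2 ^ j) (czR μ a lam0 j) Q

variable {μ : Measure (E d)} {a : ℕ} {lam0 : ℝ}

/-- Cubes form a countable type. -/
theorem czx_countable : Countable (Cube d) := by
  have : Function.Injective (fun Q : Cube d => (Q.i, Q.k)) := by
    intro Q Q' h
    simp only [Prod.mk.injEq] at h
    exact Cube.ext h.1 h.2
  exact this.countable

theorem czx_succ_subset (j : ℕ) : czR μ a lam0 (j + 1) ⊆ czR μ a lam0 j := by
  intro x hx
  rw [czR] at hx
  exact hx.1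

theorem czx_antitone {j j' : ℕ} (h : j ≤ j') : czR μ a lam0 j' ⊆ czR μ a lam0 j := by
  induction h with
  | refl => exact subset_rfl
  | step _ ih => exact (czx_succ_subset _).trans ih

theorem czx_mem_succ_iff {j : ℕ} {x : E d} : x ∈ czR μ a lam0 (j + 1) ↔
    x ∈ czR μ a lam0 j ∧ ∀ Q : Cube d, czSel μ a lam0 j Q → x ∉ Q.carrier := by
  rw [czR]
  constructor
  · rintro ⟨h1, h2⟩
    refine ⟨h1, fun Q hQ hx => h2 ⟨Q.carrier, ⟨Q, hQ, rfl⟩, hx⟩⟩
  · rintro ⟨h1, h2⟩
    refine ⟨h1, ?_⟩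
    rintro ⟨C, ⟨Q, hQ, rfl⟩, hx⟩
    exact h2 Q hQ hx

/-- A heavy cube has a maximal heavy ancestor. -/
theorem czx_exists_selected [IsFiniteMeasure μ] (ha : 1 ≤ a) {lam : ℝ} (hl : 0 < lam)
    (R : Set (E d)) (Q : Cube d) (hQ : heavy μ a lam R Q) :
    ∃ Q' : Cube d, selected μ a lam R Q' ∧ Q.carrier ⊆ Q'.carrier := by
  classical
  set anc : ℕ → Cube d := fun k => Cube.cubeOf (Q.i - (k : ℤ)) Q.center with hanc
  have hanc0 : anc 0 = Q := by
    have := Cube.eq_cubeOf Q (Cube.center_mem Q)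
    simpa [hanc] using this.symm
  have hsub : ∀ k, Q.carrier ⊆ (anc k).carrier := fun k =>
    Cube.subset_cubeOf Q (by omega)
  set T : ℝ := (μ Set.univ).toReal with hT
  have hT0 : 0 ≤ T := ENNReal.toReal_nonneg
  have hside : ∀ k : ℕ, (anc k).side = 2 ^ k * (2 : ℝ) ^ (-Q.i) := by
    intro k
    have : (anc k).side = (2 : ℝ) ^ (-(Q.i - (k : ℤ))) := rfl
    rw [this, show -(Q.i - (k : ℤ)) = (k : ℤ) + (-Q.i) by ring,
      zpow_add₀ (by norm_num : (2 : ℝ) ≠ 0), zpow_natCast]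
  have h2i : (0 : ℝ) < (2 : ℝ) ^ (-Q.i) := by positivity
  obtain ⟨N, hN⟩ := pow_unbounded_of_one_lt (max 1 ((T + 1) / lam) / (2 : ℝ) ^ (-Q.i))
    (by norm_num : (1 : ℝ) < 2)
  have hbig : ∀ k, N ≤ k → ¬ heavy μ a lam R (anc k) := by
    intro k hk hh
    have h1 : max 1 ((T + 1) / lam) < (anc k).side := by
      rw [hside]
      rw [div_lt_iff₀ h2i] at hN
      calc max 1 ((T + 1) / lam) < 2 ^ N * (2 : ℝ) ^ (-Q.i) := hN
        _ ≤ 2 ^ k * (2 : ℝ) ^ (-Q.i) := by
            apply mul_le_mul_of_nonneg_right _ h2i.le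
            exact pow_le_pow_right₀ (by norm_num) hk
    have hs1 : 1 ≤ (anc k).side := ((le_max_left _ _).trans_lt h1).le
    have hs2 : (T + 1) / lam ≤ (anc k).side := ((le_max_right _ _).trans_lt h1).le
    have hpow : (anc k).side ≤ (anc k).side ^ a := le_self_pow₀ hs1 (by omega)
    have h3 : T + 1 ≤ lam * (anc k).side ^ a := by
      have : T + 1 ≤ lam * (anc k).side := by
        rw [div_le_iff₀ hl] at hs2
        linarith
      nlinarith
    have h4 : ENNReal.ofReal (lam * (anc k).side ^ a) ≤ μ Set.univ :=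
      le_trans hh (measure_mono (Set.subset_univ _))
    have h5 : lam * (anc k).side ^ a ≤ T := by
      have := ENNReal.toReal_mono (measure_ne_top μ Set.univ) h4
      rwa [ENNReal.toReal_ofReal (by positivity)] at this
    linarith
  -- the greatest heavy ancestor
  have h0 : heavy μ a lam R (anc 0) := by rw [hanc0]; exact hQ
  set k0 := Nat.findGreatest (fun k => heavy μ a lam R (anc k)) N with hk0
  have hk0spec : heavy μ a lam R (anc k0) :=
    Nat.findGreatest_spec (P := fun k => heavy μ a lam R (anc k)) (Nat.zero_le N) h0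
  have hgreat : ∀ k, k0 < k → ¬ heavy μ a lam R (anc k) := by
    intro k hk
    by_cases hkN : k ≤ N
    · exact Nat.findGreatest_is_greatest (P := fun k => heavy μ a lam R (anc k)) hk hkN
    · exact hbig k (by omega)
  refine ⟨anc k0, ⟨hk0spec, ?_⟩, hsub k0⟩
  intro Q' hlev hQ'sub
  have hmem : Q.center ∈ Q'.carrier := hQ'sub (hsub k0 (Cube.center_mem Q))
  have hQ' : Q' = Cube.cubeOf Q'.i Q.center := Cube.eq_cubeOf Q' hmem
  have hlev' : Q'.i < Q.i - (k0 : ℤ) := hlev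
  have hk' : anc (Q.i - Q'.i).toNat = Q' := by
    have e1 : Q.i - (((Q.i - Q'.i).toNat : ℕ) : ℤ) = Q'.i := by
      rw [Int.toNat_of_nonneg (by omega)]
      ring
    simp only [hanc]
    rw [e1]
    exact hQ'.symm
  rw [← hk']
  exact hgreat _ (by omega)

theorem czR_measurable (j : ℕ) : MeasurableSet (czR μ a lam0 j) := by
  induction j with
  | zero => simp [czR]
  | succ j ih =>
    rw [czR]
    refine ih.diff ?_
    refine MeasurableSet.sUnion ?_ ?_
    · have := czx_countable (d := d)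
      have hsub : {C | ∃ Q : Cube d, selected μ a (lam0 / 2 ^ j) (czR μ a lam0 j) Q ∧ C = Q.carrier}
          ⊆ Set.range (Cube.carrier : Cube d → Set (E d)) := by
        rintro C ⟨Q, -, rfl⟩
        exact ⟨Q, rfl⟩
      exact (Set.countable_range _).mono hsub
    · rintro C ⟨Q, -, rfl⟩
      exact Q.measurableSet_carrier

/-- After stage `j` every cube has mass below the threshold. Needs `a ≥ 1`, `μ` finite:
a heavy cube has a maximal heavy ancestor (ancestors of huge side are not heavy). -/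
theorem cz_after [IsFiniteMeasure μ] (ha : 1 ≤ a) (h0 : 0 < lam0) (j : ℕ) (Q : Cube d) :
    μ (Q.carrier ∩ czR μ a lam0 (j + 1)) ≤ ENNReal.ofReal (lam0 / 2 ^ j * Q.side ^ a) := by
  have hl : 0 < lam0 / 2 ^ j := by positivity
  by_cases hQ : heavy μ a (lam0 / 2 ^ j) (czR μ a lam0 j) Q
  · obtain ⟨Q', hs, hsub⟩ := czx_exists_selected ha hl _ Q hQ
    have he : Q.carrier ∩ czR μ a lam0 (j + 1) = ∅ := by
      ext x
      simp only [Set.mem_inter_iff, Set.mem_empty_iff_false, iff_false, not_and]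
      intro hx hR
      exact (czx_mem_succ_iff.1 hR).2 Q' hs (hsub hx)
    rw [he]
    simp
  · have h1 := not_le.1 hQ
    refine le_trans (measure_mono ?_) h1.le
    exact Set.inter_subset_inter_right _ (czx_succ_subset j)

/-- Upper bound at every stage, from the hypothesis at stage zero and `cz_after`. -/
theorem cz_upper [IsFiniteMeasure μ] (ha : 1 ≤ a) (h0 : 0 < lam0)
    (hμ : ∀ Q : Cube d, μ Q.carrier ≤ ENNReal.ofReal (2 * lam0 * Q.side ^ a)) (j : ℕ) (Q : Cube d) :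
    μ (Q.carrier ∩ czR μ a lam0 j) ≤ ENNReal.ofReal (2 * (lam0 / 2 ^ j) * Q.side ^ a) := by
  cases j with
  | zero =>
    have hR : Q.carrier ∩ czR μ a lam0 0 = Q.carrier := by simp [czR]
    rw [hR]
    simpa using hμ Q
  | succ j =>
    have h := cz_after (μ := μ) ha h0 j Q
    have heq : 2 * (lam0 / 2 ^ (j + 1)) * Q.side ^ a = lam0 / 2 ^ j * Q.side ^ a := by
      rw [pow_succ]
      field_simp
    rw [heq]
    exact h

theorem cz_lower {j : ℕ} {Q : Cube d} (hQ : czSel μ a lam0 j Q) :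
    ENNReal.ofReal (lam0 / 2 ^ j * Q.side ^ a) ≤ μ (Q.carrier ∩ czR μ a lam0 j) :=
  hQ.1

/-- Distinct selected cubes of one stage are disjoint (maximal dyadic cubes). -/
theorem cz_disjoint {j : ℕ} {Q Q' : Cube d} (hQ : czSel μ a lam0 j Q) (hQ' : czSel μ a lam0 j Q')
    (hne : Q ≠ Q') : Disjoint Q.carrier Q'.carrier := by
  have key : ∀ {Q Q' : Cube d}, czSel μ a lam0 j Q → czSel μ a lam0 j Q' → Q ≠ Q' →
      Q.i ≤ Q'.i → Disjoint Q.carrier Q'.carrier := by
    intro Q Q' hQ hQ' hne hle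
    rcases Cube.subset_or_disjoint Q Q' hle with hs | hd
    · exfalso
      rcases hle.lt_or_eq with hlt | heq
      · exact hQ'.2 Q hlt hs hQ.1
      · apply hne
        have hm : Q'.center ∈ Q.carrier := hs (Cube.center_mem Q')
        have h1 : Q = Cube.cubeOf Q.i Q'.center := Cube.eq_cubeOf Q hm
        have h2 : Q' = Cube.cubeOf Q'.i Q'.center := Cube.eq_cubeOf Q' (Cube.center_mem Q')
        rw [heq] at h1
        exact h1.trans h2.symm
    · exact hd.symm
  rcases le_total Q.i Q'.i with h | h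
  · exact key hQ hQ' hne h
  · exact (key hQ' hQ hne.symm h).symm

/-- Pieces of different stages are disjoint. -/
theorem cz_disjoint_stage {j j' : ℕ} (hjj : j < j') {Q Q' : Cube d} (hQ : czSel μ a lam0 j Q) :
    Disjoint (Q.carrier ∩ czR μ a lam0 j) (Q'.carrier ∩ czR μ a lam0 j') := by
  rw [Set.disjoint_left]
  rintro x ⟨hx, -⟩ ⟨-, hx'⟩
  have h1 : x ∈ czR μ a lam0 (j + 1) := czx_antitone (by omega) hx'
  exact (czx_mem_succ_iff.1 h1).2 Q hQ hx

/-- Every point is either in the residual set of stage `J` or in a piece of an earlier stage. -/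
theorem cz_cover (J : ℕ) (x : E d) :
    x ∈ czR μ a lam0 J ∨ ∃ j < J, ∃ Q : Cube d, czSel μ a lam0 j Q ∧
      x ∈ Q.carrier ∩ czR μ a lam0 j := by
  induction J with
  | zero => exact Or.inl (by simp [czR])
  | succ J ih =>
    rcases ih with h | ⟨j, hj, Q, hQ, hx⟩
    · by_cases hq : ∃ Q : Cube d, czSel μ a lam0 J Q ∧ x ∈ Q.carrier
      · obtain ⟨Q, hQ, hx⟩ := hq
        exact Or.inr ⟨J, by omega, Q, hQ, hx, h⟩
      · left
        refine czx_mem_succ_iff.2 ⟨h, fun Q hQ hx => hq ⟨Q, hQ, hx⟩⟩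
    · exact Or.inr ⟨j, by omega, Q, hQ, hx⟩

/-- Selected cubes of one stage and level form a finite set. -/
theorem cz_finite [IsFiniteMeasure μ] (h0 : 0 < lam0) (j : ℕ) (i : ℤ) :
    {Q : Cube d | czSel μ a lam0 j Q ∧ Q.i = i}.Finite := by
  classical
  by_contra hinf
  have hinf' : {Q : Cube d | czSel μ a lam0 j Q ∧ Q.i = i}.Infinite := hinf
  set r : ℝ := (2 : ℝ) ^ (-i) with hr
  have hr0 : 0 < r := by positivity
  have hl : 0 < lam0 / 2 ^ j := by positivity
  have hε : 0 < lam0 / 2 ^ j * r ^ a := by positivity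
  obtain ⟨N, hN⟩ := exists_nat_gt ((μ Set.univ).toReal / (lam0 / 2 ^ j * r ^ a))
  obtain ⟨F, hFs, hFc⟩ := hinf'.exists_subset_card_eq N
  have hm : ∀ Q ∈ F, MeasurableSet (Q.carrier ∩ czR μ a lam0 j) := fun Q _ =>
    Q.measurableSet_carrier.inter (czR_measurable j)
  have hdisj : (F : Set (Cube d)).PairwiseDisjoint
      (fun Q : Cube d => Q.carrier ∩ czR μ a lam0 j) := by
    intro Q hQ Q' hQ' hne
    exact (cz_disjoint (hFs hQ).1 (hFs hQ').1 hne).mono Set.inter_subset_left Set.inter_subset_left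
  have hsum := measure_biUnion_finset hdisj hm (μ := μ)
  have hlow : ∀ Q ∈ F, ENNReal.ofReal (lam0 / 2 ^ j * r ^ a) ≤
      μ (Q.carrier ∩ czR μ a lam0 j) := by
    intro Q hQ
    have h := cz_lower (hFs hQ).1
    have hi : Q.side = r := by
      show (2 : ℝ) ^ (-Q.i) = r
      rw [(hFs hQ).2]
    rwa [hi] at h
  have h1 : (F.card : ℝ≥0∞) * ENNReal.ofReal (lam0 / 2 ^ j * r ^ a) ≤ μ Set.univ := by
    calc (F.card : ℝ≥0∞) * ENNReal.ofReal (lam0 / 2 ^ j * r ^ a)
        = ∑ _Q ∈ F, ENNReal.ofReal (lam0 / 2 ^ j * r ^ a) := by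
          rw [Finset.sum_const, nsmul_eq_mul]
      _ ≤ ∑ Q ∈ F, μ (Q.carrier ∩ czR μ a lam0 j) := Finset.sum_le_sum hlow
      _ = μ (⋃ Q ∈ F, Q.carrier ∩ czR μ a lam0 j) := hsum.symm
      _ ≤ μ Set.univ := measure_mono (Set.subset_univ _)
  have h2 : (F.card : ℝ) * (lam0 / 2 ^ j * r ^ a) ≤ (μ Set.univ).toReal := by
    have := ENNReal.toReal_mono (measure_ne_top μ Set.univ) h1
    rwa [ENNReal.toReal_mul, ENNReal.toReal_natCast, ENNReal.toReal_ofReal hε.le] at this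
  rw [hFc] at h2
  rw [div_lt_iff₀ hε] at hN
  linarith

/-- Counting: a cube of side `R` contains at most `2 (R/r)^a` selected cubes of side `r`. -/
theorem cz_count [IsFiniteMeasure μ] (ha : 1 ≤ a) (h0 : 0 < lam0)
    (hμ : ∀ Q : Cube d, μ Q.carrier ≤ ENNReal.ofReal (2 * lam0 * Q.side ^ a)) (j : ℕ) (i : ℤ)
    (F : Finset (Cube d)) (hF : ∀ Q ∈ F, czSel μ a lam0 j Q ∧ Q.i = i) (Q'' : Cube d)
    (hi : Q''.i ≤ i) (hsub : ∀ Q ∈ F, Q.carrier ⊆ Q''.carrier) :
    (F.card : ℝ) ≤ 2 * (Q''.side / (2 : ℝ) ^ (-i)) ^ a := by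
  classical
  set r : ℝ := (2 : ℝ) ^ (-i) with hr
  have hr0 : 0 < r := by positivity
  have hl : 0 < lam0 / 2 ^ j := by positivity
  have hm : ∀ Q ∈ F, MeasurableSet (Q.carrier ∩ czR μ a lam0 j) := fun Q _ =>
    Q.measurableSet_carrier.inter (czR_measurable j)
  have hdisj : (F : Set (Cube d)).PairwiseDisjoint
      (fun Q : Cube d => Q.carrier ∩ czR μ a lam0 j) := by
    intro Q hQ Q' hQ' hne
    exact (cz_disjoint (hF Q hQ).1 (hF Q' hQ').1 hne).mono Set.inter_subset_left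
      Set.inter_subset_left
  have hsum := measure_biUnion_finset hdisj hm (μ := μ)
  have hlow : ∀ Q ∈ F, ENNReal.ofReal (lam0 / 2 ^ j * r ^ a) ≤
      μ (Q.carrier ∩ czR μ a lam0 j) := by
    intro Q hQ
    have h := cz_lower (hF Q hQ).1
    have hi : Q.side = r := by
      show (2 : ℝ) ^ (-Q.i) = r
      rw [(hF Q hQ).2]
    rwa [hi] at h
  have hup := cz_upper (μ := μ) ha h0 hμ j Q''
  have hs'' : 0 < Q''.side := Q''.side_pos
  have hRHS : 0 ≤ 2 * (lam0 / 2 ^ j) * Q''.side ^ a := by positivity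
  have h1 : (F.card : ℝ≥0∞) * ENNReal.ofReal (lam0 / 2 ^ j * r ^ a) ≤
      ENNReal.ofReal (2 * (lam0 / 2 ^ j) * Q''.side ^ a) := by
    calc (F.card : ℝ≥0∞) * ENNReal.ofReal (lam0 / 2 ^ j * r ^ a)
        = ∑ _Q ∈ F, ENNReal.ofReal (lam0 / 2 ^ j * r ^ a) := by
          rw [Finset.sum_const, nsmul_eq_mul]
      _ ≤ ∑ Q ∈ F, μ (Q.carrier ∩ czR μ a lam0 j) := Finset.sum_le_sum hlow
      _ = μ (⋃ Q ∈ F, Q.carrier ∩ czR μ a lam0 j) := hsum.symm
      _ ≤ μ (Q''.carrier ∩ czR μ a lam0 j) := by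
          apply measure_mono
          intro x hx
          simp only [Set.mem_iUnion, Set.mem_inter_iff, exists_prop] at hx
          obtain ⟨Q, hQ, hx1, hx2⟩ := hx
          exact ⟨hsub Q hQ hx1, hx2⟩
      _ ≤ _ := hup
  have h2 : (F.card : ℝ) * (lam0 / 2 ^ j * r ^ a) ≤ 2 * (lam0 / 2 ^ j) * Q''.side ^ a := by
    have := ENNReal.toReal_mono ENNReal.ofReal_ne_top h1
    rwa [ENNReal.toReal_mul, ENNReal.toReal_natCast, ENNReal.toReal_ofReal (by positivity),
      ENNReal.toReal_ofReal hRHS] at this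
  rw [div_pow]
  have hra : 0 < r ^ a := by positivity
  rw [show 2 * (Q''.side ^ a / r ^ a) = (2 * Q''.side ^ a) / r ^ a by ring, le_div_iff₀ hra]
  have h3 : (lam0 / 2 ^ j) * ((F.card : ℝ) * r ^ a) ≤ (lam0 / 2 ^ j) * (2 * Q''.side ^ a) := by
    nlinarith
  exact le_of_mul_le_mul_left h3 hl

/-- The mass left after `J` stages, when `μ` lives in the ball of radius `2`. -/
theorem cz_remainder [IsFiniteMeasure μ] (ha : 1 ≤ a) (h0 : 0 < lam0)
    (hsupp : ∀ᵐ s ∂μ, ‖s‖ ≤ 1) (J : ℕ) :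
    μ (czR μ a lam0 (J + 1)) ≤ ENNReal.ofReal (2 ^ d * (lam0 / 2 ^ J * 2 ^ a)) := by
  classical
  -- the `2^d` cubes of side `2`
  let cb : (Fin d → Bool) → Cube d := fun b => ⟨-1, fun l => if b l then 0 else -1⟩
  have hside : ∀ b, (cb b).side = 2 := by
    intro b
    show (2 : ℝ) ^ (-(-1 : ℤ)) = 2
    norm_num
  have hcov : ∀ s : E d, ‖s‖ ≤ 1 → ∃ b, s ∈ (cb b).carrier := by
    intro s hs
    have hl : ∀ l, |s l| ≤ 1 := by
      intro l
      have := PiLp.norm_apply_le s l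
      simpa using this.trans hs
    refine ⟨fun l => decide (0 ≤ s l), fun l => ?_⟩
    have hsd : (cb fun l => decide (0 ≤ s l)).side = 2 := hside _
    rw [hsd]
    have hl1 := abs_le.1 (hl l)
    by_cases h : 0 ≤ s l
    · simp only [cb, decide_eq_true_eq, h, if_true]
      push_cast
      constructor <;> linarith [hl1.1, hl1.2]
    · simp only [cb, decide_eq_true_eq, h, if_false]
      push_cast
      have h := not_le.1 h
      constructor <;> linarith [hl1.1, hl1.2]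
  have hbad : μ {s | ¬ ‖s‖ ≤ 1} = 0 := by
    have := ae_iff.1 hsupp
    exact this
  have hsub : czR μ a lam0 (J + 1) ⊆
      (⋃ b, (cb b).carrier ∩ czR μ a lam0 (J + 1)) ∪ {s | ¬ ‖s‖ ≤ 1} := by
    intro x hx
    by_cases h : ‖x‖ ≤ 1
    · obtain ⟨b, hb⟩ := hcov x h
      exact Or.inl (Set.mem_iUnion.2 ⟨b, hb, hx⟩)
    · exact Or.inr h
  have hterm : ∀ b, μ ((cb b).carrier ∩ czR μ a lam0 (J + 1)) ≤
      ENNReal.ofReal (lam0 / 2 ^ J * 2 ^ a) := by
    intro b
    have := cz_after (μ := μ) ha h0 J (cb b)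
    rwa [hside] at this
  calc μ (czR μ a lam0 (J + 1))
      ≤ μ ((⋃ b, (cb b).carrier ∩ czR μ a lam0 (J + 1)) ∪ {s | ¬ ‖s‖ ≤ 1}) := measure_mono hsub
    _ ≤ μ (⋃ b, (cb b).carrier ∩ czR μ a lam0 (J + 1)) + μ {s | ¬ ‖s‖ ≤ 1} := measure_union_le _ _
    _ = μ (⋃ b, (cb b).carrier ∩ czR μ a lam0 (J + 1)) := by rw [hbad, add_zero]
    _ ≤ ∑ b, μ ((cb b).carrier ∩ czR μ a lam0 (J + 1)) := measure_iUnion_fintype_le _ _
    _ ≤ ∑ _b : Fin d → Bool, ENNReal.ofReal (lam0 / 2 ^ J * 2 ^ a) :=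
        Finset.sum_le_sum fun b _ => hterm b
    _ = ENNReal.ofReal (2 ^ d * (lam0 / 2 ^ J * 2 ^ a)) := by
        rw [Finset.sum_const, nsmul_eq_mul, Finset.card_univ, Fintype.card_fun, Fintype.card_bool,
          Fintype.card_fin, ENNReal.ofReal_mul (p := (2 : ℝ) ^ d) (by positivity),
          ENNReal.ofReal_pow (by norm_num)]
        simp

/-- Range of levels. With `μ Q ≤ lam0 * side^(a+1)` and `μ ≤ 1`, `lam0 ≥ 1`:
a selected cube of stage `j` has `|Q.i| ≤ j`. -/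
theorem cz_level [IsFiniteMeasure μ] (ha : 1 ≤ a) (h1 : 1 ≤ lam0) (hμ1 : μ Set.univ ≤ 1)
    (hμ : ∀ Q : Cube d, μ Q.carrier ≤ ENNReal.ofReal (lam0 * Q.side ^ (a + 1))) {j : ℕ}
    {Q : Cube d} (hQ : czSel μ a lam0 j Q) : |Q.i| ≤ j := by
  have h0 : (0 : ℝ) < lam0 := by linarith
  have hl : 0 < lam0 / 2 ^ j := by positivity
  have hs : 0 < Q.side := Q.side_pos
  have hlow := cz_lower hQ
  have hpos : 0 < lam0 / 2 ^ j * Q.side ^ a := by positivity
  -- lower bound on the level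
  have hup1 : lam0 / 2 ^ j * Q.side ^ a ≤ 1 := by
    have h2 : ENNReal.ofReal (lam0 / 2 ^ j * Q.side ^ a) ≤ 1 :=
      hlow.trans ((measure_mono (Set.subset_univ _)).trans hμ1)
    have := ENNReal.toReal_mono ENNReal.one_ne_top h2
    rwa [ENNReal.toReal_ofReal hpos.le, ENNReal.toReal_one] at this
  -- upper bound on the level
  have h3 : lam0 / 2 ^ j * Q.side ^ a ≤ lam0 * Q.side ^ (a + 1) := by
    have h2 : ENNReal.ofReal (lam0 / 2 ^ j * Q.side ^ a) ≤
        ENNReal.ofReal (lam0 * Q.side ^ (a + 1)) :=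
      hlow.trans ((measure_mono Set.inter_subset_left).trans (hμ Q))
    exact (ENNReal.ofReal_le_ofReal_iff (by positivity)).1 h2
  have hsa : 0 < Q.side ^ a := by positivity
  have h4 : (1 : ℝ) / 2 ^ j ≤ Q.side := by
    have h5 : lam0 * Q.side ^ a * (1 / 2 ^ j) ≤ lam0 * Q.side ^ a * Q.side := by
      calc lam0 * Q.side ^ a * (1 / 2 ^ j) = lam0 / 2 ^ j * Q.side ^ a := by ring
        _ ≤ lam0 * Q.side ^ (a + 1) := h3
        _ = lam0 * Q.side ^ a * Q.side := by rw [pow_succ]; ring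
    exact le_of_mul_le_mul_left h5 (by positivity)
  have hside : Q.side = (2 : ℝ) ^ (-Q.i) := rfl
  rw [abs_le]
  constructor
  · -- `-j ≤ Q.i`
    by_contra hcon
    have hcon := not_le.1 hcon
    have hj : (j : ℤ) + 1 ≤ -Q.i := by omega
    have hs2 : (2 : ℝ) ^ (j + 1) ≤ Q.side := by
      rw [hside, ← zpow_natCast]
      apply zpow_le_zpow_right₀ (by norm_num)
      push_cast
      exact hj
    have hs1 : 1 ≤ Q.side := by
      refine le_trans ?_ hs2
      exact one_le_pow₀ (by norm_num)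
    have hpow : Q.side ≤ Q.side ^ a := le_self_pow₀ hs1 (by omega)
    have h2j : (0 : ℝ) < 2 ^ j := by positivity
    have : lam0 / 2 ^ j * Q.side ^ a ≥ 2 := by
      have h6 : (2 : ℝ) ^ (j + 1) ≤ Q.side ^ a := hs2.trans hpow
      calc lam0 / 2 ^ j * Q.side ^ a ≥ 1 / 2 ^ j * (2 : ℝ) ^ (j + 1) := by
            apply mul_le_mul _ h6 (by positivity) (by positivity)
            exact div_le_div_of_nonneg_right h1 h2j.le
        _ = 2 := by rw [pow_succ]; field_simp
    linarith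
  · -- `Q.i ≤ j`
    by_contra hcon
    have hcon := not_le.1 hcon
    have h7 : Q.side < 1 / 2 ^ j := by
      rw [hside, one_div, ← zpow_natCast, ← zpow_neg]
      apply zpow_lt_zpow_right₀ (by norm_num)
      omega
    linarith

end P309
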