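import Vale.Agent.Lib.P309.Cubes

/-! # P309 module Count: expected number of candidate pieces -/

open MeasureTheory ProbabilityTheory
open scoped ENNReal NNReal Classical

namespace P309

variable {d : ℕ}

/-- The Chernoff weight of a candidate at distance `R`. -/
noncomputable def candWeight (ϱ : ℝ) (D : ℕ) (R : ℝ) : ℝ :=
  if R ≤ ϱ then 1 else (Real.sqrt (Real.exp 1) * ϱ / R) ^ D

private theorem count_const_le : Real.sqrt (2 * Real.pi * Real.exp 1) * 2 ≤ 9 := by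
  have he : Real.exp 1 < 2.7182818286 := Real.exp_one_lt_d9
  have hpi : Real.pi < 3.15 := Real.pi_lt_d2
  have hpi0 : 0 < Real.pi := Real.pi_pos
  have he0 : 0 < Real.exp 1 := Real.exp_pos 1
  have h : Real.sqrt (2 * Real.pi * Real.exp 1) ≤ 9 / 2 := by
    rw [Real.sqrt_le_left (by positivity)]
    nlinarith [mul_pos hpi0 he0]
  linarith

/-- Count in balls: pieces with center within `2^l ϱ` of `s`. Group them by their ancestor of level
`i - l` (side `R₁ = 2^l r`): each ancestor has at most `2 * 2^(l a)` of them; ancestors are disjoint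
cubes in the ball of radius `2 R₁ √d` of `s`, so at most `(8πe)^(d/2) ≤ 9^d` of them
(`card_le_of_disjoint`, `volume_closedBall_le`). -/
theorem count_ball {a : ℕ} (hd : 1 ≤ d) (F : Finset (Cube d)) (i : ℤ) (hi : ∀ Q ∈ F, Q.i = i)
    (hcount : ∀ Q'' : Cube d, Q''.i ≤ i →
      (((F.filter fun Q => Q.carrier ⊆ Q''.carrier).card : ℕ) : ℝ) ≤
        2 * (Q''.side / (2 : ℝ) ^ (-i)) ^ a)
    (s : E d) (l : ℕ) :
    (((F.filter fun Q => ‖Q.center - s‖ ≤ 2 ^ l * ((2 : ℝ) ^ (-i) * Real.sqrt d)).card : ℕ) : ℝ) ≤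
      9 ^ d * (2 * (2 ^ l) ^ a) := by
  set r : ℝ := (2 : ℝ) ^ (-i) with hr
  have hrpos : 0 < r := by rw [hr]; positivity
  set G := F.filter fun Q => ‖Q.center - s‖ ≤ 2 ^ l * (r * Real.sqrt d) with hG
  let Anc : Cube d → Cube d := fun Q => Cube.cubeOf (i - l) Q.center
  set A := G.image Anc with hA
  have hAi : ∀ Q ∈ A, Q.i = i - l := by
    intro Q hQ
    obtain ⟨Q0, _, rfl⟩ := Finset.mem_image.mp hQ
    rfl
  have hsideval : (2 : ℝ) ^ (-(i - (l : ℤ))) = 2 ^ l * r := by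
    rw [hr, neg_sub, sub_eq_add_neg, zpow_add₀ (by norm_num : (2 : ℝ) ≠ 0), zpow_natCast]
  have hside : ∀ Q ∈ A, Q.side = 2 ^ l * r := by
    intro Q hQ
    rw [Cube.side, hAi Q hQ, hsideval]
  have hfib : ∀ Q'' ∈ A, (((G.filter fun Q => Anc Q = Q'').card : ℕ) : ℝ) ≤ 2 * (2 ^ l) ^ a := by
    intro Q'' hQ''
    have h1 := hcount Q'' (by rw [hAi Q'' hQ'']; omega)
    have h2 : (G.filter fun Q => Anc Q = Q'') ⊆ F.filter fun Q => Q.carrier ⊆ Q''.carrier := by
      intro Q hQ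
      rw [Finset.mem_filter] at hQ
      obtain ⟨hQG, hQa⟩ := hQ
      have hQF : Q ∈ F := (Finset.mem_filter.mp hQG).1
      refine Finset.mem_filter.mpr ⟨hQF, ?_⟩
      rw [← hQa]
      exact Cube.subset_cubeOf Q (by rw [hi Q hQF]; omega)
    calc (((G.filter fun Q => Anc Q = Q'').card : ℕ) : ℝ)
        ≤ (((F.filter fun Q => Q.carrier ⊆ Q''.carrier).card : ℕ) : ℝ) := by
          exact_mod_cast Finset.card_le_card h2
      _ ≤ 2 * (Q''.side / r) ^ a := h1
      _ = 2 * (2 ^ l) ^ a := by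
          rw [hside Q'' hQ'']
          congr 2
          field_simp
  have hAcard : (A.card : ℝ) ≤ 9 ^ d := by
    have hdpos : (0 : ℝ) < d := by exact_mod_cast hd
    have hsd : 0 < Real.sqrt d := Real.sqrt_pos.mpr hdpos
    set R₁ : ℝ := 2 ^ l * r with hR₁
    have hR₁pos : 0 < R₁ := by positivity
    have hW : ∀ Q ∈ A, Q.carrier ⊆ Metric.closedBall s (2 * R₁ * Real.sqrt d) := by
      intro Q hQ x hx
      obtain ⟨Q0, hQ0, rfl⟩ := Finset.mem_image.mp hQ
      have hQ0d := (Finset.mem_filter.mp hQ0).2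
      have hA' : Anc Q0 ∈ A := Finset.mem_image_of_mem _ hQ0
      have h1 := Cube.norm_sub_center_le (Anc Q0) hx
      have hc : Q0.center ∈ (Anc Q0).carrier := by
        have := Cube.mem_cubeOf (d := d) (i - l) Q0.center
        exact this
      have h2 := Cube.norm_sub_center_le (Anc Q0) hc
      rw [hside _ hA'] at h1 h2
      rw [Metric.mem_closedBall, dist_eq_norm]
      have h3 : ‖x - s‖ ≤ ‖x - (Anc Q0).center‖ + ‖Q0.center - (Anc Q0).center‖ + ‖Q0.center - s‖ := by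
        have e1 : x - s = (x - (Anc Q0).center) - (Q0.center - (Anc Q0).center) + (Q0.center - s) := by
          abel
        rw [e1]
        refine (norm_add_le _ _).trans ?_
        gcongr
        exact norm_sub_le _ _
      have h4 : 2 ^ l * (r * Real.sqrt d) = R₁ * Real.sqrt d := by rw [hR₁]; ring
      rw [h4] at hQ0d
      nlinarith
    have h1 := Cube.card_le_of_disjoint A (i - l) hAi _ hW
    have h2 := volume_closedBall_le hd s (R := 2 * R₁ * Real.sqrt d) (by positivity)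
    have h3 := h1.trans h2
    rw [hsideval, ← ENNReal.ofReal_natCast, ← ENNReal.ofReal_mul (by positivity),
      ENNReal.ofReal_le_ofReal_iff (by positivity)] at h3
    have h4 : Real.sqrt (2 * Real.pi * Real.exp 1 / d) * (2 * R₁ * Real.sqrt d) =
        (Real.sqrt (2 * Real.pi * Real.exp 1) * 2) * R₁ := by
      rw [Real.sqrt_div (by positivity)]
      field_simp
    rw [h4, mul_pow (Real.sqrt (2 * Real.pi * Real.exp 1) * 2) R₁ d] at h3
    have h5 : (0 : ℝ) < R₁ ^ d := by positivity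
    have h6 : (A.card : ℝ) ≤ (Real.sqrt (2 * Real.pi * Real.exp 1) * 2) ^ d :=
      le_of_mul_le_mul_right h3 h5
    refine h6.trans ?_
    gcongr
    exact count_const_le
  have hG_eq : (G.card : ℝ) = ∑ Q'' ∈ A, (((G.filter fun Q => Anc Q = Q'').card : ℕ) : ℝ) := by
    rw [Finset.card_eq_sum_card_image Anc G]
    push_cast
    rfl
  calc (G.card : ℝ) = ∑ Q'' ∈ A, (((G.filter fun Q => Anc Q = Q'').card : ℕ) : ℝ) := hG_eq
    _ ≤ ∑ _Q'' ∈ A, (2 * ((2 : ℝ) ^ l) ^ a) := Finset.sum_le_sum hfib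
    _ = A.card * (2 * (2 ^ l) ^ a) := by simp
    _ ≤ 9 ^ d * (2 * (2 ^ l) ^ a) := by gcongr

/-- Sum over dyadic shells of the candidate weights, using `a < D ≤ d`. -/
theorem count_sum {a D : ℕ} (hd : 1 ≤ d) (hD : a + 1 ≤ D) (hDd : D ≤ d) (F : Finset (Cube d))
    (i : ℤ) (hi : ∀ Q ∈ F, Q.i = i)
    (hcount : ∀ Q'' : Cube d, Q''.i ≤ i →
      (((F.filter fun Q => Q.carrier ⊆ Q''.carrier).card : ℕ) : ℝ) ≤
        2 * (Q''.side / (2 : ℝ) ^ (-i)) ^ a)
    (s : E d) :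
    ∑ Q ∈ F, candWeight ((2 : ℝ) ^ (-i) * Real.sqrt d) D ‖Q.center - s‖ ≤ 4 * 30 ^ d := by
  have hdpos : (0 : ℝ) < d := by exact_mod_cast hd
  have hsd : 0 < Real.sqrt d := Real.sqrt_pos.mpr hdpos
  set r : ℝ := (2 : ℝ) ^ (-i) with hr
  have hrpos : 0 < r := by rw [hr]; positivity
  set ϱ : ℝ := r * Real.sqrt d with hϱ
  have hϱpos : 0 < ϱ := by positivity
  have hex : ∀ R : ℝ, ∃ l : ℕ, R ≤ 2 ^ l * ϱ := by
    intro R
    obtain ⟨l, hl⟩ := pow_unbounded_of_one_lt (R / ϱ) (by norm_num : (1 : ℝ) < 2)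
    exact ⟨l, by rw [div_lt_iff₀ hϱpos] at hl; exact hl.le⟩
  let sh : Cube d → ℕ := fun Q => Nat.find (hex ‖Q.center - s‖)
  have hsh_spec : ∀ Q, ‖Q.center - s‖ ≤ 2 ^ sh Q * ϱ := fun Q => Nat.find_spec (hex ‖Q.center - s‖)
  have hsh_min : ∀ Q, sh Q ≠ 0 → 2 ^ (sh Q - 1) * ϱ < ‖Q.center - s‖ := by
    intro Q hQ
    have := Nat.find_min (hex ‖Q.center - s‖) (m := sh Q - 1) (by
      have : sh Q = Nat.find (hex ‖Q.center - s‖) := rfl
      omega)
    exact not_le.mp this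
  set c : ℝ := Real.sqrt (Real.exp 1) with hc
  have hc1 : 1 ≤ c := by
    rw [hc]
    apply Real.one_le_sqrt.mpr
    exact Real.one_le_exp (by norm_num)
  have hc2 : c ≤ 5 / 3 := by
    rw [hc, Real.sqrt_le_left (by norm_num)]
    have he : Real.exp 1 < 2.7182818286 := Real.exp_one_lt_d9
    norm_num at he ⊢
    linarith
  let g : ℕ → ℝ := fun l => if l = 0 then 1 else (c * 2 / 2 ^ l) ^ D
  have hw : ∀ Q : Cube d, candWeight ϱ D ‖Q.center - s‖ ≤ g (sh Q) := by
    intro Q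
    by_cases h0 : sh Q = 0
    · have h1 : ‖Q.center - s‖ ≤ ϱ := by
        have := hsh_spec Q
        rw [h0] at this
        simpa using this
      simp only [candWeight, if_pos h1, g, if_pos h0, le_refl]
    · have h1 := hsh_min Q h0
      have h2 : ¬ ‖Q.center - s‖ ≤ ϱ := by
        have h3 : (1 : ℝ) ≤ 2 ^ (sh Q - 1) := one_le_pow₀ (by norm_num)
        have h4 : ϱ ≤ 2 ^ (sh Q - 1) * ϱ := le_mul_of_one_le_left hϱpos.le h3
        linarith
      simp only [candWeight, if_neg h2, g, if_neg h0]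
      have hRpos : 0 < ‖Q.center - s‖ := lt_of_le_of_lt (by positivity) h1
      apply pow_le_pow_left₀ (by positivity)
      have h5 : (2 : ℝ) ^ sh Q = 2 * 2 ^ (sh Q - 1) := by
        rw [← pow_succ']
        congr 1
        omega
      rw [div_le_div_iff₀ hRpos (by positivity), h5]
      have h6 : 0 < c := by linarith
      calc c * ϱ * (2 * 2 ^ (sh Q - 1)) = c * 2 * (2 ^ (sh Q - 1) * ϱ) := by ring
        _ ≤ c * 2 * ‖Q.center - s‖ := by gcongr
  set L := F.sup sh with hL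
  have hmaps : ∀ Q ∈ F, sh Q ∈ Finset.range (L + 1) := by
    intro Q hQ
    rw [Finset.mem_range, Nat.lt_succ_iff]
    exact Finset.le_sup hQ
  have hg0 : ∀ l, 0 ≤ g l := by
    intro l
    simp only [g]
    split_ifs
    · norm_num
    · have : 0 < c := by linarith
      positivity
  have hfib : ∀ l, (((F.filter fun Q => sh Q = l).card : ℕ) : ℝ) ≤ 9 ^ d * (2 * (2 ^ l) ^ a) := by
    intro l
    have h1 := count_ball (a := a) hd F i hi hcount s l
    have h2 : (F.filter fun Q => sh Q = l) ⊆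
        F.filter fun Q => ‖Q.center - s‖ ≤ 2 ^ l * ((2 : ℝ) ^ (-i) * Real.sqrt d) := by
      intro Q hQ
      rw [Finset.mem_filter] at hQ ⊢
      refine ⟨hQ.1, ?_⟩
      have := hsh_spec Q
      rw [hQ.2] at this
      exact this
    refine le_trans ?_ h1
    exact_mod_cast Finset.card_le_card h2
  set K : ℝ := (2 * c) ^ D with hK
  have hK0 : 0 ≤ K := by positivity
  have hterm : ∀ l, l ≠ 0 → (2 ^ l) ^ a * g l ≤ K * (1 / 2) ^ l := by
    intro l hl
    simp only [g, if_neg hl]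
    have h2l : (0 : ℝ) < 2 ^ l := by positivity
    have h3 : (c * 2 / 2 ^ l) ^ D = K / (2 ^ l) ^ D := by
      rw [hK, div_pow, mul_comm c 2]
    rw [h3]
    have h4 : ((2 : ℝ) ^ l) ^ D = (2 ^ l) ^ a * (2 ^ l) ^ (D - a) := by
      rw [← pow_add]
      congr 1
      omega
    have h5 : (2 : ℝ) ^ l ≤ (2 ^ l) ^ (D - a) :=
      le_self_pow₀ (one_le_pow₀ (by norm_num)) (by omega)
    rw [h4, one_div, inv_pow]
    have h6 : (0 : ℝ) < (2 ^ l) ^ a := by positivity
    have h7 : (0 : ℝ) < (2 ^ l) ^ (D - a) := by positivity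
    rw [mul_div_assoc', div_le_iff₀ (by positivity)]
    have h8 : ((2 : ℝ) ^ l)⁻¹ * ((2 ^ l) ^ a * (2 ^ l) ^ (D - a)) ≥ (2 ^ l) ^ a := by
      have : ((2 : ℝ) ^ l)⁻¹ * (2 ^ l) = 1 := inv_mul_cancel₀ h2l.ne'
      calc ((2 : ℝ) ^ l)⁻¹ * ((2 ^ l) ^ a * (2 ^ l) ^ (D - a))
          ≥ ((2 : ℝ) ^ l)⁻¹ * ((2 ^ l) ^ a * (2 ^ l)) := by gcongr
        _ = (2 ^ l) ^ a * (((2 : ℝ) ^ l)⁻¹ * (2 ^ l)) := by ring
        _ = (2 ^ l) ^ a := by rw [this, mul_one]
    calc (2 ^ l) ^ a * K = K * (2 ^ l) ^ a := by ring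
      _ ≤ K * (((2 : ℝ) ^ l)⁻¹ * ((2 ^ l) ^ a * (2 ^ l) ^ (D - a))) := by gcongr
      _ = K * ((2 : ℝ) ^ l)⁻¹ * ((2 ^ l) ^ a * (2 ^ l) ^ (D - a)) := by ring
  have hgeo : ∀ L : ℕ, ∑ l ∈ Finset.range (L + 1), (2 ^ l) ^ a * g l ≤ 1 + K * (1 - (1 / 2) ^ L) := by
    intro L
    induction L with
    | zero => simp [g]
    | succ n ih =>
      rw [Finset.sum_range_succ]
      have := hterm (n + 1) (by omega)
      have h9 : ((1 : ℝ) / 2) ^ (n + 1) = (1 / 2) ^ n / 2 := by rw [pow_succ]; ring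
      rw [h9] at this ⊢
      nlinarith
  have hgeo' : ∑ l ∈ Finset.range (L + 1), (2 ^ l) ^ a * g l ≤ 1 + K := by
    refine (hgeo L).trans ?_
    have : (0 : ℝ) ≤ (1 / 2) ^ L := by positivity
    nlinarith
  have hKd : 1 + K ≤ 2 * (2 * c) ^ d := by
    have h1 : (1 : ℝ) ≤ 2 * c := by linarith
    have h2 : K ≤ (2 * c) ^ d := pow_le_pow_right₀ h1 hDd
    have h3 : 1 ≤ (2 * c) ^ d := one_le_pow₀ h1
    linarith
  calc ∑ Q ∈ F, candWeight ϱ D ‖Q.center - s‖
      ≤ ∑ Q ∈ F, g (sh Q) := Finset.sum_le_sum fun Q _ => hw Q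
    _ = ∑ l ∈ Finset.range (L + 1), ∑ Q ∈ F.filter (fun Q => sh Q = l), g (sh Q) :=
        (Finset.sum_fiberwise_of_maps_to hmaps _).symm
    _ = ∑ l ∈ Finset.range (L + 1), (((F.filter fun Q => sh Q = l).card : ℕ) : ℝ) * g l := by
        refine Finset.sum_congr rfl fun l _ => ?_
        rw [Finset.sum_congr rfl (g := fun _ => g l)
          (fun Q hQ => by rw [(Finset.mem_filter.mp hQ).2])]
        simp
    _ ≤ ∑ l ∈ Finset.range (L + 1), (9 ^ d * (2 * (2 ^ l) ^ a)) * g l := by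
        refine Finset.sum_le_sum fun l _ => ?_
        exact mul_le_mul_of_nonneg_right (hfib l) (hg0 l)
    _ = 9 ^ d * 2 * ∑ l ∈ Finset.range (L + 1), (2 ^ l) ^ a * g l := by
        rw [Finset.mul_sum]
        refine Finset.sum_congr rfl fun l _ => ?_
        ring
    _ ≤ 9 ^ d * 2 * (2 * (2 * c) ^ d) := by
        have : (0 : ℝ) ≤ 9 ^ d * 2 := by positivity
        exact mul_le_mul_of_nonneg_left (hgeo'.trans hKd) this
    _ = 4 * (9 ^ d * (2 * c) ^ d) := by ring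
    _ = 4 * (9 * (2 * c)) ^ d := by rw [mul_pow 9 (2 * c) d]
    _ ≤ 4 * 30 ^ d := by
        have h1 : 9 * (2 * c) ≤ 30 := by linarith
        have h2 : 0 ≤ 9 * (2 * c) := by linarith
        have := pow_le_pow_left₀ h2 h1 d
        linarith

end P309
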