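import Vale.Agent.Lib.P309.Defs

/-! # P309 module Cubes: dyadic cubes and volume counting -/

open MeasureTheory ProbabilityTheory
open scoped ENNReal NNReal

namespace P309

namespace Cube

variable {d : ℕ}

theorem side_pos (Q : Cube d) : 0 < Q.side := by
  unfold side
  exact zpow_pos (by norm_num) _

private theorem cubes_coord_cont (l : Fin d) : Continuous fun x : E d => x l := by
  fun_prop

theorem measurableSet_carrier (Q : Cube d) : MeasurableSet Q.carrier := by
  have : Q.carrier = ⋂ l, ((fun x : E d => x l) ⁻¹' Set.Ico ((Q.k l : ℝ) * Q.side)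
      (((Q.k l : ℝ) + 1) * Q.side)) := by
    ext x
    simp [carrier]
  rw [this]
  refine MeasurableSet.iInter fun l => ?_
  exact (cubes_coord_cont l).measurable measurableSet_Ico

theorem volume_carrier (Q : Cube d) : volume Q.carrier = ENNReal.ofReal (Q.side ^ d) := by
  have hs := Q.side_pos
  have h1 : Q.carrier = (WithLp.ofLp : E d → (Fin d → ℝ)) ⁻¹'
      (Set.pi Set.univ fun l => Set.Ico ((Q.k l : ℝ) * Q.side) (((Q.k l : ℝ) + 1) * Q.side)) := by
    ext x
    simp [carrier, Set.mem_pi]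
  have hmeas : MeasurableSet
      (Set.pi Set.univ fun l : Fin d => Set.Ico ((Q.k l : ℝ) * Q.side) (((Q.k l : ℝ) + 1) * Q.side)) :=
    MeasurableSet.univ_pi fun _ => measurableSet_Ico
  rw [h1, (PiLp.volume_preserving_ofLp (Fin d)).measure_preimage hmeas.nullMeasurableSet,
    Real.volume_pi_Ico]
  have h2 : ∀ l : Fin d, ENNReal.ofReal (((Q.k l : ℝ) + 1) * Q.side - (Q.k l : ℝ) * Q.side)
      = ENNReal.ofReal Q.side := by
    intro l
    congr 1
    ring
  simp only [h2, Finset.prod_const, Finset.card_univ, Fintype.card_fin]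
  rw [ENNReal.ofReal_pow hs.le]

theorem center_coord (Q : Cube d) (l : Fin d) :
    Q.center l = ((Q.k l : ℝ) + 1 / 2) * Q.side := by
  simp [center]

theorem norm_sub_center_le (Q : Cube d) {x : E d} (hx : x ∈ Q.carrier) :
    ‖x - Q.center‖ ≤ Q.side * Real.sqrt d / 2 := by
  have hs := Q.side_pos
  have hb : ∀ l : Fin d, (x l - Q.center l) ^ 2 ≤ (Q.side / 2) ^ 2 := by
    intro l
    have h := hx l
    rw [center_coord]
    have h1 : -(Q.side / 2) ≤ x l - ((Q.k l : ℝ) + 1 / 2) * Q.side := by nlinarith [h.1]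
    have h2 : x l - ((Q.k l : ℝ) + 1 / 2) * Q.side ≤ Q.side / 2 := by nlinarith [h.2]
    exact sq_le_sq' h1 h2
  rw [EuclideanSpace.norm_eq]
  have : ∑ i, ‖(x - Q.center) i‖ ^ 2 ≤ d * (Q.side / 2) ^ 2 := by
    calc ∑ i, ‖(x - Q.center) i‖ ^ 2 ≤ ∑ _i : Fin d, (Q.side / 2) ^ 2 := by
          refine Finset.sum_le_sum fun i _ => ?_
          simpa [Real.norm_eq_abs, sq_abs] using hb i
      _ = d * (Q.side / 2) ^ 2 := by simp
  calc Real.sqrt (∑ i, ‖(x - Q.center) i‖ ^ 2) ≤ Real.sqrt (d * (Q.side / 2) ^ 2) :=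
        Real.sqrt_le_sqrt this
    _ = Q.side * Real.sqrt d / 2 := by
        rw [Real.sqrt_mul (by positivity), Real.sqrt_sq (by positivity)]
        ring

theorem center_mem (Q : Cube d) : Q.center ∈ Q.carrier := by
  intro l
  have hs := Q.side_pos
  rw [center_coord]
  constructor <;> nlinarith

theorem cubeOf_side (i : ℤ) (x : E d) : (cubeOf i x).side = (2 : ℝ) ^ (-i) := rfl

theorem mem_cubeOf (i : ℤ) (x : E d) : x ∈ (cubeOf i x).carrier := by
  intro l
  have hs : 0 < (2 : ℝ) ^ (-i) := zpow_pos (by norm_num) _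
  rw [cubeOf_side]
  have h1 := Int.floor_le (x l / (2 : ℝ) ^ (-i))
  have h2 := Int.lt_floor_add_one (x l / (2 : ℝ) ^ (-i))
  constructor
  · change ((⌊x l / (2 : ℝ) ^ (-i)⌋ : ℤ) : ℝ) * _ ≤ _
    rwa [le_div_iff₀ hs] at h1
  · change _ < (((⌊x l / (2 : ℝ) ^ (-i)⌋ : ℤ) : ℝ) + 1) * _
    rwa [div_lt_iff₀ hs] at h2

theorem eq_cubeOf (Q : Cube d) {x : E d} (hx : x ∈ Q.carrier) : Q = cubeOf Q.i x := by
  refine Cube.ext rfl ?_
  funext l
  have hs := Q.side_pos
  have h := hx l
  change Q.k l = ⌊x l / (2 : ℝ) ^ (-Q.i)⌋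
  symm
  rw [Int.floor_eq_iff]
  have hs' : (2 : ℝ) ^ (-Q.i) = Q.side := rfl
  rw [hs', le_div_iff₀ hs, div_lt_iff₀ hs]
  exact h

private theorem cubes_side_ratio (Q Q' : Cube d) (h : Q.i ≤ Q'.i) :
    ∃ N : ℕ, 0 < N ∧ Q.side = (N : ℝ) * Q'.side := by
  obtain ⟨m, hm⟩ := Int.eq_ofNat_of_zero_le (sub_nonneg.mpr h)
  refine ⟨2 ^ m, by positivity, ?_⟩
  have : Q.i = Q'.i - m := by omega
  unfold side
  rw [this, neg_sub, sub_eq_add_neg, add_comm, zpow_add₀ (by norm_num : (2 : ℝ) ≠ 0)]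
  simp [zpow_natCast, mul_comm]

/-- Dyadic nesting: a cube of level `i' ≥ i` is inside or disjoint from a cube of level `i`. -/
theorem subset_or_disjoint (Q Q' : Cube d) (h : Q.i ≤ Q'.i) :
    Q'.carrier ⊆ Q.carrier ∨ Disjoint Q'.carrier Q.carrier := by
  by_cases hne : (Q'.carrier ∩ Q.carrier).Nonempty
  · left
    obtain ⟨y, hy', hy⟩ := hne
    obtain ⟨N, hN, hside⟩ := cubes_side_ratio Q Q' h
    have hs' := Q'.side_pos
    intro z hz l
    have a1 := hy' l
    have a2 := hy l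
    have a3 := hz l
    rw [hside] at a2 ⊢
    -- integer comparisons
    have b1 : (Q.k l * (N : ℤ) : ℤ) < Q'.k l + 1 := by
      have : ((Q.k l : ℝ) * N) * Q'.side < ((Q'.k l : ℝ) + 1) * Q'.side := by
        nlinarith [a1.2, a2.1]
      have := lt_of_mul_lt_mul_right this hs'.le
      exact_mod_cast this
    have b2 : (Q'.k l : ℤ) < (Q.k l + 1) * (N : ℤ) := by
      have : (Q'.k l : ℝ) * Q'.side < (((Q.k l : ℝ) + 1) * N) * Q'.side := by
        nlinarith [a1.1, a2.2]
      have := lt_of_mul_lt_mul_right this hs'.le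
      exact_mod_cast this
    have c1 : ((Q.k l : ℝ) * N) ≤ (Q'.k l : ℝ) := by
      have : (Q.k l * (N : ℤ) : ℤ) ≤ Q'.k l := by omega
      exact_mod_cast this
    have c2 : (Q'.k l : ℝ) + 1 ≤ ((Q.k l : ℝ) + 1) * N := by
      have : (Q'.k l + 1 : ℤ) ≤ (Q.k l + 1) * (N : ℤ) := by omega
      exact_mod_cast this
    constructor
    · nlinarith [a3.1]
    · nlinarith [a3.2]
  · right
    exact Set.disjoint_iff_inter_eq_empty.mpr (Set.not_nonempty_iff_eq_empty.mp hne)

/-- Ancestors: the level `i ≤ Q.i` cube containing `Q`. -/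
theorem subset_cubeOf (Q : Cube d) {i : ℤ} (h : i ≤ Q.i) :
    Q.carrier ⊆ (cubeOf i Q.center).carrier := by
  rcases subset_or_disjoint (cubeOf i Q.center) Q h with h1 | h1
  · exact h1
  · exact absurd (mem_cubeOf i Q.center) (Set.disjoint_left.mp h1 Q.center_mem)

private theorem cubes_disjoint_same_level {Q Q' : Cube d} (h : Q.i = Q'.i) (hne : Q ≠ Q') :
    Disjoint Q.carrier Q'.carrier := by
  rw [Set.disjoint_left]
  intro x hx hx'
  apply hne
  rw [eq_cubeOf Q hx, eq_cubeOf Q' hx', h]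

/-- Covering by cubes of one level: if every level `i` cube has `ν`-measure at most `b`, and every
level `i` cube meeting `S` is contained in `W`, then `ν S ≤ b * volume W / side^d`. -/
theorem measure_le_of_cubes (ν : Measure (E d)) (S W : Set (E d)) (i : ℤ) (b : ℝ≥0∞)
    (hb : ∀ Q : Cube d, Q.i = i → ν Q.carrier ≤ b)
    (hW : ∀ Q : Cube d, Q.i = i → (Q.carrier ∩ S).Nonempty → Q.carrier ⊆ W) :
    ν S ≤ b * volume W * (ENNReal.ofReal (((2 : ℝ) ^ (-i)) ^ d))⁻¹ := by
  classical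
  set s : ℝ := (2 : ℝ) ^ (-i) with hs
  have hspos : 0 < s := zpow_pos (by norm_num) _
  set v : ℝ≥0∞ := ENNReal.ofReal (s ^ d) with hv
  have hv0 : v ≠ 0 := by
    rw [hv]; simp only [ne_eq, ENNReal.ofReal_eq_zero, not_le]; positivity
  have hvt : v ≠ ⊤ := ENNReal.ofReal_ne_top
  let C : (Fin d → ℤ) → Cube d := fun k => ⟨i, k⟩
  let K : Set (Fin d → ℤ) := {k | ((C k).carrier ∩ S).Nonempty}
  have hcountable : Countable K := Subtype.countable
  have hcov : S ⊆ ⋃ k : K, (C k.1).carrier := by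
    intro x hx
    have hm := mem_cubeOf i x
    refine Set.mem_iUnion.mpr ⟨⟨(cubeOf i x).k, ?_⟩, hm⟩
    exact ⟨x, hm, hx⟩
  have hsub : (⋃ k : K, (C k.1).carrier) ⊆ W := by
    refine Set.iUnion_subset fun k => hW _ rfl k.2
  have hdisj : Pairwise (Function.onFun Disjoint fun k : K => (C k.1).carrier) := by
    intro k k' hne
    refine cubes_disjoint_same_level rfl ?_
    intro h
    apply hne
    apply Subtype.ext
    exact congrArg Cube.k h
  have hvol : ∑' _k : K, v ≤ volume W := by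
    calc ∑' _k : K, v = ∑' k : K, volume (C k.1).carrier := by
          refine tsum_congr fun k => ?_
          rw [volume_carrier]; rfl
      _ = volume (⋃ k : K, (C k.1).carrier) :=
          (measure_iUnion hdisj fun k => measurableSet_carrier _).symm
      _ ≤ volume W := measure_mono hsub
  calc ν S ≤ ν (⋃ k : K, (C k.1).carrier) := measure_mono hcov
    _ ≤ ∑' k : K, ν (C k.1).carrier := measure_iUnion_le _
    _ ≤ ∑' _k : K, b := ENNReal.tsum_le_tsum fun k => hb _ rfl
    _ = ∑' _k : K, (v * (b * v⁻¹)) := by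
        refine tsum_congr fun _ => ?_
        rw [mul_comm b, ← mul_assoc, ENNReal.mul_inv_cancel hv0 hvt, one_mul]
    _ = (∑' _k : K, v) * (b * v⁻¹) := ENNReal.tsum_mul_right
    _ ≤ volume W * (b * v⁻¹) := by gcongr
    _ = b * volume W * v⁻¹ := by ring

/-- A finite family of disjoint cubes of one level contained in `W`. -/
theorem card_le_of_disjoint (F : Finset (Cube d)) (i : ℤ) (hi : ∀ Q ∈ F, Q.i = i) (W : Set (E d))
    (hW : ∀ Q ∈ F, Q.carrier ⊆ W) :
    (F.card : ℝ≥0∞) * ENNReal.ofReal (((2 : ℝ) ^ (-i)) ^ d) ≤ volume W := by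
  classical
  have hv : ∀ Q ∈ F, volume Q.carrier = ENNReal.ofReal (((2 : ℝ) ^ (-i)) ^ d) := by
    intro Q hQ
    rw [volume_carrier]
    simp [side, hi Q hQ]
  have hdisj : Set.PairwiseDisjoint (↑F) fun Q : Cube d => Q.carrier := by
    intro Q hQ Q' hQ' hne
    exact cubes_disjoint_same_level (by rw [hi Q hQ, hi Q' hQ']) hne
  calc (F.card : ℝ≥0∞) * ENNReal.ofReal (((2 : ℝ) ^ (-i)) ^ d)
      = ∑ Q ∈ F, volume Q.carrier := by
        rw [Finset.sum_congr rfl hv, Finset.sum_const, nsmul_eq_mul]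
    _ = volume (⋃ Q ∈ F, Q.carrier) :=
        (measure_biUnion_finset hdisj fun Q _ => measurableSet_carrier Q).symm
    _ ≤ volume W := measure_mono (Set.iUnion₂_subset hW)

end Cube

/-- Volume of Euclidean balls, by the Gaussian integral
`volume(ball) exp(-λ R²) ≤ ∫ exp(-λ ‖x‖²) = (π/λ)^(d/2)`, `λ = d/(2R²)`
(`GaussianFourier.integral_rexp_neg_mul_sq_norm`). -/
theorem volume_closedBall_le {d : ℕ} (hd : 1 ≤ d) (c : E d) {R : ℝ} (hR : 0 < R) :
    volume (Metric.closedBall c R) ≤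
      ENNReal.ofReal ((Real.sqrt (2 * Real.pi * Real.exp 1 / d) * R) ^ d) := by
  have hd0 : (0 : ℝ) < d := by exact_mod_cast hd
  set lam : ℝ := d / (2 * R ^ 2) with hlam
  have hlampos : 0 < lam := by positivity
  have hint : Integrable (fun x : E d => Real.exp (-lam * ‖x‖ ^ 2)) volume := by
    have := (GaussianFourier.integrable_cexp_neg_mul_sq_norm_add (V := E d)
      (b := (lam : ℂ)) (by simpa using hlampos) 0 (0 : E d))
    refine (this.norm).congr ?_
    filter_upwards with x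
    rw [Complex.norm_exp]
    congr 1
    simp [← Complex.ofReal_pow]
  have hval := GaussianFourier.integral_rexp_neg_mul_sq_norm (V := E d) hlampos
  have hfinrank : Module.finrank ℝ (E d) = d := by simp
  rw [hfinrank] at hval
  rw [Measure.addHaar_closedBall_center]
  have hlow : volume (Metric.closedBall (0 : E d) R) * ENNReal.ofReal (Real.exp (-lam * R ^ 2)) ≤
      ENNReal.ofReal (∫ x : E d, Real.exp (-lam * ‖x‖ ^ 2)) := by
    rw [ofReal_integral_eq_lintegral_ofReal hint (Filter.Eventually.of_forall fun x => (Real.exp_pos _).le)]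
    calc volume (Metric.closedBall (0 : E d) R) * ENNReal.ofReal (Real.exp (-lam * R ^ 2))
        = ∫⁻ _x in Metric.closedBall (0 : E d) R, ENNReal.ofReal (Real.exp (-lam * R ^ 2)) := by
          rw [setLIntegral_const, mul_comm]
      _ ≤ ∫⁻ x in Metric.closedBall (0 : E d) R, ENNReal.ofReal (Real.exp (-lam * ‖x‖ ^ 2)) := by
          refine setLIntegral_mono' Metric.isClosed_closedBall.measurableSet fun x hx => ?_
          refine ENNReal.ofReal_le_ofReal ?_
          have hx' : ‖x‖ ≤ R := by simpa using hx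
          refine Real.exp_le_exp.mpr ?_
          have : ‖x‖ ^ 2 ≤ R ^ 2 := by
            exact pow_le_pow_left₀ (norm_nonneg _) hx' 2
          nlinarith
      _ ≤ ∫⁻ x, ENNReal.ofReal (Real.exp (-lam * ‖x‖ ^ 2)) := setLIntegral_le_lintegral _ _
  have hlamR : lam * R ^ 2 = d / 2 := by
    rw [hlam]; field_simp
  have hexp : Real.exp (-lam * R ^ 2) = (Real.exp (d / 2))⁻¹ := by
    rw [← Real.exp_neg, neg_mul, hlamR]
  have hne : ENNReal.ofReal (Real.exp (-lam * R ^ 2)) ≠ 0 := by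
    simp [Real.exp_pos]
  have hnt : ENNReal.ofReal (Real.exp (-lam * R ^ 2)) ≠ ⊤ := ENNReal.ofReal_ne_top
  have key : volume (Metric.closedBall (0 : E d) R) ≤
      ENNReal.ofReal ((Real.pi / lam) ^ ((d : ℝ) / 2) * Real.exp (d / 2)) := by
    rw [hval] at hlow
    have h2 : ENNReal.ofReal ((Real.pi / lam) ^ ((d : ℝ) / 2) * Real.exp (d / 2)) =
        ENNReal.ofReal ((Real.pi / lam) ^ ((d : ℝ) / 2)) *
          (ENNReal.ofReal (Real.exp (-lam * R ^ 2)))⁻¹ := by
      rw [hexp, ENNReal.ofReal_inv_of_pos (by positivity), inv_inv,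
        ENNReal.ofReal_mul (by positivity)]
    rw [h2]
    rw [← div_eq_mul_inv]
    exact (ENNReal.le_div_iff_mul_le (Or.inl hne) (Or.inl hnt)).mpr hlow
  refine key.trans (le_of_eq ?_)
  congr 1
  have hpi := Real.pi_pos
  have hE := Real.exp_pos 1
  have h1 : Real.exp (d / 2) = (Real.sqrt (Real.exp 1)) ^ d := by
    rw [Real.sqrt_eq_rpow, ← Real.exp_one_rpow, ← Real.rpow_natCast, ← Real.rpow_mul (by positivity)]
    congr 1
    ring
  have h3 : (Real.pi / lam) ^ ((d : ℝ) / 2) = (Real.sqrt (Real.pi / lam)) ^ d := by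
    rw [Real.sqrt_eq_rpow, ← Real.rpow_natCast, ← Real.rpow_mul (by positivity)]
    congr 1
    ring
  rw [h1, h3, ← mul_pow]
  congr 1
  have h4 : 2 * Real.pi * Real.exp 1 / d = (Real.pi / lam) * Real.exp 1 * (R ^ 2)⁻¹ := by
    rw [hlam]; field_simp
  rw [h4, Real.sqrt_mul (by positivity), Real.sqrt_mul (by positivity), Real.sqrt_inv,
    Real.sqrt_sq hR.le]
  field_simp

end P309
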