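import Vale.Agent.Lib.P309.Model

/-!
# P309: shared definitions of the proof (see papers row P309/plan)
-/

open MeasureTheory ProbabilityTheory
open scoped ENNReal NNReal

namespace P309

/-- `n` iid Gaussian rows. -/
noncomputable abbrev gamR (d n : ℕ) : Measure (Fin n → E d) := Measure.pi fun _ => gam d

/-- The label vector `X s`. -/
noncomputable def lab {d n : ℕ} (X : Fin n → E d) (s : E d) : Fin n → ℝ :=
  fun i => inner ℝ (X i) s

/-- Finite relative entropy, with `Real.log` conventions. -/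
noncomputable def KL {ι : Type*} [Fintype ι] (p q : ι → ℝ) : ℝ :=
  ∑ v, p v * Real.log (p v / q v)

/-- Distance of `v` from the subspace `W`. -/
noncomputable def dsub {d : ℕ} (W : Submodule ℝ (E d)) (v : E d) : ℝ :=
  Metric.infDist v (W : Set (E d))

/-- The span of a list. -/
noncomputable def spanL {d : ℕ} (L : List (E d)) : Submodule ℝ (E d) :=
  Submodule.span ℝ {u | u ∈ L}

/-- The small ball bound attached to a list, newest vector first. -/
noncomputable def sb {d : ℕ} (c : ℝ≥0∞) : List (E d) → ℝ≥0∞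
  | [] => 1
  | v :: L => sb c L * (c * (ENNReal.ofReal (dsub (spanL L) v))⁻¹)

/-- Flat bound: `∫ dist(s - p, W)^(-2n) dν ≤ b` for all `p` and all `W` of dimension at most `w`. -/
def FlatBd {d : ℕ} (ν : Measure (E d)) (w n : ℕ) (b : ℝ≥0∞) : Prop :=
  ∀ (p : E d) (W : Submodule ℝ (E d)), Module.finrank ℝ W ≤ w →
    ∫⁻ s, ((ENNReal.ofReal (dsub W (s - p)))⁻¹) ^ (2 * n) ∂ν ≤ b

/-- The kernel induced by a randomized map `G` of `n` rows and labels, given the signal `s`. -/
noncomputable def Ks {d n : ℕ} {ι : Type*} (G : (Fin n → E d) × (Fin n → ℝ) → ι → ℝ) (s : E d) :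
    ι → ℝ :=
  fun v => ∫ X, G (X, lab X s) v ∂(gamR d n)

/-- A dyadic cube of level `i` (side `2 ^ (-i)`), `i` any integer. -/
@[ext] structure Cube (d : ℕ) where
  i : ℤ
  k : Fin d → ℤ

namespace Cube
variable {d : ℕ}

noncomputable def side (Q : Cube d) : ℝ := (2 : ℝ) ^ (-Q.i)

def carrier (Q : Cube d) : Set (E d) :=
  {x | ∀ l, (Q.k l : ℝ) * Q.side ≤ x l ∧ x l < ((Q.k l : ℝ) + 1) * Q.side}

noncomputable def center (Q : Cube d) : E d :=
  WithLp.toLp 2 fun l => ((Q.k l : ℝ) + 1 / 2) * Q.side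

/-- The cube of level `i` containing `x`. -/
noncomputable def cubeOf (i : ℤ) (x : E d) : Cube d :=
  ⟨i, fun l => ⌊x l / (2 : ℝ) ^ (-i)⌋⟩

end Cube

end P309
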