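import Vale.Agent.Lib.P309.Cubes

/-! # P309 module Flat: Frostman pieces have small mass near low dimensional flats -/

open MeasureTheory ProbabilityTheory
open scoped ENNReal NNReal

namespace P309

variable {d : ℕ}

private lemma flat_integrable_gauss {V : Type*} [NormedAddCommGroup V] [InnerProductSpace ℝ V]
    [FiniteDimensional ℝ V] [MeasurableSpace V] [BorelSpace V] {b : ℝ} (hb : 0 < b) :
    Integrable (fun v : V => Real.exp (-b * ‖v‖ ^ 2)) := by
  by_contra h
  have h0 := integral_undef h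
  rw [GaussianFourier.integral_rexp_neg_mul_sq_norm hb] at h0
  have : 0 < (Real.pi / b) ^ ((Module.finrank ℝ V : ℝ) / 2) :=
    Real.rpow_pos_of_pos (div_pos Real.pi_pos hb) _
  linarith

/-- Chernoff for balls in an arbitrary finite dimensional inner product space. -/
private lemma flat_ball_chernoff {V : Type*} [NormedAddCommGroup V] [InnerProductSpace ℝ V]
    [FiniteDimensional ℝ V] [MeasurableSpace V] [BorelSpace V] {D R : ℝ} (hD : 0 < D) (hR : 0 < R) :
    volume (Metric.closedBall (0 : V) R) ≤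
      ENNReal.ofReal (Real.exp (D / 2) * (Real.sqrt (2 * Real.pi / D) * R) ^ (Module.finrank ℝ V)) := by
  set b : ℝ := D / (2 * R ^ 2) with hbdef
  have hb : 0 < b := by positivity
  have hbR : b * R ^ 2 = D / 2 := by
    rw [hbdef]; field_simp
  have h1 : volume (Metric.closedBall (0 : V) R) ≤
      ∫⁻ v : V, ENNReal.ofReal (Real.exp (D / 2) * Real.exp (-b * ‖v‖ ^ 2)) := by
    calc volume (Metric.closedBall (0 : V) R)
        = ∫⁻ v : V, (Metric.closedBall (0 : V) R).indicator 1 v := by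
          rw [lintegral_indicator_one Metric.isClosed_closedBall.measurableSet]
      _ ≤ _ := by
          apply lintegral_mono
          intro v
          by_cases hv : v ∈ Metric.closedBall (0 : V) R
          · rw [Set.indicator_of_mem hv]
            simp only [Pi.one_apply]
            rw [show (1 : ℝ≥0∞) = ENNReal.ofReal 1 by simp]
            apply ENNReal.ofReal_le_ofReal
            rw [← Real.exp_add]
            apply Real.one_le_exp
            have hv' : ‖v‖ ≤ R := by simpa using hv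
            have : ‖v‖ ^ 2 ≤ R ^ 2 := by gcongr
            nlinarith [mul_le_mul_of_nonneg_left this hb.le]
          · rw [Set.indicator_of_notMem hv]; exact zero_le
  refine h1.trans ?_
  rw [← ofReal_integral_eq_lintegral_ofReal]
  · apply ENNReal.ofReal_le_ofReal
    rw [integral_const_mul, GaussianFourier.integral_rexp_neg_mul_sq_norm hb]
    apply mul_le_mul_of_nonneg_left _ (Real.exp_pos _).le
    apply le_of_eq
    have hsq : Real.pi / b = (Real.sqrt (2 * Real.pi / D) * R) ^ 2 := by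
      rw [mul_pow, Real.sq_sqrt (by positivity), hbdef]
      field_simp
    rw [hsq, ← Real.rpow_natCast, ← Real.rpow_natCast, ← Real.rpow_mul (by positivity)]
    congr 1
    push_cast
    ring
  · exact (flat_integrable_gauss hb).const_mul _
  · filter_upwards with v
    positivity

/-- `dsub` is the norm of the orthogonal component. -/
lemma flat_dsub_eq_norm (K : Submodule ℝ (E d)) (u : E d) : dsub K u = ‖u - K.starProjection u‖ := by
  rw [dsub, Metric.infDist_eq_iInf, Submodule.starProjection_minimal]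
  simp [dist_eq_norm]

lemma flat_dsub_add_mem (K : Submodule ℝ (E d)) (u w : E d) (hw : w ∈ K) : dsub K (u + w) = dsub K u := by
  rw [flat_dsub_eq_norm, flat_dsub_eq_norm, map_add, Submodule.starProjection_eq_self_iff.2 hw]
  congr 1
  abel

lemma flat_dsub_le_norm (K : Submodule ℝ (E d)) (u : E d) : dsub K u ≤ ‖u‖ := by
  have := Metric.infDist_le_dist_of_mem (x := u) (s := (K : Set (E d))) (y := 0) K.zero_mem
  simpa [dsub] using this

lemma flat_dsub_lip (K : Submodule ℝ (E d)) (x y : E d) : dsub K x ≤ dsub K y + ‖x - y‖ := by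
  have := Metric.infDist_le_infDist_add_dist (x := x) (y := y) (s := (K : Set (E d)))
  simpa [dsub, dist_eq_norm] using this

lemma flat_dsub_nonneg (K : Submodule ℝ (E d)) (u : E d) : 0 ≤ dsub K u := Metric.infDist_nonneg

lemma flat_continuous_dsub (K : Submodule ℝ (E d)) : Continuous (dsub K) :=
  Metric.continuous_infDist_pt _

/-- Volume of a neighbourhood of a ball in a flat, by Gaussian integrals on `W` and `Wᗮ`. -/
theorem volume_flat_nbhd (hd : 1 ≤ d) (W : Submodule ℝ (E d)) {A B : ℝ} (hA : 0 < A) (hB : 0 < B) :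
    volume {u : E d | dsub W u ≤ A ∧ dsub Wᗮ u ≤ B} ≤
      ENNReal.ofReal (Real.exp d * (Real.sqrt (2 * Real.pi / d) * A) ^ (d - Module.finrank ℝ W) *
        (Real.sqrt (2 * Real.pi / d) * B) ^ (Module.finrank ℝ W)) := by
  have hD : (0 : ℝ) < d := by exact_mod_cast hd
  have hmp := (WithLp.volume_preserving_ofLp (↥W) (↥Wᗮ)).comp
    (W.orthogonalDecomposition.measurePreserving)
  set Φ := (WithLp.ofLp : WithLp 2 (↥W × ↥Wᗮ) → ↥W × ↥Wᗮ) ∘ W.orthogonalDecomposition with hΦ
  have hS : {u : E d | dsub W u ≤ A ∧ dsub Wᗮ u ≤ B} =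
      Φ ⁻¹' (Metric.closedBall (0 : ↥W) B ×ˢ Metric.closedBall (0 : ↥Wᗮ) A) := by
    ext u
    have h1 : dsub Wᗮ u = ‖W.orthogonalProjectionOnto u‖ := by
      rw [flat_dsub_eq_norm, Submodule.starProjection_orthogonal_val, sub_sub_cancel,
        Submodule.starProjection_apply]
      rfl
    have h2 : dsub W u = ‖Wᗮ.orthogonalProjectionOnto u‖ := by
      have : ‖(Wᗮ.orthogonalProjectionOnto u : E d)‖ = ‖u - W.starProjection u‖ := by
        rw [← Submodule.starProjection_apply, Submodule.starProjection_orthogonal_val]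
      rw [flat_dsub_eq_norm, ← this]
      rfl
    simp only [Set.mem_ofPred_eq, Set.mem_preimage, Set.mem_prod, mem_closedBall_zero_iff, hΦ,
      Function.comp_apply, Submodule.orthogonalDecomposition_apply]
    rw [h1, h2, and_comm]
  rw [hS, hmp.measure_preimage
    ((Metric.isClosed_closedBall.prod Metric.isClosed_closedBall).measurableSet.nullMeasurableSet),
    Measure.volume_eq_prod, Measure.prod_prod]
  have hB1 := flat_ball_chernoff (V := ↥W) hD hB
  have hA1 := flat_ball_chernoff (V := ↥Wᗮ) hD hA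
  have hfr : Module.finrank ℝ ↥Wᗮ = d - Module.finrank ℝ W := by
    have h := Submodule.finrank_add_finrank_orthogonal W
    have h' : Module.finrank ℝ (E d) = d := by simp
    omega
  rw [hfr] at hA1
  calc _ ≤ ENNReal.ofReal (Real.exp (d / 2) * (Real.sqrt (2 * Real.pi / d) * B) ^ (Module.finrank ℝ W)) *
        ENNReal.ofReal (Real.exp (d / 2) * (Real.sqrt (2 * Real.pi / d) * A) ^ (d - Module.finrank ℝ W)) :=
        mul_le_mul' hB1 hA1
    _ = _ := by
        rw [← ENNReal.ofReal_mul (by positivity)]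
        congr 1
        have : Real.exp d = Real.exp (d / 2) * Real.exp (d / 2) := by
          rw [← Real.exp_add]; congr 1; ring
        rw [this]
        ring


private lemma flat_real_bound {a k : ℕ} {η r : ℝ} (hk : k ≤ a) (hkd : k ≤ d) (hη : 0 < η) 
    (hr : 0 < r) :
    2 * η ^ a * (Real.exp d * (2 * (η * r) * Real.sqrt (2 * Real.pi)) ^ (d - k) *
      (3 / 2 * r * Real.sqrt (2 * Real.pi)) ^ k) * ((η * r) ^ d)⁻¹ ≤
      2 * 14 ^ d * η ^ (a - k) := by
  obtain ⟨a', rfl⟩ := Nat.exists_eq_add_of_le hk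
  obtain ⟨m, rfl⟩ := Nat.exists_eq_add_of_le hkd
  have h1 : k + a' - k = a' := by omega
  have h2 : k + m - k = m := by omega
  rw [h1, h2]
  set K := Real.sqrt (2 * Real.pi) with hK
  have hKpos : 0 < K := by positivity
  have hK25 : K ≤ 2.507 := by
    rw [hK]
    apply Real.sqrt_le_iff.2
    constructor
    · norm_num
    · have := Real.pi_lt_d4
      nlinarith
  have hK1 : 1 ≤ K := by
    rw [hK]
    apply Real.one_le_sqrt.2
    have := Real.pi_gt_three
    linarith
  have he : Real.exp 1 ≤ 2.7183 := by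
    have := Real.exp_one_lt_d9
    linarith
  have hexp : Real.exp ((k + m : ℕ) : ℝ) = (Real.exp 1) ^ (k + m) := by
    rw [← Real.exp_nat_mul]; simp
  have key : 2 * η ^ (k + a') * (Real.exp ((k + m : ℕ) : ℝ) * (2 * (η * r) * K) ^ m *
      (3 / 2 * r * K) ^ k) * ((η * r) ^ (k + m))⁻¹ =
      2 * η ^ a' * ((Real.exp 1) ^ (k + m) * (2 * K) ^ m * (3 / 2 * K) ^ k) := by
    rw [hexp]
    have hηr : η * r ≠ 0 := by positivity
    have hη0 : η ≠ 0 := hη.ne'
    have hr0 : r ≠ 0 := hr.ne'
    field_simp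
    ring
  rw [key]
  have h3 : (3 / 2 * K) ^ k ≤ (2 * K) ^ k := by
    gcongr
    norm_num
  have h4 : (Real.exp 1) ^ (k + m) * (2 * K) ^ m * (3 / 2 * K) ^ k ≤ (14 : ℝ) ^ (k + m) := by
    calc (Real.exp 1) ^ (k + m) * (2 * K) ^ m * (3 / 2 * K) ^ k
        ≤ (Real.exp 1) ^ (k + m) * (2 * K) ^ m * (2 * K) ^ k := by gcongr
      _ = (Real.exp 1 * (2 * K)) ^ (k + m) := by
          ring
      _ ≤ 14 ^ (k + m) := by
          apply pow_le_pow_left₀ (by positivity)
          have : Real.exp 1 * (2 * K) ≤ 2.7183 * (2 * 2.507) := by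
            gcongr
          linarith
  calc 2 * η ^ a' * ((Real.exp 1) ^ (k + m) * (2 * K) ^ m * (3 / 2 * K) ^ k)
      ≤ 2 * η ^ a' * (14 : ℝ) ^ (k + m) := by gcongr
    _ = _ := by ring

/-- Mass near a flat. `r = Q.side`, `ϱ = r √d`, `η = 2^(-l)`, `t = η r`. `measure_le_of_cubes` with
`b = 2 η^a` and `volume_flat_nbhd` gives `ν S ≤ 2 η^a * e^d (8π)^(d/2) (r/t)^k ≤ 2 * 14^d * η^(a-k)`. -/
theorem mass_near_flat {a : ℕ} (hd : 1 ≤ d) (ν : Measure (E d)) (Q : Cube d)
    (hsupp : ν Q.carrierᶜ = 0)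
    (hfrost : ∀ Q' : Cube d, Q.i ≤ Q'.i →
      ν Q'.carrier ≤ ENNReal.ofReal (2 * (Q'.side / Q.side) ^ a))
    (p : E d) (W : Submodule ℝ (E d)) (hk : Module.finrank ℝ W ≤ a) (l : ℕ) :
    ν {s | dsub W (s - p) < (1 / 2 : ℝ) ^ l * (Q.side * Real.sqrt d)} ≤
      ENNReal.ofReal (2 * 14 ^ d * ((1 / 2 : ℝ) ^ l) ^ (a - Module.finrank ℝ W)) := by
  have hD : (0 : ℝ) < d := by exact_mod_cast hd
  have hsd : 0 < Real.sqrt d := Real.sqrt_pos.2 hD
  set r := Q.side with hrdef
  have hr : 0 < r := Q.side_pos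
  set η : ℝ := (1 / 2 : ℝ) ^ l with hηdef
  have hη : 0 < η := by positivity
  have hη1 : η ≤ 1 := pow_le_one₀ (by norm_num) (by norm_num)
  set k := Module.finrank ℝ W with hkdef
  have hkd : k ≤ d := by
    have := Submodule.finrank_le W
    simpa using this
  set i' : ℤ := Q.i + l with hi'
  set t : ℝ := η * r with htdef
  have ht : 0 < t := by positivity
  have hside : ∀ Q' : Cube d, Q'.i = i' → Q'.side = t := by
    intro Q' hQ'
    simp only [Cube.side, hQ', hi', htdef, hrdef, hηdef]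
    rw [neg_add, zpow_add₀ (by norm_num), zpow_neg 2 (l : ℤ), zpow_natCast]
    simp only [one_div, inv_pow]
    ring
  set m := Q.center with hm
  set c : E d := Wᗮ.starProjection p + W.starProjection m with hc
  set S : Set (E d) := {s | dsub W (s - p) < η * (r * Real.sqrt d)} ∩ Q.carrier with hS
  set A : ℝ := 2 * t * Real.sqrt d with hA
  set B : ℝ := 3 / 2 * (r * Real.sqrt d) with hB
  have hApos : 0 < A := by positivity
  have hBpos : 0 < B := by positivity
  set T : Set (E d) := {u : E d | dsub W u ≤ A ∧ dsub Wᗮ u ≤ B} with hT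
  have hle1 : ν {s | dsub W (s - p) < η * (r * Real.sqrt d)} ≤ ν S := by
    have : {s | dsub W (s - p) < η * (r * Real.sqrt d)} ⊆ S ∪ Q.carrierᶜ := by
      intro s hs
      by_cases h : s ∈ Q.carrier
      · exact Or.inl ⟨hs, h⟩
      · exact Or.inr h
    calc _ ≤ ν (S ∪ Q.carrierᶜ) := measure_mono this
      _ ≤ ν S + ν Q.carrierᶜ := measure_union_le _ _
      _ = ν S := by rw [hsupp, add_zero]
  refine hle1.trans ?_
  have hb : ∀ Q' : Cube d, Q'.i = i' → ν Q'.carrier ≤ ENNReal.ofReal (2 * η ^ a) := by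
    intro Q' hQ'
    have h1 : Q.i ≤ Q'.i := by rw [hQ', hi']; omega
    have h2 := hfrost Q' h1
    rwa [hside Q' hQ', htdef, mul_div_assoc, div_self hr.ne', mul_one] at h2
  have hsub : ∀ Q' : Cube d, Q'.i = i' → (Q'.carrier ∩ S).Nonempty →
      Q'.carrier ⊆ (fun y => y + (-c)) ⁻¹' T := by
    rintro Q' hQ' ⟨s0, hs0, hs0S, hs0Q⟩ y hy
    have hy1 : ‖y - s0‖ ≤ t * Real.sqrt d := by
      have h1 := Q'.norm_sub_center_le hy
      have h2 := Q'.norm_sub_center_le hs0
      rw [hside Q' hQ'] at h1 h2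
      calc ‖y - s0‖ = ‖(y - Q'.center) - (s0 - Q'.center)‖ := by congr 1; abel
        _ ≤ ‖y - Q'.center‖ + ‖s0 - Q'.center‖ := norm_sub_le _ _
        _ ≤ _ := by linarith
    have hs0m : ‖s0 - m‖ ≤ r * Real.sqrt d / 2 := Q.norm_sub_center_le hs0Q
    have hcp : c - p = W.starProjection m - W.starProjection p := by
      rw [hc, Submodule.starProjection_orthogonal_val]; abel
    have hcm : c - m = Wᗮ.starProjection p - Wᗮ.starProjection m := by
      rw [hc, Submodule.starProjection_orthogonal_val, Submodule.starProjection_orthogonal_val]; abel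
    have hcpW : c - p ∈ W := by
      rw [hcp]
      exact W.sub_mem (Submodule.starProjection_apply_mem _ _) (Submodule.starProjection_apply_mem _ _)
    have hcmW : c - m ∈ Wᗮ := by
      rw [hcm]
      exact Wᗮ.sub_mem (Submodule.starProjection_apply_mem _ _) (Submodule.starProjection_apply_mem _ _)
    constructor
    · have h1 : dsub W (y + -c) = dsub W (y - p) := by
        have : y - p = (y + -c) + (c - p) := by abel
        rw [this, flat_dsub_add_mem W _ _ hcpW]
      show dsub W (y + -c) ≤ A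
      rw [h1]
      have h2 := flat_dsub_lip W (y - p) (s0 - p)
      have h3 : y - p - (s0 - p) = y - s0 := by abel
      rw [h3] at h2
      have h4 : η * (r * Real.sqrt d) = t * Real.sqrt d := by rw [htdef]; ring
      rw [h4] at hs0S
      have hs0S' : dsub W (s0 - p) < t * Real.sqrt d := hs0S
      rw [hA]
      linarith
    · have h1 : dsub Wᗮ (y + -c) = dsub Wᗮ (y - m) := by
        have : y - m = (y + -c) + (c - m) := by abel
        rw [this, flat_dsub_add_mem Wᗮ _ _ hcmW]
      show dsub Wᗮ (y + -c) ≤ B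
      rw [h1]
      have h2 := flat_dsub_le_norm Wᗮ (y - m)
      have h3 : ‖y - m‖ ≤ ‖y - s0‖ + ‖s0 - m‖ := by
        have : y - m = (y - s0) + (s0 - m) := by abel
        rw [this]; exact norm_add_le _ _
      have h4 : t * Real.sqrt d ≤ r * Real.sqrt d := by
        rw [htdef]
        have : η * r ≤ 1 * r := by gcongr
        nlinarith
      rw [hB]
      linarith
  have hcubes := Cube.measure_le_of_cubes ν S ((fun y => y + (-c)) ⁻¹' T) i'
    (ENNReal.ofReal (2 * η ^ a)) hb hsub
  refine hcubes.trans ?_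
  rw [measure_preimage_add_right]
  have hvol := volume_flat_nbhd hd W hApos hBpos
  have htpow : ((2 : ℝ) ^ (-i')) = t := by
    have hex : ∃ Q' : Cube d, Q'.i = i' := ⟨⟨i', fun _ => 0⟩, rfl⟩
    obtain ⟨Q', hQ'⟩ := hex
    have := hside Q' hQ'
    simpa [Cube.side, hQ'] using this
  rw [htpow]
  have hsimp1 : Real.sqrt (2 * Real.pi / d) * A = 2 * t * Real.sqrt (2 * Real.pi) := by
    rw [hA, Real.sqrt_div (by positivity)]
    field_simp
  have hsimp2 : Real.sqrt (2 * Real.pi / d) * B = 3 / 2 * r * Real.sqrt (2 * Real.pi) := by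
    rw [hB, Real.sqrt_div (by positivity)]
    field_simp
  rw [hsimp1, hsimp2] at hvol
  have htd : 0 < t ^ d := by positivity
  set X : ℝ := Real.exp d * (2 * t * Real.sqrt (2 * Real.pi)) ^ (d - k) *
          (3 / 2 * r * Real.sqrt (2 * Real.pi)) ^ k with hX
  have hXpos : 0 ≤ X := by positivity
  calc ENNReal.ofReal (2 * η ^ a) * volume T * (ENNReal.ofReal (t ^ d))⁻¹
      ≤ ENNReal.ofReal (2 * η ^ a) * ENNReal.ofReal X * (ENNReal.ofReal (t ^ d))⁻¹ := by
        gcongr
    _ = ENNReal.ofReal (2 * η ^ a * X * (t ^ d)⁻¹) := by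
        rw [ENNReal.ofReal_mul (p := 2 * η ^ a * X) (q := (t ^ d)⁻¹) (by positivity),
          ENNReal.ofReal_mul (p := 2 * η ^ a) (q := X) (by positivity),
          ENNReal.ofReal_inv_of_pos htd]
    _ ≤ _ := by
        apply ENNReal.ofReal_le_ofReal
        exact flat_real_bound hk hkd hη hr

private lemma flat_pointwise {x ϱ : ℝ} (hx : 0 ≤ x) (hϱ : 0 < ϱ) (n : ℕ) :
    ((ENNReal.ofReal x)⁻¹) ^ (2 * n) ≤ ENNReal.ofReal ((ϱ ^ (2 * n))⁻¹) *
      (1 + ∑' l : ℕ, ENNReal.ofReal ((4 : ℝ) ^ (n * (l + 1))) *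
        (if x < (1 / 2 : ℝ) ^ l * ϱ then 1 else 0)) := by
  have hcpos : 0 < (ϱ ^ (2 * n))⁻¹ := by positivity
  have hc0 : ENNReal.ofReal ((ϱ ^ (2 * n))⁻¹) ≠ 0 := by
    simpa using hcpos
  rcases hx.eq_or_lt with h0 | hxpos
  · -- `x = 0`
    subst h0
    rcases Nat.eq_zero_or_pos n with rfl | hn
    · simp
    · have htop : ∑' l : ℕ, ENNReal.ofReal ((4 : ℝ) ^ (n * (l + 1))) *
          (if (0 : ℝ) < (1 / 2 : ℝ) ^ l * ϱ then 1 else 0) = ⊤ := by
        apply top_le_iff.1
        calc (⊤ : ℝ≥0∞) = ∑' _ : ℕ, (1 : ℝ≥0∞) := by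
              rw [ENNReal.tsum_const_eq_top_of_ne_zero (by simp)]
          _ ≤ _ := by
              apply ENNReal.tsum_le_tsum
              intro l
              have h1 : (0 : ℝ) < (1 / 2 : ℝ) ^ l * ϱ := by positivity
              rw [if_pos h1, mul_one]
              rw [show (1 : ℝ≥0∞) = ENNReal.ofReal 1 by simp]
              apply ENNReal.ofReal_le_ofReal
              exact one_le_pow₀ (by norm_num)
      rw [htop, add_top, ENNReal.mul_top hc0]
      exact le_top
  · by_cases hbig : ϱ ≤ x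
    · -- far away
      have h1 : ((ENNReal.ofReal x)⁻¹) ^ (2 * n) ≤ ENNReal.ofReal ((ϱ ^ (2 * n))⁻¹) := by
        rw [← ENNReal.ofReal_inv_of_pos hxpos, ← ENNReal.ofReal_pow (by positivity)]
        apply ENNReal.ofReal_le_ofReal
        rw [inv_pow]
        apply inv_anti₀ (by positivity)
        gcongr
      refine h1.trans ?_
      calc _ = ENNReal.ofReal ((ϱ ^ (2 * n))⁻¹) * 1 := by rw [mul_one]
        _ ≤ _ := by gcongr; exact le_self_add
    · push Not at hbig
      -- choose the scale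
      have hex : ∃ l : ℕ, (1 / 2 : ℝ) ^ (l + 1) * ϱ ≤ x := by
        have hlt : x / ϱ > 0 := by positivity
        obtain ⟨l, hl⟩ := exists_pow_lt_of_lt_one hlt (show (1 / 2 : ℝ) < 1 by norm_num)
        refine ⟨l, ?_⟩
        have h2 : (1 / 2 : ℝ) ^ (l + 1) ≤ (1 / 2 : ℝ) ^ l :=
          pow_le_pow_of_le_one (by norm_num) (by norm_num) (by omega)
        have h3 : (1 / 2 : ℝ) ^ l * ϱ ≤ x := by
          have := (lt_div_iff₀ hϱ).1 hl
          exact this.le
        have h4 : (1 / 2 : ℝ) ^ (l + 1) * ϱ ≤ (1 / 2 : ℝ) ^ l * ϱ := by gcongr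
        linarith
      classical
      set l := Nat.find hex with hl
      have hl1 : (1 / 2 : ℝ) ^ (l + 1) * ϱ ≤ x := Nat.find_spec hex
      have hl2 : x < (1 / 2 : ℝ) ^ l * ϱ := by
        rcases Nat.eq_zero_or_pos l with h0 | hpos
        · rw [h0]; simpa using hbig
        · have := Nat.find_min hex (m := l - 1) (by omega)
          push Not at this
          rwa [Nat.sub_add_cancel hpos] at this
      have h1 : ((ENNReal.ofReal x)⁻¹) ^ (2 * n) ≤
          ENNReal.ofReal ((ϱ ^ (2 * n))⁻¹) * ENNReal.ofReal ((4 : ℝ) ^ (n * (l + 1))) := by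
        rw [← ENNReal.ofReal_inv_of_pos hxpos, ← ENNReal.ofReal_pow (by positivity),
          ← ENNReal.ofReal_mul (by positivity)]
        apply ENNReal.ofReal_le_ofReal
        have h5 : x⁻¹ ≤ ((1 / 2 : ℝ) ^ (l + 1) * ϱ)⁻¹ := inv_anti₀ (by positivity) hl1
        have h6 : (x⁻¹) ^ (2 * n) ≤ (((1 / 2 : ℝ) ^ (l + 1) * ϱ)⁻¹) ^ (2 * n) := by gcongr
        refine h6.trans (le_of_eq ?_)
        rw [inv_pow, mul_pow]
        have h7 : ((1 / 2 : ℝ) ^ (l + 1)) ^ (2 * n) = ((4 : ℝ) ^ (n * (l + 1)))⁻¹ := by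
          rw [show (4 : ℝ) = 2 ^ 2 by norm_num, ← pow_mul, ← pow_mul,
            show (1 / 2 : ℝ) = 2⁻¹ by norm_num, inv_pow]
          congr 2
          ring
        rw [h7]
        have : (4 : ℝ) ^ (n * (l + 1)) ≠ 0 := by positivity
        field_simp
      refine h1.trans ?_
      gcongr
      refine le_trans ?_ le_add_self
      have := ENNReal.le_tsum (f := fun l : ℕ => ENNReal.ofReal ((4 : ℝ) ^ (n * (l + 1))) *
        (if x < (1 / 2 : ℝ) ^ l * ϱ then 1 else 0)) l
      simp only [if_pos hl2, mul_one] at this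
      exact this

/-- The flat bound from the Frostman property, by dyadic layer cake. -/
theorem flat_of_frostman {a n w : ℕ} (hd : 1 ≤ d) (han : w + 2 * n + 1 ≤ a) (ν : Measure (E d))
    [IsProbabilityMeasure ν] (Q : Cube d) (hsupp : ν Q.carrierᶜ = 0)
    (hfrost : ∀ Q' : Cube d, Q.i ≤ Q'.i →
      ν Q'.carrier ≤ ENNReal.ofReal (2 * (Q'.side / Q.side) ^ a)) :
    FlatBd ν w n (ENNReal.ofReal (((Q.side ^ 2 * d)⁻¹) ^ n * (1 + 4 * 4 ^ n * 14 ^ d))) := by
  intro p W hW
  have hD : (0 : ℝ) < d := by exact_mod_cast hd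
  have hsd : 0 < Real.sqrt d := Real.sqrt_pos.2 hD
  have hr : 0 < Q.side := Q.side_pos
  set ϱ : ℝ := Q.side * Real.sqrt d with hϱ
  have hϱpos : 0 < ϱ := by positivity
  set Ds : E d → ℝ := fun s => dsub W (s - p) with hDs
  have hDc : Continuous Ds := (flat_continuous_dsub W).comp (continuous_id.sub continuous_const)
  set k := Module.finrank ℝ W with hk
  have hka : k ≤ a := by omega
  set c : ℝ≥0∞ := ENNReal.ofReal ((ϱ ^ (2 * n))⁻¹) with hc
  have hmeas : ∀ l : ℕ, MeasurableSet {s | Ds s < (1 / 2 : ℝ) ^ l * ϱ} := fun l =>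
    (isOpen_lt hDc continuous_const).measurableSet
  have hmass : ∀ l : ℕ, ν {s | Ds s < (1 / 2 : ℝ) ^ l * ϱ} ≤
      ENNReal.ofReal (2 * 14 ^ d * ((1 / 2 : ℝ) ^ l) ^ (a - k)) := fun l =>
    mass_near_flat hd ν Q hsupp hfrost p W hka l
  have hpt : ∀ s, ((ENNReal.ofReal (dsub W (s - p)))⁻¹) ^ (2 * n) ≤
      c * (1 + ∑' l : ℕ, ENNReal.ofReal ((4 : ℝ) ^ (n * (l + 1))) *
        ({s | Ds s < (1 / 2 : ℝ) ^ l * ϱ}.indicator 1 s)) := by
    intro s
    have := flat_pointwise (flat_dsub_nonneg W (s - p)) hϱpos n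
    refine this.trans (le_of_eq ?_)
    congr 2
  calc ∫⁻ s, ((ENNReal.ofReal (dsub W (s - p)))⁻¹) ^ (2 * n) ∂ν
      ≤ ∫⁻ s, c * (1 + ∑' l : ℕ, ENNReal.ofReal ((4 : ℝ) ^ (n * (l + 1))) *
        ({s | Ds s < (1 / 2 : ℝ) ^ l * ϱ}.indicator 1 s)) ∂ν := lintegral_mono hpt
    _ = c * (1 + ∑' l : ℕ, ENNReal.ofReal ((4 : ℝ) ^ (n * (l + 1))) *
        ν {s | Ds s < (1 / 2 : ℝ) ^ l * ϱ}) := by
        rw [lintegral_const_mul' _ _ (by simp [hc]), lintegral_add_left measurable_const,
          lintegral_const, measure_univ, mul_one, lintegral_tsum]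
        · congr 3
          funext l
          rw [lintegral_const_mul _ (measurable_one.indicator (hmeas l)),
            lintegral_indicator_one (hmeas l)]
        · intro l
          exact ((measurable_one.indicator (hmeas l)).const_mul _).aemeasurable
    _ ≤ c * (1 + ∑' l : ℕ, ENNReal.ofReal ((4 : ℝ) ^ n * (2 * 14 ^ d) * (1 / 2 : ℝ) ^ l)) := by
        gcongr with l
        calc _ ≤ ENNReal.ofReal ((4 : ℝ) ^ (n * (l + 1))) *
              ENNReal.ofReal (2 * 14 ^ d * ((1 / 2 : ℝ) ^ l) ^ (a - k)) := by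
                gcongr
                exact hmass l
          _ = ENNReal.ofReal ((4 : ℝ) ^ (n * (l + 1)) * (2 * 14 ^ d * ((1 / 2 : ℝ) ^ l) ^ (a - k))) := by
                rw [ENNReal.ofReal_mul (p := (4 : ℝ) ^ (n * (l + 1))) (by positivity)]
          _ ≤ _ := by
                apply ENNReal.ofReal_le_ofReal
                have h1 : ((1 / 2 : ℝ) ^ l) ^ (a - k) ≤ ((1 / 2 : ℝ) ^ l) ^ (2 * n + 1) :=
                  pow_le_pow_of_le_one (by positivity) (pow_le_one₀ (by norm_num) (by norm_num))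
                    (by omega)
                have h2 : (4 : ℝ) ^ (n * (l + 1)) * ((1 / 2 : ℝ) ^ l) ^ (2 * n + 1) =
                    (4 : ℝ) ^ n * (1 / 2 : ℝ) ^ l := by
                  have h4 : (4 : ℝ) = 2 ^ 2 := by norm_num
                  have h12 : (1 / 2 : ℝ) = 2⁻¹ := by norm_num
                  rw [h12, h4, ← pow_mul, ← pow_mul, ← pow_mul, inv_pow, inv_pow]
                  have : (2 : ℝ) ^ (l * (2 * n + 1)) = 2 ^ (2 * (n * l)) * 2 ^ l := by
                    rw [← pow_add]; congr 1; ring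
                  rw [this, show 2 * (n * (l + 1)) = 2 * (n * l) + 2 * n by ring, pow_add]
                  have h2l : (2 : ℝ) ^ (2 * (n * l)) ≠ 0 := by positivity
                  have h2l' : (2 : ℝ) ^ l ≠ 0 := by positivity
                  field_simp
                calc (4 : ℝ) ^ (n * (l + 1)) * (2 * 14 ^ d * ((1 / 2 : ℝ) ^ l) ^ (a - k))
                    ≤ (4 : ℝ) ^ (n * (l + 1)) * (2 * 14 ^ d * ((1 / 2 : ℝ) ^ l) ^ (2 * n + 1)) := by
                      gcongr
                  _ = (2 * 14 ^ d) * ((4 : ℝ) ^ (n * (l + 1)) * ((1 / 2 : ℝ) ^ l) ^ (2 * n + 1)) := by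
                      ring
                  _ = _ := by rw [h2]; ring
    _ = c * (1 + ENNReal.ofReal (4 * 4 ^ n * 14 ^ d)) := by
        congr 2
        rw [← ENNReal.ofReal_tsum_of_nonneg (fun l => by positivity)
          (summable_geometric_two.mul_left _), tsum_mul_left, tsum_geometric_two]
        congr 1
        ring
    _ = _ := by
        have h1 : (1 : ℝ≥0∞) + ENNReal.ofReal (4 * 4 ^ n * 14 ^ d) =
            ENNReal.ofReal (1 + 4 * 4 ^ n * 14 ^ d) := by
          rw [ENNReal.ofReal_add (by norm_num) (by positivity)]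
          simp
        rw [h1, hc, ← ENNReal.ofReal_mul (by positivity)]
        congr 2
        rw [hϱ, pow_mul, mul_pow, Real.sq_sqrt hD.le, inv_pow]

end P309
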