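import Vale.Agent.Lib.P309.KL

/-! # P309 module Mix: the finite mixture kernel -/

open MeasureTheory ProbabilityTheory
open scoped ENNReal NNReal Classical

namespace P309

variable {Zs ι Gr : Type*} [MeasurableSpace Zs] {L : ℕ}

/-- Number of candidates of group `g` at `z`. -/
noncomputable def nCand (pieces : Gr → Finset ι) (cand : ι → Zs → Prop) (g : Gr) (z : Zs) : ℕ :=
  ((pieces g).filter fun l => cand l z).card

/-- Component of group `g`: uniform mixture over its candidates, uniform law if there are none. -/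
noncomputable def groupKer (pieces : Gr → Finset ι) (q : ι → Fin L → ℝ) (cand : ι → Zs → Prop)
    (g : Gr) (z : Zs) (v : Fin L) : ℝ :=
  if nCand pieces cand g z = 0 then 1 / (L : ℝ)
  else (nCand pieces cand g z : ℝ)⁻¹ * ∑ l ∈ (pieces g).filter (fun l => cand l z), q l v

/-- The mixture kernel. -/
noncomputable def mixKer (GG : Finset Gr) (pieces : Gr → Finset ι) (q : ι → Fin L → ℝ)
    (cand : ι → Zs → Prop) (z : Zs) (v : Fin L) : ℝ :=
  1 / (2 * (L : ℝ)) +
    1 / 2 * ((GG.card : ℝ)⁻¹ * ∑ g ∈ GG, groupKer pieces q cand g z v)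

variable {GG : Finset Gr} {pieces : Gr → Finset ι} {q : ι → Fin L → ℝ} {cand : ι → Zs → Prop}

theorem mixx_nCand_meas (hc : ∀ l, MeasurableSet {z | cand l z}) (g : Gr) :
    Measurable fun z => nCand pieces cand g z := by
  have h : (fun z => nCand pieces cand g z) =
      fun z => ∑ l ∈ pieces g, if cand l z then 1 else 0 := by
    funext z
    unfold nCand
    rw [Finset.card_filter]
  rw [h]
  exact Finset.measurable_sum _ fun l _ => Measurable.ite (hc l) measurable_const measurable_const

theorem mixx_groupKer_meas (hc : ∀ l, MeasurableSet {z | cand l z}) (g : Gr) (v : Fin L) :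
    Measurable fun z => groupKer pieces q cand g z v := by
  unfold groupKer
  refine Measurable.ite ?_ measurable_const ?_
  · exact (mixx_nCand_meas hc g) (measurableSet_singleton 0)
  · refine Measurable.mul ?_ ?_
    · exact (measurable_from_nat.comp (mixx_nCand_meas hc g)).inv
    · have h : (fun z => ∑ l ∈ (pieces g).filter (fun l => cand l z), q l v) =
          fun z => ∑ l ∈ pieces g, if cand l z then q l v else 0 := by
        funext z
        rw [Finset.sum_filter]
      rw [h]
      exact Finset.measurable_sum _ fun l _ =>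
        Measurable.ite (hc l) measurable_const measurable_const

omit [MeasurableSpace Zs] in
theorem mixx_groupKer_nonneg (hq : ∀ l, IsProb (q l)) (g : Gr) (z : Zs) (v : Fin L) :
    0 ≤ groupKer pieces q cand g z v := by
  unfold groupKer
  split_ifs with h
  · positivity
  · exact mul_nonneg (by positivity) (Finset.sum_nonneg fun l _ => (hq l).nonneg v)

omit [MeasurableSpace Zs] in
theorem mixx_groupKer_sum (hL : 0 < L) (hq : ∀ l, IsProb (q l)) (g : Gr) (z : Zs) :
    ∑ v, groupKer pieces q cand g z v = 1 := by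
  have hL' : (L : ℝ) ≠ 0 := by positivity
  unfold groupKer
  by_cases h : nCand pieces cand g z = 0
  · simp only [h, if_true, Finset.sum_const, Finset.card_univ, Fintype.card_fin, nsmul_eq_mul]
    field_simp
  · simp only [h, if_false]
    rw [← Finset.mul_sum, Finset.sum_comm]
    have h1 : ∀ l ∈ (pieces g).filter (fun l => cand l z), ∑ v, q l v = 1 :=
      fun l _ => (hq l).sum_one
    rw [Finset.sum_congr rfl h1]
    have h2 : ((nCand pieces cand g z : ℕ) : ℝ) ≠ 0 := by exact_mod_cast h
    simp only [Finset.sum_const, nsmul_eq_mul, mul_one]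
    exact inv_mul_cancel₀ h2

omit [MeasurableSpace Zs] in
theorem mixx_sum_nonneg (hq : ∀ l, IsProb (q l)) (z : Zs) (v : Fin L) :
    0 ≤ (GG.card : ℝ)⁻¹ * ∑ g ∈ GG, groupKer pieces q cand g z v :=
  mul_nonneg (by positivity) (Finset.sum_nonneg fun g _ => mixx_groupKer_nonneg hq g z v)

theorem mixKer_measurable (hc : ∀ l, MeasurableSet {z | cand l z}) (v : Fin L) :
    Measurable fun z => mixKer GG pieces q cand z v := by
  unfold mixKer
  exact measurable_const.add (measurable_const.mul (measurable_const.mul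
    (Finset.measurable_sum _ fun g _ => mixx_groupKer_meas hc g v)))

theorem nCand_measurable (hc : ∀ l, MeasurableSet {z | cand l z}) (g : Gr) :
    Measurable fun z => nCand pieces cand g z := by
  exact mixx_nCand_meas hc g

theorem mixKer_prob (hL : 0 < L) (hG : GG.Nonempty) (hq : ∀ l, IsProb (q l)) (z : Zs) :
    IsProb (mixKer GG pieces q cand z) := by
  have hL' : (L : ℝ) ≠ 0 := by positivity
  have hG' : (GG.card : ℝ) ≠ 0 := by
    have := hG.card_pos
    positivity
  refine ⟨fun v => ?_, ?_⟩
  · unfold mixKer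
    have := mixx_sum_nonneg (GG := GG) (pieces := pieces) (cand := cand) hq z v
    positivity
  · unfold mixKer
    rw [Finset.sum_add_distrib, ← Finset.mul_sum, ← Finset.mul_sum, Finset.sum_comm]
    have h1 : ∀ g ∈ GG, ∑ v, groupKer pieces q cand g z v = 1 :=
      fun g _ => mixx_groupKer_sum hL hq g z
    rw [Finset.sum_congr rfl h1]
    simp only [Finset.sum_const, Finset.card_univ, Fintype.card_fin, nsmul_eq_mul, mul_one]
    field_simp
    norm_num

theorem mixKer_lower (hL : 0 < L) (hq : ∀ l, IsProb (q l)) (z : Zs) (v : Fin L) :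
    1 / (2 * (L : ℝ)) ≤ mixKer GG pieces q cand z v := by
  unfold mixKer
  have := mixx_sum_nonneg (GG := GG) (pieces := pieces) (cand := cand) hq z v
  linarith

/-- If `l` of group `g` is a candidate at `z`. -/
theorem mixKer_KL_good (hL : 0 < L) (hq : ∀ l, IsProb (q l)) (hqpos : ∀ l v, 0 < q l v)
    {p : Fin L → ℝ} (hp : IsProb p) {g : Gr} (hg : g ∈ GG) {l : ι} (hl : l ∈ pieces g) {z : Zs}
    (hz : cand l z) :
    KL p (mixKer GG pieces q cand z) ≤
      KL p (q l) + Real.log 2 + Real.log GG.card + Real.log (nCand pieces cand g z) := by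
  have hGpos : 0 < GG.card := Finset.card_pos.2 ⟨g, hg⟩
  have hG0 : (0 : ℝ) < (GG.card : ℝ) := by exact_mod_cast hGpos
  have hmem : l ∈ (pieces g).filter (fun l => cand l z) := Finset.mem_filter.2 ⟨hl, hz⟩
  have hNpos : 0 < nCand pieces cand g z := Finset.card_pos.2 ⟨l, hmem⟩
  have hN0 : (0 : ℝ) < (nCand pieces cand g z : ℝ) := by exact_mod_cast hNpos
  set w : ℝ := 1 / (2 * (GG.card : ℝ) * (nCand pieces cand g z : ℝ)) with hw
  have hw0 : 0 < w := by positivity
  have hlow : ∀ v, w * q l v ≤ mixKer GG pieces q cand z v := by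
    intro v
    have h1 : groupKer pieces q cand g z v ≤ ∑ g' ∈ GG, groupKer pieces q cand g' z v :=
      Finset.single_le_sum (f := fun g' => groupKer pieces q cand g' z v)
        (fun g' _ => mixx_groupKer_nonneg hq g' z v) hg
    have h2 : q l v ≤ ∑ l' ∈ (pieces g).filter (fun l => cand l z), q l' v :=
      Finset.single_le_sum (f := fun l' => q l' v) (fun l' _ => (hq l').nonneg v) hmem
    have h3 : (nCand pieces cand g z : ℝ)⁻¹ * q l v ≤ groupKer pieces q cand g z v := by
      unfold groupKer
      rw [if_neg hNpos.ne']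
      exact mul_le_mul_of_nonneg_left h2 (by positivity)
    have h4 : (GG.card : ℝ)⁻¹ * ((nCand pieces cand g z : ℝ)⁻¹ * q l v) ≤
        (GG.card : ℝ)⁻¹ * ∑ g' ∈ GG, groupKer pieces q cand g' z v :=
      mul_le_mul_of_nonneg_left (h3.trans h1) (by positivity)
    have hL' : (0 : ℝ) < 1 / (2 * (L : ℝ)) := by positivity
    unfold mixKer
    have h5 : w * q l v = 1 / 2 * ((GG.card : ℝ)⁻¹ * ((nCand pieces cand g z : ℝ)⁻¹ * q l v)) := by
      rw [hw]
      field_simp
    rw [h5]
    linarith
  have hmain := KL_mono_mix hw0 hp (hqpos l) hlow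
  have hlog : Real.log (1 / w) =
      Real.log 2 + Real.log GG.card + Real.log (nCand pieces cand g z) := by
    rw [hw, one_div_one_div, Real.log_mul (by positivity) hN0.ne',
      Real.log_mul (by norm_num) hG0.ne']
  rw [hlog] at hmain
  linarith

theorem mixKer_KL_any (hL : 0 < L) (hq : ∀ l, IsProb (q l)) {p : Fin L → ℝ} (hp : IsProb p)
    (z : Zs) : KL p (mixKer GG pieces q cand z) ≤ Real.log (2 * L) := by
  have h := KL_le_log_of_lower (c := 1 / (2 * (L : ℝ))) (by positivity) hp
    (fun v => mixKer_lower hL hq z v) (q := mixKer GG pieces q cand z)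
  rwa [one_div_one_div] at h

/-- Expected KL against the mixture: for a probability measure `P` on a space `Ω` with a measurable
`z : Ω → Zs`; split on whether `l` is a candidate, Jensen for `log nCand` by `log_tangent`. -/
theorem mixKer_KL_expect {Ω : Type*} [MeasurableSpace Ω] (P : Measure Ω) [IsProbabilityMeasure P]
    (zf : Ω → Zs) (hzf : Measurable zf) (hc : ∀ l, MeasurableSet {z | cand l z})
    (hL : 0 < L) (hq : ∀ l, IsProb (q l)) (hqpos : ∀ l v, 0 < q l v)
    {p : Fin L → ℝ} (hp : IsProb p) {g : Gr} (hg : g ∈ GG) {l : ι} (hl : l ∈ pieces g)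
    {δ NN : ℝ} (hδ : P {ω | ¬ cand l (zf ω)} ≤ ENNReal.ofReal δ) (hδ0 : 0 ≤ δ) (hNN0 : 0 ≤ NN)
    (hNN : ∫ ω, (nCand pieces cand g (zf ω) : ℝ) ∂P ≤ NN) :
    ∫ ω, KL p (mixKer GG pieces q cand (zf ω)) ∂P ≤
      KL p (q l) + Real.log 2 + Real.log GG.card + Real.log (1 + NN) +
        δ * Real.log (2 * L) := by
  have hGne : GG.Nonempty := ⟨g, hg⟩
  have hGpos : 0 < GG.card := Finset.card_pos.2 hGne
  have hG0 : (1 : ℝ) ≤ (GG.card : ℝ) := by exact_mod_cast hGpos
  have hL1 : (1 : ℝ) ≤ (L : ℝ) := by exact_mod_cast hL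
  have hlog2L : 0 ≤ Real.log (2 * L) := Real.log_nonneg (by linarith)
  set B : ℝ := KL p (q l) + Real.log 2 + Real.log GG.card with hB
  have hKLl : 0 ≤ KL p (q l) :=
    KL_nonneg hp (hq l) (fun v h => absurd h (hqpos l v).ne')
  have hB0 : 0 ≤ B := by
    have h1 : 0 ≤ Real.log 2 := Real.log_nonneg (by norm_num)
    have h2 : 0 ≤ Real.log GG.card := Real.log_nonneg hG0
    rw [hB]
    linarith
  set N : Ω → ℝ := fun ω => (nCand pieces cand g (zf ω) : ℝ) with hN
  have hNm : Measurable N := measurable_from_nat.comp ((mixx_nCand_meas hc g).comp hzf)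
  have hNle : ∀ ω, N ω ≤ ((pieces g).card : ℝ) := by
    intro ω
    have : nCand pieces cand g (zf ω) ≤ (pieces g).card := Finset.card_filter_le _ _
    simp only [hN]
    exact_mod_cast this
  have hN0 : ∀ ω, 0 ≤ N ω := fun ω => by simp only [hN]; positivity
  have hNint : Integrable N P := by
    refine Integrable.of_bound hNm.aestronglyMeasurable ((pieces g).card : ℝ) ?_
    refine Filter.Eventually.of_forall fun ω => ?_
    rw [Real.norm_of_nonneg (hN0 ω)]
    exact hNle ω
  set A : Set Ω := {ω | ¬ cand l (zf ω)} with hA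
  have hAm : MeasurableSet A := by
    have : A = zf ⁻¹' {z | cand l z}ᶜ := rfl
    rw [this]
    exact hzf (hc l).compl
  have hc1 : (0 : ℝ) < 1 + NN := by linarith
  -- the pointwise bound
  set R : Ω → ℝ := fun ω => B + (Real.log (1 + NN) + (1 + N ω) / (1 + NN) - 1) +
    A.indicator (fun _ => Real.log (2 * L)) ω with hR
  have hRint : Integrable R P := by
    refine Integrable.add (Integrable.add (integrable_const _) ?_) ?_
    · have h1 : Integrable (fun ω => (1 + N ω) / (1 + NN)) P :=
        ((integrable_const _).add hNint).div_const _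
      have h2 := (integrable_const (μ := P) (Real.log (1 + NN))).add h1
      have h3 := h2.sub (integrable_const (μ := P) (1 : ℝ))
      exact h3
    · exact (integrable_const _).indicator hAm
  have hpt : ∀ ω, KL p (mixKer GG pieces q cand (zf ω)) ≤ R ω := by
    intro ω
    have htan : Real.log (1 + N ω) ≤ Real.log (1 + NN) + (1 + N ω) / (1 + NN) - 1 :=
      log_tangent (by linarith [hN0 ω]) hc1
    by_cases hω : ω ∈ A
    · have h1 := mixKer_KL_any (GG := GG) (pieces := pieces) (cand := cand) hL hq hp (zf ω)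
      have h2 : 0 ≤ Real.log (1 + N ω) := Real.log_nonneg (by linarith [hN0 ω])
      simp only [hR, Set.indicator_of_mem hω]
      linarith
    · have hz : cand l (zf ω) := by
        by_contra h
        exact hω h
      have h1 := mixKer_KL_good (GG := GG) hL hq hqpos hp hg hl hz
      have hmem : l ∈ (pieces g).filter (fun l => cand l (zf ω)) :=
        Finset.mem_filter.2 ⟨hl, hz⟩
      have hNpos : 0 < nCand pieces cand g (zf ω) := Finset.card_pos.2 ⟨l, hmem⟩
      have hNr : (0 : ℝ) < N ω := by
        simp only [hN]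
        exact_mod_cast hNpos
      have h2 : Real.log (N ω) ≤ Real.log (1 + N ω) :=
        Real.log_le_log hNr (by linarith)
      simp only [hR, Set.indicator_of_notMem hω]
      simp only [hN] at h2 htan ⊢
      linarith
  have hKL0 : ∀ ω, 0 ≤ KL p (mixKer GG pieces q cand (zf ω)) := by
    intro ω
    refine KL_nonneg hp (mixKer_prob hL hGne hq (zf ω)) (fun v h => ?_)
    have h1 := mixKer_lower (GG := GG) (pieces := pieces) (cand := cand) hL hq (zf ω) v
    have h2 : (0 : ℝ) < 1 / (2 * (L : ℝ)) := by positivity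
    linarith
  have hmono : ∫ ω, KL p (mixKer GG pieces q cand (zf ω)) ∂P ≤ ∫ ω, R ω ∂P :=
    integral_mono_of_nonneg (Filter.Eventually.of_forall hKL0) hRint
      (Filter.Eventually.of_forall hpt)
  -- the integral of the bound
  have hint1 : ∫ ω, A.indicator (fun _ => Real.log (2 * L)) ω ∂P =
      (P A).toReal * Real.log (2 * L) := by
    rw [integral_indicator hAm, setIntegral_const]
    simp [Measure.real, smul_eq_mul]
  have hPA : (P A).toReal ≤ δ := by
    have := ENNReal.toReal_mono ENNReal.ofReal_ne_top hδ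
    rwa [ENNReal.toReal_ofReal hδ0] at this
  have hint2 : ∫ ω, (1 + N ω) / (1 + NN) ∂P = (1 + ∫ ω, N ω ∂P) / (1 + NN) := by
    rw [integral_div, integral_add (integrable_const _) hNint]
    simp
  have hI1 : Integrable (fun ω => (1 + N ω) / (1 + NN)) P :=
    ((integrable_const _).add hNint).div_const _
  have hint3 : ∫ ω, R ω ∂P = B + (Real.log (1 + NN) + (1 + ∫ ω, N ω ∂P) / (1 + NN) - 1) +
      (P A).toReal * Real.log (2 * L) := by
    have hI2 : Integrable (fun ω => (B + Real.log (1 + NN) - 1) + (1 + N ω) / (1 + NN)) P :=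
      (integrable_const _).add hI1
    have hI3 : Integrable (fun ω => A.indicator (fun _ => Real.log (2 * (L : ℝ))) ω) P :=
      (integrable_const _).indicator hAm
    have h4 : ∫ ω, ((B + Real.log (1 + NN) - 1) + (1 + N ω) / (1 + NN)) ∂P =
        (B + Real.log (1 + NN) - 1) + (1 + ∫ ω, N ω ∂P) / (1 + NN) := by
      have h5 := integral_add (μ := P) (integrable_const (B + Real.log (1 + NN) - 1)) hI1
      rw [integral_const, hint2] at h5
      simpa using h5
    calc ∫ ω, R ω ∂P = ∫ ω, (((B + Real.log (1 + NN) - 1) + (1 + N ω) / (1 + NN)) +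
          A.indicator (fun _ => Real.log (2 * (L : ℝ))) ω) ∂P := by
          congr 1
          funext ω
          simp only [hR]
          ring
      _ = (∫ ω, ((B + Real.log (1 + NN) - 1) + (1 + N ω) / (1 + NN)) ∂P) +
          ∫ ω, A.indicator (fun _ => Real.log (2 * (L : ℝ))) ω ∂P := integral_add hI2 hI3
      _ = _ := by
          rw [h4, hint1]
          ring
  have hfrac : (1 + ∫ ω, N ω ∂P) / (1 + NN) ≤ 1 := by
    rw [div_le_one hc1]
    linarith
  have hδlog : (P A).toReal * Real.log (2 * L) ≤ δ * Real.log (2 * L) :=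
    mul_le_mul_of_nonneg_right hPA hlog2L
  rw [hint3] at hmono
  rw [hB] at hmono
  linarith

end P309
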