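import Vale.Agent.Lib.P309.Gauss1

/-! # P309 module Sphere: caps, the uniform law on the sphere -/

open MeasureTheory ProbabilityTheory
open scoped ENNReal NNReal

namespace P309

/-- One-dimensional exponential moment of the standard Gaussian. -/
theorem sphere_lintegral_exp_sq {a : ℝ} (ha : a < 1 / 2) :
    ∫⁻ x, ENNReal.ofReal (Real.exp (a * x ^ 2)) ∂(gaussianReal 0 1) =
      ENNReal.ofReal (Real.sqrt (1 / (1 - 2 * a))) := by
  have hb : 0 < 1 / 2 - a := by linarith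
  rw [gaussianReal_of_var_ne_zero _ one_ne_zero,
    lintegral_withDensity_eq_lintegral_mul _ (measurable_gaussianPDF _ _) (by fun_prop)]
  have h1 : ∀ x : ℝ, (gaussianPDF 0 1 * fun x => ENNReal.ofReal (Real.exp (a * x ^ 2))) x =
      ENNReal.ofReal ((Real.sqrt (2 * Real.pi))⁻¹ * Real.exp (-(1 / 2 - a) * x ^ 2)) := by
    intro x
    simp only [Pi.mul_apply, gaussianPDF]
    rw [← ENNReal.ofReal_mul (gaussianPDFReal_nonneg _ _ _), gaussianPDFReal]
    congr 1
    rw [mul_assoc, ← Real.exp_add]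
    congr 2
    · simp
    · simp; ring
  simp_rw [h1]
  rw [← ofReal_integral_eq_lintegral_ofReal
    ((integrable_exp_neg_mul_sq hb).const_mul _)
    (Filter.Eventually.of_forall fun x => by positivity)]
  congr 1
  rw [integral_const_mul]
  rw [integral_gaussian]
  have h2 : Real.pi / (1 / 2 - a) = (2 * Real.pi) * (1 / (1 - 2 * a)) := by
    have : 1 - 2 * a ≠ 0 := by linarith
    field_simp
  rw [h2, Real.sqrt_mul (by positivity : (0 : ℝ) ≤ 2 * Real.pi) (1 / (1 - 2 * a))]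
  have h3 : 0 < Real.sqrt (2 * Real.pi) := Real.sqrt_pos.mpr (by positivity)
  rw [← mul_assoc, inv_mul_cancel₀ h3.ne', one_mul]

/-- Chernoff bound in an orthonormal basis. -/
theorem sphere_chernoff {F : Type*} [NormedAddCommGroup F] [InnerProductSpace ℝ F]
    [FiniteDimensional ℝ F] [MeasurableSpace F] [BorelSpace F] {ι : Type*} [Fintype ι]
    (b : OrthonormalBasis ι ℝ F) (a : ι → ℝ) (ha : ∀ i, a i < 1 / 2) :
    stdGaussian F {g | 0 ≤ ∑ i, a i * (inner ℝ (b i) g) ^ 2} ≤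
      ∏ i, ENNReal.ofReal (Real.sqrt (1 / (1 - 2 * a i))) := by
  classical
  rw [stdGaussian_eq_map_pi_orthonormalBasis b]
  have hmeas : Measurable fun x : ι → ℝ => ∑ i, x i • b i := by fun_prop
  have hS : MeasurableSet {g : F | 0 ≤ ∑ i, a i * (inner ℝ (b i) g) ^ 2} :=
    measurableSet_le measurable_const (by fun_prop)
  rw [Measure.map_apply hmeas hS]
  have hinner : ∀ (x : ι → ℝ) (i : ι), inner ℝ (b i) (∑ j, x j • b j) = x i := by
    intro x i
    rw [inner_sum]
    simp only [inner_smul_right, b.inner_eq_ite]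
    simp
  have hset : (fun x : ι → ℝ => ∑ i, x i • b i) ⁻¹' {g : F | 0 ≤ ∑ i, a i * (inner ℝ (b i) g) ^ 2}
      = {x : ι → ℝ | 0 ≤ ∑ i, a i * (x i) ^ 2} := by
    ext x
    simp [hinner]
  rw [hset]
  have hS' : MeasurableSet {x : ι → ℝ | 0 ≤ ∑ i, a i * (x i) ^ 2} :=
    measurableSet_le measurable_const (by fun_prop)
  have hbound : ∀ x : ι → ℝ, Set.indicator {x : ι → ℝ | 0 ≤ ∑ i, a i * (x i) ^ 2} 1 x ≤
      ∏ i, ENNReal.ofReal (Real.exp (a i * (x i) ^ 2)) := by
    intro x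
    rw [← ENNReal.ofReal_prod_of_nonneg (fun i _ => (Real.exp_pos _).le), ← Real.exp_sum]
    by_cases hx : x ∈ {x : ι → ℝ | 0 ≤ ∑ i, a i * (x i) ^ 2}
    · rw [Set.indicator_of_mem hx]
      simp only [Pi.one_apply]
      rw [← ENNReal.ofReal_one]
      exact ENNReal.ofReal_le_ofReal (Real.one_le_exp hx)
    · rw [Set.indicator_of_notMem hx]
      exact bot_le
  calc (Measure.pi fun _ : ι => gaussianReal 0 1) {x : ι → ℝ | 0 ≤ ∑ i, a i * (x i) ^ 2}
      = ∫⁻ x, Set.indicator {x : ι → ℝ | 0 ≤ ∑ i, a i * (x i) ^ 2} 1 x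
          ∂(Measure.pi fun _ : ι => gaussianReal 0 1) := (lintegral_indicator_one hS').symm
    _ ≤ ∫⁻ x, ∏ i, ENNReal.ofReal (Real.exp (a i * (x i) ^ 2))
          ∂(Measure.pi fun _ : ι => gaussianReal 0 1) := lintegral_mono hbound
    _ = ∏ i, ∫⁻ x, ENNReal.ofReal (Real.exp (a i * x ^ 2)) ∂(gaussianReal 0 1) := by
        have hind := iIndepFun_pi (μ := fun _ : ι => gaussianReal 0 1)
          (X := fun i (x : ℝ) => ENNReal.ofReal (Real.exp (a i * x ^ 2)))
          (fun i => (by fun_prop : Measurable _).aemeasurable)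
        have := lintegral_prod_eq_prod_lintegral_of_indepFun Finset.univ
          (fun (i : ι) (x : ι → ℝ) => ENNReal.ofReal (Real.exp (a i * (x i) ^ 2))) hind
          (fun i => by fun_prop)
        rw [this]
        refine Finset.prod_congr rfl fun i _ => ?_
        exact (measurePreserving_eval (fun _ : ι => gaussianReal 0 1) i).lintegral_comp
          (f := fun x : ℝ => ENNReal.ofReal (Real.exp (a i * x ^ 2))) (by fun_prop)
    _ = ∏ i, ENNReal.ofReal (Real.sqrt (1 / (1 - 2 * a i))) :=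
        Finset.prod_congr rfl fun i _ => sphere_lintegral_exp_sq (ha i)

/-- Cap bound. With `c` unit, `g₁ = ⟨g,c⟩`, `g' = g - g₁ c`: the event implies
`‖g'‖² ≤ 2 τ² g₁²`. Chernoff with `λ = 1/(8τ²)` in an orthonormal basis containing `c`:
`P ≤ E exp(2λτ² g₁²) E exp(-λ‖g'‖²) = (1-4λτ²)^(-1/2) (1+2λ)^(-(m-1)/2) ≤ √2 (2τ)^(m-1)`. -/
theorem cap_bound {F : Type*} [NormedAddCommGroup F] [InnerProductSpace ℝ F] [FiniteDimensional ℝ F]
    [MeasurableSpace F] [BorelSpace F] (c : F) (hc : ‖c‖ = 1) {τ : ℝ} (hτ : 0 < τ)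
    (hτ2 : τ ^ 2 ≤ 1 / 2) :
    stdGaussian F {g | ‖‖g‖⁻¹ • g - c‖ ≤ τ} ≤
      ENNReal.ofReal (Real.sqrt 2 * (2 * τ) ^ (Module.finrank ℝ F - 1)) := by
  classical
  set m := Module.finrank ℝ F with hm
  have hm0 : 0 < m := by
    have : Nontrivial F := ⟨⟨c, 0, fun h => by simp [h] at hc⟩⟩
    exact Module.finrank_pos
  let i₀ : Fin m := ⟨0, hm0⟩
  have hon : Orthonormal ℝ (({i₀} : Set (Fin m)).domRestrict (fun _ => c)) := by
    constructor
    · intro i
      simpa using hc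
    · intro i j hij
      exact absurd (Subsingleton.elim i j) hij
  obtain ⟨b, hb⟩ := Orthonormal.exists_orthonormalBasis_extension_of_card_eq
    (𝕜 := ℝ) (E := F) (ι := Fin m) (by simp [hm]) hon
  have hbi : b i₀ = c := hb i₀ (by simp)
  set lam : ℝ := 1 / (8 * τ ^ 2) with hlam
  have hlam0 : 0 < lam := by positivity
  let a : Fin m → ℝ := fun i => if i = i₀ then 1 / 4 else -lam
  have ha : ∀ i, a i < 1 / 2 := by
    intro i
    by_cases h : i = i₀
    · simp only [a, if_pos h]; norm_num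
    · simp only [a, if_neg h]; linarith
  have hsub : {g : F | ‖‖g‖⁻¹ • g - c‖ ≤ τ} ⊆ {g | 0 ≤ ∑ i, a i * (inner ℝ (b i) g) ^ 2} := by
    intro g hg
    simp only [Set.mem_ofPred_eq] at hg ⊢
    have hsum : ∑ i, a i * (inner ℝ (b i) g) ^ 2 =
        -lam * ‖g‖ ^ 2 + (1 / 4 + lam) * (inner ℝ c g) ^ 2 := by
      have h1 : ∀ i, a i * (inner ℝ (b i) g) ^ 2 = -lam * (inner ℝ (b i) g) ^ 2 +
          (if i = i₀ then (1 / 4 + lam) * (inner ℝ (b i) g) ^ 2 else 0) := by
        intro i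
        by_cases h : i = i₀
        · simp only [a, if_pos h]; ring
        · simp only [a, if_neg h]; ring
      simp_rw [h1]
      rw [Finset.sum_add_distrib, ← Finset.mul_sum, b.sum_sq_inner_right]
      simp [hbi]
    rw [hsum]
    by_cases hg0 : g = 0
    · simp [hg0]
    have hr : 0 < ‖g‖ := norm_pos_iff.mpr hg0
    set r := ‖g‖ with hrdef
    set y : ℝ := inner ℝ c g with hy
    have hsq : ‖r⁻¹ • g - c‖ ^ 2 ≤ τ ^ 2 := by
      exact pow_le_pow_left₀ (norm_nonneg _) hg 2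
    have hexp : ‖r⁻¹ • g - c‖ ^ 2 = 2 - 2 * (y / r) := by
      rw [norm_sub_sq_real, norm_smul, hc, real_inner_comm, inner_smul_right, ← hrdef, ← hy]
      simp only [norm_inv, Real.norm_eq_abs, abs_of_pos hr]
      field_simp
      ring
    rw [hexp] at hsq
    set v := y / r with hv
    have hyv : y = r * v := by rw [hv]; field_simp
    set t := τ ^ 2 with ht
    have ht0 : 0 < t := by positivity
    have hv1 : 1 - t / 2 ≤ v := by linarith
    have hv2 : (1 - t / 2) ^ 2 ≤ v ^ 2 := pow_le_pow_left₀ (by linarith) hv1 2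
    have hmain : 1 ≤ (1 + 2 * t) * v ^ 2 := by
      have h3 : 1 ≤ (1 + 2 * t) * (1 - t / 2) ^ 2 := by
        nlinarith [mul_pos ht0 ht0, mul_pos (mul_pos ht0 ht0) ht0]
      exact h3.trans (mul_le_mul_of_nonneg_left hv2 (by linarith))
    have hlam' : lam * (8 * t) = 1 := by
      rw [hlam]; field_simp
    have : -lam * r ^ 2 + (1 / 4 + lam) * y ^ 2 = lam * r ^ 2 * ((1 + 2 * t) * v ^ 2 - 1) := by
      rw [hyv]
      have : (1 / 4 : ℝ) = lam * (2 * t) := by linarith
      rw [this]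
      ring
    rw [this]
    have : 0 ≤ (1 + 2 * t) * v ^ 2 - 1 := by linarith
    positivity
  refine (measure_mono hsub).trans ((sphere_chernoff b a ha).trans ?_)
  have hprod : ∏ i, ENNReal.ofReal (Real.sqrt (1 / (1 - 2 * a i))) =
      ENNReal.ofReal (Real.sqrt 2) * ENNReal.ofReal (Real.sqrt (1 / (1 + 2 * lam))) ^ (m - 1) := by
    rw [← Finset.mul_prod_erase Finset.univ _ (Finset.mem_univ i₀)]
    congr 1
    · simp only [a, if_true]
      norm_num
    · rw [Finset.prod_congr rfl (g := fun _ => ENNReal.ofReal (Real.sqrt (1 / (1 + 2 * lam))))]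
      · rw [Finset.prod_const, Finset.card_erase_of_mem (Finset.mem_univ _)]
        simp
      · intro i hi
        have : i ≠ i₀ := (Finset.mem_erase.mp hi).1
        simp only [a, if_neg this]
        congr 3
        ring
  rw [hprod, ← ENNReal.ofReal_pow (Real.sqrt_nonneg _),
    ← ENNReal.ofReal_mul (Real.sqrt_nonneg _)]
  apply ENNReal.ofReal_le_ofReal
  apply mul_le_mul_of_nonneg_left _ (Real.sqrt_nonneg _)
  apply pow_le_pow_left₀ (Real.sqrt_nonneg _)
  have h4 : 1 / (1 + 2 * lam) ≤ (2 * τ) ^ 2 := by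
    rw [div_le_iff₀ (by positivity)]
    have : (2 * τ) ^ 2 * (1 + 2 * lam) = 4 * τ ^ 2 + 1 := by
      rw [hlam]; field_simp; ring
    rw [this]
    nlinarith [sq_nonneg τ]
  calc Real.sqrt (1 / (1 + 2 * lam)) ≤ Real.sqrt ((2 * τ) ^ 2) := Real.sqrt_le_sqrt h4
    _ = 2 * τ := Real.sqrt_sq (by positivity)

variable {d : ℕ}

theorem sphere_meas_dir : Measurable fun g : E d => ‖g‖⁻¹ • g := by
  fun_prop

instance sig_prob : IsProbabilityMeasure (sig d) :=
  Measure.isProbabilityMeasure_map sphere_meas_dir.aemeasurable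

/-- The origin is a null set for the standard Gaussian. -/
theorem sphere_gam_zero (hd : 1 ≤ d) : gam d {0} = 0 := by
  classical
  have hd0 : 0 < d := hd
  let b : OrthonormalBasis (Fin d) ℝ (E d) := EuclideanSpace.basisFun (Fin d) ℝ
  let i₀ : Fin d := ⟨0, hd0⟩
  refine le_antisymm ?_ bot_le
  refine ENNReal.le_of_forall_pos_le_add ?_
  intro δ hδ _
  rw [zero_add]
  -- use `a i₀ = -λ` with `λ` large
  set lam : ℝ := 1 / (δ : ℝ) ^ 2 with hlam
  have hδ' : (0 : ℝ) < δ := by exact_mod_cast hδ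
  have hlam0 : 0 < lam := by positivity
  let a : Fin d → ℝ := fun i => if i = i₀ then -lam else 0
  have ha : ∀ i, a i < 1 / 2 := by
    intro i
    by_cases h : i = i₀
    · simp only [a, if_pos h]; linarith
    · simp only [a, if_neg h]; norm_num
  have hsub : ({0} : Set (E d)) ⊆ {g | 0 ≤ ∑ i, a i * (inner ℝ (b i) g) ^ 2} := by
    intro g hg
    simp only [Set.mem_singleton_iff] at hg
    simp [hg]
  refine (measure_mono hsub).trans ((sphere_chernoff b a ha).trans ?_)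
  rw [← Finset.mul_prod_erase Finset.univ _ (Finset.mem_univ i₀)]
  have hrest : ∏ i ∈ Finset.univ.erase i₀, ENNReal.ofReal (Real.sqrt (1 / (1 - 2 * a i))) = 1 := by
    apply Finset.prod_eq_one
    intro i hi
    have : i ≠ i₀ := (Finset.mem_erase.mp hi).1
    simp [a, if_neg this]
  rw [hrest, mul_one]
  simp only [a, if_true]
  rw [← ENNReal.ofReal_coe_nnreal]
  apply ENNReal.ofReal_le_ofReal
  have h4 : 1 / (1 - 2 * -lam) ≤ (δ : ℝ) ^ 2 := by
    rw [div_le_iff₀ (by linarith)]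
    have : (δ : ℝ) ^ 2 * (1 - 2 * -lam) = (δ : ℝ) ^ 2 + 2 := by
      rw [hlam]; field_simp; ring
    rw [this]
    nlinarith [sq_nonneg (δ : ℝ)]
  calc Real.sqrt (1 / (1 - 2 * -lam)) ≤ Real.sqrt ((δ : ℝ) ^ 2) := Real.sqrt_le_sqrt h4
    _ = δ := Real.sqrt_sq hδ'.le

theorem sig_sphere (hd : 1 ≤ d) : ∀ᵐ s ∂(sig d), ‖s‖ = 1 := by
  rw [sig, ae_map_iff sphere_meas_dir.aemeasurable
    (measurableSet_eq_fun (by fun_prop) measurable_const)]
  have h0 : ∀ᵐ g ∂(gam d), g ≠ 0 := by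
    rw [ae_iff]
    simpa using sphere_gam_zero hd
  filter_upwards [h0] with g hg
  rw [norm_smul, norm_inv, norm_norm, inv_mul_cancel₀ (norm_ne_zero_iff.mpr hg)]

theorem sphere_carrier_meas (Q : Cube d) : MeasurableSet Q.carrier := by
  have : Q.carrier = ⋂ l, ({x : E d | (Q.k l : ℝ) * Q.side ≤ x l} ∩
      {x : E d | x l < ((Q.k l : ℝ) + 1) * Q.side}) := by
    ext x
    simp [Cube.carrier]
  rw [this]
  refine MeasurableSet.iInter fun l => MeasurableSet.inter ?_ ?_
  · exact measurableSet_le measurable_const (by fun_prop)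
  · exact measurableSet_lt (by fun_prop) measurable_const

/-- Crude Frostman bound for the uniform law: a cube of side `t` meeting the sphere lies in a
ball of radius `t √d` around a unit vector; with `T = 2 t √d` use `cap_bound` if `T ≤ 1` and the
trivial bound otherwise. -/
theorem sig_cube {a : ℕ} (ha : a + 2 ≤ d) (Q : Cube d) :
    sig d Q.carrier ≤
      ENNReal.ofReal (Real.sqrt 2 * (2 * Real.sqrt d * Q.side) ^ (a + 1)) := by
  have hside : 0 < Q.side := by
    unfold Cube.side; positivity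
  set T : ℝ := 2 * Real.sqrt d * Q.side with hT
  have hT0 : 0 ≤ T := by positivity
  by_cases hT1 : 1 ≤ T
  · refine (prob_le_one).trans ?_
    rw [← ENNReal.ofReal_one]
    apply ENNReal.ofReal_le_ofReal
    have h1 : 1 ≤ T ^ (a + 1) := one_le_pow₀ hT1
    have h2 : 1 ≤ Real.sqrt 2 := by
      rw [Real.one_le_sqrt]; norm_num
    nlinarith
  rw [not_le] at hT1
  by_cases hne : ∃ c ∈ Q.carrier, ‖c‖ = 1
  · obtain ⟨c, hcQ, hc⟩ := hne
    set τ : ℝ := Real.sqrt d * Q.side with hτ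
    have hd0 : 0 < d := by omega
    have hτ0 : 0 < τ := by
      have : 0 < Real.sqrt d := Real.sqrt_pos.mpr (by exact_mod_cast hd0)
      positivity
    have hT2 : T = 2 * τ := by rw [hT, hτ]; ring
    have hτ2 : τ ^ 2 ≤ 1 / 2 := by nlinarith
    rw [sig, Measure.map_apply sphere_meas_dir (sphere_carrier_meas Q)]
    have hsub : (fun g : E d => ‖g‖⁻¹ • g) ⁻¹' Q.carrier ⊆ {g | ‖‖g‖⁻¹ • g - c‖ ≤ τ} := by
      intro g hg
      have hg' : ‖g‖⁻¹ • g ∈ Q.carrier := hg
      set x := ‖g‖⁻¹ • g with hx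
      simp only [Set.mem_ofPred_eq]
      rw [EuclideanSpace.norm_eq]
      rw [hτ, show Real.sqrt d * Q.side = Real.sqrt ((d : ℝ) * Q.side ^ 2) by
        rw [Real.sqrt_mul (by positivity), Real.sqrt_sq hside.le]]
      apply Real.sqrt_le_sqrt
      have : ∀ l, ‖(x - c) l‖ ^ 2 ≤ Q.side ^ 2 := by
        intro l
        have h1 := hg' l
        have h2 := hcQ l
        have h3 : |x l - c l| ≤ Q.side := by
          rw [abs_le]
          have : ((Q.k l : ℝ) + 1) * Q.side = (Q.k l : ℝ) * Q.side + Q.side := by ring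
          constructor <;> linarith [h1.1, h1.2, h2.1, h2.2]
        simp only [PiLp.sub_apply, Real.norm_eq_abs]
        exact pow_le_pow_left₀ (abs_nonneg _) h3 2
      calc ∑ l, ‖(x - c) l‖ ^ 2 ≤ ∑ _l : Fin d, Q.side ^ 2 := Finset.sum_le_sum fun l _ => this l
        _ = (d : ℝ) * Q.side ^ 2 := by simp
    refine (measure_mono hsub).trans ((cap_bound c hc hτ0 hτ2).trans ?_)
    apply ENNReal.ofReal_le_ofReal
    apply mul_le_mul_of_nonneg_left _ (Real.sqrt_nonneg _)
    rw [← hT2]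
    have hfin : Module.finrank ℝ (E d) = d := by simp
    rw [hfin]
    exact pow_le_pow_of_le_one hT0 hT1.le (by omega)
  · have hnull : sig d {s | ¬ ‖s‖ = 1} = 0 := by
      have := sig_sphere (d := d) (by omega)
      rwa [ae_iff] at this
    have : sig d Q.carrier ≤ sig d {s | ¬ ‖s‖ = 1} := by
      apply measure_mono
      intro x hx hx1
      exact hne ⟨x, hx, hx1⟩
    rw [hnull] at this
    exact this.trans bot_le

/-- The elementary numerical bound in `good_prob`. -/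
theorem sphere_num_bound {k d : ℕ} (hk : 1 ≤ k) (h8 : 8 * k ≤ d) :
    Real.sqrt 2 ^ k * Real.sqrt (2 / 5) ^ (d - k) ≤ 1 / 6 := by
  have hX : (Real.sqrt 2 ^ k * Real.sqrt (2 / 5) ^ (d - k)) ^ 2 ≤ (1 / 6 : ℝ) ^ 2 := by
    rw [mul_pow, ← pow_mul, ← pow_mul, mul_comm k 2, mul_comm (d - k) 2, pow_mul, pow_mul,
      Real.sq_sqrt (by norm_num), Real.sq_sqrt (by norm_num)]
    obtain ⟨l, hl⟩ : ∃ l, d = 8 * k + l := ⟨d - 8 * k, by omega⟩
    have hdk : d - k = 7 * k + l := by omega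
    rw [hdk, pow_add, mul_comm 7 k, pow_mul]
    have h1 : ((2 : ℝ) / 5) ^ l ≤ 1 := pow_le_one₀ (by norm_num) (by norm_num)
    have h2 : (0 : ℝ) ≤ ((2 : ℝ) / 5) ^ l := by positivity
    have h3 : (2 : ℝ) ^ k * (((2 : ℝ) / 5) ^ k) ^ 7 = (2 * ((2 : ℝ) / 5) ^ 7) ^ k := by
      rw [← pow_mul, mul_comm k 7, pow_mul, mul_pow]
    have h4 : (2 * ((2 : ℝ) / 5) ^ 7) ^ k ≤ (2 * ((2 : ℝ) / 5) ^ 7) ^ 1 :=
      pow_le_pow_of_le_one (by norm_num) (by norm_num) hk
    have h5 : (2 * ((2 : ℝ) / 5) ^ 7) ^ 1 ≤ (1 / 6 : ℝ) ^ 2 := by norm_num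
    rw [← mul_assoc]
    calc (2 : ℝ) ^ k * (((2 : ℝ) / 5) ^ k) ^ 7 * ((2 : ℝ) / 5) ^ l
        ≤ (2 : ℝ) ^ k * (((2 : ℝ) / 5) ^ k) ^ 7 * 1 :=
          mul_le_mul_of_nonneg_left h1 (by positivity)
      _ = (2 * ((2 : ℝ) / 5) ^ 7) ^ k := by rw [mul_one, h3]
      _ ≤ (1 / 6 : ℝ) ^ 2 := h4.trans h5
  exact (pow_le_pow_iff_left₀ (by positivity) (by norm_num) (by norm_num)).mp hX

/-- Mean square of the projection replaced by Chernoff: the event means `3 ‖P⊥ g‖² < ‖P g‖²`,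
and `E exp (‖P g‖²/4 - 3 ‖P⊥ g‖²/4) = √2 ^ k √(2/5) ^ (d-k) ≤ 1/6`. -/
theorem good_prob {D : ℕ} (hD : 8 * D ≤ d) (hd : 1 ≤ d) (W : Submodule ℝ (E d))
    (hW : Module.finrank ℝ W ≤ D) :
    sig d {s | dsub W s < 1 / 2} ≤ ENNReal.ofReal (1 / 6) := by
  classical
  set k := Module.finrank ℝ W with hk
  have hmeas : MeasurableSet {s : E d | dsub W s < 1 / 2} := by
    apply measurableSet_lt _ measurable_const
    exact (Metric.continuous_infDist_pt (W : Set (E d))).measurable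
  by_cases hk0 : k = 0
  · have hW0 : W = ⊥ := Submodule.finrank_eq_zero.mp hk0
    subst hW0
    have hnull : sig d {s | ¬ ‖s‖ = 1} = 0 := by
      have := sig_sphere (d := d) hd
      rwa [ae_iff] at this
    have hsub : {s : E d | dsub (⊥ : Submodule ℝ (E d)) s < 1 / 2} ⊆ {s | ¬ ‖s‖ = 1} := by
      intro s hs hs1
      simp only [Set.mem_ofPred_eq, dsub, Submodule.bot_coe, Metric.infDist_singleton, dist_zero_right,
        hs1] at hs
      norm_num at hs
    calc sig d {s : E d | dsub (⊥ : Submodule ℝ (E d)) s < 1 / 2} ≤ sig d {s | ¬ ‖s‖ = 1} :=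
          measure_mono hsub
      _ = 0 := hnull
      _ ≤ _ := bot_le
  have hk1 : 1 ≤ k := by omega
  have hkd : 8 * k ≤ d := by omega
  have hcard : Module.finrank ℝ (E d) = Fintype.card (Fin k ⊕ Fin (d - k)) := by
    simp
    omega
  let e : OrthonormalBasis (Fin k) ℝ W := stdOrthonormalBasis ℝ W |>.reindex (Equiv.refl _)
  let v : Fin k ⊕ Fin (d - k) → E d := Sum.elim (fun j => (e j : E d)) (fun _ => 0)
  have hon : Orthonormal ℝ ((Set.range (Sum.inl : Fin k → Fin k ⊕ Fin (d - k))).domRestrict v) := by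
    constructor
    · rintro ⟨_, j, rfl⟩
      have h1 : ‖(e j : E d)‖ = 1 := e.orthonormal.1 j
      simpa [v, Set.domRestrict] using h1
    · rintro ⟨_, j, rfl⟩ ⟨_, j', rfl⟩ hne
      have hjj : j ≠ j' := fun h => hne (by rw [h])
      have := e.orthonormal.2 hjj
      simpa [v, Set.domRestrict] using this
  obtain ⟨b, hb⟩ := Orthonormal.exists_orthonormalBasis_extension_of_card_eq
    (𝕜 := ℝ) (E := E d) hcard hon
  have hbl : ∀ j, b (Sum.inl j) = (e j : E d) := fun j => by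
    rw [hb (Sum.inl j) ⟨j, rfl⟩]; rfl
  have hperp : ∀ (i : Fin (d - k)) (y : E d), y ∈ W → inner ℝ (b (Sum.inr i)) y = 0 := by
    intro i y hy
    have hy' : (⟨y, hy⟩ : W) = ∑ j, (e.repr ⟨y, hy⟩ j) • e j := (e.sum_repr _).symm
    have hy2 : y = ∑ j, (e.repr ⟨y, hy⟩ j) • (e j : E d) := by
      have := congrArg (Subtype.val) hy'
      simpa using this
    rw [hy2, inner_sum]
    apply Finset.sum_eq_zero
    intro j _
    rw [inner_smul_right, ← hbl j, b.inner_eq_ite]
    simp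
  let a : Fin k ⊕ Fin (d - k) → ℝ := Sum.elim (fun _ => 1 / 4) (fun _ => -(3 / 4))
  have ha : ∀ i, a i < 1 / 2 := by
    rintro (i | i)
    · simp only [a, Sum.elim_inl]; norm_num
    · simp only [a, Sum.elim_inr]; norm_num
  have hsub : (fun g : E d => ‖g‖⁻¹ • g) ⁻¹' {s | dsub W s < 1 / 2} ⊆
      {g | 0 ≤ ∑ i, a i * (inner ℝ (b i) g) ^ 2} := by
    intro g hg
    have hg' : dsub W (‖g‖⁻¹ • g) < 1 / 2 := hg
    simp only [Set.mem_ofPred_eq]
    by_cases hg0 : g = 0
    · simp [hg0]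
    have hr : 0 < ‖g‖ := norm_pos_iff.mpr hg0
    set r := ‖g‖ with hrdef
    set u := r⁻¹ • g with hu
    have hne : (W : Set (E d)).Nonempty := ⟨0, W.zero_mem⟩
    obtain ⟨y, hyW, hy⟩ := (Metric.infDist_lt_iff hne).mp hg'
    rw [Fintype.sum_sum_type]
    simp only [a, Sum.elim_inl, Sum.elim_inr]
    set A := ∑ j, (inner ℝ (b (Sum.inl j)) g) ^ 2 with hA
    set B := ∑ j, (inner ℝ (b (Sum.inr j)) g) ^ 2 with hB
    have hAB : A + B = r ^ 2 := by
      have := b.sum_sq_inner_right g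
      rw [Fintype.sum_sum_type] at this
      exact this
    have hBle : B ≤ r ^ 2 * ‖u - y‖ ^ 2 := by
      have h1 : ∀ j, inner ℝ (b (Sum.inr j)) g = r * inner ℝ (b (Sum.inr j)) (u - y) := by
        intro j
        rw [inner_sub_right, hperp j y hyW, sub_zero, hu, inner_smul_right]
        field_simp
      have h2 := b.sum_sq_inner_right (u - y)
      rw [Fintype.sum_sum_type] at h2
      have h3 : B = r ^ 2 * ∑ j, (inner ℝ (b (Sum.inr j)) (u - y)) ^ 2 := by
        rw [hB, Finset.mul_sum]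
        refine Finset.sum_congr rfl fun j _ => ?_
        rw [h1 j]; ring
      rw [h3]
      apply mul_le_mul_of_nonneg_left _ (by positivity)
      rw [← h2]
      have : 0 ≤ ∑ j, (inner ℝ (b (Sum.inl j)) (u - y)) ^ 2 :=
        Finset.sum_nonneg fun j _ => sq_nonneg _
      linarith
    have hy2 : ‖u - y‖ ^ 2 ≤ (1 / 2 : ℝ) ^ 2 := by
      rw [← dist_eq_norm]
      exact pow_le_pow_left₀ dist_nonneg hy.le 2
    have hB4 : B ≤ r ^ 2 / 4 := by
      have : r ^ 2 * ‖u - y‖ ^ 2 ≤ r ^ 2 * (1 / 2 : ℝ) ^ 2 :=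
        mul_le_mul_of_nonneg_left hy2 (by positivity)
      nlinarith
    have hsums : (∑ j : Fin k, (1 / 4 : ℝ) * (inner ℝ (b (Sum.inl j)) g) ^ 2) +
        ∑ j : Fin (d - k), -(3 / 4 : ℝ) * (inner ℝ (b (Sum.inr j)) g) ^ 2 =
        1 / 4 * A - 3 / 4 * B := by
      rw [hA, hB, Finset.mul_sum, Finset.mul_sum, sub_eq_add_neg, ← Finset.sum_neg_distrib]
      congr 1
      refine Finset.sum_congr rfl fun j _ => ?_
      ring
    rw [hsums]
    nlinarith
  rw [sig, Measure.map_apply sphere_meas_dir hmeas]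
  refine (measure_mono hsub).trans ((sphere_chernoff b a ha).trans ?_)
  rw [Fintype.prod_sum_type]
  simp only [a, Sum.elim_inl, Sum.elim_inr, Finset.prod_const, Finset.card_univ, Fintype.card_fin]
  rw [← ENNReal.ofReal_pow (Real.sqrt_nonneg _), ← ENNReal.ofReal_pow (Real.sqrt_nonneg _),
    ← ENNReal.ofReal_mul (by positivity)]
  apply ENNReal.ofReal_le_ofReal
  have h1 : (1 : ℝ) / (1 - 2 * (1 / 4)) = 2 := by norm_num
  have h2 : (1 : ℝ) / (1 - 2 * -(3 / 4)) = 2 / 5 := by norm_num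
  rw [h1, h2]
  exact sphere_num_bound hk1 hkd

end P309
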