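import Vale.Agent.Lib.P309.Piece
import Vale.Agent.Lib.P309.Flat
import Vale.Agent.Lib.P309.CZ
import Vale.Agent.Lib.P309.Count
import Vale.Agent.Lib.P309.Mix
import Vale.Agent.Lib.P309.Sphere

/-! # P309 module Epoch: the reference kernel for one epoch -/

open MeasureTheory ProbabilityTheory
open scoped ENNReal NNReal Classical

namespace P309

variable {d w M : ℕ}

/-- The candidate test for a cube. -/
def candT {D : ℕ} (Q : Cube d) (z : (Fin D → E d) × (Fin D → ℝ)) : Prop :=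
  ∑ l, ((inner ℝ (z.1 l) Q.center : ℝ) - z.2 l) ^ 2 ≤ (D : ℝ) * (Q.side * Real.sqrt d) ^ 2

lemma measurable_lab {D : ℕ} : Measurable fun p : (Fin D → E d) × E d => lab p.1 p.2 := by
  unfold lab
  refine measurable_pi_lambda _ fun i => ?_
  have : Measurable fun p : (Fin D → E d) × E d => (p.1 i, p.2) :=
    ((measurable_pi_apply i).comp measurable_fst).prodMk measurable_snd
  exact (continuous_inner.measurable).comp this

lemma candT_measurable {D : ℕ} (Q : Cube d) :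
    MeasurableSet {z : (Fin D → E d) × (Fin D → ℝ) | candT Q z} := by
  unfold candT
  refine measurableSet_le ?_ measurable_const
  refine Finset.measurable_sum _ fun l _ => ?_
  refine Measurable.pow_const (Measurable.sub ?_ ?_) 2
  · have : Measurable fun z : (Fin D → E d) × (Fin D → ℝ) => (z.1 l, Q.center) :=
      ((measurable_pi_apply l).comp measurable_fst).prodMk measurable_const
    exact (continuous_inner.measurable).comp this
  · exact (measurable_pi_apply l).comp measurable_snd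

lemma lab_sub_eq {D : ℕ} (Z : Fin D → E d) (c s : E d) (l : Fin D) :
    (inner ℝ (Z l) c : ℝ) - lab Z s l = inner ℝ (Z l) (c - s) := by
  simp [lab, inner_sub_right]

/-- The true piece is a candidate with high probability. -/
lemma candT_fail {D : ℕ} (hd : 1 ≤ d) (Q : Cube d) {s : E d} (hs : s ∈ Q.carrier) :
    gamR d D {Z | ¬ candT Q (Z, lab Z s)} ≤ ENNReal.ofReal (Real.exp (-((D : ℝ) / 2))) := by
  have hsd : 0 < Real.sqrt d := Real.sqrt_pos.mpr (by exact_mod_cast hd)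
  have hκ : 0 < Q.side * Real.sqrt d / 2 := by
    have := Q.side_pos; positivity
  have hΔ : ‖Q.center - s‖ ≤ Q.side * Real.sqrt d / 2 := by
    rw [norm_sub_rev]; exact Q.norm_sub_center_le hs
  refine le_trans (measure_mono ?_) (chi_upper (n := D) (Q.center - s) hκ hΔ)
  intro Z hZ
  simp only [Set.mem_setOf_eq, candT, not_le] at hZ ⊢
  have : ∀ l, ((inner ℝ (Z l) Q.center : ℝ) - lab Z s l) ^ 2 = (inner ℝ (Z l) (Q.center - s) : ℝ) ^ 2 := by
    intro l; rw [lab_sub_eq]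
  simp only [this] at hZ
  calc 4 * (D : ℝ) * (Q.side * Real.sqrt d / 2) ^ 2 = (D : ℝ) * (Q.side * Real.sqrt d) ^ 2 := by ring
    _ < _ := hZ

/-- Chance of a candidate at a given cube. -/
lemma candT_prob {D : ℕ} (hd : 1 ≤ d) (Q : Cube d) (s : E d) :
    gamR d D {Z | candT Q (Z, lab Z s)} ≤
      ENNReal.ofReal (candWeight (Q.side * Real.sqrt d) D ‖Q.center - s‖) := by
  have hsd : 0 < Real.sqrt d := Real.sqrt_pos.mpr (by exact_mod_cast hd)
  have hϱ : 0 < Q.side * Real.sqrt d := mul_pos Q.side_pos hsd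
  unfold candWeight
  split_ifs with h
  · simpa using (prob_le_one : gamR d D {Z | candT Q (Z, lab Z s)} ≤ 1)
  · have hne : Q.center - s ≠ 0 := by
      intro h0
      rw [h0, norm_zero] at h
      exact h hϱ.le
    refine le_trans (measure_mono ?_) (chi_lower (D := D) (Q.center - s) hne hϱ)
    intro Z hZ
    simp only [Set.mem_setOf_eq, candT] at hZ ⊢
    have : ∀ l, ((inner ℝ (Z l) Q.center : ℝ) - lab Z s l) ^ 2 = (inner ℝ (Z l) (Q.center - s) : ℝ) ^ 2 := by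
      intro l; rw [lab_sub_eq]
    simpa only [this] using hZ


/-- Expected number of candidates. -/
lemma expected_count {D a : ℕ} (hd : 1 ≤ d) (hD : a + 1 ≤ D) (hDd : D ≤ d) (F : Finset (Cube d))
    (i : ℤ) (hi : ∀ Q ∈ F, Q.i = i)
    (hcount : ∀ Q'' : Cube d, Q''.i ≤ i →
      (((F.filter fun Q => Q.carrier ⊆ Q''.carrier).card : ℕ) : ℝ) ≤
        2 * (Q''.side / (2 : ℝ) ^ (-i)) ^ a)
    (s : E d) :
    ∫ Z, (((F.filter fun Q => candT Q (Z, lab Z s)).card : ℕ) : ℝ) ∂(gamR d D) ≤ 4 * 30 ^ d := by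
  have hmeas : ∀ Q : Cube d, MeasurableSet {Z : Fin D → E d | candT Q (Z, lab Z s)} := by
    intro Q
    have h1 : Measurable fun Z : Fin D → E d => (Z, lab Z s) :=
      measurable_id.prodMk (measurable_lab.comp (measurable_id.prodMk measurable_const))
    exact h1 (candT_measurable Q)
  have hcard : ∀ Z : Fin D → E d, (((F.filter fun Q => candT Q (Z, lab Z s)).card : ℕ) : ℝ) =
      ∑ Q ∈ F, Set.indicator {Z : Fin D → E d | candT Q (Z, lab Z s)} (fun _ => (1 : ℝ)) Z := by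
    intro Z
    rw [Finset.card_filter]
    push_cast
    refine Finset.sum_congr rfl fun Q _ => ?_
    by_cases h : candT Q (Z, lab Z s) <;> simp [Set.indicator, h]
  simp_rw [hcard]
  rw [integral_finset_sum]
  · refine le_trans (Finset.sum_le_sum fun Q hQ => ?_) (count_sum hd hD hDd F i hi hcount s)
    rw [integral_indicator_const _ (hmeas Q)]
    simp only [smul_eq_mul, mul_one]
    have h1 := candT_prob (D := D) hd Q s
    have hside : Q.side = (2 : ℝ) ^ (-i) := by simp [Cube.side, hi Q hQ]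
    rw [hside] at h1
    have hnn : 0 ≤ candWeight ((2 : ℝ) ^ (-i) * Real.sqrt d) D ‖Q.center - s‖ := by
      unfold candWeight
      split_ifs
      · norm_num
      · positivity
    exact ENNReal.toReal_le_of_le_ofReal hnn h1
  · intro Q _
    exact (integrable_const (1 : ℝ)).indicator (hmeas Q)

/-- The data of one piece. -/
lemma exists_piece_kernel (hw : 1 ≤ w) (hd : 64 * w ≤ d) (μ : Measure (E d)) [IsFiniteMeasure μ]
    {lam0 : ℝ} (h0 : 0 < lam0)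
    (hμ : ∀ Q : Cube d, μ Q.carrier ≤ ENNReal.ofReal (2 * lam0 * Q.side ^ (4 * w)))
    (G : (Fin w → E d) × (Fin w → ℝ) → Fin (2 ^ M) → ℝ) (hGm : ∀ v, Measurable fun z => G z v)
    (hGp : ∀ z, IsProb (G z)) (j : ℕ) (Q : Cube d) (hQ : czSel μ (4 * w) lam0 j Q) :
    ∃ q : Fin (2 ^ M) → ℝ, IsProb q ∧ (∀ v, 1 / (2 * (2 : ℝ) ^ M) ≤ q v) ∧
      ∫ s in Q.carrier ∩ czR μ (4 * w) lam0 j, KL (Ks G s) q ∂μ ≤
        μ.real (Q.carrier ∩ czR μ (4 * w) lam0 j) *
          (2 / ((w : ℝ) + 2) * ((M : ℝ) * Real.log 2) + (7 * (d : ℝ) + 5) +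
            Real.exp (-((w : ℝ) / 2)) * (((M : ℝ) + 1) * Real.log 2)) := by
  have hd1 : 1 ≤ d := by omega
  have ha1 : 1 ≤ 4 * w := by omega
  set S := Q.carrier ∩ czR μ (4 * w) lam0 j with hSdef
  have hr := Q.side_pos
  have hlam : 0 < lam0 / 2 ^ j := by positivity
  have hlow : ENNReal.ofReal (lam0 / 2 ^ j * Q.side ^ (4 * w)) ≤ μ S := cz_lower hQ
  have hpos : 0 < lam0 / 2 ^ j * Q.side ^ (4 * w) := by positivity
  have hmass0 : μ S ≠ 0 := (lt_of_lt_of_le (ENNReal.ofReal_pos.mpr hpos) hlow).ne'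
  have hmasstop : μ S ≠ ⊤ := measure_ne_top _ _
  have hSm : MeasurableSet S := Q.measurableSet_carrier.inter (czR_measurable j)
  let ν : Measure (E d) := ProbabilityTheory.cond μ S
  haveI : IsProbabilityMeasure ν := cond_isProbabilityMeasure hmass0
  have hνapply : ∀ A, ν A = (μ S)⁻¹ * μ (S ∩ A) := fun A => cond_apply hSm μ A
  have hsupp : ν Q.carrierᶜ = 0 := by
    rw [hνapply]
    have : S ∩ Q.carrierᶜ = ∅ := by
      ext x; simp only [hSdef, Set.mem_inter_iff, Set.mem_compl_iff, Set.mem_empty_iff_false,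
        iff_false]; tauto
    simp [this]
  have hfrost : ∀ Q' : Cube d, Q.i ≤ Q'.i →
      ν Q'.carrier ≤ ENNReal.ofReal (2 * (Q'.side / Q.side) ^ (4 * w)) := by
    intro Q' _
    rw [hνapply]
    have h1 : μ (S ∩ Q'.carrier) ≤ μ (Q'.carrier ∩ czR μ (4 * w) lam0 j) := by
      refine measure_mono ?_
      intro x hx
      exact ⟨hx.2, hx.1.2⟩
    have h2 := cz_upper ha1 h0 hμ j Q'
    have hQ'r := Q'.side_pos
    have h3 : (μ S)⁻¹ ≤ (ENNReal.ofReal (lam0 / 2 ^ j * Q.side ^ (4 * w)))⁻¹ :=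
      ENNReal.inv_le_inv.mpr hlow
    calc (μ S)⁻¹ * μ (S ∩ Q'.carrier)
        ≤ (ENNReal.ofReal (lam0 / 2 ^ j * Q.side ^ (4 * w)))⁻¹ *
            ENNReal.ofReal (2 * (lam0 / 2 ^ j) * Q'.side ^ (4 * w)) :=
          mul_le_mul' h3 (h1.trans h2)
      _ = ENNReal.ofReal (2 * (Q'.side / Q.side) ^ (4 * w)) := by
          rw [← ENNReal.ofReal_inv_of_pos hpos, ← ENNReal.ofReal_mul (inv_nonneg.mpr hpos.le)]
          congr 1
          rw [div_pow]
          field_simp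
  have han : w + 2 * w + 1 ≤ 4 * w := by omega
  have hflat := flat_of_frostman (a := 4 * w) (n := w) (w := w) hd1 han ν Q hsupp hfrost
  have hsd : 0 < Real.sqrt d := Real.sqrt_pos.mpr (by exact_mod_cast hd1)
  have hκ : 0 < Q.side * Real.sqrt d / 2 := by positivity
  have hsupp' : ∀ᵐ s ∂ν, ‖s - Q.center‖ ≤ Q.side * Real.sqrt d / 2 := by
    have : ∀ᵐ s ∂ν, s ∈ Q.carrier := by
      rw [ae_iff]; exact hsupp
    filter_upwards [this] with s hs using Q.norm_sub_center_le hs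
  have hL : 0 < 2 ^ M := by positivity
  obtain ⟨q, hq, hql, hint⟩ := piece_bound (L := 2 ^ M) hL (by omega : 0 < w) ν Q.center hκ hsupp'
    ENNReal.ofReal_ne_top hflat G hGm hGp
  have hcast : ((2 ^ M : ℕ) : ℝ) = (2 : ℝ) ^ M := by push_cast; ring
  refine ⟨q, hq, fun v => ?_, ?_⟩
  · have := hql v
    rwa [hcast] at this
  -- the logarithmic constant
  have hb0 : 0 ≤ (((Q.side ^ 2 * (d : ℝ))⁻¹) ^ w * (1 + 4 * 4 ^ w * 14 ^ d) : ℝ) := by positivity
  have hdpos : (0 : ℝ) < d := by exact_mod_cast hd1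
  have hX : 4 * (16 * Real.exp 1 * (Q.side * Real.sqrt d / 2) ^ 2) ^ w *
      (ENNReal.ofReal (((Q.side ^ 2 * (d : ℝ))⁻¹) ^ w * (1 + 4 * 4 ^ w * 14 ^ d))).toReal
      = 4 * (4 * Real.exp 1) ^ w * (1 + 4 * 4 ^ w * 14 ^ d) := by
    rw [ENNReal.toReal_ofReal hb0, ← mul_assoc, mul_assoc 4, ← mul_pow]
    have : 16 * Real.exp 1 * (Q.side * Real.sqrt d / 2) ^ 2 * (Q.side ^ 2 * (d : ℝ))⁻¹ =
        4 * Real.exp 1 := by
      have h2 : (Q.side * Real.sqrt d / 2) ^ 2 = Q.side ^ 2 * (d : ℝ) / 4 := by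
        rw [div_pow, mul_pow, Real.sq_sqrt hdpos.le]; norm_num
      rw [h2]
      field_simp
      ring
    rw [this]
  have hexp3 : Real.exp 1 ≤ 3 := by
    have := Real.exp_one_lt_d9; linarith
  have hexp2 : (2.7 : ℝ) ≤ Real.exp 1 := by
    have := Real.exp_one_gt_d9; linarith
  have hwd : w ≤ d := by omega
  have hbound : 2 * max 1 (4 * (4 * Real.exp 1) ^ w * (1 + 4 * 4 ^ w * 14 ^ d)) ≤
      40 * (672 : ℝ) ^ d := by
    have h672 : (1 : ℝ) ≤ 672 ^ d := one_le_pow₀ (by norm_num)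
    have h14 : (1 : ℝ) ≤ 14 ^ d := one_le_pow₀ (by norm_num)
    have h4w : (1 : ℝ) ≤ 4 ^ w := one_le_pow₀ (by norm_num)
    have h1 : (1 + 4 * 4 ^ w * 14 ^ d : ℝ) ≤ 5 * (4 ^ w * 14 ^ d) := by
      have : (1 : ℝ) ≤ 4 ^ w * 14 ^ d := one_le_mul_of_one_le_of_one_le h4w h14
      nlinarith
    have h2 : (4 * Real.exp 1) ^ w ≤ (12 : ℝ) ^ w :=
      pow_le_pow_left₀ (by positivity) (by linarith) w
    have h3 : (12 : ℝ) ^ w * 4 ^ w ≤ 48 ^ d := by
      rw [← mul_pow]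
      calc ((12 : ℝ) * 4) ^ w ≤ (12 * 4) ^ d := pow_le_pow_right₀ (by norm_num) hwd
        _ = 48 ^ d := by norm_num
    have h4 : (48 : ℝ) ^ d * 14 ^ d = 672 ^ d := by rw [← mul_pow]; norm_num
    have h5 : 4 * (4 * Real.exp 1) ^ w * (1 + 4 * 4 ^ w * 14 ^ d) ≤ 20 * (672 : ℝ) ^ d := by
      calc 4 * (4 * Real.exp 1) ^ w * (1 + 4 * 4 ^ w * 14 ^ d)
          ≤ 4 * (12 : ℝ) ^ w * (5 * (4 ^ w * 14 ^ d)) := by
            gcongr
        _ = 20 * (((12 : ℝ) ^ w * 4 ^ w) * 14 ^ d) := by ring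
        _ ≤ 20 * ((48 : ℝ) ^ d * 14 ^ d) := by gcongr
        _ = 20 * (672 : ℝ) ^ d := by rw [h4]
    rcases max_cases (1 : ℝ) (4 * (4 * Real.exp 1) ^ w * (1 + 4 * 4 ^ w * 14 ^ d)) with ⟨h, _⟩ | ⟨h, _⟩
    · rw [h]; linarith
    · rw [h]; linarith
  have hlog : Real.log (2 * max 1 (4 * (4 * Real.exp 1) ^ w * (1 + 4 * 4 ^ w * 14 ^ d))) ≤
      7 * (d : ℝ) + 4 := by
    have hposm : 0 < 2 * max 1 (4 * (4 * Real.exp 1) ^ w * (1 + 4 * 4 ^ w * 14 ^ d)) := by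
      have : (1 : ℝ) ≤ max 1 (4 * (4 * Real.exp 1) ^ w * (1 + 4 * 4 ^ w * 14 ^ d)) := le_max_left _ _
      linarith
    refine (Real.log_le_log hposm hbound).trans ?_
    rw [Real.log_mul (by norm_num) (by positivity), Real.log_pow]
    have h40 : Real.log 40 ≤ 4 := by
      rw [Real.log_le_iff_le_exp (by norm_num)]
      calc (40 : ℝ) ≤ 2.7 ^ 4 := by norm_num
        _ ≤ Real.exp 1 ^ 4 := pow_le_pow_left₀ (by norm_num) hexp2 4
        _ = Real.exp 4 := by rw [← Real.exp_nat_mul]; norm_num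
    have h672 : Real.log 672 ≤ 7 := by
      rw [Real.log_le_iff_le_exp (by norm_num)]
      calc (672 : ℝ) ≤ 2.7 ^ 7 := by norm_num
        _ ≤ Real.exp 1 ^ 7 := pow_le_pow_left₀ (by norm_num) hexp2 7
        _ = Real.exp 7 := by rw [← Real.exp_nat_mul]; norm_num
    have : (d : ℝ) * Real.log 672 ≤ d * 7 := mul_le_mul_of_nonneg_left h672 hdpos.le
    linarith
  have hlogL : Real.log ((2 ^ M : ℕ) : ℝ) = (M : ℝ) * Real.log 2 := by
    rw [hcast, Real.log_pow]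
  have hlog2L : Real.log (2 * ((2 ^ M : ℕ) : ℝ)) = ((M : ℝ) + 1) * Real.log 2 := by
    rw [hcast, ← pow_succ', Real.log_pow]; push_cast; ring
  rw [hX, hlogL, hlog2L] at hint
  have hint' : ∫ s, KL (Ks G s) q ∂ν ≤
      2 / ((w : ℝ) + 2) * ((M : ℝ) * Real.log 2) + (7 * (d : ℝ) + 5) +
            Real.exp (-((w : ℝ) / 2)) * (((M : ℝ) + 1) * Real.log 2) := by
    linarith
  have hνint : ∫ s, KL (Ks G s) q ∂ν = (μ S)⁻¹.toReal * ∫ s in S, KL (Ks G s) q ∂μ := by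
    show ∫ s, KL (Ks G s) q ∂((μ S)⁻¹ • μ.restrict S) = _
    rw [integral_smul_measure, smul_eq_mul]
  have hreal : 0 < μ.real S := ENNReal.toReal_pos hmass0 hmasstop
  have hinvreal : (μ S)⁻¹.toReal = (μ.real S)⁻¹ := by
    rw [ENNReal.toReal_inv]; rfl
  rw [hνint, hinvreal] at hint'
  calc ∫ s in S, KL (Ks G s) q ∂μ = μ.real S * ((μ.real S)⁻¹ * ∫ s in S, KL (Ks G s) q ∂μ) := by
        field_simp
    _ ≤ _ := mul_le_mul_of_nonneg_left hint' hreal.le


/-- Preliminaries on the threshold. -/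
lemma epoch_prelim (hw : 1 ≤ w) (hd : 64 * w ≤ d) (μ : Measure (E d)) [IsProbabilityMeasure μ]
    {F : ℝ} (hF1 : 1 ≤ F) (hF : ∀ A, MeasurableSet A → μ A ≤ ENNReal.ofReal F * sig d A) :
    1 ≤ F * Real.sqrt 2 * (2 * Real.sqrt d) ^ (4 * w + 1) ∧
    (∀ Q : Cube d, μ Q.carrier ≤ ENNReal.ofReal
      (F * Real.sqrt 2 * (2 * Real.sqrt d) ^ (4 * w + 1) * Q.side ^ (4 * w + 1))) ∧
    (∀ Q : Cube d, μ Q.carrier ≤ ENNReal.ofReal
      (2 * (F * Real.sqrt 2 * (2 * Real.sqrt d) ^ (4 * w + 1)) * Q.side ^ (4 * w))) ∧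
    (∀ᵐ s ∂μ, ‖s‖ ≤ 1) := by
  have hd1 : 1 ≤ d := by omega
  have ha2 : 4 * w + 2 ≤ d := by omega
  have hd64 : (64 : ℝ) ≤ d := by
    have : 64 ≤ d := by omega
    exact_mod_cast this
  have hs2 : 1 ≤ Real.sqrt 2 := by
    rw [show (1 : ℝ) = Real.sqrt 1 by simp]
    exact Real.sqrt_le_sqrt (by norm_num)
  have hsd : 1 ≤ 2 * Real.sqrt d := by
    have : 1 ≤ Real.sqrt d := by
      rw [show (1 : ℝ) = Real.sqrt 1 by simp]
      exact Real.sqrt_le_sqrt (by linarith)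
    linarith
  set lam0 : ℝ := F * Real.sqrt 2 * (2 * Real.sqrt d) ^ (4 * w + 1) with hlam
  have hpw : 1 ≤ (2 * Real.sqrt d) ^ (4 * w + 1) := one_le_pow₀ hsd
  have hlam1 : 1 ≤ lam0 := by
    rw [hlam]
    have : 1 ≤ F * Real.sqrt 2 := one_le_mul_of_one_le_of_one_le hF1 hs2
    exact one_le_mul_of_one_le_of_one_le this hpw
  have hμ1 : μ Set.univ ≤ 1 := by simp
  have hμa : ∀ Q : Cube d, μ Q.carrier ≤ ENNReal.ofReal (lam0 * Q.side ^ (4 * w + 1)) := by
    intro Q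
    refine (hF _ Q.measurableSet_carrier).trans ?_
    refine (mul_le_mul_right (sig_cube ha2 Q) _).trans ?_
    rw [← ENNReal.ofReal_mul (by linarith)]
    apply ENNReal.ofReal_le_ofReal
    apply le_of_eq
    rw [hlam, mul_pow]; ring
  have hμb : ∀ Q : Cube d, μ Q.carrier ≤ ENNReal.ofReal (2 * lam0 * Q.side ^ (4 * w)) := by
    intro Q
    have hr := Q.side_pos
    by_cases h : Q.side ≤ 1
    · refine (hμa Q).trans (ENNReal.ofReal_le_ofReal ?_)
      have : Q.side ^ (4 * w + 1) ≤ Q.side ^ (4 * w) := pow_le_pow_of_le_one hr.le h (by omega)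
      have h2 : 0 ≤ Q.side ^ (4 * w) := by positivity
      nlinarith
    · have h1 : 1 ≤ Q.side ^ (4 * w) := one_le_pow₀ (by linarith)
      refine (measure_mono (Set.subset_univ _)).trans (hμ1.trans ?_)
      rw [show (1 : ℝ≥0∞) = ENNReal.ofReal 1 by simp]
      apply ENNReal.ofReal_le_ofReal
      nlinarith
  refine ⟨hlam1, hμa, hμb, ?_⟩
  have h1 := sig_sphere hd1
  rw [ae_iff] at h1 ⊢
  have hm : MeasurableSet {s : E d | ¬ ‖s‖ = 1} :=
    (measurableSet_eq_fun measurable_norm measurable_const).compl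
  have h2 := hF _ hm
  rw [h1, mul_zero] at h2
  refine measure_mono_null ?_ (le_antisymm h2 zero_le)
  intro s hs
  simp only [Set.mem_setOf_eq, not_le] at hs ⊢
  exact hs.ne'

/-- The mass of the residual set. -/
lemma rem_bound {μ : Measure (E d)} [IsProbabilityMeasure μ] {lam0 : ℝ} (ha1 : 1 ≤ 4 * w)
    (hlam0 : 0 < lam0) (hsupp : ∀ᵐ s ∂μ, ‖s‖ ≤ 1) {J : ℕ} (hJ1 : 1 ≤ J)
    (hJ : (2 : ℝ) ^ (d + 4 * w + 1) * lam0 * ((M : ℝ) + 1) ≤ 2 ^ J) :
    μ.real (czR μ (4 * w) lam0 J) * (((M : ℝ) + 1) * Real.log 2) ≤ Real.log 2 := by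
  obtain ⟨J', rfl⟩ : ∃ J', J = J' + 1 := ⟨J - 1, by omega⟩
  have h1 := cz_remainder ha1 hlam0 hsupp J'
  have hM : (0 : ℝ) < (M : ℝ) + 1 := by positivity
  have hnn : (0 : ℝ) ≤ 2 ^ d * (lam0 / 2 ^ J' * 2 ^ (4 * w)) := by positivity
  have h2 : μ.real (czR μ (4 * w) lam0 (J' + 1)) ≤ 2 ^ d * (lam0 / 2 ^ J' * 2 ^ (4 * w)) :=
    ENNReal.toReal_le_of_le_ofReal hnn h1
  have h3 : (2 : ℝ) ^ d * (lam0 / 2 ^ J' * 2 ^ (4 * w)) * ((M : ℝ) + 1) ≤ 1 := by
    have h4 : (2 : ℝ) ^ d * (lam0 / 2 ^ J' * 2 ^ (4 * w)) * ((M : ℝ) + 1) =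
        ((2 : ℝ) ^ (d + 4 * w + 1) * lam0 * ((M : ℝ) + 1)) / 2 ^ (J' + 1) := by
      rw [pow_succ, pow_succ, pow_add]
      field_simp
    rw [h4, div_le_one (by positivity)]
    exact hJ
  have hl2 : 0 < Real.log 2 := Real.log_pos (by norm_num)
  calc μ.real (czR μ (4 * w) lam0 (J' + 1)) * (((M : ℝ) + 1) * Real.log 2)
      = (μ.real (czR μ (4 * w) lam0 (J' + 1)) * ((M : ℝ) + 1)) * Real.log 2 := by ring
    _ ≤ ((2 : ℝ) ^ d * (lam0 / 2 ^ J' * 2 ^ (4 * w)) * ((M : ℝ) + 1)) * Real.log 2 := by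
        gcongr
    _ ≤ 1 * Real.log 2 := by gcongr
    _ = Real.log 2 := one_mul _

/-- Integration along the decomposition. -/
lemma integrate_pieces {ι : Type*} {X : Type*} [MeasurableSpace X] {μ : Measure X}
    [IsProbabilityMeasure μ] {φ : X → ℝ} (hφi : Integrable φ μ) (hφnn : ∀ s, 0 ≤ φ s)
    (Rem : Set X) (hRem : MeasurableSet Rem) (allP : Finset ι) (S : ι → Set X)
    (hSm : ∀ l, MeasurableSet (S l)) (hdisj : Set.PairwiseDisjoint (↑allP) S)
    (hcover : ∀ s, s ∈ Rem ∨ ∃ l ∈ allP, s ∈ S l) {B U B' : ℝ} (hB : 0 ≤ B)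
    (hpiece : ∀ l ∈ allP, ∫ s in S l, φ s ∂μ ≤ μ.real (S l) * B)
    (hU : ∀ s, φ s ≤ U) (hRemU : μ.real Rem * U ≤ B') :
    ∫ s, φ s ∂μ ≤ B + B' := by
  have hpt : ∀ s, φ s ≤ Set.indicator Rem φ s + ∑ l ∈ allP, Set.indicator (S l) φ s := by
    intro s
    have hnn1 : 0 ≤ Set.indicator Rem φ s := Set.indicator_nonneg (fun x _ => hφnn x) s
    have hnn2 : ∀ l ∈ allP, 0 ≤ Set.indicator (S l) φ s :=
      fun l _ => Set.indicator_nonneg (fun x _ => hφnn x) s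
    rcases hcover s with h | ⟨l, hl, h⟩
    · rw [Set.indicator_of_mem h]
      have := Finset.sum_nonneg hnn2
      linarith
    · have h1 : Set.indicator (S l) φ s ≤ ∑ l ∈ allP, Set.indicator (S l) φ s :=
        Finset.single_le_sum hnn2 hl
      rw [Set.indicator_of_mem h] at h1
      linarith
  have hint1 : Integrable (Set.indicator Rem φ) μ := hφi.indicator hRem
  have hint2 : ∀ l ∈ allP, Integrable (Set.indicator (S l) φ) μ :=
    fun l _ => hφi.indicator (hSm l)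
  have hI : ∫ s, φ s ∂μ ≤ ∫ s, (Set.indicator Rem φ s + ∑ l ∈ allP, Set.indicator (S l) φ s) ∂μ :=
    integral_mono hφi (hint1.add (integrable_finset_sum _ hint2)) hpt
  rw [integral_add hint1 (integrable_finset_sum _ hint2), integral_finset_sum _ hint2,
    integral_indicator hRem] at hI
  have hrem : ∫ s in Rem, φ s ∂μ ≤ B' := by
    refine le_trans ?_ hRemU
    calc ∫ s in Rem, φ s ∂μ ≤ ∫ _ in Rem, U ∂μ :=
          setIntegral_mono hφi.integrableOn (integrable_const _) hU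
      _ = μ.real Rem * U := by simp [Measure.real]
  have hsum : ∑ l ∈ allP, ∫ s, Set.indicator (S l) φ s ∂μ ≤ B := by
    have h1 : ∀ l ∈ allP, ∫ s, Set.indicator (S l) φ s ∂μ ≤ μ.real (S l) * B := by
      intro l hl
      rw [integral_indicator (hSm l)]
      exact hpiece l hl
    have h2 : ∑ l ∈ allP, μ.real (S l) ≤ 1 := by
      rw [← measureReal_biUnion_finset hdisj (fun l _ => hSm l)]
      exact measureReal_le_one
    calc ∑ l ∈ allP, ∫ s, Set.indicator (S l) φ s ∂μ ≤ ∑ l ∈ allP, μ.real (S l) * B :=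
          Finset.sum_le_sum h1
      _ = (∑ l ∈ allP, μ.real (S l)) * B := by rw [Finset.sum_mul]
      _ ≤ 1 * B := by gcongr
      _ = B := one_mul B
  linarith

/-- Pieces as a family indexed with the stage. -/
noncomputable def piecesOf (czF : ℕ × ℤ → Finset (Cube d)) : ℕ × ℤ → Finset (ℕ × Cube d) :=
  fun g => (czF g).map ⟨fun Q => (g.1, Q), fun _ _ h => (Prod.ext_iff.mp h).2⟩

lemma mem_piecesOf {czF : ℕ × ℤ → Finset (Cube d)} {g : ℕ × ℤ} {l : ℕ × Cube d} :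
    l ∈ piecesOf czF g ↔ l.1 = g.1 ∧ l.2 ∈ czF g := by
  simp only [piecesOf, Finset.mem_map]
  constructor
  · rintro ⟨Q, hQ, rfl⟩
    exact ⟨rfl, hQ⟩
  · rintro ⟨h1, h2⟩
    exact ⟨l.2, h2, Prod.ext h1.symm rfl⟩

/-- The candidate test on stage-indexed pieces. -/
def candL {D : ℕ} (l : ℕ × Cube d) (z : (Fin D → E d) × (Fin D → ℝ)) : Prop := candT l.2 z

lemma nCand_piecesOf {D : ℕ} (czF : ℕ × ℤ → Finset (Cube d)) (g : ℕ × ℤ)
    (z : (Fin D → E d) × (Fin D → ℝ)) :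
    nCand (piecesOf czF) candL g z = ((czF g).filter fun Q => candT Q z).card := by
  unfold nCand piecesOf candL
  rw [Finset.filter_map, Finset.card_map]
  rfl

/-- The groups. -/
noncomputable def GGof (J : ℕ) : Finset (ℕ × ℤ) := (Finset.range J) ×ˢ (Finset.Icc (-(J : ℤ)) J)

lemma GGof_card (J : ℕ) : ((GGof J).card : ℝ) = (J : ℝ) * (2 * (J : ℝ) + 1) := by
  simp only [GGof, Finset.card_product, Finset.card_range, Int.card_Icc]
  have : ((J : ℤ) + 1 - -(J : ℤ)).toNat = 2 * J + 1 := by omega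
  rw [this]; push_cast; ring

/-- The expected KL at a point of a piece. -/
lemma piece_phi {D L : ℕ} (hd : 1 ≤ d) {a : ℕ} (hD : a + 1 ≤ D) (hDd : D ≤ d) (hL : 0 < L)
    (GG : Finset (ℕ × ℤ)) (czF : ℕ × ℤ → Finset (Cube d)) (q : ℕ × Cube d → Fin L → ℝ)
    (hq1 : ∀ l, IsProb (q l)) (hqpos : ∀ l v, 0 < q l v) {g : ℕ × ℤ} (hg : g ∈ GG)
    (hlev : ∀ Q ∈ czF g, Q.i = g.2)
    (hcount : ∀ Q'' : Cube d, Q''.i ≤ g.2 →
      (((czF g |>.filter fun Q => Q.carrier ⊆ Q''.carrier).card : ℕ) : ℝ) ≤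
        2 * (Q''.side / (2 : ℝ) ^ (-g.2)) ^ a)
    {l : ℕ × Cube d} (hl : l ∈ piecesOf czF g) {p : Fin L → ℝ} (hp : IsProb p) {s : E d}
    (hs : s ∈ l.2.carrier) :
    ∫ Z, KL p (mixKer GG (piecesOf czF) q candL (Z, lab Z s)) ∂(gamR d D) ≤
      KL p (q l) + Real.log 2 + Real.log GG.card + Real.log (1 + 4 * 30 ^ d) +
        Real.exp (-((D : ℝ) / 2)) * Real.log (2 * L) := by
  have hzf : Measurable fun Z : Fin D → E d => (Z, lab Z s) :=
    measurable_id.prodMk (measurable_lab.comp (measurable_id.prodMk measurable_const))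
  have hc : ∀ l : ℕ × Cube d, MeasurableSet {z : (Fin D → E d) × (Fin D → ℝ) | candL l z} :=
    fun l => candT_measurable l.2
  refine mixKer_KL_expect (gamR d D) (fun Z => (Z, lab Z s)) hzf hc hL hq1 hqpos hp hg hl
    (candT_fail hd l.2 hs) (Real.exp_pos _).le (by positivity) ?_
  simp_rw [nCand_piecesOf]
  exact expected_count hd hD hDd (czF g) g.2 hlev hcount s

/-- Final arithmetic. -/
lemma epoch_arith (hw : 1 ≤ w) (hd : 64 * w ≤ d) (LJ : ℝ) :
    (2 / ((w : ℝ) + 2) * ((M : ℝ) * Real.log 2) + (7 * (d : ℝ) + 5) +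
            Real.exp (-((w : ℝ) / 2)) * (((M : ℝ) + 1) * Real.log 2)) +
      (Real.log 2 + LJ + Real.log (1 + 4 * 30 ^ d) +
        Real.exp (-(((8 * w : ℕ) : ℝ) / 2)) * (((M : ℝ) + 1) * Real.log 2)) + Real.log 2 ≤
    (2 / ((w : ℝ) + 2) + 2 * Real.exp (-((w : ℝ) / 2))) * ((M : ℝ) * Real.log 2) +
          15 * (d : ℝ) + 8 + LJ := by
  have hd1 : 1 ≤ d := by omega
  have hd64 : (64 : ℝ) ≤ d := by
    have : 64 ≤ d := by omega
    exact_mod_cast this
  have hl2 : 0 < Real.log 2 := Real.log_pos (by norm_num)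
  have hl2' : Real.log 2 ≤ 0.7 := by
    have := Real.log_two_lt_d9; linarith
  have hw0 : (0 : ℝ) ≤ w := Nat.cast_nonneg w
  have he1 : Real.exp (-((w : ℝ) / 2)) ≤ 1 := by
    rw [Real.exp_le_one_iff]; linarith
  have he2 : Real.exp (-(((8 * w : ℕ) : ℝ) / 2)) ≤ Real.exp (-((w : ℝ) / 2)) := by
    apply Real.exp_le_exp.mpr
    push_cast
    linarith
  have he0 := Real.exp_pos (-((w : ℝ) / 2))
  have hlog30 : Real.log (1 + 4 * 30 ^ d) ≤ 2 + 4 * (d : ℝ) := by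
    have h30 : (1 : ℝ) ≤ 30 ^ d := one_le_pow₀ (by norm_num)
    have h1 : (1 + 4 * 30 ^ d : ℝ) ≤ 5 * 30 ^ d := by linarith
    refine (Real.log_le_log (by positivity) h1).trans ?_
    rw [Real.log_mul (by norm_num) (by positivity), Real.log_pow]
    have hexp2 : (2.7 : ℝ) ≤ Real.exp 1 := by
      have := Real.exp_one_gt_d9; linarith
    have h5 : Real.log 5 ≤ 2 := by
      rw [Real.log_le_iff_le_exp (by norm_num)]
      calc (5 : ℝ) ≤ 2.7 ^ 2 := by norm_num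
        _ ≤ Real.exp 1 ^ 2 := pow_le_pow_left₀ (by norm_num) hexp2 2
        _ = Real.exp 2 := by rw [← Real.exp_nat_mul]; norm_num
    have h30' : Real.log 30 ≤ 4 := by
      rw [Real.log_le_iff_le_exp (by norm_num)]
      calc (30 : ℝ) ≤ 2.7 ^ 4 := by norm_num
        _ ≤ Real.exp 1 ^ 4 := pow_le_pow_left₀ (by norm_num) hexp2 4
        _ = Real.exp 4 := by rw [← Real.exp_nat_mul]; norm_num
    have : (d : ℝ) * Real.log 30 ≤ d * 4 := mul_le_mul_of_nonneg_left h30' (by linarith)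
    linarith
  have hM0 : (0 : ℝ) ≤ M := Nat.cast_nonneg M
  have hA : Real.exp (-(((8 * w : ℕ) : ℝ) / 2)) * (((M : ℝ) + 1) * Real.log 2) ≤
      Real.exp (-((w : ℝ) / 2)) * (((M : ℝ) + 1) * Real.log 2) := by
    gcongr
  have hB : Real.exp (-((w : ℝ) / 2)) * (((M : ℝ) + 1) * Real.log 2) =
      Real.exp (-((w : ℝ) / 2)) * ((M : ℝ) * Real.log 2) +
        Real.exp (-((w : ℝ) / 2)) * Real.log 2 := by ring
  have hC : Real.exp (-((w : ℝ) / 2)) * Real.log 2 ≤ 1 * Real.log 2 := by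
    gcongr
  have hD : (2 / ((w : ℝ) + 2) + 2 * Real.exp (-((w : ℝ) / 2))) * ((M : ℝ) * Real.log 2) =
      2 / ((w : ℝ) + 2) * ((M : ℝ) * Real.log 2) +
        2 * (Real.exp (-((w : ℝ) / 2)) * ((M : ℝ) * Real.log 2)) := by ring
  rw [hD]
  linarith

/-- Measurability and bounds for the iterated integral. -/
lemma phi_facts {D L n : ℕ} (G : (Fin n → E d) × (Fin n → ℝ) → Fin L → ℝ)
    (hGm : ∀ v, Measurable fun z => G z v) (Qt : (Fin D → E d) × (Fin D → ℝ) → Fin L → ℝ)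
    (hQm : ∀ v, Measurable fun z => Qt z v) (hnn : ∀ s z, 0 ≤ KL (Ks G s) (Qt z)) {U : ℝ}
    (hub : ∀ s z, KL (Ks G s) (Qt z) ≤ U) (μ : Measure (E d)) [IsProbabilityMeasure μ] :
    Integrable (fun s => ∫ Z, KL (Ks G s) (Qt (Z, lab Z s)) ∂(gamR d D)) μ ∧
    (∀ s, 0 ≤ ∫ Z, KL (Ks G s) (Qt (Z, lab Z s)) ∂(gamR d D)) ∧
    (∀ s, ∫ Z, KL (Ks G s) (Qt (Z, lab Z s)) ∂(gamR d D) ≤ U) := by
  have hlabm : Measurable fun p : E d × (Fin D → E d) => (p.2, lab p.2 p.1) :=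
    measurable_snd.prodMk (measurable_lab.comp (measurable_snd.prodMk measurable_fst))
  have hKLm : Measurable fun p : E d × (Fin D → E d) => KL (Ks G p.1) (Qt (p.2, lab p.2 p.1)) := by
    refine KL_measurable (fun v => (Ks_measurable G hGm v).comp measurable_fst) (fun v => ?_)
    exact (hQm v).comp hlabm
  have hKLZ : ∀ s, Integrable (fun Z => KL (Ks G s) (Qt (Z, lab Z s))) (gamR d D) := by
    intro s
    have hzf : Measurable fun Z : Fin D → E d => (Z, lab Z s) :=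
      measurable_id.prodMk (measurable_lab.comp (measurable_id.prodMk measurable_const))
    have hm : Measurable fun Z : Fin D → E d => KL (Ks G s) (Qt (Z, lab Z s)) :=
      KL_measurable (fun v => measurable_const) (fun v => (hQm v).comp hzf)
    refine Integrable.of_bound hm.aestronglyMeasurable U ?_
    filter_upwards with Z
    rw [Real.norm_of_nonneg (hnn s _)]
    exact hub s _
  have hφm : StronglyMeasurable fun s => ∫ Z, KL (Ks G s) (Qt (Z, lab Z s)) ∂(gamR d D) :=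
    hKLm.stronglyMeasurable.integral_prod_right'
  have hφnn : ∀ s, 0 ≤ ∫ Z, KL (Ks G s) (Qt (Z, lab Z s)) ∂(gamR d D) :=
    fun s => integral_nonneg fun Z => hnn s _
  have hφub : ∀ s, ∫ Z, KL (Ks G s) (Qt (Z, lab Z s)) ∂(gamR d D) ≤ U := by
    intro s
    calc _ ≤ ∫ _, U ∂(gamR d D) :=
          integral_mono (hKLZ s) (integrable_const _) fun Z => hub s _
      _ = _ := by simp
  refine ⟨?_, hφnn, hφub⟩
  refine Integrable.of_bound hφm.aestronglyMeasurable U ?_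
  filter_upwards with s
  rw [Real.norm_of_nonneg (hφnn s)]
  exact hφub s

/-- Bound on a piece, generic in the kernel. -/
lemma piece_integral {μ : Measure (E d)} [IsProbabilityMeasure μ] {L : ℕ}
    {φ : E d → ℝ} (hφi : Integrable φ μ) (G' : E d → Fin L → ℝ) (hGm : ∀ v, Measurable fun s => G' s v)
    (hGp : ∀ s, IsProb (G' s)) (S : Set (E d)) (hS : MeasurableSet S) (q : Fin L → ℝ) (hq : IsProb q)
    {c0 : ℝ} (hc0 : 0 < c0) (hq2 : ∀ v, c0 ≤ q v) {c1 Bp : ℝ}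
    (hphi : ∀ s ∈ S, φ s ≤ KL (G' s) q + c1)
    (hq3 : ∫ s in S, KL (G' s) q ∂μ ≤ μ.real S * Bp) :
    ∫ s in S, φ s ∂μ ≤ μ.real S * (Bp + c1) := by
  have hqpos : ∀ v, 0 < q v := fun v => lt_of_lt_of_le hc0 (hq2 v)
  have hKi : Integrable (fun s => KL (G' s) q) μ := by
    have hm : Measurable fun s => KL (G' s) q :=
      KL_measurable hGm (fun v => measurable_const)
    refine Integrable.of_bound hm.aestronglyMeasurable (Real.log (1 / c0)) ?_
    filter_upwards with s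
    rw [Real.norm_of_nonneg (KL_nonneg (hGp s) hq (fun v hv => absurd hv (hqpos v).ne'))]
    exact KL_le_log_of_lower hc0 (hGp s) hq2
  calc ∫ s in S, φ s ∂μ ≤ ∫ s in S, (KL (G' s) q + c1) ∂μ :=
        setIntegral_mono_on hφi.integrableOn (hKi.integrableOn.add (integrable_const _)) hS hphi
    _ = ∫ s in S, KL (G' s) q ∂μ + μ.real S * c1 := by
        rw [integral_add hKi.integrableOn (integrable_const _)]
        simp [Measure.real]
    _ ≤ μ.real S * Bp + μ.real S * c1 := by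
        gcongr
    _ = _ := by ring

/-- The main inequality of `epoch_kernel`, for the mixture kernel. -/
lemma epoch_main (hw : 1 ≤ w) (hd : 64 * w ≤ d) (μ : Measure (E d)) [IsProbabilityMeasure μ]
    (G : (Fin w → E d) × (Fin w → ℝ) → Fin (2 ^ M) → ℝ) (hGm : ∀ v, Measurable fun z => G z v)
    (hGp : ∀ z, IsProb (G z)) (lam0 : ℝ) (hlam1 : 1 ≤ lam0)
    (hμa : ∀ Q : Cube d, μ Q.carrier ≤ ENNReal.ofReal (lam0 * Q.side ^ (4 * w + 1)))
    (hμb : ∀ Q : Cube d, μ Q.carrier ≤ ENNReal.ofReal (2 * lam0 * Q.side ^ (4 * w)))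
    (hsupp : ∀ᵐ s ∂μ, ‖s‖ ≤ 1) (J : ℕ)
    (hJ : (2 : ℝ) ^ (d + 4 * w + 1) * lam0 * ((M : ℝ) + 1) ≤ 2 ^ J) (hJ1 : 1 ≤ J)
    (q : ℕ × Cube d → Fin (2 ^ M) → ℝ) (hq1 : ∀ l, IsProb (q l))
    (hq2 : ∀ l v, 1 / (2 * (2 : ℝ) ^ M) ≤ q l v)
    (hq3 : ∀ l : ℕ × Cube d, czSel μ (4 * w) lam0 l.1 l.2 →
        ∫ s in l.2.carrier ∩ czR μ (4 * w) lam0 l.1, KL (Ks G s) (q l) ∂μ ≤
          μ.real (l.2.carrier ∩ czR μ (4 * w) lam0 l.1) *
            (2 / ((w : ℝ) + 2) * ((M : ℝ) * Real.log 2) + (7 * (d : ℝ) + 5) +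
            Real.exp (-((w : ℝ) / 2)) * (((M : ℝ) + 1) * Real.log 2)))
    (hqpos : ∀ l v, 0 < q l v) (czF : ℕ × ℤ → Finset (Cube d))
    (hczF : ∀ g Q, Q ∈ czF g ↔ czSel μ (4 * w) lam0 g.1 Q ∧ Q.i = g.2) :
    ∫ s, ∫ Z, KL (Ks G s) (mixKer (GGof J) (piecesOf czF) q candL (Z, lab Z s))
        ∂(gamR d (8 * w)) ∂μ ≤
      (2 / ((w : ℝ) + 2) + 2 * Real.exp (-((w : ℝ) / 2))) * ((M : ℝ) * Real.log 2) +
          15 * (d : ℝ) + 8 + Real.log ((J : ℝ) * (2 * (J : ℝ) + 1)) := by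
  have hd1 : 1 ≤ d := by omega
  have ha1 : 1 ≤ 4 * w := by omega
  have hlam0 : 0 < lam0 := by linarith
  have hμ1 : μ Set.univ ≤ 1 := by simp
  have hL : 0 < 2 ^ M := by positivity
  have hcast : ((2 ^ M : ℕ) : ℝ) = (2 : ℝ) ^ M := by push_cast; ring
  have hGGne : (GGof J).Nonempty := ⟨(0, 0), by simp [GGof]; omega⟩
  have hcand : ∀ l : ℕ × Cube d, MeasurableSet {z : (Fin (8 * w) → E d) × (Fin (8 * w) → ℝ) | candL l z} :=
    fun l => candT_measurable l.2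
  have hlog2L : Real.log (2 * ((2 ^ M : ℕ) : ℝ)) = ((M : ℝ) + 1) * Real.log 2 := by
    rw [hcast, ← pow_succ', Real.log_pow]; push_cast; ring
  have hl2 : 0 < Real.log 2 := Real.log_pos (by norm_num)
  -- properties of the integrand
  obtain ⟨hφi, hφnn, hφub⟩ := phi_facts G hGm (mixKer (GGof J) (piecesOf czF) q candL)
    (fun v => mixKer_measurable hcand v)
    (fun s z => KL_nonneg (Ks_prob G hGm hGp s) (mixKer_prob hL hGGne hq1 z)
      (fun v hv => by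
        have h1 := mixKer_lower (GG := GGof J) (pieces := piecesOf czF) (cand := candL) hL hq1 z v
        have h2 : (0 : ℝ) < 1 / (2 * ((2 ^ M : ℕ) : ℝ)) := by rw [hcast]; positivity
        linarith))
    (fun s z => mixKer_KL_any hL hq1 (Ks_prob G hGm hGp s) z) μ
  -- the pieces
  have hSm : ∀ l : ℕ × Cube d, MeasurableSet (l.2.carrier ∩ czR μ (4 * w) lam0 l.1) :=
    fun l => l.2.measurableSet_carrier.inter (czR_measurable _)
  have hallP : ∀ l ∈ (GGof J).biUnion (piecesOf czF), czSel μ (4 * w) lam0 l.1 l.2 ∧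
      ∃ g ∈ GGof J, l ∈ piecesOf czF g := by
    intro l hl
    simp only [Finset.mem_biUnion] at hl
    obtain ⟨g, hg, hl⟩ := hl
    refine ⟨?_, g, hg, hl⟩
    obtain ⟨h1, h2⟩ := mem_piecesOf.mp hl
    rw [hczF] at h2
    rw [h1]
    exact h2.1
  have hcover : ∀ s, s ∈ czR μ (4 * w) lam0 J ∨
      ∃ l ∈ (GGof J).biUnion (piecesOf czF), s ∈ l.2.carrier ∩ czR μ (4 * w) lam0 l.1 := by
    intro s
    rcases cz_cover (μ := μ) (a := 4 * w) (lam0 := lam0) J s with h | ⟨j, hj, Q, hQ, hs⟩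
    · exact Or.inl h
    · refine Or.inr ⟨(j, Q), ?_, hs⟩
      simp only [Finset.mem_biUnion]
      refine ⟨(j, Q.i), ?_, ?_⟩
      · have hlev := cz_level ha1 hlam1 hμ1 hμa hQ
        simp only [GGof, Finset.mem_product, Finset.mem_range, Finset.mem_Icc]
        have h1 := abs_le.mp hlev
        have : (j : ℤ) < J := by exact_mod_cast hj
        exact ⟨hj, by omega, by omega⟩
      · rw [mem_piecesOf]
        exact ⟨rfl, (hczF _ _).mpr ⟨hQ, rfl⟩⟩
  have hdisj : Set.PairwiseDisjoint (↑((GGof J).biUnion (piecesOf czF)))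
      (fun l : ℕ × Cube d => l.2.carrier ∩ czR μ (4 * w) lam0 l.1) := by
    intro l hl l' hl' hne
    have h1 := (hallP l hl).1
    have h2 := (hallP l' hl').1
    show Disjoint (l.2.carrier ∩ czR μ (4 * w) lam0 l.1) (l'.2.carrier ∩ czR μ (4 * w) lam0 l'.1)
    rcases lt_trichotomy l.1 l'.1 with h | h | h
    · exact cz_disjoint_stage h h1
    · have hne2 : l.2 ≠ l'.2 := fun h3 => hne (Prod.ext h h3)
      rw [h] at h1 ⊢
      exact (cz_disjoint h1 h2 hne2).mono Set.inter_subset_left Set.inter_subset_left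
    · exact (cz_disjoint_stage h h2).symm
  -- the bound on a piece
  set c1 : ℝ := Real.log 2 + Real.log ((J : ℝ) * (2 * (J : ℝ) + 1)) + Real.log (1 + 4 * 30 ^ d) +
        Real.exp (-(((8 * w : ℕ) : ℝ) / 2)) * (((M : ℝ) + 1) * Real.log 2) with hc1
  set Bp : ℝ := 2 / ((w : ℝ) + 2) * ((M : ℝ) * Real.log 2) + (7 * (d : ℝ) + 5) +
            Real.exp (-((w : ℝ) / 2)) * (((M : ℝ) + 1) * Real.log 2) with hBp
  have hphi : ∀ l ∈ (GGof J).biUnion (piecesOf czF), ∀ s ∈ l.2.carrier ∩ czR μ (4 * w) lam0 l.1,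
      ∫ Z, KL (Ks G s) (mixKer (GGof J) (piecesOf czF) q candL (Z, lab Z s)) ∂(gamR d (8 * w)) ≤
        KL (Ks G s) (q l) + c1 := by
    intro l hl s hs
    obtain ⟨_, g, hg, hlg⟩ := hallP l hl
    have hlev : ∀ Q ∈ czF g, Q.i = g.2 := fun Q hQ => ((hczF g Q).mp hQ).2
    have hcount : ∀ Q'' : Cube d, Q''.i ≤ g.2 →
      (((czF g |>.filter fun Q => Q.carrier ⊆ Q''.carrier).card : ℕ) : ℝ) ≤
        2 * (Q''.side / (2 : ℝ) ^ (-g.2)) ^ (4 * w) := by
      intro Q'' hQ''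
      refine cz_count ha1 hlam0 hμb g.1 g.2 _ (fun Q hQ => ?_) Q'' hQ'' (fun Q hQ => ?_)
      · exact (hczF g Q).mp (Finset.mem_filter.mp hQ).1
      · exact (Finset.mem_filter.mp hQ).2
    have h := piece_phi (D := 8 * w) (L := 2 ^ M) (a := 4 * w) hd1 (by omega) (by omega) hL (GGof J)
      czF q hq1 hqpos hg hlev hcount hlg (Ks_prob G hGm hGp s) hs.1
    rw [GGof_card, hlog2L] at h
    simp only [hc1]
    linarith
  have hpiece : ∀ l ∈ (GGof J).biUnion (piecesOf czF),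
      ∫ s in l.2.carrier ∩ czR μ (4 * w) lam0 l.1,
        ∫ Z, KL (Ks G s) (mixKer (GGof J) (piecesOf czF) q candL (Z, lab Z s)) ∂(gamR d (8 * w)) ∂μ ≤
      μ.real (l.2.carrier ∩ czR μ (4 * w) lam0 l.1) * (Bp + c1) := by
    intro l hl
    have hlow : (0 : ℝ) < 1 / (2 * (2 : ℝ) ^ M) := by positivity
    exact piece_integral hφi (Ks G) (fun v => Ks_measurable G hGm v) (Ks_prob G hGm hGp) _ (hSm l)
      (q l) (hq1 l) hlow (hq2 l) (hphi l hl) (hq3 l (hallP l hl).1)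
  have hBnn : 0 ≤ Bp + c1 := by
    have h1 : 0 ≤ Real.log ((J : ℝ) * (2 * (J : ℝ) + 1)) := by
      apply Real.log_nonneg
      have : (1 : ℝ) ≤ J := by exact_mod_cast hJ1
      nlinarith
    have h2 : 0 ≤ Real.log (1 + 4 * 30 ^ d) := by
      apply Real.log_nonneg
      have : (0 : ℝ) ≤ 30 ^ d := by positivity
      linarith
    have hM0 : (0 : ℝ) ≤ M := Nat.cast_nonneg M
    have h3 : 0 ≤ Real.exp (-(((8 * w : ℕ) : ℝ) / 2)) * (((M : ℝ) + 1) * Real.log 2) := by positivity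
    have h4 : 0 ≤ 2 / ((w : ℝ) + 2) * ((M : ℝ) * Real.log 2) := by positivity
    have h5 : 0 ≤ Real.exp (-((w : ℝ) / 2)) * (((M : ℝ) + 1) * Real.log 2) := by positivity
    have h6 : (0 : ℝ) ≤ d := Nat.cast_nonneg d
    simp only [hc1, hBp]
    linarith
  have hrem : μ.real (czR μ (4 * w) lam0 J) * Real.log (2 * ((2 ^ M : ℕ) : ℝ)) ≤ Real.log 2 := by
    rw [hlog2L]
    exact rem_bound ha1 hlam0 hsupp hJ1 hJ
  have hfinal := integrate_pieces hφi hφnn (czR μ (4 * w) lam0 J) (czR_measurable J)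
    ((GGof J).biUnion (piecesOf czF)) (fun l : ℕ × Cube d => l.2.carrier ∩ czR μ (4 * w) lam0 l.1)
    hSm hdisj hcover hBnn hpiece hφub hrem
  have harith := epoch_arith (M := M) hw hd (Real.log ((J : ℝ) * (2 * (J : ℝ) + 1)))
  simp only [hc1, hBp] at hfinal
  linarith

/-- The kernel for one epoch, in the setting of the plan: `n = w`, `ρ = w + 2`, `a = 4 w`, `D = 8 w`.
`lam0 = F * √2 * (2 √d)^(a+1) ≥ 1`. -/
theorem epoch_kernel (hw : 1 ≤ w) (hd : 64 * w ≤ d) (μ : Measure (E d)) [IsProbabilityMeasure μ]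
    {F : ℝ} (hF1 : 1 ≤ F) (hF : ∀ A, MeasurableSet A → μ A ≤ ENNReal.ofReal F * sig d A)
    (G : (Fin w → E d) × (Fin w → ℝ) → Fin (2 ^ M) → ℝ) (hGm : ∀ v, Measurable fun z => G z v)
    (hGp : ∀ z, IsProb (G z)) (J : ℕ)
    (hJ : (2 : ℝ) ^ (d + 4 * w + 1) * (F * Real.sqrt 2 * (2 * Real.sqrt d) ^ (4 * w + 1)) *
      ((M : ℝ) + 1) ≤ 2 ^ J) :
    ∃ Qt : (Fin (8 * w) → E d) × (Fin (8 * w) → ℝ) → Fin (2 ^ M) → ℝ,
      (∀ v, Measurable fun z => Qt z v) ∧ (∀ z, IsProb (Qt z)) ∧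
      (∀ z v, 1 / (2 * (2 : ℝ) ^ M) ≤ Qt z v) ∧
      ∫ s, ∫ Z, KL (Ks G s) (Qt (Z, lab Z s)) ∂(gamR d (8 * w)) ∂μ ≤
        (2 / ((w : ℝ) + 2) + 2 * Real.exp (-((w : ℝ) / 2))) * ((M : ℝ) * Real.log 2) +
          15 * (d : ℝ) + 8 + Real.log ((J : ℝ) * (2 * (J : ℝ) + 1)) := by
  have hd1 : 1 ≤ d := by omega
  have ha1 : 1 ≤ 4 * w := by omega
  obtain ⟨hlam1, hμa, hμb, hsupp⟩ := epoch_prelim hw hd μ hF1 hF
  generalize F * Real.sqrt 2 * (2 * Real.sqrt d) ^ (4 * w + 1) = lam0 at hlam1 hμa hμb hJ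
  have hlam0 : 0 < lam0 := by linarith
  have hμ1 : μ Set.univ ≤ 1 := by simp
  have hL : 0 < 2 ^ M := by positivity
  have hcast : ((2 ^ M : ℕ) : ℝ) = (2 : ℝ) ^ M := by push_cast; ring
  have h2M : (0 : ℝ) < 2 ^ M := by positivity
  -- the per piece kernels
  have hq : ∀ l : ℕ × Cube d, ∃ q : Fin (2 ^ M) → ℝ, IsProb q ∧ (∀ v, 1 / (2 * (2 : ℝ) ^ M) ≤ q v) ∧
      (czSel μ (4 * w) lam0 l.1 l.2 →
        ∫ s in l.2.carrier ∩ czR μ (4 * w) lam0 l.1, KL (Ks G s) q ∂μ ≤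
          μ.real (l.2.carrier ∩ czR μ (4 * w) lam0 l.1) *
            (2 / ((w : ℝ) + 2) * ((M : ℝ) * Real.log 2) + (7 * (d : ℝ) + 5) +
            Real.exp (-((w : ℝ) / 2)) * (((M : ℝ) + 1) * Real.log 2))) := by
    intro l
    by_cases hl : czSel μ (4 * w) lam0 l.1 l.2
    · obtain ⟨q, h1, h2, h3⟩ := exists_piece_kernel (M := M) hw hd μ hlam0 hμb G hGm hGp l.1 l.2 hl
      exact ⟨q, h1, h2, fun _ => h3⟩
    · refine ⟨fun _ => 1 / (2 : ℝ) ^ M, ⟨fun _ => by positivity, ?_⟩, fun _ => ?_, fun h => absurd h hl⟩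
      · simp only [Finset.sum_const, Finset.card_univ, Fintype.card_fin, nsmul_eq_mul, hcast]
        field_simp
      · apply one_div_le_one_div_of_le h2M
        linarith
  choose q hq1 hq2 hq3 using hq
  have hqpos : ∀ l v, 0 < q l v := fun l v =>
    lt_of_lt_of_le (by positivity) (hq2 l v)
  -- the groups
  have hfin := fun g : ℕ × ℤ => cz_finite (μ := μ) (a := 4 * w) (lam0 := lam0) hlam0 g.1 g.2
  obtain ⟨czF, hczF⟩ : ∃ czF : ℕ × ℤ → Finset (Cube d),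
      ∀ g Q, Q ∈ czF g ↔ czSel μ (4 * w) lam0 g.1 Q ∧ Q.i = g.2 :=
    ⟨fun g => (hfin g).toFinset, fun g Q => by simp⟩
  have hJ1 : 1 ≤ J := by
    by_contra h
    have hJ0 : J = 0 := by omega
    subst hJ0
    have h1 : (1 : ℝ) < 2 ^ (d + 4 * w + 1) := one_lt_pow₀ (by norm_num) (by omega)
    have h2 : (1 : ℝ) ≤ (M : ℝ) + 1 := by
      have : (0 : ℝ) ≤ M := Nat.cast_nonneg M
      linarith
    have h3 : (1 : ℝ) < 2 ^ (d + 4 * w + 1) * lam0 * ((M : ℝ) + 1) := by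
      have h4 : (1 : ℝ) < 2 ^ (d + 4 * w + 1) * lam0 := by nlinarith
      nlinarith
    rw [pow_zero] at hJ
    linarith
  have hGGne : (GGof J).Nonempty := ⟨(0, 0), by simp [GGof]; omega⟩
  have hcand : ∀ l : ℕ × Cube d, MeasurableSet {z : (Fin (8 * w) → E d) × (Fin (8 * w) → ℝ) | candL l z} :=
    fun l => candT_measurable l.2
  refine ⟨mixKer (GGof J) (piecesOf czF) q candL, fun v => mixKer_measurable hcand v,
    fun z => mixKer_prob hL hGGne hq1 z, fun z v => ?_, ?_⟩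
  · have := mixKer_lower (GG := GGof J) (pieces := piecesOf czF) (cand := candL) hL hq1 z v
    rwa [hcast] at this
  exact epoch_main hw hd μ G hGm hGp lam0 hlam1 hμa hμb hsupp J hJ hJ1 q hq1 hq2 hq3 hqpos czF hczF

end P309
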