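import Vale.Agent.Lib.P309.Sphere

/-! # P309 module Radial: independence of radius and direction, splitting, slice cap bound -/

open MeasureTheory ProbabilityTheory
open scoped ENNReal NNReal

namespace P309

section radial_private
open Metric Set
/-- Density of the product Gaussian. -/
theorem radial_pi_density (n : ℕ) :
    Measure.pi (fun _ : Fin n => gaussianReal 0 1) =
      (volume : Measure (Fin n → ℝ)).withDensity
        (fun x => ENNReal.ofReal (∏ i, gaussianPDFReal 0 1 (x i))) := by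
  apply Measure.pi_eq
  intro s hs
  rw [withDensity_apply _ (MeasurableSet.univ_pi hs)]
  have h1 : ∀ i, Integrable ((s i).indicator (gaussianPDFReal 0 1)) (volume : Measure ℝ) :=
    fun i => (integrable_gaussianPDFReal 0 1).indicator (hs i)
  have h2 : ∀ i, gaussianReal 0 1 (s i) =
      ENNReal.ofReal (∫ x, (s i).indicator (gaussianPDFReal 0 1) x) := by
    intro i
    rw [gaussianReal_apply_eq_integral 0 one_ne_zero, integral_indicator (hs i)]
  simp_rw [h2]
  rw [← ENNReal.ofReal_prod_of_nonneg (fun i _ => integral_nonneg (fun x =>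
    indicator_nonneg (fun y _ => gaussianPDFReal_nonneg 0 1 y) x))]
  rw [← integral_fintype_prod_volume_eq_prod]
  rw [ofReal_integral_eq_lintegral_ofReal]
  · rw [← lintegral_indicator (MeasurableSet.univ_pi hs)]
    apply lintegral_congr
    intro x
    by_cases hx : x ∈ Set.pi univ s
    · rw [indicator_of_mem hx]
      congr 2
      ext i
      rw [indicator_of_mem (hx i (mem_univ i))]
    · rw [indicator_of_notMem hx]
      simp only [Set.mem_pi, not_forall] at hx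
      obtain ⟨i, -, hi⟩ := hx
      have : ∏ j, (s j).indicator (gaussianPDFReal 0 1) (x j) = 0 :=
        Finset.prod_eq_zero (Finset.mem_univ i) (indicator_of_notMem hi _)
      rw [this]; simp
  · exact Integrable.fintype_prod h1
  · exact ae_of_all _ (fun x => Finset.prod_nonneg (fun i _ =>
      indicator_nonneg (fun y _ => gaussianPDFReal_nonneg 0 1 y) _))

variable {F : Type*} [NormedAddCommGroup F] [InnerProductSpace ℝ F]
    [FiniteDimensional ℝ F] [MeasurableSpace F] [BorelSpace F]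

/-- The radial density function. -/
noncomputable def radialW (n : ℕ) (r : ℝ) : ℝ≥0∞ :=
  ENNReal.ofReal (((Real.sqrt (2 * Real.pi))⁻¹) ^ n * Real.exp (-(r ^ 2 / 2)))

theorem radialW_meas (n : ℕ) : Measurable (radialW n) := by
  unfold radialW
  fun_prop

/-- The standard Gaussian has a radial density. -/
theorem radial_density (g : F → ℝ≥0∞) (hg : Measurable g) :
    ∫⁻ x, g x ∂(stdGaussian F) = ∫⁻ x, g x * radialW (Module.finrank ℝ F) ‖x‖ ∂(volume : Measure F) := by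
  set n := Module.finrank ℝ F with hn
  set b := stdOrthonormalBasis ℝ F with hb
  have hmeas : Measurable (fun x : Fin n → ℝ => ∑ i, x i • b i) := by fun_prop
  rw [stdGaussian, lintegral_map hg hmeas, radial_pi_density n]
  rw [lintegral_withDensity_eq_lintegral_mul _ (by fun_prop) (by fun_prop)]
  -- move to `F`
  have hp : MeasurePreserving (fun x : Fin n → ℝ => ∑ i, x i • b i) (volume : Measure (Fin n → ℝ))
      (volume : Measure F) := by
    have h1 := (b.measurePreserving_repr_symm).comp (PiLp.volume_preserving_toLp (Fin n))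
    have h2 : (fun x : Fin n → ℝ => ∑ i, x i • b i) = ⇑b.repr.symm ∘ WithLp.toLp 2 := by
      funext x
      exact (b.sum_repr_symm (WithLp.toLp 2 x))
    rw [h2]
    exact h1
  rw [← hp.lintegral_comp (f := fun y => g y * radialW n ‖y‖) (by
    have := radialW_meas n
    fun_prop)]
  apply lintegral_congr
  intro x
  simp only [Pi.mul_apply]
  rw [mul_comm]
  congr 1
  have hnorm : ‖∑ i, x i • b i‖ ^ 2 = ∑ i, x i ^ 2 := by
    have h3 : ∑ i, x i • b i = b.repr.symm (WithLp.toLp 2 x) := by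
      exact b.sum_repr_symm (WithLp.toLp 2 x)
    rw [h3, LinearIsometryEquiv.norm_map, EuclideanSpace.real_norm_sq_eq]
  unfold radialW
  rw [hnorm]
  congr 1
  have h4 : ∀ t : ℝ, gaussianPDFReal 0 1 t = (Real.sqrt (2 * Real.pi))⁻¹ * Real.exp (-(t ^ 2 / 2)) := by
    intro t
    simp [gaussianPDFReal]
    left
    ring
  simp_rw [h4]
  rw [Finset.prod_mul_distrib, Finset.prod_const, Finset.card_univ, Fintype.card_fin,
    ← Real.exp_sum, Finset.sum_neg_distrib, Finset.sum_div]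

/-- Polar coordinates on `F`. -/
theorem radial_polar [Nontrivial F] (f : F → ℝ≥0∞) (hf : Measurable f) :
    ∫⁻ x, f x ∂(volume : Measure F) =
      ∫⁻ p : sphere (0 : F) 1 × Ioi (0 : ℝ), f ((p.2 : ℝ) • (p.1 : F))
        ∂((volume : Measure F).toSphere.prod (Measure.volumeIoiPow (Module.finrank ℝ F - 1))) := by
  have hmp := Measure.measurePreserving_homeomorphUnitSphereProd (volume : Measure F)
  have hg : Measurable (fun p : sphere (0 : F) 1 × Ioi (0 : ℝ) => f ((p.2 : ℝ) • (p.1 : F))) := by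
    apply hf.comp
    fun_prop
  rw [← hmp.lintegral_comp hg]
  have h1 : ∀ a : ({0}ᶜ : Set F), f (((homeomorphUnitSphereProd F a).2 : ℝ) •
      ((homeomorphUnitSphereProd F a).1 : F)) = f a := by
    intro a
    congr 1
    have ha : (a : F) ≠ 0 := a.2
    simp [smul_smul, mul_inv_cancel₀ (norm_ne_zero_iff.mpr ha)]
  simp_rw [h1]
  rw [lintegral_subtype_comap (measurableSet_singleton (0 : F)).compl]
  have h0 : (volume : Measure F).restrict ({0}ᶜ) = volume := by
    apply Measure.restrict_eq_self_of_ae_mem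
    have : (volume : Measure F) {(0 : F)} = 0 := measure_singleton _
    simpa [ae_iff] using this
  rw [h0]

theorem radial_A [Nontrivial F] (φ : ℝ × F → ℝ≥0∞) (hφ : Measurable φ) :
    ∫⁻ x, φ (‖x‖, ‖x‖⁻¹ • x) ∂(stdGaussian F) =
      ∫⁻ u : sphere (0 : F) 1, ∫⁻ r : Ioi (0 : ℝ), φ ((r : ℝ), (u : F)) * radialW (Module.finrank ℝ F) r
        ∂(Measure.volumeIoiPow (Module.finrank ℝ F - 1)) ∂((volume : Measure F).toSphere) := by
  have hW := radialW_meas (Module.finrank ℝ F)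
  have hm : Measurable (fun x : F => φ (‖x‖, ‖x‖⁻¹ • x)) := by
    apply hφ.comp
    fun_prop
  have hm2 : Measurable (fun x : F => φ (‖x‖, ‖x‖⁻¹ • x) * radialW (Module.finrank ℝ F) ‖x‖) :=
    hm.mul (hW.comp measurable_norm)
  rw [radial_density _ hm, radial_polar _ hm2]
  rw [lintegral_prod _ (by
    apply Measurable.aemeasurable
    apply hm2.comp
    fun_prop)]
  apply lintegral_congr
  intro u
  apply lintegral_congr
  intro r
  have hr : (0 : ℝ) < r := r.2
  have hu : ‖(u : F)‖ = 1 := by simp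
  have h1 : ‖(r : ℝ) • (u : F)‖ = r := by
    rw [norm_smul, hu, mul_one, Real.norm_of_nonneg hr.le]
  have h2 : (r : ℝ)⁻¹ • ((r : ℝ) • (u : F)) = u := by
    rw [smul_smul, inv_mul_cancel₀ hr.ne', one_smul]
  simp [h1, h2]

/-- Radius and direction of a standard Gaussian are independent, in integrated form. -/
theorem radial_indep_aux [Nontrivial F]
    (h : ℝ × F → ℝ≥0∞) (hh : Measurable h) :
    ∫⁻ x, h (‖x‖, ‖x‖⁻¹ • x) ∂(stdGaussian F) =
      ∫⁻ x, ∫⁻ x', h (‖x‖, ‖x'‖⁻¹ • x') ∂(stdGaussian F) ∂(stdGaussian F) := by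
  set S := (volume : Measure F).toSphere with hS
  set ν := Measure.volumeIoiPow (Module.finrank ℝ F - 1) with hR
  set w := radialW (Module.finrank ℝ F) with hw
  have hWm : Measurable w := radialW_meas _
  have hA : ∀ φ : ℝ × F → ℝ≥0∞, Measurable φ → ∫⁻ x, φ (‖x‖, ‖x‖⁻¹ • x) ∂(stdGaussian F) =
      ∫⁻ u : sphere (0 : F) 1, ∫⁻ r : Ioi (0 : ℝ), φ ((r : ℝ), (u : F)) * w r ∂ν ∂S :=
    fun φ hφ => radial_A φ hφ
  set W := ∫⁻ r : Ioi (0 : ℝ), w r ∂ν with hWdef
  have hwm' : Measurable (fun r : Ioi (0 : ℝ) => w r) := hWm.comp measurable_subtype_coe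
  have hmu : ∀ a : ℝ, Measurable (fun u : sphere (0 : F) 1 => h (a, (u : F))) := fun a =>
    hh.comp (measurable_const.prodMk measurable_subtype_coe)
  -- normalisation
  have hnorm : S univ * W = 1 := by
    have h1 := hA (fun _ => 1) measurable_const
    simp only [one_mul, lintegral_const, measure_univ] at h1
    rw [mul_comm]
    exact h1.symm
  -- inner integral
  have hin : ∀ a : ℝ, ∫⁻ x', h (a, ‖x'‖⁻¹ • x') ∂(stdGaussian F) =
      W * ∫⁻ u : sphere (0 : F) 1, h (a, (u : F)) ∂S := by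
    intro a
    have hmeas : Measurable (fun p : ℝ × F => h (a, p.2)) := hh.comp (by fun_prop)
    have h2 := hA (fun p => h (a, p.2)) hmeas
    simp only at h2
    rw [h2, ← lintegral_const_mul _ (hmu a)]
    apply lintegral_congr
    intro u
    rw [lintegral_const_mul _ hwm', mul_comm]
  -- outer integral
  have hG : Measurable (fun r : ℝ => ∫⁻ u : sphere (0 : F) 1, h (r, (u : F)) ∂S) := by
    apply Measurable.lintegral_prod_right'
      (f := fun q : ℝ × sphere (0 : F) 1 => h (q.1, (q.2 : F)))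
    exact hh.comp (by fun_prop)
  simp_rw [hin]
  have hout := hA (fun p => W * ∫⁻ u : sphere (0 : F) 1, h (p.1, (u : F)) ∂S)
    (by
      apply Measurable.const_mul
      exact hG.comp measurable_fst)
  simp only at hout
  rw [hout, hA h hh]
  -- both sides in polar form
  have hswap : ∫⁻ u : sphere (0 : F) 1, ∫⁻ r : Ioi (0 : ℝ), h ((r : ℝ), (u : F)) * w r ∂ν ∂S =
      ∫⁻ r : Ioi (0 : ℝ), (∫⁻ u : sphere (0 : F) 1, h ((r : ℝ), (u : F)) ∂S) * w r ∂ν := by
    rw [lintegral_lintegral_swap]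
    · apply lintegral_congr
      intro r
      rw [lintegral_mul_const _ (hmu _)]
    · apply Measurable.aemeasurable
      apply Measurable.mul
      · exact hh.comp (by fun_prop)
      · exact hWm.comp (by fun_prop)
  rw [hswap]
  have hc : ∫⁻ _u : sphere (0 : F) 1, ∫⁻ r : Ioi (0 : ℝ),
        (W * ∫⁻ u : sphere (0 : F) 1, h ((r : ℝ), (u : F)) ∂S) * w r ∂ν ∂S =
      S univ * (W * ∫⁻ r : Ioi (0 : ℝ), (∫⁻ u : sphere (0 : F) 1, h ((r : ℝ), (u : F)) ∂S) * w r ∂ν) := by
    rw [lintegral_const, mul_comm]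
    congr 1
    simp_rw [mul_assoc]
    exact lintegral_const_mul _ ((hG.comp measurable_subtype_coe).mul hwm')
  rw [hc, ← mul_assoc, hnorm, one_mul]

/-- Orthogonal splitting of the standard Gaussian as a measure. -/
theorem radial_split_measure {d : ℕ} (W : Submodule ℝ (E d)) :
    gam d = ((stdGaussian W).prod (stdGaussian Wᗮ)).map (fun p => (p.1 : E d) + (p.2 : E d)) := by
  have hmeas : Measurable (fun p : W × (Wᗮ : Submodule ℝ (E d)) => (p.1 : E d) + (p.2 : E d)) := by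
    fun_prop
  have : IsProbabilityMeasure (((stdGaussian W).prod (stdGaussian Wᗮ)).map
      (fun p : W × (Wᗮ : Submodule ℝ (E d)) => (p.1 : E d) + (p.2 : E d))) :=
    Measure.isProbabilityMeasure_map hmeas.aemeasurable
  apply Measure.ext_of_charFun
  ext t
  have key : ∀ (K : Submodule ℝ (E d)) (y : K),
      (inner ℝ (y : E d) t : ℝ) = inner ℝ y (K.orthogonalProjectionOnto t) := by
    intro K y
    exact (Submodule.inner_orthogonalProjectionOnto_eq_of_mem_left (𝕜 := ℝ) (K := K) y t).symm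
  rw [charFun_stdGaussian, charFun_apply, integral_map hmeas.aemeasurable (by fun_prop)]
  have h1 : ∀ p : W × (Wᗮ : Submodule ℝ (E d)),
      Complex.exp (((inner ℝ ((p.1 : E d) + (p.2 : E d)) t : ℝ) : ℂ) * Complex.I) =
        Complex.exp (((inner ℝ p.1 (W.orthogonalProjectionOnto t) : ℝ) : ℂ) * Complex.I) *
        Complex.exp (((inner ℝ p.2 ((Wᗮ).orthogonalProjectionOnto t) : ℝ) : ℂ) * Complex.I) := by
    intro p
    rw [← Complex.exp_add, inner_add_left, key W p.1, key Wᗮ p.2]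
    push_cast
    ring_nf
  simp_rw [h1]
  rw [integral_prod_mul (fun y : W => Complex.exp (((inner ℝ y (W.orthogonalProjectionOnto t) : ℝ) : ℂ) * Complex.I))
    (fun z : (Wᗮ : Submodule ℝ (E d)) => Complex.exp (((inner ℝ z ((Wᗮ).orthogonalProjectionOnto t) : ℝ) : ℂ) * Complex.I))]
  rw [← charFun_apply, ← charFun_apply, charFun_stdGaussian, charFun_stdGaussian, ← Complex.exp_add]
  congr 1
  have h2 := Submodule.norm_sq_eq_add_norm_sq_projection (𝕜 := ℝ) t W
  have h3 : ((‖t‖ : ℂ)) ^ 2 = ((‖W.orthogonalProjectionOnto t‖ : ℂ)) ^ 2 +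
      ((‖(Wᗮ).orthogonalProjectionOnto t‖ : ℂ)) ^ 2 := by
    exact_mod_cast h2
  rw [h3]
  ring

/-- Orthogonal splitting of the standard Gaussian. -/
theorem orth_split_aux {d : ℕ} (W : Submodule ℝ (E d)) (f : E d → ℝ≥0∞) (hf : Measurable f) :
    ∫⁻ x, f x ∂(gam d) =
      ∫⁻ y, ∫⁻ z, f ((y : E d) + (z : E d)) ∂(stdGaussian Wᗮ) ∂(stdGaussian W) := by
  have hmeas : Measurable (fun p : W × (Wᗮ : Submodule ℝ (E d)) => (p.1 : E d) + (p.2 : E d)) := by
    fun_prop
  rw [radial_split_measure W, lintegral_map hf hmeas]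
  exact lintegral_prod (fun p : W × (Wᗮ : Submodule ℝ (E d)) => f ((p.1 : E d) + (p.2 : E d)))
    (hf.comp hmeas).aemeasurable

/-- Direction of a vector. -/
noncomputable def radialDir {d : ℕ} (g : E d) : E d := ‖g‖⁻¹ • g

theorem radial_cap {d : ℕ} (V : Submodule ℝ (E d)) [Nontrivial Vᗮ] (y : V) (ρ : ℝ) (hρ : 0 ≤ ρ)
    (z : E d) {ε : ℝ} (hε : 0 < ε) (hε' : 8 * ε ≤ 1) :
    ∃ c : Vᗮ, ‖c‖ = 1 ∧ ∀ x' : Vᗮ,
      (1 / 2 ≤ dsub V (radialDir ((y : E d) + ((ρ • (‖x'‖⁻¹ • x') : Vᗮ) : E d))) ∧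
        ‖radialDir ((y : E d) + ((ρ • (‖x'‖⁻¹ • x') : Vᗮ) : E d)) - z‖ ≤ ε) →
      ‖‖x'‖⁻¹ • x' - c‖ ≤ 4 * ε := by
  set lam := Real.sqrt (‖y‖ ^ 2 + ρ ^ 2) with hlam
  set c0 : Vᗮ := (lam / ρ) • (Vᗮ).orthogonalProjectionOnto z with hc0
  -- the main estimate
  have main : ∀ x' : Vᗮ,
      (1 / 2 ≤ dsub V (radialDir ((y : E d) + ((ρ • (‖x'‖⁻¹ • x') : Vᗮ) : E d))) ∧
        ‖radialDir ((y : E d) + ((ρ • (‖x'‖⁻¹ • x') : Vᗮ) : E d)) - z‖ ≤ ε) →
      ‖‖x'‖⁻¹ • x'‖ = 1 ∧ ‖‖x'‖⁻¹ • x' - c0‖ ≤ 2 * ε := by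
    intro x' hx'
    set e : Vᗮ := ‖x'‖⁻¹ • x' with he
    set g : E d := (y : E d) + ((ρ • e : Vᗮ) : E d) with hg
    have hperp : (inner ℝ (y : E d) ((ρ • e : Vᗮ) : E d) : ℝ) = 0 :=
      (Submodule.mem_orthogonal V _).mp (ρ • e : Vᗮ).2 _ y.2
    have hgn : ‖g‖ ^ 2 = ‖y‖ ^ 2 + (ρ * ‖e‖) ^ 2 := by
      rw [hg, norm_add_sq_real, hperp]
      have : ‖((ρ • e : Vᗮ) : E d)‖ = ρ * ‖e‖ := by
        rw [Submodule.coe_smul, norm_smul, Real.norm_of_nonneg hρ, Submodule.coe_norm]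
      rw [this]
      simp only [Submodule.coe_norm]
      ring
    have hds : dsub V (radialDir g) ≤ ‖g‖⁻¹ * (ρ * ‖e‖) := by
      have hmem : (‖g‖⁻¹ • (y : E d)) ∈ (V : Set (E d)) := V.smul_mem _ y.2
      have h1 := Metric.infDist_le_dist_of_mem (x := radialDir g) hmem
      have h2 : dist (radialDir g) (‖g‖⁻¹ • (y : E d)) = ‖g‖⁻¹ * (ρ * ‖e‖) := by
        rw [dist_eq_norm, radialDir, hg, ← smul_sub, add_sub_cancel_left, norm_smul, norm_inv,
          norm_norm]
        congr 1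
        rw [Submodule.coe_smul, norm_smul, Real.norm_of_nonneg hρ, Submodule.coe_norm]
      rw [dsub]
      linarith
    have hpos : 0 < ρ * ‖e‖ := by
      by_contra hnot
      have h0 : ρ * ‖e‖ = 0 := le_antisymm (not_lt.mp hnot) (by positivity)
      rw [h0, mul_zero] at hds
      linarith [hx'.1]
    have hρpos : 0 < ρ := by
      rcases hρ.lt_or_eq with h | h
      · exact h
      · rw [← h, zero_mul] at hpos; exact absurd hpos (lt_irrefl _)
    have heN : ‖e‖ = 1 := by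
      have hx0 : x' ≠ 0 := by
        intro h0
        have : e = 0 := by rw [he, h0, smul_zero]
        rw [this, norm_zero, mul_zero] at hpos
        exact absurd hpos (lt_irrefl _)
      rw [he, norm_smul, norm_inv, norm_norm, inv_mul_cancel₀ (norm_ne_zero_iff.mpr hx0)]
    refine ⟨heN, ?_⟩
    rw [heN, mul_one] at hgn hds
    have hgl : ‖g‖ = lam := by
      rw [hlam, ← hgn, Real.sqrt_sq (norm_nonneg _)]
    have hlampos : 0 < lam := by
      rw [hlam]; positivity
    rw [hgl] at hds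
    have hlam2 : lam ≤ 2 * ρ := by
      have h1 := hx'.1
      have h2 : (1 : ℝ) / 2 ≤ lam⁻¹ * ρ := h1.trans hds
      have h3 : lam * (1 / 2) ≤ lam * (lam⁻¹ * ρ) :=
        mul_le_mul_of_nonneg_left h2 hlampos.le
      rw [← mul_assoc, mul_inv_cancel₀ hlampos.ne', one_mul] at h3
      linarith
    -- the projection
    set P := (Vᗮ).orthogonalProjectionOnto with hP
    have hPs : P (radialDir g) = (ρ / lam) • e := by
      have h1 : P (y : E d) = 0 := Submodule.orthogonalProjectionOnto_orthogonal_apply_eq_zero y.2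
      have h2 : P ((ρ • e : Vᗮ) : E d) = ρ • e :=
        Submodule.orthogonalProjectionOnto_mem_subspace_eq_self _
      rw [radialDir, hgl, map_smul, hg, map_add, h1, h2, zero_add, smul_smul]
      congr 1
      field_simp
    have hPle : ‖(ρ / lam) • e - P z‖ ≤ ε := by
      have h1 := (Vᗮ).norm_orthogonalProjectionOnto_apply_le (radialDir g - z)
      rw [map_sub, hPs] at h1
      exact h1.trans hx'.2
    have hfac : e - c0 = (lam / ρ) • ((ρ / lam) • e - P z) := by
      rw [smul_sub, smul_smul, hc0]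
      have : lam / ρ * (ρ / lam) = 1 := by field_simp
      rw [this, one_smul]
    rw [hfac, norm_smul, Real.norm_of_nonneg (by positivity)]
    have h5 : lam / ρ ≤ 2 := by
      rw [div_le_iff₀ hρpos]; linarith
    exact mul_le_mul h5 hPle (norm_nonneg _) (by norm_num)
  by_cases h0 : c0 = 0
  · obtain ⟨c, hc⟩ := exists_norm_eq (Vᗮ) (zero_le_one (α := ℝ))
    refine ⟨c, hc, fun x' hx' => ?_⟩
    obtain ⟨h1, h2⟩ := main x' hx'
    rw [h0, sub_zero, h1] at h2
    linarith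
  · have hn : ‖c0‖ ≠ 0 := norm_ne_zero_iff.mpr h0
    refine ⟨‖c0‖⁻¹ • c0, ?_, fun x' hx' => ?_⟩
    · rw [norm_smul, norm_inv, norm_norm, inv_mul_cancel₀ hn]
    · obtain ⟨h1, h2⟩ := main x' hx'
      have h3 : ‖c0 - ‖c0‖⁻¹ • c0‖ ≤ 2 * ε := by
        have h4 : c0 - ‖c0‖⁻¹ • c0 = (1 - ‖c0‖⁻¹) • c0 := by
          rw [sub_smul, one_smul]
        rw [h4, norm_smul]
        have h5 : ‖(1 - ‖c0‖⁻¹)‖ * ‖c0‖ = |‖c0‖ - 1| := by
          rw [Real.norm_eq_abs, ← abs_norm c0, ← abs_mul, abs_norm c0, sub_mul,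
            inv_mul_cancel₀ hn, one_mul]
        rw [h5]
        have h6 := abs_norm_sub_norm_le c0 (‖x'‖⁻¹ • x')
        rw [h1, norm_sub_rev] at h6
        exact h6.trans h2
      calc ‖‖x'‖⁻¹ • x' - ‖c0‖⁻¹ • c0‖
          = ‖(‖x'‖⁻¹ • x' - c0) + (c0 - ‖c0‖⁻¹ • c0)‖ := by
            congr 1; abel
        _ ≤ ‖‖x'‖⁻¹ • x' - c0‖ + ‖c0 - ‖c0‖⁻¹ • c0‖ := norm_add_le _ _
        _ ≤ 4 * ε := by linarith

theorem radialDir_meas {d : ℕ} : Measurable (radialDir (d := d)) := by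
  unfold radialDir
  fun_prop

theorem radial_lab_meas {d D : ℕ} (Z : Fin D → E d) : Measurable (lab Z) := by
  unfold lab
  apply measurable_pi_lambda
  intro i
  fun_prop

theorem radial_set_meas {d : ℕ} (V : Submodule ℝ (E d)) (z : E d) (ε : ℝ) :
    MeasurableSet {s : E d | 1 / 2 ≤ dsub V s ∧ ‖s - z‖ ≤ ε} := by
  have h1 : MeasurableSet {s : E d | 1 / 2 ≤ dsub V s} :=
    measurableSet_le measurable_const (Metric.continuous_infDist_pt (V : Set (E d))).measurable
  have h2 : MeasurableSet {s : E d | ‖s - z‖ ≤ ε} :=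
    measurableSet_le (by fun_prop) measurable_const
  exact h1.inter h2

/-- The fibre estimate. -/
theorem radial_fiber {d D : ℕ} (Z : Fin D → E d)
    (V : Submodule ℝ (E d)) (hV : V = Submodule.span ℝ (Set.range Z)) [Nontrivial Vᗮ]
    (ψ : (Fin D → ℝ) → ℝ≥0∞)
    (hψ : Measurable ψ) (z : E d) {ε : ℝ} (hε : 0 < ε) (hε' : 8 * ε ≤ 1) (y : V)
    (hind : ∀ h : ℝ × Vᗮ → ℝ≥0∞, Measurable h →
      ∫⁻ x, h (‖x‖, ‖x‖⁻¹ • x) ∂(stdGaussian Vᗮ) =
        ∫⁻ x, ∫⁻ x', h (‖x‖, ‖x'‖⁻¹ • x') ∂(stdGaussian Vᗮ) ∂(stdGaussian Vᗮ))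
    (hcap : ∀ c : Vᗮ, ‖c‖ = 1 →
      stdGaussian Vᗮ {g | ‖‖g‖⁻¹ • g - c‖ ≤ 4 * ε} ≤
        ENNReal.ofReal (Real.sqrt 2 * (8 * ε) ^ (d - D - 1))) :
    ∫⁻ x : Vᗮ, Set.indicator {s | 1 / 2 ≤ dsub V s ∧ ‖s - z‖ ≤ ε}
        (fun s => ψ (lab Z s)) (radialDir ((y : E d) + (x : E d))) ∂(stdGaussian Vᗮ) ≤
      ENNReal.ofReal (Real.sqrt 2 * (8 * ε) ^ (d - D - 1)) *
        ∫⁻ x : Vᗮ, ψ (lab Z (radialDir ((y : E d) + (x : E d)))) ∂(stdGaussian Vᗮ) := by
  set A : Set (E d) := {s | 1 / 2 ≤ dsub V s ∧ ‖s - z‖ ≤ ε} with hA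
  set C := ENNReal.ofReal (Real.sqrt 2 * (8 * ε) ^ (d - D - 1)) with hC
  have hAm : MeasurableSet A := radial_set_meas V z ε
  -- the label depends only on `y` and `‖x‖`
  let L : ℝ → Fin D → ℝ := fun ρ i => (Real.sqrt (‖y‖ ^ 2 + ρ ^ 2))⁻¹ * inner ℝ (Z i) (y : E d)
  have hLm : Measurable L := by
    apply measurable_pi_lambda
    intro i
    simp only [L]
    fun_prop
  have hlab : ∀ x : Vᗮ, lab Z (radialDir ((y : E d) + (x : E d))) = L ‖x‖ := by
    intro x
    funext i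
    have hZ : Z i ∈ V := by rw [hV]; exact Submodule.subset_span ⟨i, rfl⟩
    have h1 : (inner ℝ (Z i) (x : E d) : ℝ) = 0 := (Submodule.mem_orthogonal V _).mp x.2 _ hZ
    have h2 : (inner ℝ (y : E d) (x : E d) : ℝ) = 0 := (Submodule.mem_orthogonal V _).mp x.2 _ y.2
    have h3 : ‖(y : E d) + (x : E d)‖ = Real.sqrt (‖y‖ ^ 2 + ‖x‖ ^ 2) := by
      rw [← Real.sqrt_sq (norm_nonneg ((y : E d) + (x : E d))), norm_add_sq_real, h2]
      congr 1
      simp only [Submodule.coe_norm]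
      ring
    simp only [lab, radialDir, L]
    rw [inner_smul_right, inner_add_right, h1, add_zero, h3]
  -- the function for radial independence
  let h : ℝ × Vᗮ → ℝ≥0∞ := fun p =>
    A.indicator (fun _ => ψ (L p.1)) (radialDir ((y : E d) + ((p.1 • p.2 : Vᗮ) : E d)))
  have hr : Measurable (fun p : ℝ × Vᗮ => radialDir ((y : E d) + ((p.1 • p.2 : Vᗮ) : E d))) := by
    apply radialDir_meas.comp
    fun_prop
  have hm : Measurable h := by
    have h1 : h = ((fun p : ℝ × Vᗮ => radialDir ((y : E d) + ((p.1 • p.2 : Vᗮ) : E d))) ⁻¹' A).indicator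
        (fun p => ψ (L p.1)) := by
      funext p
      simp only [h, Set.indicator, Set.mem_preimage]
    rw [h1]
    exact (hψ.comp (hLm.comp measurable_fst)).indicator (hr hAm)
  have hstep1 : ∀ x : Vᗮ, A.indicator (fun s => ψ (lab Z s)) (radialDir ((y : E d) + (x : E d))) =
      h (‖x‖, ‖x‖⁻¹ • x) := by
    intro x
    have h1 : ‖x‖ • (‖x‖⁻¹ • x) = x := by
      by_cases hx : x = 0
      · simp [hx]
      · rw [smul_smul, mul_inv_cancel₀ (norm_ne_zero_iff.mpr hx), one_smul]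
    simp only [h]
    rw [h1]
    by_cases hmem : radialDir ((y : E d) + (x : E d)) ∈ A
    · rw [Set.indicator_of_mem hmem, Set.indicator_of_mem hmem, hlab]
    · rw [Set.indicator_of_notMem hmem, Set.indicator_of_notMem hmem]
  simp_rw [hstep1]
  rw [hind h hm]
  have hstep2 : ∀ x : Vᗮ, ∫⁻ x', h (‖x‖, ‖x'‖⁻¹ • x') ∂(stdGaussian Vᗮ) ≤ C * ψ (L ‖x‖) := by
    intro x
    obtain ⟨c, hc1, hc2⟩ := radial_cap V y ‖x‖ (norm_nonneg _) z hε hε'
    have hsm : MeasurableSet {g : Vᗮ | ‖‖g‖⁻¹ • g - c‖ ≤ 4 * ε} :=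
      measurableSet_le (by fun_prop) measurable_const
    calc ∫⁻ x', h (‖x‖, ‖x'‖⁻¹ • x') ∂(stdGaussian Vᗮ)
        ≤ ∫⁻ x', {g : Vᗮ | ‖‖g‖⁻¹ • g - c‖ ≤ 4 * ε}.indicator (fun _ => ψ (L ‖x‖)) x'
            ∂(stdGaussian Vᗮ) := by
          apply lintegral_mono
          intro x'
          by_cases hmem : radialDir ((y : E d) + (((‖x‖ • (‖x'‖⁻¹ • x')) : Vᗮ) : E d)) ∈ A
          · have := hc2 x' hmem
            simp only [h]
            rw [Set.indicator_of_mem hmem, Set.indicator_of_mem (show x' ∈ _ from this)]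
          · simp only [h]
            rw [Set.indicator_of_notMem hmem]
            exact zero_le
      _ = ψ (L ‖x‖) * stdGaussian Vᗮ {g : Vᗮ | ‖‖g‖⁻¹ • g - c‖ ≤ 4 * ε} :=
          lintegral_indicator_const hsm _
      _ ≤ ψ (L ‖x‖) * C := by gcongr; exact hcap c hc1
      _ = C * ψ (L ‖x‖) := mul_comm _ _
  calc ∫⁻ x, ∫⁻ x', h (‖x‖, ‖x'‖⁻¹ • x') ∂(stdGaussian Vᗮ) ∂(stdGaussian Vᗮ)
      ≤ ∫⁻ x : Vᗮ, C * ψ (L ‖x‖) ∂(stdGaussian Vᗮ) := lintegral_mono hstep2
    _ = C * ∫⁻ x : Vᗮ, ψ (L ‖x‖) ∂(stdGaussian Vᗮ) :=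
        lintegral_const_mul _ (hψ.comp (hLm.comp measurable_norm))
    _ = C * ∫⁻ x : Vᗮ, ψ (lab Z (radialDir ((y : E d) + (x : E d)))) ∂(stdGaussian Vᗮ) := by
        simp_rw [hlab]


end radial_private

/-- Radius and direction of a standard Gaussian are independent, in integrated form.
Proof: the density of `stdGaussian` w.r.t. volume plus `measurePreserving_homeomorphUnitSphereProd`
(`Measure.toSphere`, `volumeIoiPow`). -/
theorem radial_indep {F : Type*} [NormedAddCommGroup F] [InnerProductSpace ℝ F]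
    [FiniteDimensional ℝ F] [MeasurableSpace F] [BorelSpace F] [Nontrivial F]
    (h : ℝ × F → ℝ≥0∞) (hh : Measurable h) :
    ∫⁻ x, h (‖x‖, ‖x‖⁻¹ • x) ∂(stdGaussian F) =
      ∫⁻ x, ∫⁻ x', h (‖x‖, ‖x'‖⁻¹ • x') ∂(stdGaussian F) ∂(stdGaussian F) :=
  radial_indep_aux h hh

/-- Orthogonal splitting of the standard Gaussian, e.g. by characteristic functions
(`Measure.ext_of_charFun`, `charFun_stdGaussian`). -/
theorem orth_split {d : ℕ} (W : Submodule ℝ (E d)) (f : E d → ℝ≥0∞) (hf : Measurable f) :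
    ∫⁻ x, f x ∂(gam d) =
      ∫⁻ y, ∫⁻ z, f ((y : E d) + (z : E d)) ∂(stdGaussian Wᗮ) ∂(stdGaussian W) :=
  orth_split_aux W f hf

/-- The fixed-`Z` conditional cap bound: given `Z s`, the kernel component of `s` is a uniform
direction. See the plan. `W = (span range Z)ᗮ`, `g = y + x` with `y ∈ span range Z`, `x ∈ W`,
`lab Z (g/‖g‖)` is a function of `y` and `‖x‖`; for fixed `y`, `ρ = ‖x‖`, apply `radial_indep` on
`W`, and `cap_bound` with `τ = 4ε` around the unit vector of `(λ/ρ) P_W z`, `λ = ‖g‖`,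
using `ρ/λ = dsub (span range Z) s ≥ 1/2`. -/
theorem slice_cap {d D : ℕ} (hD : D < d) (Z : Fin D → E d) (ψ : (Fin D → ℝ) → ℝ≥0∞)
    (hψ : Measurable ψ) (z : E d) {ε : ℝ} (hε : 0 < ε) (hε' : 8 * ε ≤ 1) :
    ∫⁻ s, Set.indicator {s | 1 / 2 ≤ dsub (Submodule.span ℝ (Set.range Z)) s ∧ ‖s - z‖ ≤ ε}
        (fun s => ψ (lab Z s)) s ∂(sig d) ≤
      ENNReal.ofReal (Real.sqrt 2 * (8 * ε) ^ (d - D - 1)) * ∫⁻ s, ψ (lab Z s) ∂(sig d) := by
  set V := Submodule.span ℝ (Set.range Z) with hV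
  have hVdim : Module.finrank ℝ V ≤ D := by
    have := finrank_range_le_card (R := ℝ) Z
    rw [Fintype.card_fin] at this
    exact this
  have hWdim : d - D ≤ Module.finrank ℝ Vᗮ := by
    have h := V.finrank_add_finrank_orthogonal
    have h2 : Module.finrank ℝ (E d) = d := by simp
    omega
  have hne : Nontrivial Vᗮ := Module.nontrivial_of_finrank_pos (R := ℝ) (by omega)
  have hcap : ∀ c : Vᗮ, ‖c‖ = 1 →
      stdGaussian Vᗮ {g | ‖‖g‖⁻¹ • g - c‖ ≤ 4 * ε} ≤
        ENNReal.ofReal (Real.sqrt 2 * (8 * ε) ^ (d - D - 1)) := by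
    intro c hc
    have hτ : (4 * ε) ^ 2 ≤ 1 / 2 := by nlinarith
    refine (cap_bound c hc (by positivity) hτ).trans ?_
    apply ENNReal.ofReal_le_ofReal
    have h8 : 2 * (4 * ε) = 8 * ε := by ring
    rw [h8]
    apply mul_le_mul_of_nonneg_left _ (by positivity)
    exact pow_le_pow_of_le_one (by positivity) hε' (by omega)
  have hAm := radial_set_meas V z ε
  have hlm := radial_lab_meas Z
  have hdm : Measurable (radialDir (d := d)) := radialDir_meas
  have hf0 : Measurable (Set.indicator {s | 1 / 2 ≤ dsub V s ∧ ‖s - z‖ ≤ ε}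
      (fun s => ψ (lab Z s))) := (hψ.comp hlm).indicator hAm
  have hg0 : Measurable (fun s => ψ (lab Z s)) := hψ.comp hlm
  have hsig : sig d = (gam d).map radialDir := rfl
  rw [hsig, lintegral_map hf0 hdm, lintegral_map hg0 hdm]
  have h1 := orth_split V (fun g => Set.indicator {s | 1 / 2 ≤ dsub V s ∧ ‖s - z‖ ≤ ε}
      (fun s => ψ (lab Z s)) (radialDir g)) (hf0.comp hdm)
  have h2 := orth_split V (fun g => ψ (lab Z (radialDir g))) (hg0.comp hdm)
  rw [h1, h2]
  rw [← lintegral_const_mul]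
  · apply lintegral_mono
    intro y
    exact radial_fiber Z V hV ψ hψ z hε hε' y (radial_indep) hcap
  · apply Measurable.lintegral_prod_right'
      (f := fun q : V × (Vᗮ : Submodule ℝ (E d)) => ψ (lab Z (radialDir ((q.1 : E d) + (q.2 : E d)))))
    exact (hg0.comp hdm).comp (by fun_prop)

end P309
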