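import Vale.Agent.Lib.P309.Process
import Vale.Agent.Lib.P309.Radial

/-! # P309 module Final: the potential at the end must be large -/

open MeasureTheory ProbabilityTheory
open scoped ENNReal NNReal

namespace P309

variable {d D M : ℕ}

theorem final_lab_continuous : Continuous fun p : (E d × (Fin D → E d)) => lab p.2 p.1 := by
  unfold lab
  refine continuous_pi fun i => ?_
  exact ((continuous_apply i).comp continuous_snd).inner continuous_fst

/-- The bad event, as a subset of `(s, Z)`. -/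
def finalBad (d D : ℕ) : Set (E d × (Fin D → E d)) :=
  {p | dsub (Submodule.span ℝ (Set.range p.2)) p.1 < 1 / 2}

theorem final_bad_open : IsOpen (finalBad d D) := by
  have : finalBad d D = ⋃ α : Fin D → ℝ, {p : E d × (Fin D → E d) |
      ‖p.1 - ∑ i, α i • p.2 i‖ < 1 / 2} := by
    ext p
    simp only [finalBad, dsub, Set.mem_ofPred_eq, Set.mem_iUnion]
    rw [Metric.infDist_lt_iff (Submodule.nonempty _)]
    constructor
    · rintro ⟨y, hy, hd⟩
      obtain ⟨c, rfl⟩ := (Submodule.mem_span_range_iff_exists_fun ℝ).1 hy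
      exact ⟨c, by rwa [dist_eq_norm] at hd⟩
    · rintro ⟨c, hc⟩
      refine ⟨∑ i, c i • p.2 i, ?_, by rwa [dist_eq_norm]⟩
      exact (Submodule.mem_span_range_iff_exists_fun ℝ).2 ⟨c, rfl⟩
  rw [this]
  refine isOpen_iUnion fun α => ?_
  refine isOpen_lt ?_ continuous_const
  refine (continuous_fst.sub ?_).norm
  refine continuous_finsetSum _ fun i _ => ?_
  have h2 : Continuous fun p : E d × (Fin D → E d) => p.2 i :=
    (continuous_apply (A := fun _ : Fin D => E d) i).comp continuous_snd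
  exact h2.const_smul (α i)

theorem final_bad_meas : MeasurableSet (finalBad d D) := final_bad_open.measurableSet

/-- The success set of the output. -/
def finalS (ε : ℝ) (s : E d) : Set (E d) := {z | Real.arccos (inner ℝ z s) ≤ ε}

theorem final_S_meas (ε : ℝ) : MeasurableSet {p : E d × E d | Real.arccos (inner ℝ p.2 p.1) ≤ ε} := by
  have hc : Continuous fun p : E d × E d => Real.arccos (inner ℝ p.2 p.1) :=
    Real.continuous_arccos.comp (continuous_snd.inner continuous_fst)
  exact measurableSet_le hc.measurable measurable_const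

theorem final_out_meas (A : Learner d M) (ε : ℝ) (u : Fin (2 ^ M)) :
    Measurable fun s : E d => A.out u {z | Real.arccos (inner ℝ z s) ≤ ε} := by
  have := A.out_prob u
  exact measurable_measure_prodMk_left (final_S_meas ε)

/-- unit vectors: small angle implies small distance. -/
theorem final_dist_le {s z : E d} (hs : ‖s‖ = 1) (hz : ‖z‖ = 1) {ε : ℝ} (hε : 0 < ε)
    (h : Real.arccos (inner ℝ z s) ≤ ε) : ‖s - z‖ ≤ ε := by
  have h0 : 0 ≤ Real.arccos (inner ℝ z s) := Real.arccos_nonneg _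
  have hle1 : |(inner ℝ z s : ℝ)| ≤ 1 := by
    have := abs_real_inner_le_norm z s
    simpa [hs, hz] using this
  have hcos : Real.cos (Real.arccos (inner ℝ z s)) = inner ℝ z s :=
    Real.cos_arccos (abs_le.1 hle1).1 (abs_le.1 hle1).2
  have h1 := Real.one_sub_sq_div_two_le_cos (x := Real.arccos (inner ℝ z s))
  rw [hcos] at h1
  have hn : ‖s - z‖ ^ 2 = 2 - 2 * inner ℝ z s := by
    rw [@norm_sub_sq_real, hs, hz, real_inner_comm]
    ring
  have hsq : ‖s - z‖ ^ 2 ≤ ε ^ 2 := by
    rw [hn]
    have : Real.arccos (inner ℝ z s) ^ 2 ≤ ε ^ 2 := by gcongr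
    linarith
  exact (abs_le_of_sq_le_sq' hsq hε.le).2

/-- The cap estimate for one output kernel. -/
theorem final_cap (hDd : D < d) (A : Learner d M) (u : Fin (2 ^ M)) (Z : Fin D → E d)
    (ψ : (Fin D → ℝ) → ℝ≥0∞) (hψ : Measurable ψ) {ε : ℝ} (hε : 0 < ε) (hε' : 8 * ε ≤ 1) :
    ∫⁻ s, ψ (lab Z s) * Set.indicator {s | 1 / 2 ≤ dsub (Submodule.span ℝ (Set.range Z)) s}
        (fun s => A.out u {z | Real.arccos (inner ℝ z s) ≤ ε}) s ∂(sig d) ≤
      ENNReal.ofReal (Real.sqrt 2 * (8 * ε) ^ (d - D - 1)) * ∫⁻ s, ψ (lab Z s) ∂(sig d) := by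
  have := A.out_prob u
  have hd1 : 1 ≤ d := by omega
  have hlab : Measurable fun s : E d => lab Z s := by
    have : Continuous fun s : E d => lab Z s := by
      unfold lab
      exact continuous_pi fun i => continuous_const.inner continuous_id
    exact this.measurable
  set G : Set (E d) := {s | 1 / 2 ≤ dsub (Submodule.span ℝ (Set.range Z)) s} with hG
  have hGm : MeasurableSet G := by
    have h1 : Continuous fun s : E d => dsub (Submodule.span ℝ (Set.range Z)) s := by
      unfold dsub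
      exact Metric.continuous_infDist_pt _
    exact measurableSet_le measurable_const h1.measurable
  -- the double integrand
  set T : E d × E d → ℝ≥0∞ := fun p =>
    Set.indicator (G ×ˢ Set.univ ∩ {p : E d × E d | Real.arccos (inner ℝ p.2 p.1) ≤ ε})
      (fun p => ψ (lab Z p.1)) p with hT
  have hTm : Measurable T := by
    refine Measurable.indicator ?_ ((hGm.prod MeasurableSet.univ).inter (final_S_meas ε))
    exact hψ.comp (hlab.comp measurable_fst)
  have h1 : ∀ s, ψ (lab Z s) * Set.indicator G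
        (fun s => A.out u {z | Real.arccos (inner ℝ z s) ≤ ε}) s =
      ∫⁻ z, T (s, z) ∂(A.out u) := by
    intro s
    by_cases hs : s ∈ G
    · rw [Set.indicator_of_mem hs]
      have hcongr : (fun z => T (s, z)) = Set.indicator {z | Real.arccos (inner ℝ z s) ≤ ε}
          (fun _ => ψ (lab Z s)) := by
        funext z
        simp only [hT, Set.indicator, Set.mem_inter_iff, Set.mem_prod, Set.mem_univ, and_true,
          Set.mem_ofPred_eq, hs, true_and]
      rw [show (∫⁻ z, T (s, z) ∂(A.out u)) = ∫⁻ z, Set.indicator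
          {z | Real.arccos (inner ℝ z s) ≤ ε} (fun _ => ψ (lab Z s)) z ∂(A.out u) from
        lintegral_congr fun z => congrFun hcongr z]
      have hmS : MeasurableSet {z : E d | Real.arccos (inner ℝ z s) ≤ ε} :=
        measurableSet_le (Real.continuous_arccos.comp
          (continuous_id.inner continuous_const)).measurable measurable_const
      rw [lintegral_indicator_const hmS]
    · rw [Set.indicator_of_notMem hs, mul_zero]
      symm
      have : ∀ z, T (s, z) = 0 := fun z => by
        simp only [hT, Set.indicator, Set.mem_inter_iff, Set.mem_prod, Set.mem_univ, and_true,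
          Set.mem_ofPred_eq]
        rw [if_neg]
        exact fun h => hs h.1
      simp [this]
  simp_rw [h1]
  rw [lintegral_lintegral_swap (hTm.aemeasurable)]
  have hsph := sig_sphere (d := d) hd1
  have hbound : ∀ᵐ z ∂(A.out u), ∫⁻ s, T (s, z) ∂(sig d) ≤
      ENNReal.ofReal (Real.sqrt 2 * (8 * ε) ^ (d - D - 1)) * ∫⁻ s, ψ (lab Z s) ∂(sig d) := by
    filter_upwards [A.out_sphere u] with z hz
    refine le_trans ?_ (slice_cap hDd Z ψ hψ z hε hε')
    refine lintegral_mono_ae ?_
    filter_upwards [hsph] with s hs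
    simp only [hT, Set.indicator, Set.mem_inter_iff, Set.mem_prod, Set.mem_univ, and_true,
      Set.mem_ofPred_eq]
    by_cases h : s ∈ G ∧ Real.arccos (inner ℝ z s) ≤ ε
    · rw [if_pos h, if_pos ⟨h.1, final_dist_le hs hz hε h.2⟩]
    · rw [if_neg h]
      exact zero_le
  refine (lintegral_mono_ae hbound).trans ?_
  simp

/-- The integrand of the reference success, in one place. -/
noncomputable def finalE (A : Learner d M) (ε : ℝ) (u : Fin (2 ^ M)) (p : E d × (Fin D → E d)) : ℝ :=
  if 1 / 2 ≤ dsub (Submodule.span ℝ (Set.range p.2)) p.1 then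
    (A.out u {z | Real.arccos (inner ℝ z p.1) ≤ ε}).toReal else 0

theorem finalE_nonneg (A : Learner d M) (ε : ℝ) (u : Fin (2 ^ M)) (p : E d × (Fin D → E d)) :
    0 ≤ finalE A ε u p := by
  unfold finalE
  split_ifs
  · exact ENNReal.toReal_nonneg
  · exact le_rfl

theorem finalE_le_one (A : Learner d M) (ε : ℝ) (u : Fin (2 ^ M)) (p : E d × (Fin D → E d)) :
    finalE A ε u p ≤ 1 := by
  have := A.out_prob u
  unfold finalE
  split_ifs
  · exact ENNReal.toReal_le_of_le_ofReal zero_le_one (by simpa using prob_le_one)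
  · exact zero_le_one

theorem finalE_meas (A : Learner d M) (ε : ℝ) (u : Fin (2 ^ M)) :
    Measurable (finalE (D := D) A ε u) := by
  unfold finalE
  refine Measurable.ite ?_ ?_ measurable_const
  · have : {a : E d × (Fin D → E d) | 1 / 2 ≤ dsub (Submodule.span ℝ (Set.range a.2)) a.1} =
        (finalBad d D)ᶜ := by
      ext p
      simp [finalBad]
    rw [this]
    exact final_bad_meas.compl
  · exact ((final_out_meas A ε u).comp measurable_fst).ennreal_toReal

/-- The reference mass `R`. -/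
noncomputable def finalR (A : Learner d M) (Qt : (Fin D → E d) × (Fin D → ℝ) → Fin (2 ^ M) → ℝ)
    (ε : ℝ) (p : E d × (Fin D → E d)) : ℝ :=
  ∑ u, Qt (p.2, lab p.2 p.1) u * finalE A ε u p

theorem final_Q_meas (Qt : (Fin D → E d) × (Fin D → ℝ) → Fin (2 ^ M) → ℝ)
    (hQm : ∀ v, Measurable fun z => Qt z v) (u : Fin (2 ^ M)) :
    Measurable fun p : E d × (Fin D → E d) => Qt (p.2, lab p.2 p.1) u :=
  (hQm u).comp (measurable_snd.prodMk final_lab_continuous.measurable)

theorem finalR_meas (A : Learner d M) (Qt : (Fin D → E d) × (Fin D → ℝ) → Fin (2 ^ M) → ℝ)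
    (hQm : ∀ v, Measurable fun z => Qt z v) (ε : ℝ) : Measurable (finalR A Qt ε) := by
  unfold finalR
  exact Finset.measurable_fun_sum _ fun u _ => (final_Q_meas Qt hQm u).mul (finalE_meas A ε u)

theorem finalR_nonneg (A : Learner d M) (Qt : (Fin D → E d) × (Fin D → ℝ) → Fin (2 ^ M) → ℝ)
    (hQp : ∀ z, IsProb (Qt z)) (ε : ℝ) (p : E d × (Fin D → E d)) : 0 ≤ finalR A Qt ε p :=
  Finset.sum_nonneg fun u _ => mul_nonneg ((hQp _).nonneg u) (finalE_nonneg A ε u p)

theorem finalR_le_one (A : Learner d M) (Qt : (Fin D → E d) × (Fin D → ℝ) → Fin (2 ^ M) → ℝ)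
    (hQp : ∀ z, IsProb (Qt z)) (ε : ℝ) (p : E d × (Fin D → E d)) : finalR A Qt ε p ≤ 1 := by
  unfold finalR
  calc ∑ u, Qt (p.2, lab p.2 p.1) u * finalE A ε u p
      ≤ ∑ u, Qt (p.2, lab p.2 p.1) u * 1 := Finset.sum_le_sum fun u _ =>
        mul_le_mul_of_nonneg_left (finalE_le_one A ε u p) ((hQp _).nonneg u)
    _ = 1 := by simpa using (hQp _).sum_one

/-- For fixed `Z`. -/
theorem final_fixedZ (hDd : D < d) (A : Learner d M)
    (Qt : (Fin D → E d) × (Fin D → ℝ) → Fin (2 ^ M) → ℝ)
    (hQm : ∀ v, Measurable fun z => Qt z v) (hQp : ∀ z, IsProb (Qt z)) {ε : ℝ} (hε : 0 < ε)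
    (hε' : 8 * ε ≤ 1) (Z : Fin D → E d) :
    ∫ s, finalR A Qt ε (s, Z) ∂(sig d) ≤ Real.sqrt 2 * (8 * ε) ^ (d - D - 1) := by
  have hτ : 0 ≤ Real.sqrt 2 * (8 * ε) ^ (d - D - 1) := by positivity
  have hZm : Measurable fun s : E d => finalR A Qt ε (s, Z) :=
    (finalR_meas A Qt hQm ε).comp (measurable_id.prodMk measurable_const)
  rw [integral_eq_lintegral_of_nonneg_ae (ae_of_all _ fun s => finalR_nonneg A Qt hQp ε _)
    hZm.aestronglyMeasurable]
  refine ENNReal.toReal_le_of_le_ofReal hτ ?_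
  have hlab : Measurable fun s : E d => lab Z s := by
    have : Continuous fun s : E d => lab Z s := by
      unfold lab
      exact continuous_pi fun i => continuous_const.inner continuous_id
    exact this.measurable
  set ψ : Fin (2 ^ M) → (Fin D → ℝ) → ℝ≥0∞ := fun u y => ENNReal.ofReal (Qt (Z, y) u) with hψ
  have hψm : ∀ u, Measurable (ψ u) := fun u =>
    ENNReal.measurable_ofReal.comp ((hQm u).comp (measurable_const.prodMk measurable_id))
  have hpt : ∀ s, ENNReal.ofReal (finalR A Qt ε (s, Z)) =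
      ∑ u, ψ u (lab Z s) * Set.indicator {s | 1 / 2 ≤ dsub (Submodule.span ℝ (Set.range Z)) s}
        (fun s => A.out u {z | Real.arccos (inner ℝ z s) ≤ ε}) s := by
    intro s
    unfold finalR
    rw [ENNReal.ofReal_sum_of_nonneg fun u _ =>
      mul_nonneg ((hQp _).nonneg u) (finalE_nonneg A ε u _)]
    refine Finset.sum_congr rfl fun u _ => ?_
    have := A.out_prob u
    rw [ENNReal.ofReal_mul ((hQp _).nonneg u)]
    congr 1
    simp only [finalE, Set.indicator, Set.mem_ofPred_eq]
    split_ifs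
    · exact ENNReal.ofReal_toReal (measure_ne_top _ _)
    · simp
  simp_rw [hpt]
  have hmeasT : ∀ u, Measurable fun s : E d => ψ u (lab Z s) *
      Set.indicator {s | 1 / 2 ≤ dsub (Submodule.span ℝ (Set.range Z)) s}
        (fun s => A.out u {z | Real.arccos (inner ℝ z s) ≤ ε}) s := by
    intro u
    refine ((hψm u).comp hlab).mul ?_
    refine (final_out_meas A ε u).indicator ?_
    have h1 : Continuous fun s : E d => dsub (Submodule.span ℝ (Set.range Z)) s := by
      unfold dsub
      exact Metric.continuous_infDist_pt _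
    exact measurableSet_le measurable_const h1.measurable
  rw [lintegral_finsetSum _ fun u _ => hmeasT u]
  have hsum : ∑ u, ∫⁻ s, ψ u (lab Z s) ∂(sig d) = 1 := by
    rw [← lintegral_finsetSum (μ := sig d) Finset.univ
      (f := fun u s => ψ u (lab Z s)) (fun u _ => (hψm u).comp hlab)]
    have : ∀ s, ∑ u, ψ u (lab Z s) = 1 := by
      intro s
      simp only [hψ]
      rw [← ENNReal.ofReal_sum_of_nonneg fun u _ => (hQp _).nonneg u, (hQp _).sum_one]
      simp
    simp_rw [this]
    simp
  calc ∑ u, ∫⁻ s, ψ u (lab Z s) *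
        Set.indicator {s | 1 / 2 ≤ dsub (Submodule.span ℝ (Set.range Z)) s}
        (fun s => A.out u {z | Real.arccos (inner ℝ z s) ≤ ε}) s ∂(sig d)
      ≤ ∑ u, ENNReal.ofReal (Real.sqrt 2 * (8 * ε) ^ (d - D - 1)) *
          ∫⁻ s, ψ u (lab Z s) ∂(sig d) :=
        Finset.sum_le_sum fun u _ => final_cap hDd A u Z (ψ u) (hψm u) hε hε'
    _ = ENNReal.ofReal (Real.sqrt 2 * (8 * ε) ^ (d - D - 1)) := by
        rw [← Finset.mul_sum, hsum, mul_one]

/-- Reference success is small. For fixed `Z`, `u`, `ŝ`, `slice_cap` with `ψ = Qt(Z,·) u`;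
arccos ⟨ŝ,s⟩ ≤ ε implies `‖s - ŝ‖ ≤ ε` for unit vectors; `good_prob` for the bad event. -/
theorem reference_success (hD : 8 * D ≤ d) (hDd : D < d) (A : Learner d M)
    (Qt : (Fin D → E d) × (Fin D → ℝ) → Fin (2 ^ M) → ℝ)
    (hQm : ∀ v, Measurable fun z => Qt z v) (hQp : ∀ z, IsProb (Qt z)) {ε : ℝ} (hε : 0 < ε)
    (hε' : 8 * ε ≤ 1) :
    ∫ s, ∫ Z, ∑ u, Qt (Z, lab Z s) u *
        (if 1 / 2 ≤ dsub (Submodule.span ℝ (Set.range Z)) s then
          (A.out u {z | Real.arccos (inner ℝ z s) ≤ ε}).toReal else 0)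
        ∂(gamR d D) ∂(sig d) ≤
      Real.sqrt 2 * (8 * ε) ^ (d - D - 1) := by
  have hτ : 0 ≤ Real.sqrt 2 * (8 * ε) ^ (d - D - 1) := by positivity
  change ∫ s, ∫ Z, finalR A Qt ε (s, Z) ∂(gamR d D) ∂(sig d) ≤ _
  have hint : Integrable (Function.uncurry fun s Z => finalR A Qt ε (s, Z))
      ((sig d).prod (gamR d D)) := by
    refine (integrable_const (1 : ℝ)).mono' ?_ ?_
    · exact (finalR_meas A Qt hQm ε).aestronglyMeasurable
    · refine ae_of_all _ fun p => ?_
      change ‖finalR A Qt ε (p.1, p.2)‖ ≤ 1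
      rw [Real.norm_of_nonneg (finalR_nonneg A Qt hQp ε _)]
      exact finalR_le_one A Qt hQp ε _
  rw [integral_integral_swap hint]
  refine (integral_mono_of_nonneg (ae_of_all _ fun Z =>
    integral_nonneg fun s => finalR_nonneg A Qt hQp ε _) (integrable_const _)
    (ae_of_all _ fun Z => final_fixedZ hDd A Qt hQm hQp hε hε' Z)).trans ?_
  simp

/-- Soft success functional: `Gd p = ∑ f s u * e_u`. -/
noncomputable def finalG (A : Learner d M) (f : E d → Fin (2 ^ M) → ℝ) (ε : ℝ)
    (p : E d × (Fin D → E d)) : ℝ :=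
  ∑ u, f p.1 u * finalE A ε u p

/-- The hard success functional. -/
noncomputable def finalA (A : Learner d M) (f : E d → Fin (2 ^ M) → ℝ) (ε : ℝ) (s : E d) : ℝ :=
  ∑ u, f s u * (A.out u {z | Real.arccos (inner ℝ z s) ≤ ε}).toReal

theorem final_bad_prob (hD : 8 * D ≤ d) (hDd : D < d) :
    ((sig d).prod (gamR d D)).real (finalBad d D) ≤ 1 / 6 := by
  have hd1 : 1 ≤ d := by omega
  have hP : ((sig d).prod (gamR d D)) (finalBad d D) ≤ ENNReal.ofReal (1 / 6) := by
    rw [Measure.prod_apply_symm final_bad_meas]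
    have : ∀ Z : Fin D → E d, (sig d) ((fun s => (s, Z)) ⁻¹' finalBad d D) ≤
        ENNReal.ofReal (1 / 6) := by
      intro Z
      have hW : Module.finrank ℝ (Submodule.span ℝ (Set.range Z)) ≤ D := by
        have h := finrank_range_le_card (R := ℝ) Z
        rw [Fintype.card_fin] at h
        exact h
      have hset : (fun s => (s, Z)) ⁻¹' finalBad d D =
          {s | dsub (Submodule.span ℝ (Set.range Z)) s < 1 / 2} := rfl
      rw [hset]
      exact good_prob hD hd1 _ hW
    calc ∫⁻ Z, (sig d) ((fun s => (s, Z)) ⁻¹' finalBad d D) ∂(gamR d D)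
        ≤ ∫⁻ _, ENNReal.ofReal (1 / 6) ∂(gamR d D) := lintegral_mono this
      _ = ENNReal.ofReal (1 / 6) := by simp
  exact ENNReal.toReal_le_of_le_ofReal (by norm_num) hP

/-- Gibbs with `ψ = Λ e`, `Λ = log (1/τ)`, `e` the soft event, `exp(Λ e) ≤ 1 + (exp Λ - 1) e`
for `e ∈ [0,1]`; Jensen by `log_tangent`; `p̄ ≥ 2/3 - 1/6 = 1/2` by `good_prob`. -/
theorem final_lower (hD : 8 * D ≤ d) (hDd : D < d) (A : Learner d M) (f : E d → Fin (2 ^ M) → ℝ)
    (hfm : ∀ v, Measurable fun s => f s v) (hfp : ∀ s, IsProb (f s))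
    (Qt : (Fin D → E d) × (Fin D → ℝ) → Fin (2 ^ M) → ℝ)
    (hQm : ∀ v, Measurable fun z => Qt z v) (hQp : ∀ z, IsProb (Qt z))
    (hQl : ∀ z v, 1 / (2 * (2 : ℝ) ^ M) ≤ Qt z v) {ε : ℝ} (hε : 0 < ε) (hε' : 8 * ε ≤ 1)
    (hsucc : 2 / 3 ≤ ∫ s, ∑ u, f s u * (A.out u {z | Real.arccos (inner ℝ z s) ≤ ε}).toReal
      ∂(sig d)) :
    1 / 2 * Real.log (1 / (Real.sqrt 2 * (8 * ε) ^ (d - D - 1))) - Real.log 2 ≤
      ∫ s, ∫ Z, KL (f s) (Qt (Z, lab Z s)) ∂(gamR d D) ∂(sig d) := by
  set τ : ℝ := Real.sqrt 2 * (8 * ε) ^ (d - D - 1) with hτdef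
  have hτpos : 0 < τ := by rw [hτdef]; positivity
  set c : ℝ := 1 / (2 * (2 : ℝ) ^ M) with hcdef
  have hcpos : 0 < c := by rw [hcdef]; positivity
  have hqpos : ∀ z v, 0 < Qt z v := fun z v => lt_of_lt_of_le hcpos (hQl z v)
  set P : Measure (E d × (Fin D → E d)) := (sig d).prod (gamR d D) with hP
  have hsigprob : IsProbabilityMeasure (sig d) := sig_prob
  set KLf : E d × (Fin D → E d) → ℝ := fun p => KL (f p.1) (Qt (p.2, lab p.2 p.1)) with hKLf
  have hKLm : Measurable KLf :=
    KL_measurable (fun v => (hfm v).comp measurable_fst) (fun v => final_Q_meas Qt hQm v)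
  have hKL0 : ∀ p, 0 ≤ KLf p := fun p =>
    KL_nonneg (hfp _) (hQp _) (fun v hv => absurd hv (hqpos _ v).ne')
  have hKLb : ∀ p, KLf p ≤ Real.log (1 / c) := fun p =>
    KL_le_log_of_lower hcpos (hfp _) (hQl _)
  have hKLi : Integrable KLf P := by
    refine Integrable.of_bound hKLm.aestronglyMeasurable (Real.log (1 / c)) (ae_of_all _ fun p => ?_)
    rw [Real.norm_of_nonneg (hKL0 p)]
    exact hKLb p
  have hit : ∫ s, ∫ Z, KL (f s) (Qt (Z, lab Z s)) ∂(gamR d D) ∂(sig d) = ∫ p, KLf p ∂P :=
    (integral_prod KLf hKLi).symm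
  rw [hit]
  have hKLint0 : 0 ≤ ∫ p, KLf p ∂P := integral_nonneg hKL0
  have hlog2 : 0 < Real.log 2 := Real.log_pos (by norm_num)
  by_cases hle : τ ≤ 1
  swap
  · have h1 : 1 / τ ≤ 1 := by
      rw [div_le_one hτpos]; exact (not_le.1 hle).le
    have h2 : Real.log (1 / τ) ≤ 0 := Real.log_nonpos (by positivity) h1
    linarith
  set Λ : ℝ := Real.log (1 / τ) with hΛ
  have hΛ0 : 0 ≤ Λ := Real.log_nonneg ((one_le_div hτpos).2 hle)
  have hexpΛ : Real.exp Λ = 1 / τ := Real.exp_log (by positivity)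
  -- measurability and bounds of the pieces
  have hRm := finalR_meas A Qt hQm ε
  have hR0 := finalR_nonneg A Qt hQp ε
  have hR1 := finalR_le_one A Qt hQp ε
  have hRi : Integrable (finalR A Qt ε) P := by
    refine Integrable.of_bound hRm.aestronglyMeasurable 1 (ae_of_all _ fun p => ?_)
    rw [Real.norm_of_nonneg (hR0 p)]
    exact hR1 p
  have hRint : ∫ p, finalR A Qt ε p ∂P ≤ τ := by
    rw [hP, integral_prod _ hRi]
    exact reference_success hD hDd A Qt hQm hQp hε hε'
  have hGm : Measurable (finalG (D := D) A f ε) := by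
    unfold finalG
    exact Finset.measurable_fun_sum _ fun u _ =>
      ((hfm u).comp measurable_fst).mul (finalE_meas A ε u)
  have hG0 : ∀ p : E d × (Fin D → E d), 0 ≤ finalG A f ε p := fun p =>
    Finset.sum_nonneg fun u _ => mul_nonneg ((hfp _).nonneg u) (finalE_nonneg A ε u p)
  have hG1 : ∀ p : E d × (Fin D → E d), finalG A f ε p ≤ 1 := by
    intro p
    unfold finalG
    calc ∑ u, f p.1 u * finalE A ε u p ≤ ∑ u, f p.1 u * 1 := Finset.sum_le_sum fun u _ =>
          mul_le_mul_of_nonneg_left (finalE_le_one A ε u p) ((hfp _).nonneg u)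
      _ = 1 := by simpa using (hfp _).sum_one
  have hGi : Integrable (finalG (D := D) A f ε) P := by
    refine Integrable.of_bound hGm.aestronglyMeasurable 1 (ae_of_all _ fun p => ?_)
    rw [Real.norm_of_nonneg (hG0 p)]
    exact hG1 p
  -- pointwise Gibbs
  have hpt : ∀ p : E d × (Fin D → E d), Λ * finalG A f ε p ≤
      KLf p + Real.log 2 + (1 + finalR A Qt ε p / τ) / 2 - 1 := by
    intro p
    have hg := KL_gibbs (fun v => Λ * finalE A ε v p) (hfp p.1) (hQp (p.2, lab p.2 p.1))
      (fun v => hqpos _ v)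
    have hl : ∑ v, f p.1 v * (Λ * finalE A ε v p) = Λ * finalG A f ε p := by
      unfold finalG
      rw [Finset.mul_sum]
      exact Finset.sum_congr rfl fun v _ => by ring
    rw [hl] at hg
    set y : ℝ := ∑ v, Qt (p.2, lab p.2 p.1) v * Real.exp (Λ * finalE A ε v p) with hy
    have hy1 : 1 ≤ y := by
      have h1 : (1 : ℝ) = ∑ v, Qt (p.2, lab p.2 p.1) v * 1 := by
        simpa using (hQp (p.2, lab p.2 p.1)).sum_one.symm
      rw [h1, hy]
      refine Finset.sum_le_sum fun v _ => mul_le_mul_of_nonneg_left ?_ (hqpos _ v).le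
      exact Real.one_le_exp (mul_nonneg hΛ0 (finalE_nonneg A ε v p))
    have hyle : y ≤ 1 + finalR A Qt ε p / τ := by
      have h1 : 1 + finalR A Qt ε p / τ =
          ∑ v, Qt (p.2, lab p.2 p.1) v * (1 + finalE A ε v p / τ) := by
        unfold finalR
        rw [Finset.sum_div]
        have : ∑ v, Qt (p.2, lab p.2 p.1) v * (1 + finalE A ε v p / τ) =
            ∑ v, Qt (p.2, lab p.2 p.1) v +
              ∑ v, Qt (p.2, lab p.2 p.1) v * finalE A ε v p / τ := by
          rw [← Finset.sum_add_distrib]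
          exact Finset.sum_congr rfl fun v _ => by ring
        rw [this, (hQp _).sum_one]
      rw [h1, hy]
      refine Finset.sum_le_sum fun v _ => mul_le_mul_of_nonneg_left ?_ (hqpos _ v).le
      have he0 := finalE_nonneg A ε v p
      have he1 := finalE_le_one A ε v p
      have hconv := convexOn_exp.2 (Set.mem_univ Λ) (Set.mem_univ (0 : ℝ)) he0
        (sub_nonneg.2 he1) (by ring)
      simp only [smul_eq_mul, mul_zero, add_zero, Real.exp_zero, mul_one, hexpΛ] at hconv
      have h2 : Real.exp (Λ * finalE A ε v p) = Real.exp (finalE A ε v p * Λ) := by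
        rw [mul_comm]
      rw [h2]
      have h3 : finalE A ε v p * (1 / τ) = finalE A ε v p / τ := by ring
      rw [h3] at hconv
      linarith
    have hlogy : Real.log y ≤ Real.log (1 + finalR A Qt ε p / τ) :=
      Real.log_le_log (by linarith) hyle
    have htan := log_tangent (y := 1 + finalR A Qt ε p / τ) (c := 2)
      (by have := div_nonneg (hR0 p) hτpos.le; linarith) (by norm_num)
    change Λ * finalG A f ε p ≤ KLf p + Real.log y at hg
    linarith
  -- integrate
  have i1 : Integrable (fun x => KLf x + Real.log 2) P := hKLi.add (integrable_const _)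
  have i2 : Integrable (fun x => (1 + finalR A Qt ε x / τ) / 2) P :=
    ((integrable_const _).add (hRi.div_const τ)).div_const 2
  have i3 : Integrable (fun x => KLf x + Real.log 2 + (1 + finalR A Qt ε x / τ) / 2) P := i1.add i2
  have hintR : Integrable (fun p => KLf p + Real.log 2 + (1 + finalR A Qt ε p / τ) / 2 - 1) P :=
    i3.sub (integrable_const _)
  have e1 : ∫ x, KLf x + Real.log 2 + (1 + finalR A Qt ε x / τ) / 2 - 1 ∂P =
      (∫ x, KLf x + Real.log 2 + (1 + finalR A Qt ε x / τ) / 2 ∂P) - ∫ _, (1 : ℝ) ∂P :=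
    integral_sub i3 (integrable_const _)
  have e2 : ∫ x, KLf x + Real.log 2 + (1 + finalR A Qt ε x / τ) / 2 ∂P =
      (∫ x, KLf x + Real.log 2 ∂P) + ∫ x, (1 + finalR A Qt ε x / τ) / 2 ∂P :=
    integral_add i1 i2
  have e3 : ∫ x, KLf x + Real.log 2 ∂P = (∫ x, KLf x ∂P) + ∫ _, Real.log 2 ∂P :=
    integral_add hKLi (integrable_const _)
  have e4 : ∫ x, (1 + finalR A Qt ε x / τ) / 2 ∂P = ((∫ _, (1 : ℝ) ∂P) +
      (∫ x, finalR A Qt ε x ∂P) / τ) / 2 := by
    rw [integral_div]
    congr 1
    rw [integral_add (integrable_const _) (hRi.div_const τ), integral_div]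
  have hmain : Λ * ∫ p, finalG A f ε p ∂P ≤ ∫ p, KLf p ∂P + Real.log 2 := by
    rw [← integral_const_mul]
    refine (integral_mono (hGi.const_mul Λ) hintR hpt).trans ?_
    rw [e1, e2, e3, e4]
    simp only [integral_const, probReal_univ, one_smul]
    have h1 : (∫ p, finalR A Qt ε p ∂P) / τ ≤ 1 := (div_le_one hτpos).2 hRint
    linarith
  -- mass of the success event
  have hAm : Measurable (finalA A f ε) := by
    unfold finalA
    exact Finset.measurable_fun_sum _ fun u _ =>
      (hfm u).mul (final_out_meas A ε u).ennreal_toReal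
  have hA0 : ∀ s, 0 ≤ finalA A f ε s := fun s =>
    Finset.sum_nonneg fun u _ => mul_nonneg ((hfp _).nonneg u) ENNReal.toReal_nonneg
  have hA1 : ∀ s, finalA A f ε s ≤ 1 := by
    intro s
    unfold finalA
    have := A.out_prob
    calc ∑ u, f s u * (A.out u {z | Real.arccos (inner ℝ z s) ≤ ε}).toReal
        ≤ ∑ u, f s u * 1 := Finset.sum_le_sum fun u _ => by
          refine mul_le_mul_of_nonneg_left ?_ ((hfp _).nonneg u)
          have := A.out_prob u
          exact ENNReal.toReal_le_of_le_ofReal zero_le_one (by simpa using prob_le_one)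
      _ = 1 := by simpa using (hfp _).sum_one
  have hAi : Integrable (fun p : E d × (Fin D → E d) => finalA A f ε p.1) P := by
    refine Integrable.of_bound (hAm.comp measurable_fst).aestronglyMeasurable 1
      (ae_of_all _ fun p => ?_)
    rw [Real.norm_of_nonneg (hA0 _)]
    exact hA1 _
  have hAint : ∫ p : E d × (Fin D → E d), finalA A f ε p.1 ∂P = ∫ s, finalA A f ε s ∂(sig d) := by
    rw [hP, integral_prod _ hAi]
    simp
  have hBi : Integrable (Set.indicator (finalBad d D) (fun _ => (1 : ℝ))) P :=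
    (integrable_const (1 : ℝ)).indicator final_bad_meas
  have hptG : ∀ p : E d × (Fin D → E d), finalA A f ε p.1 -
      Set.indicator (finalBad d D) (fun _ => (1 : ℝ)) p ≤ finalG A f ε p := by
    intro p
    by_cases hb : p ∈ finalBad d D
    · rw [Set.indicator_of_mem hb]
      have := hA1 p.1
      have := hG0 p
      linarith
    · rw [Set.indicator_of_notMem hb, sub_zero]
      refine le_of_eq ?_
      unfold finalA finalG
      refine Finset.sum_congr rfl fun u _ => ?_
      have hgood : 1 / 2 ≤ dsub (Submodule.span ℝ (Set.range p.2)) p.1 := by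
        simpa [finalBad] using hb
      simp only [finalE, if_pos hgood]
  have hGint : 1 / 2 ≤ ∫ p, finalG A f ε p ∂P := by
    have h1 : ∫ p : E d × (Fin D → E d), (finalA A f ε p.1 -
        Set.indicator (finalBad d D) (fun _ => (1 : ℝ)) p) ∂P ≤ ∫ p, finalG A f ε p ∂P :=
      integral_mono (hAi.sub hBi) hGi hptG
    rw [integral_sub hAi hBi, hAint, integral_indicator_const _ final_bad_meas] at h1
    have h2 := final_bad_prob (d := d) (D := D) hD hDd
    simp only [smul_eq_mul, mul_one] at h1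
    have h3 : 2 / 3 ≤ ∫ s, finalA A f ε s ∂(sig d) := hsucc
    rw [← hP] at h2
    linarith
  have : Λ * (1 / 2) ≤ Λ * ∫ p, finalG A f ε p ∂P :=
    mul_le_mul_of_nonneg_left hGint hΛ0
  linarith

end P309
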