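import Vale.Agent.Lib.P309.Defs

/-! # P309 module Gauss1: one-dimensional marginals of rows and chi-square tails -/

open MeasureTheory ProbabilityTheory
open scoped ENNReal NNReal

namespace P309

variable {d : ℕ}

/-- The marginal `⟨x, Δ⟩` of a standard Gaussian row is `N(0, ‖Δ‖²)`. -/
theorem gam_map_inner (Δ : E d) :
    (gam d).map (fun x => (inner ℝ x Δ : ℝ)) = gaussianReal 0 (‖Δ‖₊ ^ 2) := by
  have h := IsGaussian.map_eq_gaussianReal (μ := gam d) (innerSL ℝ Δ)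
  have h1 : (fun x : E d => (inner ℝ x Δ : ℝ)) = ⇑(innerSL ℝ Δ) := by
    ext x
    simp [real_inner_comm]
  rw [h1, h, integral_strongDual_stdGaussian, variance_dual_stdGaussian, innerSL_apply_norm]
  congr 1
  ext
  simp [Real.toNNReal_of_nonneg (sq_nonneg ‖Δ‖)]

/-- The moment generating function of a square. -/
theorem gauss1_lintegral_exp_sq {v : ℝ≥0} (hv : v ≠ 0) {t : ℝ} (ht : 2 * t * v < 1) :
    ∫⁻ u, ENNReal.ofReal (Real.exp (t * u ^ 2)) ∂(gaussianReal 0 v) =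
      ENNReal.ofReal (Real.sqrt (1 - 2 * t * v))⁻¹ := by
  have hv0 : (0 : ℝ) < v := by positivity
  have hb : 0 < 1 / (2 * (v : ℝ)) - t := by
    rw [sub_pos, lt_div_iff₀ (by positivity)]
    linarith
  set b := 1 / (2 * (v : ℝ)) - t with hbdef
  rw [gaussianReal_of_var_ne_zero _ hv, lintegral_withDensity_eq_lintegral_mul _
    (measurable_gaussianPDF 0 v) (by fun_prop)]
  have h1 : ∀ x : ℝ, ((gaussianPDF 0 v) * fun u => ENNReal.ofReal (Real.exp (t * u ^ 2))) x =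
      ENNReal.ofReal ((Real.sqrt (2 * Real.pi * v))⁻¹ * Real.exp (-b * x ^ 2)) := by
    intro x
    simp only [Pi.mul_apply, gaussianPDF_def, gaussianPDFReal]
    rw [← ENNReal.ofReal_mul (by positivity), mul_assoc, ← Real.exp_add]
    congr 3
    rw [hbdef]
    field_simp
    ring
  rw [lintegral_congr h1, ← ofReal_integral_eq_lintegral_ofReal]
  · rw [integral_const_mul, integral_gaussian]
    congr 1
    have h2 : Real.pi / b = (2 * Real.pi * v) / (1 - 2 * t * v) := by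
      rw [hbdef]
      have : 1 - 2 * t * (v : ℝ) ≠ 0 := by linarith
      field_simp
    rw [h2, Real.sqrt_div (by positivity)]
    have h3 : Real.sqrt (2 * Real.pi * v) ≠ 0 := by positivity
    field_simp
  · exact (integrable_exp_neg_mul_sq hb).const_mul _
  · exact Filter.Eventually.of_forall fun x => by positivity

/-- The moment generating function of the sum of squares of the marginals of `n` rows. -/
theorem gauss1_lintegral_sum {n : ℕ} (Δ : E d) (hΔ : Δ ≠ 0) {t : ℝ} (ht : 2 * t * ‖Δ‖ ^ 2 < 1) :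
    ∫⁻ X, ENNReal.ofReal (Real.exp (t * ∑ i, (inner ℝ (X i) Δ : ℝ) ^ 2)) ∂(gamR d n) =
      ENNReal.ofReal (Real.sqrt (1 - 2 * t * ‖Δ‖ ^ 2))⁻¹ ^ n := by
  have hv : (‖Δ‖₊ ^ 2 : ℝ≥0) ≠ 0 := by
    have : ‖Δ‖₊ ≠ 0 := by simpa using hΔ
    positivity
  have hvv : ((‖Δ‖₊ ^ 2 : ℝ≥0) : ℝ) = ‖Δ‖ ^ 2 := by simp
  let Y : E d → ℝ≥0∞ := fun x => ENNReal.ofReal (Real.exp (t * (inner ℝ x Δ : ℝ) ^ 2))
  have hY : Measurable Y := by
    apply ENNReal.measurable_ofReal.comp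
    apply Real.measurable_exp.comp
    apply Measurable.const_mul
    apply Measurable.pow_const
    exact (measurable_id.inner measurable_const)
  have h2 : ∫⁻ x, Y x ∂(gam d) = ENNReal.ofReal (Real.sqrt (1 - 2 * t * ‖Δ‖ ^ 2))⁻¹ := by
    have h3 : (∫⁻ u, ENNReal.ofReal (Real.exp (t * u ^ 2)) ∂((gam d).map fun x => (inner ℝ x Δ : ℝ))) =
        ∫⁻ x, Y x ∂(gam d) := by
      rw [lintegral_map (by fun_prop) (by fun_prop)]
    rw [← h3, gam_map_inner, gauss1_lintegral_exp_sq hv (by rw [hvv]; exact ht), hvv]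
  have h4 : ∀ X : Fin n → E d,
      ENNReal.ofReal (Real.exp (t * ∑ i, (inner ℝ (X i) Δ : ℝ) ^ 2)) = ∏ i, Y (X i) := by
    intro X
    rw [Finset.mul_sum, Real.exp_sum, ENNReal.ofReal_prod_of_nonneg (fun i _ => by positivity)]
  rw [lintegral_congr h4]
  have h5 := lintegral_prod_eq_prod_lintegral_of_indepFun (μ := gamR d n) Finset.univ
    (fun (i : Fin n) (X : Fin n → E d) => Y (X i))
    (iIndepFun_pi (X := fun _ => Y) fun _ => hY.aemeasurable)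
    (fun i => hY.comp (measurable_pi_apply i))
  rw [h5]
  have h6 : ∀ i : Fin n, ∫⁻ X, Y (X i) ∂(gamR d n) = ∫⁻ x, Y x ∂(gam d) := by
    intro i
    have h7 : MeasurePreserving (fun X : Fin n → E d => X i) (gamR d n) (gam d) :=
      measurePreserving_eval _ i
    rw [← h7.map_eq, lintegral_map hY (measurable_pi_apply i)]
  simp [h6, h2]

/-- Upper chi-square tail: Chernoff with `λ = 1/(4κ²)`: `E exp(λ u²) = (1 - 2λ‖Δ‖²)^(-1/2) ≤ √2`,
so the probability is at most `(√2 / e)^n ≤ exp(-n/2)`. -/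
theorem chi_upper {n : ℕ} (Δ : E d) {κ : ℝ} (hκ : 0 < κ) (hΔ : ‖Δ‖ ≤ κ) :
    gamR d n {X | 4 * (n : ℝ) * κ ^ 2 < ∑ i, (inner ℝ (X i) Δ : ℝ) ^ 2} ≤
      ENNReal.ofReal (Real.exp (-((n : ℝ) / 2))) := by
  by_cases hΔ0 : Δ = 0
  · subst hΔ0
    have : {X : Fin n → E d | 4 * (n : ℝ) * κ ^ 2 < ∑ i, (inner ℝ (X i) (0 : E d) : ℝ) ^ 2} = ∅ := by
      ext X
      simp only [inner_zero_right, ne_eq, OfNat.ofNat_ne_zero, not_false_eq_true, zero_pow,
        Finset.sum_const_zero, Set.mem_ofPred_eq, Set.mem_empty_iff_false, iff_false, not_lt]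
      positivity
    rw [this]
    simp
  set t : ℝ := 1 / (4 * κ ^ 2) with ht
  have htpos : 0 < t := by positivity
  have hΔsq : ‖Δ‖ ^ 2 ≤ κ ^ 2 := by gcongr
  have hκsq : 0 < κ ^ 2 := by positivity
  have ht2 : 2 * t * ‖Δ‖ ^ 2 ≤ 1 / 2 := by
    rw [ht]
    have : 2 * (1 / (4 * κ ^ 2)) * ‖Δ‖ ^ 2 = (‖Δ‖ ^ 2 / κ ^ 2) / 2 := by field_simp; ring
    rw [this]
    have h1 : ‖Δ‖ ^ 2 / κ ^ 2 ≤ 1 := (div_le_one hκsq).mpr hΔsq
    linarith
  have hmgf := gauss1_lintegral_sum (n := n) Δ hΔ0 (t := t) (by linarith)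
  set A := 4 * (n : ℝ) * κ ^ 2 with hA
  have hsub : {X : Fin n → E d | A < ∑ i, (inner ℝ (X i) Δ : ℝ) ^ 2} ⊆
      {X | ENNReal.ofReal (Real.exp (t * A)) ≤
        ENNReal.ofReal (Real.exp (t * ∑ i, (inner ℝ (X i) Δ : ℝ) ^ 2))} := by
    intro X hX
    apply ENNReal.ofReal_le_ofReal
    apply Real.exp_le_exp.mpr
    exact mul_le_mul_of_nonneg_left (le_of_lt hX) htpos.le
  have hm : AEMeasurable (fun X : Fin n → E d =>
      ENNReal.ofReal (Real.exp (t * ∑ i, (inner ℝ (X i) Δ : ℝ) ^ 2))) (gamR d n) := by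
    apply Measurable.aemeasurable
    apply ENNReal.measurable_ofReal.comp
    apply Real.measurable_exp.comp
    apply Measurable.const_mul
    apply Finset.measurable_sum
    intro i _
    apply Measurable.pow_const
    exact ((measurable_pi_apply i).inner measurable_const)
  have hexp0 : ENNReal.ofReal (Real.exp (t * A)) ≠ 0 := by
    simp [ENNReal.ofReal_eq_zero, Real.exp_pos, not_le]
  have hm2 := meas_ge_le_lintegral_div hm hexp0 ENNReal.ofReal_ne_top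
  refine (measure_mono hsub).trans (hm2.trans ?_)
  rw [hmgf]
  have hs : 0 < 1 - 2 * t * ‖Δ‖ ^ 2 := by linarith
  have hs2 : 1 / 2 ≤ 1 - 2 * t * ‖Δ‖ ^ 2 := by linarith
  have htA : t * A = n := by
    rw [ht, hA]
    field_simp
  rw [htA, ← ENNReal.ofReal_pow (by positivity), ← ENNReal.ofReal_div_of_pos (Real.exp_pos _)]
  apply ENNReal.ofReal_le_ofReal
  set c := (Real.sqrt (1 - 2 * t * ‖Δ‖ ^ 2))⁻¹ with hc
  have hc2 : c ≤ Real.exp (1 / 2) := by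
    rw [hc]
    have h1 : Real.sqrt (1 / 2) ≤ Real.sqrt (1 - 2 * t * ‖Δ‖ ^ 2) := Real.sqrt_le_sqrt hs2
    have h2 : 0 < Real.sqrt (1 / 2) := by positivity
    have h3 : (Real.sqrt (1 - 2 * t * ‖Δ‖ ^ 2))⁻¹ ≤ (Real.sqrt (1 / 2))⁻¹ := by
      apply inv_anti₀ h2 h1
    refine h3.trans ?_
    have h4 : (Real.sqrt (1 / 2))⁻¹ = Real.sqrt 2 := by
      rw [← Real.sqrt_inv]
      norm_num
    rw [h4]
    rw [Real.sqrt_le_left (by positivity)]
    have h5 : Real.exp (1 / 2) ^ 2 = Real.exp 1 := by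
      rw [← Real.exp_nat_mul]
      norm_num
    rw [h5]
    have := Real.add_one_le_exp (1 : ℝ)
    linarith
  have hc0 : 0 ≤ c := by positivity
  have hfin : c ^ n ≤ Real.exp (1 / 2) ^ n := pow_le_pow_left₀ hc0 hc2 n
  rw [div_le_iff₀ (Real.exp_pos _)]
  calc c ^ n ≤ Real.exp (1 / 2) ^ n := hfin
    _ = Real.exp (-((n : ℝ) / 2)) * Real.exp n := by
      rw [← Real.exp_nat_mul, ← Real.exp_add]
      congr 1
      ring

/-- Lower chi-square tail: Chernoff with `λ = 1/(2ϱ²)`: `E exp(-λ u²) = (1 + 2λ‖Δ‖²)^(-1/2)`. -/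
theorem chi_lower {D : ℕ} (Δ : E d) (hΔ : Δ ≠ 0) {ϱ : ℝ} (hϱ : 0 < ϱ) :
    gamR d D {Z | ∑ i, (inner ℝ (Z i) Δ : ℝ) ^ 2 ≤ (D : ℝ) * ϱ ^ 2} ≤
      ENNReal.ofReal ((Real.sqrt (Real.exp 1) * ϱ / ‖Δ‖) ^ D) := by
  have hΔpos : 0 < ‖Δ‖ := norm_pos_iff.mpr hΔ
  set t : ℝ := 1 / (2 * ϱ ^ 2) with ht
  have htpos : 0 < t := by positivity
  have hmgf := gauss1_lintegral_sum (n := D) Δ hΔ (t := -t) (by
    have : 0 ≤ 2 * t * ‖Δ‖ ^ 2 := by positivity
    linarith)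
  set A := (D : ℝ) * ϱ ^ 2 with hA
  have hsub : {Z : Fin D → E d | ∑ i, (inner ℝ (Z i) Δ : ℝ) ^ 2 ≤ A} ⊆
      {Z | ENNReal.ofReal (Real.exp (-t * A)) ≤
        ENNReal.ofReal (Real.exp (-t * ∑ i, (inner ℝ (Z i) Δ : ℝ) ^ 2))} := by
    intro Z hZ
    apply ENNReal.ofReal_le_ofReal
    apply Real.exp_le_exp.mpr
    have : t * ∑ i, (inner ℝ (Z i) Δ : ℝ) ^ 2 ≤ t * A := mul_le_mul_of_nonneg_left hZ htpos.le
    linarith
  have hm : AEMeasurable (fun Z : Fin D → E d =>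
      ENNReal.ofReal (Real.exp (-t * ∑ i, (inner ℝ (Z i) Δ : ℝ) ^ 2))) (gamR d D) := by
    apply Measurable.aemeasurable
    apply ENNReal.measurable_ofReal.comp
    apply Real.measurable_exp.comp
    apply Measurable.const_mul
    apply Finset.measurable_sum
    intro i _
    apply Measurable.pow_const
    exact ((measurable_pi_apply i).inner measurable_const)
  have hexp0 : ENNReal.ofReal (Real.exp (-t * A)) ≠ 0 := by
    simp [ENNReal.ofReal_eq_zero, Real.exp_pos, not_le]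
  have hm2 := meas_ge_le_lintegral_div hm hexp0 ENNReal.ofReal_ne_top
  refine (measure_mono hsub).trans (hm2.trans ?_)
  rw [hmgf]
  have htA : -t * A = -((D : ℝ) / 2) := by
    rw [ht, hA]
    field_simp
  have hs : 1 - 2 * (-t) * ‖Δ‖ ^ 2 = 1 + ‖Δ‖ ^ 2 / ϱ ^ 2 := by
    rw [ht]
    field_simp
    ring
  rw [htA, hs, ← ENNReal.ofReal_pow (by positivity), ← ENNReal.ofReal_div_of_pos (Real.exp_pos _)]
  apply ENNReal.ofReal_le_ofReal
  have h1 : ‖Δ‖ / ϱ ≤ Real.sqrt (1 + ‖Δ‖ ^ 2 / ϱ ^ 2) := by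
    apply Real.le_sqrt_of_sq_le
    rw [div_pow]
    linarith
  have h2 : (Real.sqrt (1 + ‖Δ‖ ^ 2 / ϱ ^ 2))⁻¹ ≤ ϱ / ‖Δ‖ := by
    have h20 := inv_anti₀ (by positivity : 0 < ‖Δ‖ / ϱ) h1
    rwa [inv_div] at h20
  have h3 : (Real.sqrt (1 + ‖Δ‖ ^ 2 / ϱ ^ 2))⁻¹ ^ D ≤ (ϱ / ‖Δ‖) ^ D :=
    pow_le_pow_left₀ (by positivity) h2 D
  have h4 : Real.exp (-((D : ℝ) / 2)) = (Real.sqrt (Real.exp 1))⁻¹ ^ D := by
    rw [Real.sqrt_eq_rpow, ← Real.exp_mul, ← Real.exp_neg, ← Real.exp_nat_mul]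
    congr 1
    ring
  rw [div_le_iff₀ (Real.exp_pos _), h4]
  have h5 : 0 < Real.sqrt (Real.exp 1) := by positivity
  calc (Real.sqrt (1 + ‖Δ‖ ^ 2 / ϱ ^ 2))⁻¹ ^ D ≤ (ϱ / ‖Δ‖) ^ D := h3
    _ = (Real.sqrt (Real.exp 1) * ϱ / ‖Δ‖) ^ D * (Real.sqrt (Real.exp 1))⁻¹ ^ D := by
      rw [← mul_pow]
      congr 1
      field_simp

end P309
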