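import Vale.Agent.Lib.P309.Defs

/-! # P309 module Smoothing: a finite measure with bounded smoothed `L^ρ` norm is `L^ρ`-bounded
against sets, with no density needed -/

open MeasureTheory ProbabilityTheory Filter Topology
open scoped ENNReal NNReal

namespace P309

section SmoothingAux

variable {V : Type*} [NormedAddCommGroup V] [NormedSpace ℝ V] [FiniteDimensional ℝ V]
    [MeasurableSpace V] [BorelSpace V] (vol : Measure V) [vol.IsAddHaarMeasure]
    (τ : Measure V) [IsFiniteMeasure τ]

private theorem smoothing_meas_set (t : ℝ) :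
    MeasurableSet {p : V × V | dist p.2 p.1 < t} := by
  have : ProperSpace V := FiniteDimensional.proper_real V
  exact (isOpen_lt (by fun_prop) continuous_const).measurableSet

private theorem smoothing_meas_ball (t : ℝ) :
    Measurable fun y : V => τ (Metric.ball y t) := by
  have h := measurable_measure_prodMk_left (ν := τ) (smoothing_meas_set (V := V) t)
  have : (fun y : V => τ (Metric.ball y t)) =
      fun y => τ (Prod.mk y ⁻¹' {p : V × V | dist p.2 p.1 < t}) := by
    funext y
    congr 1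
  rw [this]
  exact h

/-- Tonelli for the smoothed density. -/
private theorem smoothing_tonelli (K U : Set V) (hK : MeasurableSet K) (t : ℝ)
    (hsub : ∀ x ∈ K, Metric.ball x t ⊆ U) :
    τ K * vol (Metric.ball 0 t) ≤ ∫⁻ y in U, τ (Metric.ball y t) ∂vol := by
  classical
  have hS := smoothing_meas_set (V := V) t
  set S := {p : V × V | dist p.2 p.1 < t} with hSdef
  have e1 : ∀ y : V, τ (Metric.ball y t) = ∫⁻ x, S.indicator 1 (y, x) ∂τ := by
    intro y
    have : (fun x => S.indicator (1 : V × V → ℝ≥0∞) (y, x)) =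
        (Prod.mk y ⁻¹' S).indicator 1 := by
      funext x
      simp [Set.indicator]
    rw [this, lintegral_indicator_one (measurable_prodMk_left hS)]
    rfl
  have hm : AEMeasurable (Function.uncurry fun y x : V => S.indicator (1 : V × V → ℝ≥0∞) (y, x))
      ((vol.restrict U).prod τ) := by
    have hm1 : Measurable (S.indicator (1 : V × V → ℝ≥0∞)) := measurable_one.indicator hS
    exact hm1.aemeasurable
  calc τ K * vol (Metric.ball 0 t)
      = ∫⁻ x in K, vol (Metric.ball 0 t) ∂τ := by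
        rw [setLIntegral_const, mul_comm]
    _ ≤ ∫⁻ x in K, ∫⁻ y in U, S.indicator 1 (y, x) ∂vol ∂τ := by
        refine setLIntegral_mono' hK fun x hx => ?_
        have : (fun y => S.indicator (1 : V × V → ℝ≥0∞) (y, x)) =
            (Metric.ball x t).indicator 1 := by
          funext y
          by_cases h : dist y x < t
          · have h1 : (y, x) ∈ S := by
              simp only [hSdef, Set.mem_ofPred_eq]; rwa [dist_comm]
            have h2 : y ∈ Metric.ball x t := h
            simp [h1, h2]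
          · have h1 : (y, x) ∉ S := by
              simp only [hSdef, Set.mem_ofPred_eq]; rwa [dist_comm]
            have h2 : y ∉ Metric.ball x t := h
            simp [h1, h2]
        rw [this, lintegral_indicator_one measurableSet_ball,
          Measure.restrict_apply measurableSet_ball,
          Set.inter_eq_self_of_subset_left (hsub x hx),
          Measure.addHaar_ball_center vol x t]
    _ ≤ ∫⁻ x, ∫⁻ y in U, S.indicator 1 (y, x) ∂vol ∂τ := setLIntegral_le_lintegral _ _
    _ = ∫⁻ y in U, ∫⁻ x, S.indicator 1 (y, x) ∂τ ∂vol := by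
        rw [lintegral_lintegral_swap hm]
    _ = ∫⁻ y in U, τ (Metric.ball y t) ∂vol := by
        simp_rw [e1]

/-- Lemma A: Hoelder for a fixed smoothing radius. -/
private theorem smoothing_fixed {ρ q : ℝ} (hpq : ρ.HolderConjugate q) (K U : Set V)
    (hK : MeasurableSet K) (t : ℝ) (ht : 0 < t)
    (hsub : ∀ x ∈ K, Metric.ball x t ⊆ U) :
    τ K ≤ (∫⁻ y, (τ (Metric.ball y t) / vol (Metric.ball 0 t)) ^ ρ ∂vol) ^ (1 / ρ) *
      vol U ^ (1 / q) := by
  have hc0 : vol (Metric.ball (0 : V) t) ≠ 0 := (Metric.measure_ball_pos vol 0 ht).ne'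
  have hct : vol (Metric.ball (0 : V) t) ≠ ⊤ := measure_ball_lt_top.ne
  set c := vol (Metric.ball (0 : V) t) with hc
  have hf : Measurable fun y : V => τ (Metric.ball y t) / c :=
    (smoothing_meas_ball τ t).div_const c
  have h1 : τ K ≤ ∫⁻ y in U, τ (Metric.ball y t) / c ∂vol := by
    have h2 := smoothing_tonelli vol τ K U hK t hsub
    simp_rw [div_eq_mul_inv]
    rw [lintegral_mul_const _ (smoothing_meas_ball τ t), ← div_eq_mul_inv]
    exact (ENNReal.le_div_iff_mul_le (Or.inl hc0) (Or.inl hct)).mpr h2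
  refine h1.trans ?_
  have h3 := ENNReal.lintegral_mul_le_Lp_mul_Lq (vol.restrict U) hpq hf.aemeasurable
    (aemeasurable_const (b := (1 : ℝ≥0∞)))
  have h3' : ∫⁻ y in U, τ (Metric.ball y t) / c ∂vol ≤
      (∫⁻ a in U, (τ (Metric.ball a t) / c) ^ ρ ∂vol) ^ (1 / ρ) * vol U ^ (1 / q) := by
    simpa [Pi.mul_apply] using h3
  refine h3'.trans ?_
  have hρ0 : 0 ≤ 1 / ρ := by have := hpq.pos; positivity
  gcongr
  exact Measure.restrict_le_self

end SmoothingAux

/-- Proof. For `U` open of finite volume and `K ⊂ U` compact, for small `t`,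
`τ K ≤ ∫_U τ(ball y t)/vol(ball 0 t) dy` (Fubini; ball relation symmetric),
then Hoelder on `U`; inner regularity of `τ`, outer regularity of `vol` give
`τ A ≤ vol(A)^(1-1/ρ) J^(1/ρ)` for measurable `A`; for `h` use the layer cake
`∫ h dτ = ∫_0^1 τ{h>θ} dθ` and Jensen in `θ`. (`vol A = ∞` with `J = 0` gives `τ = 0`; `J < ∞` is needed
because of `0 * ∞ = 0`.) -/
theorem smoothing {V : Type*} [NormedAddCommGroup V] [NormedSpace ℝ V] [FiniteDimensional ℝ V]
    [MeasurableSpace V] [BorelSpace V] (vol : Measure V) [vol.IsAddHaarMeasure]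
    (τ : Measure V) [IsFiniteMeasure τ] (ρ : ℝ) (hρ : 1 < ρ) (h : V → ℝ≥0∞) (hh : Measurable h)
    (hh1 : ∀ y, h y ≤ 1) (t : ℕ → ℝ) (ht : ∀ k, 0 < t k) (ht0 : Tendsto t atTop (𝓝 0))
    (hJ : liminf (fun k => ∫⁻ y, (τ (Metric.ball y (t k)) / vol (Metric.ball 0 (t k))) ^ ρ ∂vol)
      atTop ≠ ⊤) :
    ∫⁻ y, h y ∂τ ≤
      (∫⁻ y, h y ∂vol) ^ (1 - 1 / ρ) *
        (liminf (fun k => ∫⁻ y, (τ (Metric.ball y (t k)) / vol (Metric.ball 0 (t k))) ^ ρ ∂vol)
          atTop) ^ (1 / ρ) := by
  classical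
  have : ProperSpace V := FiniteDimensional.proper_real V
  have hpq : ρ.HolderConjugate (ρ.conjExponent) := Real.HolderConjugate.conjExponent hρ
  set q := ρ.conjExponent with hq
  have hqinv : 1 / q = 1 - 1 / ρ := by
    have := hpq.inv_add_inv_eq_one
    simp only [one_div]
    linarith
  rw [← hqinv]
  have hρ0 : 0 < ρ := by linarith
  have hq0 : 0 < q := hpq.symm.pos
  have hexp0 : 0 < 1 / ρ := by positivity
  have hexpq : 0 < 1 / q := by positivity
  set I : ℕ → ℝ≥0∞ := fun k => ∫⁻ y, (τ (Metric.ball y (t k)) / vol (Metric.ball 0 (t k))) ^ ρ ∂vol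
    with hI
  set J : ℝ≥0∞ := liminf I atTop with hJdef
  have hJ13 : J ^ (1 / ρ) ≠ ⊤ := by
    exact ENNReal.rpow_ne_top_of_nonneg hexp0.le hJ
  -- Lemma B: compact sets
  have lemB : ∀ (K U : Set V), IsCompact K → IsOpen U → K ⊆ U → vol U ≠ ⊤ →
      τ K ≤ vol U ^ (1 / q) * J ^ (1 / ρ) := by
    intro K U hK hU hKU hUt
    obtain ⟨δ, hδ, hsub⟩ := hK.exists_thickening_subset_open hU hKU
    have hev : ∀ᶠ k in atTop, τ K ≤ I k ^ (1 / ρ) * vol U ^ (1 / q) := by
      have : ∀ᶠ k in atTop, t k < δ := ht0.eventually (gt_mem_nhds hδ)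
      filter_upwards [this] with k hk
      refine smoothing_fixed vol τ hpq K U hK.measurableSet (t k) (ht k) fun x hx y hy => ?_
      apply hsub
      rw [Metric.mem_thickening_iff]
      exact ⟨x, hx, lt_trans (Metric.mem_ball.mp hy) hk⟩
    by_cases hV0 : vol U ^ (1 / q) = 0
    · have h0 : ∀ᶠ k : ℕ in atTop, τ K ≤ 0 := by
        filter_upwards [hev] with k hk
        rwa [hV0, mul_zero] at hk
      obtain ⟨k, hk⟩ := h0.exists
      exact hk.trans zero_le
    have hVt : vol U ^ (1 / q) ≠ ⊤ := ENNReal.rpow_ne_top_of_nonneg hexpq.le hUt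
    have h1 : ∀ᶠ k in atTop, τ K / vol U ^ (1 / q) ≤ I k ^ (1 / ρ) := by
      filter_upwards [hev] with k hk
      exact ENNReal.div_le_of_le_mul hk
    have h2 : τ K / vol U ^ (1 / q) ≤ liminf (fun k => I k ^ (1 / ρ)) atTop :=
      le_liminf_of_le (by isBoundedDefault) h1
    have h3 : liminf (fun k => I k ^ (1 / ρ)) atTop = J ^ (1 / ρ) := by
      have := (ENNReal.orderIsoRpow (1 / ρ) hexp0).liminf_apply (u := I) (f := atTop)
        (by isBoundedDefault) (by isBoundedDefault) (by isBoundedDefault) (by isBoundedDefault)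
      simpa [ENNReal.orderIsoRpow] using this.symm
    rw [h3] at h2
    rw [mul_comm]
    exact (ENNReal.div_le_iff hV0 hVt).mp h2
  -- Lemma C: measurable sets
  have lemC : ∀ A : Set V, MeasurableSet A → τ A ≤ vol A ^ (1 / q) * J ^ (1 / ρ) := by
    intro A hA
    by_cases hvA : vol A = ⊤
    · by_cases hJ0 : J = 0
      · -- `τ = 0`
        have hz : ∀ K : Set V, IsCompact K → τ K = 0 := by
          intro K hK
          have hb : IsOpen (Metric.thickening 1 K) := Metric.isOpen_thickening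
          have hs : K ⊆ Metric.thickening 1 K := Metric.self_subset_thickening one_pos K
          have hfin : vol (Metric.thickening 1 K) ≠ ⊤ :=
            (hK.isBounded.thickening.measure_lt_top).ne
          have := lemB K _ hK hb hs hfin
          have h0 : J ^ (1 / ρ) = 0 := by rw [hJ0]; exact ENNReal.zero_rpow_of_pos hexp0
          rw [h0, mul_zero] at this
          exact le_antisymm this zero_le
        have : τ A = 0 := by
          rw [hA.measure_eq_iSup_isCompact]
          simp only [ENNReal.iSup_eq_zero]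
          intro K _ hK
          exact hz K hK
        rw [this]
        exact zero_le
      · have hJpos : J ^ (1 / ρ) ≠ 0 := by
          simp [ENNReal.rpow_eq_zero_iff, hJ0, hJ, hρ0]
        rw [hvA, ENNReal.top_rpow_of_pos hexpq, ENNReal.top_mul hJpos]
        exact le_top
    · have key : ∀ b, vol A < b → τ A ≤ b ^ (1 / q) * J ^ (1 / ρ) := by
        intro b hb
        obtain ⟨U, hAU, hUo, hUb⟩ := A.exists_isOpen_lt_of_lt b hb
        rw [hA.measure_eq_iSup_isCompact]
        refine iSup₂_le fun K hKA => iSup_le fun hK => ?_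
        have := lemB K U hK hUo (hKA.trans hAU) (ne_top_of_lt hUb)
        refine this.trans ?_
        gcongr
      have hcont : Tendsto (fun b : ℝ≥0∞ => b ^ (1 / q) * J ^ (1 / ρ)) (𝓝[>] (vol A))
          (𝓝 (vol A ^ (1 / q) * J ^ (1 / ρ))) := by
        refine ENNReal.Tendsto.mul_const ?_ (Or.inr hJ13)
        exact (ENNReal.continuous_rpow_const.tendsto _).mono_left nhdsWithin_le_nhds
      have : (𝓝[>] (vol A)).NeBot := nhdsGT_neBot_of_exists_gt ⟨⊤, lt_top_iff_ne_top.mpr hvA⟩
      refine ge_of_tendsto hcont ?_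
      filter_upwards [self_mem_nhdsWithin] with b hb
      exact key b hb
  -- Lemma D: layer cake
  set f : V → ℝ := fun y => (h y).toReal with hf
  have hfm : Measurable f := hh.ennreal_toReal
  have hf0 : ∀ y, 0 ≤ f y := fun y => ENNReal.toReal_nonneg
  have hf1 : ∀ y, f y ≤ 1 := fun y => by
    have := ENNReal.toReal_mono ENNReal.one_ne_top (hh1 y)
    simpa using this
  have hof : ∀ y, ENNReal.ofReal (f y) = h y := fun y => by
    simp only [hf]
    exact ENNReal.ofReal_toReal (ne_top_of_le_ne_top ENNReal.one_ne_top (hh1 y))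
  have cake : ∀ μ : Measure V, ∫⁻ y, h y ∂μ = ∫⁻ θ in Set.Ioi (0 : ℝ), μ {y | θ < f y} := by
    intro μ
    have := lintegral_eq_lintegral_meas_lt μ (f := f) (Filter.Eventually.of_forall hf0)
      hfm.aemeasurable
    simpa [hof] using this
  have hsplit : ∀ μ : Measure V, ∫⁻ θ in Set.Ioi (0 : ℝ), μ {y | θ < f y} =
      ∫⁻ θ in Set.Ioc (0 : ℝ) 1, μ {y | θ < f y} := by
    intro μ
    have hU : Set.Ioi (0 : ℝ) = Set.Ioc 0 1 ∪ Set.Ioi 1 :=
      (Set.Ioc_union_Ioi_eq_Ioi zero_le_one).symm
    have hdisj : Disjoint (Set.Ioc (0 : ℝ) 1) (Set.Ioi 1) := Set.Ioc_disjoint_Ioi_same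
    rw [hU, lintegral_union measurableSet_Ioi hdisj]
    have hzero : ∫⁻ θ in Set.Ioi (1 : ℝ), μ {y | θ < f y} = 0 := by
      have h0 : ∀ θ ∈ Set.Ioi (1 : ℝ), μ {y | θ < f y} = 0 := by
        intro θ hθ
        have : {y | θ < f y} = ∅ := by
          ext y
          simp only [Set.mem_ofPred_eq, Set.mem_empty_iff_false, iff_false, not_lt]
          exact (hf1 y).trans (le_of_lt hθ)
        rw [this, measure_empty]
      rw [setLIntegral_congr_fun measurableSet_Ioi h0]
      simp
    rw [hzero, add_zero]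
  have hanti : Antitone fun θ : ℝ => vol {y | θ < f y} := by
    intro a b hab
    refine measure_mono fun y hy => ?_
    exact lt_of_le_of_lt hab hy
  have hantim : Measurable fun θ : ℝ => vol {y | θ < f y} := hanti.measurable
  rw [cake τ, hsplit τ, cake vol]
  have hmeasA : ∀ θ : ℝ, MeasurableSet {y | θ < f y} := fun θ => measurableSet_lt measurable_const hfm
  calc ∫⁻ θ in Set.Ioc (0 : ℝ) 1, τ {y | θ < f y}
      ≤ ∫⁻ θ in Set.Ioc (0 : ℝ) 1, vol {y | θ < f y} ^ (1 / q) * J ^ (1 / ρ) :=
        lintegral_mono fun θ => lemC _ (hmeasA θ)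
    _ = (∫⁻ θ in Set.Ioc (0 : ℝ) 1, vol {y | θ < f y} ^ (1 / q)) * J ^ (1 / ρ) := by
        rw [lintegral_mul_const _ (hantim.pow_const _)]
    _ ≤ (∫⁻ θ in Set.Ioi (0 : ℝ), vol {y | θ < f y}) ^ (1 / q) * J ^ (1 / ρ) := by
        gcongr
        have hH := ENNReal.lintegral_mul_le_Lp_mul_Lq (volume.restrict (Set.Ioc (0 : ℝ) 1)) hpq.symm
          (hantim.pow_const (1 / q)).aemeasurable (aemeasurable_const (b := (1 : ℝ≥0∞)))
        have hH' : ∫⁻ θ in Set.Ioc (0 : ℝ) 1, vol {y | θ < f y} ^ (1 / q) ≤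
            (∫⁻ θ in Set.Ioc (0 : ℝ) 1, (vol {y | θ < f y} ^ (1 / q)) ^ q) ^ (1 / q) := by
          simpa [Pi.mul_apply] using hH
        refine hH'.trans (ENNReal.rpow_le_rpow ?_ hexpq.le)
        have h6 : ∀ θ : ℝ, (vol {y | θ < f y} ^ (1 / q)) ^ q = vol {y | θ < f y} := by
          intro θ
          rw [← ENNReal.rpow_mul, one_div, inv_mul_cancel₀ hq0.ne', ENNReal.rpow_one]
        simp_rw [h6]
        exact lintegral_mono_set Set.Ioc_subset_Ioi_self

end P309
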