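import Vale.Agent.Lib.P309.Replica
import Vale.Agent.Lib.P309.Smoothing

/-! # P309 module HolderReplica: the core second moment bound -/

open MeasureTheory ProbabilityTheory Filter Topology
open scoped ENNReal NNReal

namespace P309

variable {d n w : ℕ}

theorem holderReplica_lab_continuous :
    Continuous fun p : (Fin n → E d) × E d => lab p.1 p.2 := by
  unfold lab
  refine continuous_pi fun i => ?_
  exact (continuous_apply i |>.comp continuous_fst).inner continuous_snd

theorem holderReplica_lab2_continuous :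
    Continuous fun p : ((Fin n → E d) × (Fin n → E d)) × E d => lab2 p.1 p.2 := by
  unfold lab2
  refine Continuous.prodMk ?_ ?_
  · exact holderReplica_lab_continuous.comp
      ((continuous_fst.comp continuous_fst).prodMk continuous_snd)
  · exact holderReplica_lab_continuous.comp
      ((continuous_snd.comp continuous_fst).prodMk continuous_snd)

theorem holderReplica_lab2_measurable (XX : (Fin n → E d) × (Fin n → E d)) :
    Measurable (lab2 XX) :=
  (holderReplica_lab2_continuous.comp (Continuous.prodMk continuous_const continuous_id)).measurable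

/-- joint measurability of `ν {s | dist (lab2 XX s) y < t}`. -/
theorem holderReplica_F_measurable (ν : Measure (E d)) [SFinite ν] (t : ℝ) :
    Measurable fun q : ((Fin n → E d) × (Fin n → E d)) × ((Fin n → ℝ) × (Fin n → ℝ)) =>
      ν {s | dist (lab2 q.1 s) q.2 < t} := by
  have hS : MeasurableSet
      {z : (((Fin n → E d) × (Fin n → E d)) × ((Fin n → ℝ) × (Fin n → ℝ))) × E d |
        dist (lab2 z.1.1 z.2) z.1.2 < t} := by
    have hc : Continuous fun z :
        (((Fin n → E d) × (Fin n → E d)) × ((Fin n → ℝ) × (Fin n → ℝ))) × E d =>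
        dist (lab2 z.1.1 z.2) z.1.2 := by
      refine Continuous.dist ?_ (continuous_snd.comp continuous_fst)
      exact holderReplica_lab2_continuous.comp
        ((continuous_fst.comp continuous_fst).prodMk continuous_snd)
    exact measurableSet_lt hc.measurable measurable_const
  exact measurable_measure_prodMk_left hS

/-- The exact `Jk`: the replica integrand integrated over `y`. -/
noncomputable def holderReplicaJ (ν : Measure (E d)) (w : ℕ) (t : ℝ)
    (XX : (Fin n → E d) × (Fin n → E d)) : ℝ≥0∞ :=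
  ∫⁻ y : (Fin n → ℝ) × (Fin n → ℝ),
    (ν {s | dist (lab2 XX s) y < t} / ENNReal.ofReal ((2 * t) ^ (2 * n))) ^ (w + 2) ∂volume

theorem holderReplicaJ_measurable (ν : Measure (E d)) [SFinite ν] (w : ℕ) (t : ℝ) :
    Measurable (holderReplicaJ (n := n) ν w t) := by
  unfold holderReplicaJ
  refine Measurable.lintegral_prod_right' (f := fun q :
    ((Fin n → E d) × (Fin n → E d)) × ((Fin n → ℝ) × (Fin n → ℝ)) =>
      (ν {s | dist (lab2 q.1 s) q.2 < t} / ENNReal.ofReal ((2 * t) ^ (2 * n))) ^ (w + 2)) ?_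
  exact ((holderReplica_F_measurable ν t).div_const _).pow_const _

/-- Fatou and `replica`. -/
theorem holderReplica_fatou (ν : Measure (E d)) [IsProbabilityMeasure ν] {b : ℝ≥0∞}
    (hflat : FlatBd ν w n b) (t : ℕ → ℝ) (ht : ∀ k, 0 < t k) :
    ∫⁻ XX, liminf (fun k => holderReplicaJ ν w (t k) XX) atTop ∂((gamR d n).prod (gamR d n)) ≤
      ((ENNReal.ofReal (2 / Real.pi)) ^ n * b) ^ (w + 1) := by
  refine (lintegral_liminf_le (fun k => holderReplicaJ_measurable ν w (t k))).trans ?_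
  have : ∀ k, ∫⁻ XX, holderReplicaJ ν w (t k) XX ∂((gamR d n).prod (gamR d n)) ≤
      ((ENNReal.ofReal (2 / Real.pi)) ^ n * b) ^ (w + 1) := fun k =>
    replica ν hflat (t k) (ht k)
  calc liminf (fun k => ∫⁻ XX, holderReplicaJ ν w (t k) XX ∂((gamR d n).prod (gamR d n))) atTop
      ≤ liminf (fun _ : ℕ => ((ENNReal.ofReal (2 / Real.pi)) ^ n * b) ^ (w + 1)) atTop :=
        liminf_le_liminf (Eventually.of_forall this)
    _ = _ := liminf_const _

/-- The product integrand. -/
noncomputable def holderReplicaH (g : (Fin n → E d) × (Fin n → ℝ) → ℝ≥0∞)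
    (XX : (Fin n → E d) × (Fin n → E d)) (y : (Fin n → ℝ) × (Fin n → ℝ)) : ℝ≥0∞ :=
  g (XX.1, y.1) * g (XX.2, y.2)

theorem holderReplicaH_measurable {g : (Fin n → E d) × (Fin n → ℝ) → ℝ≥0∞} (hg : Measurable g) :
    Measurable fun q : ((Fin n → E d) × (Fin n → E d)) × ((Fin n → ℝ) × (Fin n → ℝ)) =>
      holderReplicaH g q.1 q.2 := by
  unfold holderReplicaH
  refine Measurable.mul ?_ ?_
  · exact hg.comp ((measurable_fst.comp measurable_fst).prodMk (measurable_fst.comp measurable_snd))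
  · exact hg.comp ((measurable_snd.comp measurable_fst).prodMk (measurable_snd.comp measurable_snd))

/-- `E_XX ∫ h dy = A²`. -/
theorem holderReplicaH_integral (g : (Fin n → E d) × (Fin n → ℝ) → ℝ≥0∞) (hg : Measurable g) :
    ∫⁻ XX, ∫⁻ y, holderReplicaH g XX y ∂volume ∂((gamR d n).prod (gamR d n)) =
      (∫⁻ X, ∫⁻ y, g (X, y) ∂volume ∂(gamR d n)) ^ 2 := by
  have hA : Measurable fun X : Fin n → E d => ∫⁻ y, g (X, y) ∂volume :=
    Measurable.lintegral_prod_right' hg
  have hin : ∀ XX : (Fin n → E d) × (Fin n → E d),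
      ∫⁻ y, holderReplicaH g XX y ∂volume =
        (∫⁻ y, g (XX.1, y) ∂volume) * ∫⁻ y, g (XX.2, y) ∂volume := by
    intro XX
    rw [Measure.volume_eq_prod]
    unfold holderReplicaH
    rw [lintegral_prod (fun y : (Fin n → ℝ) × (Fin n → ℝ) => g (XX.1, y.1) * g (XX.2, y.2))
      (((hg.comp ((measurable_const).prodMk measurable_fst)).mul
      (hg.comp ((measurable_const).prodMk measurable_snd))).aemeasurable)]
    calc ∫⁻ y1, ∫⁻ y2, g (XX.1, y1) * g (XX.2, y2) ∂volume ∂volume
        = ∫⁻ y1, g (XX.1, y1) * ∫⁻ y2, g (XX.2, y2) ∂volume ∂volume := by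
          refine lintegral_congr fun y1 => ?_
          exact lintegral_const_mul _ (hg.comp (measurable_const.prodMk measurable_id))
      _ = _ := by
          exact lintegral_mul_const _ (hg.comp (measurable_const.prodMk measurable_id))
  simp_rw [hin]
  rw [lintegral_prod (fun XX : (Fin n → E d) × (Fin n → E d) =>
      (∫⁻ y, g (XX.1, y) ∂volume) * ∫⁻ y, g (XX.2, y) ∂volume)
    (((hA.comp measurable_fst).mul (hA.comp measurable_snd)).aemeasurable)]
  calc ∫⁻ X, ∫⁻ X', (∫⁻ y, g (X, y) ∂volume) * ∫⁻ y, g (X', y) ∂volume ∂(gamR d n) ∂(gamR d n)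
      = ∫⁻ X, (∫⁻ y, g (X, y) ∂volume) * ∫⁻ X', ∫⁻ y, g (X', y) ∂volume ∂(gamR d n) ∂(gamR d n) := by
        refine lintegral_congr fun X => ?_
        exact lintegral_const_mul _ hA
    _ = (∫⁻ X, ∫⁻ y, g (X, y) ∂volume ∂(gamR d n)) * ∫⁻ X', ∫⁻ y, g (X', y) ∂volume ∂(gamR d n) :=
        lintegral_mul_const _ hA
    _ = _ := by rw [sq]

/-- The left side as a double integral against the laws of `lab2`. -/
theorem holderReplica_lhs (ν : Measure (E d)) [IsProbabilityMeasure ν]
    (g : (Fin n → E d) × (Fin n → ℝ) → ℝ≥0∞) (hg : Measurable g) :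
    ∫⁻ s, (∫⁻ X, g (X, lab X s) ∂(gamR d n)) ^ 2 ∂ν =
      ∫⁻ XX, ∫⁻ y, holderReplicaH g XX y ∂(ν.map (lab2 XX)) ∂((gamR d n).prod (gamR d n)) := by
  have hG : Measurable fun p : (Fin n → E d) × E d => g (p.1, lab p.1 p.2) :=
    hg.comp (measurable_fst.prodMk holderReplica_lab_continuous.measurable)
  have h1 : ∀ s, (∫⁻ X, g (X, lab X s) ∂(gamR d n)) ^ 2 =
      ∫⁻ XX, holderReplicaH g XX (lab2 XX s) ∂((gamR d n).prod (gamR d n)) := by
    intro s
    have hGs : Measurable fun X : Fin n → E d => g (X, lab X s) :=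
      hG.comp (measurable_id.prodMk measurable_const)
    unfold holderReplicaH lab2
    rw [lintegral_prod (fun XX : (Fin n → E d) × (Fin n → E d) =>
        g (XX.1, (lab XX.1 s, lab XX.2 s).1) * g (XX.2, (lab XX.1 s, lab XX.2 s).2))
      (((hGs.comp measurable_fst).mul (hGs.comp measurable_snd)).aemeasurable)]
    rw [sq]
    calc (∫⁻ X, g (X, lab X s) ∂(gamR d n)) * ∫⁻ X, g (X, lab X s) ∂(gamR d n)
        = ∫⁻ X, g (X, lab X s) * ∫⁻ X', g (X', lab X' s) ∂(gamR d n) ∂(gamR d n) :=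
          (lintegral_mul_const _ hGs).symm
      _ = _ := by
          refine lintegral_congr fun X => ?_
          exact (lintegral_const_mul _ hGs).symm
  simp_rw [h1]
  have hm : Measurable fun p : E d × ((Fin n → E d) × (Fin n → E d)) =>
      holderReplicaH g p.2 (lab2 p.2 p.1) := by
    have := holderReplicaH_measurable hg
    exact this.comp (measurable_snd.prodMk
      (holderReplica_lab2_continuous.measurable.comp (measurable_snd.prodMk measurable_fst)))
  rw [lintegral_lintegral_swap hm.aemeasurable]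
  refine lintegral_congr fun XX => ?_
  rw [lintegral_map (f := holderReplicaH g XX) ((holderReplicaH_measurable hg).comp
    (measurable_const.prodMk measurable_id)) (holderReplica_lab2_measurable XX)]

/-- Core bound. Write `h_XX(y) = g(XX.1, y.1) g(XX.2, y.2)`, `τ_XX = ν.map (lab2 XX)`.
`LHS = E_XX ∫ h_XX dτ_XX` (square expansion by `lintegral_prod`, Tonelli).
For each `XX`, `smoothing` (with `ρ = w+2`, `t_k = 1/(k+1)`, `vol = volume` on the product, using
`volume_ball_prod`) gives `∫ h_XX dτ_XX ≤ (∫ h_XX dy)^(1-1/ρ) J_XX^(1/ρ)`, `J_XX = liminf_k ∫ f_k^ρ`.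
Hoelder in `XX` (`ENNReal.lintegral_mul_le_Lp_mul_Lq`) and Fatou (`lintegral_liminf_le`) with
`replica`: `E J ≤ ((2/π)^n b)^(w+1) < ∞`, so `J_XX < ∞` for a.e. `XX` (hypothesis of `smoothing`);
`E ∫ h_XX dy = A²` where `A = ∫∫ g`. Exponent arithmetic:
`(w+1)/(w+2) = 1 - 1/(w+2)`. -/
theorem holder_replica (ν : Measure (E d)) [IsProbabilityMeasure ν] {b : ℝ≥0∞} (hb : b ≠ ⊤)
    (hflat : FlatBd ν w n b) (g : (Fin n → E d) × (Fin n → ℝ) → ℝ≥0∞) (hg : Measurable g)
    (hg1 : ∀ z, g z ≤ 1) :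
    ∫⁻ s, (∫⁻ X, g (X, lab X s) ∂(gamR d n)) ^ 2 ∂ν ≤
      ((∫⁻ X, ∫⁻ y, g (X, y) ∂volume ∂(gamR d n)) ^ 2 * (ENNReal.ofReal (2 / Real.pi)) ^ n * b) ^
        (1 - 1 / ((w : ℝ) + 2)) := by
  set ρ : ℝ := (w : ℝ) + 2 with hρdef
  have hρ0 : 0 < (w : ℝ) + 1 := by positivity
  have hρ : 1 < ρ := by rw [hρdef]; linarith
  have hρpos : 0 < ρ := by linarith
  set θ : ℝ := 1 - 1 / ρ with hθdef
  set t : ℕ → ℝ := fun k => 1 / ((k : ℝ) + 1) with htdef
  have ht : ∀ k, 0 < t k := fun k => by simp only [htdef]; positivity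
  have ht0 : Tendsto t atTop (𝓝 0) := tendsto_one_div_add_atTop_nhds_zero_nat
  set μ2 : Measure ((Fin n → E d) × (Fin n → E d)) := (gamR d n).prod (gamR d n) with hμ2
  set J : (Fin n → E d) × (Fin n → E d) → ℝ≥0∞ :=
    fun XX => liminf (fun k => holderReplicaJ ν w (t k) XX) atTop with hJdef
  have hJm : Measurable J :=
    Measurable.liminf (fun k => holderReplicaJ_measurable (n := n) ν w (t k))
  set x : ℝ≥0∞ := (ENNReal.ofReal (2 / Real.pi)) ^ n * b with hxdef
  have hxtop : x ≠ ⊤ := ENNReal.mul_ne_top (ENNReal.pow_ne_top ENNReal.ofReal_ne_top) hb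
  have hJint : ∫⁻ XX, J XX ∂μ2 ≤ x ^ (w + 1) := holderReplica_fatou ν hflat t ht
  have hJae : ∀ᵐ XX ∂μ2, J XX ≠ ⊤ := by
    have hlt : ∫⁻ XX, J XX ∂μ2 ≠ ⊤ :=
      ne_top_of_le_ne_top (ENNReal.pow_ne_top hxtop) hJint
    have := ae_lt_top hJm hlt
    filter_upwards [this] with XX hXX using hXX.ne
  -- pointwise smoothing
  have hsm : ∀ᵐ XX ∂μ2, ∫⁻ y, holderReplicaH g XX y ∂(ν.map (lab2 XX)) ≤
      (∫⁻ y, holderReplicaH g XX y ∂volume) ^ θ * (J XX) ^ (1 / ρ) := by
    filter_upwards [hJae] with XX hXX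
    have : IsProbabilityMeasure (ν.map (lab2 XX)) :=
      Measure.isProbabilityMeasure_map (holderReplica_lab2_measurable XX).aemeasurable
    have hHm : Measurable (holderReplicaH g XX) :=
      (holderReplicaH_measurable hg).comp (measurable_const.prodMk measurable_id)
    have hH1 : ∀ y, holderReplicaH g XX y ≤ 1 := fun y => by
      unfold holderReplicaH
      exact mul_le_one' (hg1 _) (hg1 _)
    have hint : ∀ k, ∫⁻ y, ((ν.map (lab2 XX)) (Metric.ball y (t k)) /
          (volume : Measure ((Fin n → ℝ) × (Fin n → ℝ))) (Metric.ball 0 (t k))) ^ ρ ∂volume =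
        holderReplicaJ ν w (t k) XX := by
      intro k
      unfold holderReplicaJ
      refine lintegral_congr fun y => ?_
      rw [volume_ball_prod 0 (t k) (ht k),
        Measure.map_apply (holderReplica_lab2_measurable XX) Metric.isOpen_ball.measurableSet]
      have hρnat : ρ = ((w + 2 : ℕ) : ℝ) := by rw [hρdef]; push_cast; ring
      rw [hρnat, ENNReal.rpow_natCast]
      rfl
    have hJ' : liminf (fun k => ∫⁻ y, ((ν.map (lab2 XX)) (Metric.ball y (t k)) /
          (volume : Measure ((Fin n → ℝ) × (Fin n → ℝ))) (Metric.ball 0 (t k))) ^ ρ ∂volume)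
          atTop = J XX := by
      simp_rw [hint]
      rfl
    have hHaar : (volume : Measure ((Fin n → ℝ) × (Fin n → ℝ))).IsAddHaarMeasure := by
      rw [Measure.volume_eq_prod]; exact Measure.prod.instIsAddHaarMeasure _ _
    have := smoothing (volume : Measure ((Fin n → ℝ) × (Fin n → ℝ))) (ν.map (lab2 XX)) ρ hρ
      (holderReplicaH g XX) hHm hH1 t ht ht0 (by rw [hJ']; exact hXX)
    rw [hJ'] at this
    exact this
  -- Hoelder in XX
  have hf : Measurable fun XX : (Fin n → E d) × (Fin n → E d) =>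
      ∫⁻ y, holderReplicaH g XX y ∂volume :=
    Measurable.lintegral_prod_right' (holderReplicaH_measurable hg)
  have hθ0 : 0 < θ := by
    have : 1 / ρ < 1 := by rw [div_lt_one hρpos]; exact hρ
    rw [hθdef]; linarith
  set p : ℝ := 1 / θ with hpdef
  have hθp : θ * p = 1 := by rw [hpdef]; field_simp
  have h1p : 1 / p = θ := by rw [hpdef]; field_simp
  have hθρ : θ + 1 / ρ = 1 := by rw [hθdef]; ring
  have hconj : p.HolderConjugate ρ := by
    rw [Real.holderConjugate_iff]
    constructor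
    · rw [hpdef, one_div, one_lt_inv₀ hθ0]
      have : 0 < 1 / ρ := by positivity
      linarith
    · have h1 : p⁻¹ = θ := by rw [← one_div]; exact h1p
      rw [h1, ← one_div]; exact hθρ
  have hol := ENNReal.lintegral_mul_le_Lp_mul_Lq μ2 hconj
    (f := fun XX => (∫⁻ y, holderReplicaH g XX y ∂volume) ^ θ)
    (g := fun XX => (J XX) ^ (1 / ρ))
    ((hf.pow_const θ).aemeasurable) ((hJm.pow_const (1 / ρ)).aemeasurable)
  have hfp : ∀ XX, ((∫⁻ y, holderReplicaH g XX y ∂volume) ^ θ) ^ p =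
      ∫⁻ y, holderReplicaH g XX y ∂volume := by
    intro XX
    rw [← ENNReal.rpow_mul, hθp, ENNReal.rpow_one]
  have hgq : ∀ XX, ((J XX) ^ (1 / ρ)) ^ ρ = J XX := by
    intro XX
    rw [← ENNReal.rpow_mul, one_div, inv_mul_cancel₀ hρpos.ne', ENNReal.rpow_one]
  simp only [hfp, hgq] at hol
  rw [holderReplicaH_integral g hg, h1p] at hol
  -- assemble
  rw [holderReplica_lhs ν g hg]
  calc ∫⁻ XX, ∫⁻ y, holderReplicaH g XX y ∂(ν.map (lab2 XX)) ∂μ2
      ≤ ∫⁻ XX, (∫⁻ y, holderReplicaH g XX y ∂volume) ^ θ * (J XX) ^ (1 / ρ) ∂μ2 :=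
        lintegral_mono_ae hsm
    _ ≤ ((∫⁻ X, ∫⁻ y, g (X, y) ∂volume ∂(gamR d n)) ^ 2) ^ θ * (∫⁻ XX, J XX ∂μ2) ^ (1 / ρ) := hol
    _ ≤ ((∫⁻ X, ∫⁻ y, g (X, y) ∂volume ∂(gamR d n)) ^ 2) ^ θ * (x ^ (w + 1)) ^ (1 / ρ) := by
        gcongr
    _ = ((∫⁻ X, ∫⁻ y, g (X, y) ∂volume ∂(gamR d n)) ^ 2) ^ θ * x ^ θ := by
        congr 1
        rw [← ENNReal.rpow_natCast x (w + 1), ← ENNReal.rpow_mul]
        congr 1
        rw [hθdef, hρdef]
        push_cast
        have : (w : ℝ) + 2 ≠ 0 := by positivity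
        field_simp
        ring
    _ = ((∫⁻ X, ∫⁻ y, g (X, y) ∂volume ∂(gamR d n)) ^ 2 *
          (ENNReal.ofReal (2 / Real.pi)) ^ n * b) ^ θ := by
        rw [mul_assoc ((∫⁻ X, ∫⁻ y, g (X, y) ∂volume ∂(gamR d n)) ^ 2)]
        exact (ENNReal.mul_rpow_of_nonneg _ x hθ0.le).symm

end P309
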