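import Vale.Agent.Lib.P309.Defs

/-! # P309 module KL: finite relative entropy toolkit (no measure theory) -/

open Real

namespace P309

variable {ι : Type*} [Fintype ι]

/-- Tangent line for the logarithm: the form of Jensen we use. -/
theorem log_tangent {y c : ℝ} (hy : 0 < y) (hc : 0 < c) :
    Real.log y ≤ Real.log c + y / c - 1 := by
  have h := Real.log_le_sub_one_of_pos (div_pos hy hc)
  rw [Real.log_div hy.ne' hc.ne'] at h
  linarith

private theorem KL_le_one_of_prob {p : ι → ℝ} (hp : IsProb p) (v : ι) : p v ≤ 1 := by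
  rw [← hp.sum_one]
  exact Finset.single_le_sum (fun i _ => hp.nonneg i) (Finset.mem_univ v)

theorem KL_nonneg {p q : ι → ℝ} (hp : IsProb p) (hq : IsProb q) (hac : ∀ v, q v = 0 → p v = 0) :
    0 ≤ KL p q := by
  have key : ∀ v, p v - q v ≤ p v * Real.log (p v / q v) := by
    intro v
    by_cases hp0 : p v = 0
    · simp [hp0, hq.nonneg v]
    have hq0 : q v ≠ 0 := fun h => hp0 (hac v h)
    have hpp : 0 < p v := lt_of_le_of_ne (hp.nonneg v) (Ne.symm hp0)
    have hqp : 0 < q v := lt_of_le_of_ne (hq.nonneg v) (Ne.symm hq0)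
    have h := log_tangent (y := q v / p v) (c := 1) (div_pos hqp hpp) one_pos
    have h2 : Real.log (q v / p v) = - Real.log (p v / q v) := by
      rw [← Real.log_inv, inv_div]
    rw [h2, Real.log_one] at h
    have h3 : q v / p v / 1 * p v = q v := by field_simp
    have := mul_le_mul_of_nonneg_left h hpp.le
    nlinarith
  have hs : ∑ v, (p v - q v) ≤ ∑ v, p v * Real.log (p v / q v) :=
    Finset.sum_le_sum fun v _ => key v
  rw [Finset.sum_sub_distrib, hp.sum_one, hq.sum_one] at hs
  simpa [KL] using hs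

theorem KL_le_log_of_lower {p q : ι → ℝ} {c : ℝ} (hc : 0 < c) (hp : IsProb p)
    (hq : ∀ v, c ≤ q v) : KL p q ≤ Real.log (1 / c) := by
  have key : ∀ v, p v * Real.log (p v / q v) ≤ p v * Real.log (1 / c) := by
    intro v
    by_cases hp0 : p v = 0
    · simp [hp0]
    have hpp : 0 < p v := lt_of_le_of_ne (hp.nonneg v) (Ne.symm hp0)
    have hqp : 0 < q v := lt_of_lt_of_le hc (hq v)
    apply mul_le_mul_of_nonneg_left _ hpp.le
    apply Real.log_le_log (div_pos hpp hqp)
    rw [div_le_div_iff₀ hqp hc]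
    have h1 := KL_le_one_of_prob hp v
    have h2 := hq v
    nlinarith
  calc KL p q = ∑ v, p v * Real.log (p v / q v) := rfl
    _ ≤ ∑ v, p v * Real.log (1 / c) := Finset.sum_le_sum fun v _ => key v
    _ = Real.log (1 / c) := by rw [← Finset.sum_mul, hp.sum_one, one_mul]

/-- If `q' ≥ w q` then `KL p q' ≤ KL p q + log (1 / w)`. -/
theorem KL_mono_mix {p q q' : ι → ℝ} {w : ℝ} (hw : 0 < w) (hp : IsProb p) (hq : ∀ v, 0 < q v)
    (hq' : ∀ v, w * q v ≤ q' v) : KL p q' ≤ KL p q + Real.log (1 / w) := by
  have key : ∀ v, p v * Real.log (p v / q' v) ≤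
      p v * Real.log (p v / q v) + p v * Real.log (1 / w) := by
    intro v
    by_cases hp0 : p v = 0
    · simp [hp0]
    have hpp : 0 < p v := lt_of_le_of_ne (hp.nonneg v) (Ne.symm hp0)
    have hq'p : 0 < q' v := lt_of_lt_of_le (mul_pos hw (hq v)) (hq' v)
    rw [← mul_add]
    apply mul_le_mul_of_nonneg_left _ hpp.le
    rw [← Real.log_mul (div_pos hpp (hq v)).ne' (one_div_pos.mpr hw).ne']
    apply Real.log_le_log (div_pos hpp hq'p)
    have : p v / q v * (1 / w) = p v / (w * q v) := by
      field_simp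
    rw [this]
    exact div_le_div_of_nonneg_left hpp.le (mul_pos hw (hq v)) (hq' v)
  calc KL p q' = ∑ v, p v * Real.log (p v / q' v) := rfl
    _ ≤ ∑ v, (p v * Real.log (p v / q v) + p v * Real.log (1 / w)) :=
        Finset.sum_le_sum fun v _ => key v
    _ = KL p q + Real.log (1 / w) := by
        rw [Finset.sum_add_distrib, ← Finset.sum_mul, hp.sum_one, one_mul]; rfl

/-- The log-sum inequality on a finset. -/
theorem KL_log_sum {U : Type*} (s : Finset U) (a b : U → ℝ) (ha : ∀ u ∈ s, 0 ≤ a u)
    (hb : ∀ u ∈ s, 0 ≤ b u) (hab : ∀ u ∈ s, b u = 0 → a u = 0) :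
    (∑ u ∈ s, a u) * Real.log ((∑ u ∈ s, a u) / ∑ u ∈ s, b u) ≤
      ∑ u ∈ s, a u * Real.log (a u / b u) := by
  have hA0 : 0 ≤ ∑ u ∈ s, a u := Finset.sum_nonneg ha
  have hB0 : 0 ≤ ∑ u ∈ s, b u := Finset.sum_nonneg hb
  by_cases hA : ∑ u ∈ s, a u = 0
  · have hz : ∀ u ∈ s, a u = 0 := (Finset.sum_eq_zero_iff_of_nonneg ha).mp hA
    rw [hA, zero_mul]
    exact Finset.sum_nonneg fun u hu => by rw [hz u hu]; simp
  have hAp : 0 < ∑ u ∈ s, a u := lt_of_le_of_ne hA0 (Ne.symm hA)
  have hBp : 0 < ∑ u ∈ s, b u := by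
    refine lt_of_le_of_ne hB0 fun hB => ?_
    have hz : ∀ u ∈ s, b u = 0 := (Finset.sum_eq_zero_iff_of_nonneg hb).mp hB.symm
    exact hA (Finset.sum_eq_zero fun u hu => hab u hu (hz u hu))
  set r := (∑ u ∈ s, a u) / ∑ u ∈ s, b u with hr
  have hrp : 0 < r := div_pos hAp hBp
  have key : ∀ u ∈ s, a u * Real.log r + a u - r * b u ≤ a u * Real.log (a u / b u) := by
    intro u hu
    by_cases ha0 : a u = 0
    · simp only [ha0, zero_mul, add_zero, zero_sub, zero_div, Real.log_zero, mul_zero]
      have := mul_nonneg hrp.le (hb u hu)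
      linarith
    have hap : 0 < a u := lt_of_le_of_ne (ha u hu) (Ne.symm ha0)
    have hb0 : b u ≠ 0 := fun h => ha0 (hab u hu h)
    have hbp : 0 < b u := lt_of_le_of_ne (hb u hu) (Ne.symm hb0)
    have h := log_tangent (y := b u / a u) (c := r⁻¹) (div_pos hbp hap) (inv_pos.mpr hrp)
    have h2 : Real.log (b u / a u) = - Real.log (a u / b u) := by
      rw [← Real.log_inv, inv_div]
    rw [h2, Real.log_inv] at h
    have h3 : a u * (b u / a u / r⁻¹) = r * b u := by
      field_simp
    have := mul_le_mul_of_nonneg_left h hap.le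
    nlinarith
  have hs := Finset.sum_le_sum key
  have e1 : ∑ u ∈ s, (a u * Real.log r + a u - r * b u) =
      (∑ u ∈ s, a u) * Real.log r + (∑ u ∈ s, a u) - r * ∑ u ∈ s, b u := by
    rw [Finset.sum_sub_distrib, Finset.sum_add_distrib, Finset.sum_mul, Finset.mul_sum]
  rw [e1] at hs
  have e2 : r * ∑ u ∈ s, b u = ∑ u ∈ s, a u := by
    rw [hr]; field_simp
  rw [e2] at hs
  linarith

/-- Chain rule / joint convexity (log-sum inequality). -/
theorem KL_chain {U V : Type*} [Fintype U] [Fintype V] (p Q : U → ℝ) (K K' : U → V → ℝ)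
    (hp : IsProb p) (hQ : IsProb Q) (hac : ∀ u, Q u = 0 → p u = 0) (hK : ∀ u, IsProb (K u))
    (hK' : ∀ u, IsProb (K' u)) (hK'pos : ∀ u v, 0 < K' u v) :
    KL (fun v => ∑ u, p u * K u v) (fun v => ∑ u, Q u * K' u v) ≤
      KL p Q + ∑ u, p u * KL (K u) (K' u) := by
  have hv : ∀ v, (∑ u, p u * K u v) * Real.log ((∑ u, p u * K u v) / ∑ u, Q u * K' u v) ≤
      ∑ u, (p u * K u v) * Real.log ((p u * K u v) / (Q u * K' u v)) := by
    intro v
    refine KL_log_sum Finset.univ _ _ (fun u _ => mul_nonneg (hp.nonneg u) ((hK u).nonneg v))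
      (fun u _ => mul_nonneg (hQ.nonneg u) (hK'pos u v).le) ?_
    intro u _ h
    rcases mul_eq_zero.mp h with h | h
    · simp [hac u h]
    · exact absurd h (hK'pos u v).ne'
  have hterm : ∀ u v, (p u * K u v) * Real.log ((p u * K u v) / (Q u * K' u v)) =
      (K u v) * (p u * Real.log (p u / Q u)) + p u * (K u v * Real.log (K u v / K' u v)) := by
    intro u v
    by_cases hp0 : p u = 0
    · simp [hp0]
    by_cases hK0 : K u v = 0
    · simp [hK0]
    have hQ0 : Q u ≠ 0 := fun h => hp0 (hac u h)
    rw [mul_div_mul_comm, Real.log_mul (div_ne_zero hp0 hQ0) (div_ne_zero hK0 (hK'pos u v).ne')]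
    ring
  calc KL (fun v => ∑ u, p u * K u v) (fun v => ∑ u, Q u * K' u v)
      ≤ ∑ v, ∑ u, (p u * K u v) * Real.log ((p u * K u v) / (Q u * K' u v)) :=
        Finset.sum_le_sum fun v _ => hv v
    _ = ∑ u, ∑ v, ((K u v) * (p u * Real.log (p u / Q u)) +
          p u * (K u v * Real.log (K u v / K' u v))) := by
        rw [Finset.sum_comm]
        exact Finset.sum_congr rfl fun u _ => Finset.sum_congr rfl fun v _ => hterm u v
    _ = ∑ u, (p u * Real.log (p u / Q u) + p u * KL (K u) (K' u)) := by
        refine Finset.sum_congr rfl fun u _ => ?_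
        rw [Finset.sum_add_distrib, ← Finset.sum_mul, (hK u).sum_one, one_mul, ← Finset.mul_sum]
        rfl
    _ = KL p Q + ∑ u, p u * KL (K u) (K' u) := by
        rw [Finset.sum_add_distrib]; rfl

/-- Second moment bound with a small bad part `b`.
Proof: with `α = ∑ a`, `β = ∑ b`, convexity of `x log x` gives
`KL p q ≤ α KL (a/α) q + β KL (b/β) q`; Jensen gives `KL (a/α) q ≤ log (∑ a^2/q / α^2)`;
`2 α log (1/α) ≤ 1`; and `KL (b/β) q ≤ log (1/c)`. -/
theorem KL_split {p a b q : ι → ℝ} {c : ℝ} (hc : 0 < c) (hq : IsProb q) (hqc : ∀ v, c ≤ q v)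
    (ha : ∀ v, 0 ≤ a v) (hb : ∀ v, 0 ≤ b v) (hab : ∀ v, p v = a v + b v) (hp : IsProb p) :
    KL p q ≤ Real.log (1 + ∑ v, a v ^ 2 / q v) + 1 + (∑ v, b v) * Real.log (1 / c) := by
  classical
  have hqp : ∀ v, 0 < q v := fun v => lt_of_lt_of_le hc (hqc v)
  set α := ∑ v, a v with hα
  set β := ∑ v, b v with hβ
  set S := ∑ v, a v ^ 2 / q v with hS
  have hα0 : 0 ≤ α := Finset.sum_nonneg fun v _ => ha v
  have hβ0 : 0 ≤ β := Finset.sum_nonneg fun v _ => hb v
  have hαβ : α + β = 1 := by
    rw [hα, hβ, ← Finset.sum_add_distrib, ← hp.sum_one]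
    exact Finset.sum_congr rfl fun v _ => (hab v).symm
  have hS0 : 0 ≤ S := Finset.sum_nonneg fun v _ => div_nonneg (sq_nonneg _) (hqp v).le
  -- pointwise convexity
  have hpt : ∀ v, p v * Real.log (p v / q v) ≤
      a v * Real.log (a v / (α * q v)) + b v * Real.log (b v / (β * q v)) := by
    intro v
    have h := KL_log_sum (Finset.univ : Finset Bool) (fun i => if i then a v else b v)
      (fun i => if i then α * q v else β * q v)
      (fun i _ => by cases i <;> simp [ha, hb])
      (fun i _ => by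
        cases i
        · simpa using mul_nonneg hβ0 (hqp v).le
        · simpa using mul_nonneg hα0 (hqp v).le)
      (fun i _ => by
        cases i
        · intro h
          have hβz : β = 0 := by
            simpa [(hqp v).ne'] using h
          have hz := (Finset.sum_eq_zero_iff_of_nonneg (fun v _ => hb v)).mp hβz v
            (Finset.mem_univ v)
          simpa using hz
        · intro h
          have hαz : α = 0 := by
            simpa [(hqp v).ne'] using h
          have hz := (Finset.sum_eq_zero_iff_of_nonneg (fun v _ => ha v)).mp hαz v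
            (Finset.mem_univ v)
          simpa using hz)
    simp only [Fintype.sum_bool, Bool.false_eq_true, ↓reduceIte] at h
    have e1 : a v + b v = p v := (hab v).symm
    have e2 : α * q v + β * q v = q v := by
      rw [← add_mul, hαβ, one_mul]
    rw [e1, e2] at h
    linarith
  -- first part
  have hA : ∑ v, a v * Real.log (a v / (α * q v)) ≤ Real.log (1 + S) + 1 := by
    by_cases hαz : α = 0
    · have hz : ∀ v, a v = 0 := fun v =>
        (Finset.sum_eq_zero_iff_of_nonneg (fun v _ => ha v)).mp hαz v (Finset.mem_univ v)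
      simp only [hz, zero_mul, Finset.sum_const_zero]
      have : 0 ≤ Real.log (1 + S) := Real.log_nonneg (by linarith)
      linarith
    have hαp : 0 < α := lt_of_le_of_ne hα0 (Ne.symm hαz)
    have hα1 : α ≤ 1 := by linarith
    -- S is positive
    have hSp : 0 < S := by
      obtain ⟨w, hw⟩ : ∃ w, a w ≠ 0 := by
        by_contra hcon
        simp only [not_exists, not_not] at hcon
        exact hαz (Finset.sum_eq_zero fun v _ => hcon v)
      have hwp : 0 < a w ^ 2 / q w := div_pos (pow_pos (lt_of_le_of_ne (ha w) (Ne.symm hw)) 2) (hqp w)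
      refine lt_of_lt_of_le hwp ?_
      exact Finset.single_le_sum (f := fun v => a v ^ 2 / q v)
        (fun v _ => div_nonneg (sq_nonneg _) (hqp v).le) (Finset.mem_univ w)
    set C := S / α ^ 2 with hC
    have hCp : 0 < C := div_pos hSp (pow_pos hαp 2)
    have hterm : ∀ v, a v * Real.log (a v / (α * q v)) ≤
        a v * Real.log C + a v ^ 2 / q v * (α / S) - a v := by
      intro v
      by_cases ha0 : a v = 0
      · simp [ha0]
      have hap : 0 < a v := lt_of_le_of_ne (ha v) (Ne.symm ha0)
      have h := log_tangent (y := a v / (α * q v)) (c := C) (div_pos hap (mul_pos hαp (hqp v))) hCp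
      have h2 := mul_le_mul_of_nonneg_left h hap.le
      have h3 : a v * (a v / (α * q v) / C) = a v ^ 2 / q v * (α / S) := by
        rw [hC]; field_simp
      nlinarith
    have hsum : ∑ v, a v * Real.log (a v / (α * q v)) ≤ α * Real.log C := by
      have hs := Finset.sum_le_sum fun v (_ : v ∈ Finset.univ) => hterm v
      have e : ∑ v, (a v * Real.log C + a v ^ 2 / q v * (α / S) - a v) =
          α * Real.log C + S * (α / S) - α := by
        rw [Finset.sum_sub_distrib, Finset.sum_add_distrib, ← Finset.sum_mul, ← Finset.sum_mul]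
      rw [e] at hs
      have e2 : S * (α / S) = α := by field_simp
      rw [e2] at hs
      linarith
    have hlogC : Real.log C = Real.log S - 2 * Real.log α := by
      rw [hC, Real.log_div hSp.ne' (pow_pos hαp 2).ne', Real.log_pow]; norm_num
    have hbound1 : α * Real.log S ≤ Real.log (1 + S) := by
      by_cases hS1 : 1 ≤ S
      · have h1 : 0 ≤ Real.log S := Real.log_nonneg hS1
        have h2 : Real.log S ≤ Real.log (1 + S) := Real.log_le_log hSp (by linarith)
        nlinarith
      · have h1 : Real.log S ≤ 0 := Real.log_nonpos hSp.le (by linarith)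
        have h2 : 0 ≤ Real.log (1 + S) := Real.log_nonneg (by linarith)
        nlinarith
    have hbound2 : - (2 * α * Real.log α) ≤ 1 := by
      have h := log_tangent (y := α⁻¹) (c := 2) (inv_pos.mpr hαp) two_pos
      rw [Real.log_inv] at h
      have hl2 : Real.log 2 < 1 := by
        have := Real.log_two_lt_d9; linarith
      have h3 := mul_le_mul_of_nonneg_left h hαp.le
      have h4 : α * (α⁻¹ / 2) = 1 / 2 := by field_simp
      nlinarith
    calc ∑ v, a v * Real.log (a v / (α * q v)) ≤ α * Real.log C := hsum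
      _ = α * Real.log S - 2 * α * Real.log α := by rw [hlogC]; ring
      _ ≤ Real.log (1 + S) + 1 := by linarith
  -- second part
  have hB : ∑ v, b v * Real.log (b v / (β * q v)) ≤ β * Real.log (1 / c) := by
    by_cases hβz : β = 0
    · have hz : ∀ v, b v = 0 := fun v =>
        (Finset.sum_eq_zero_iff_of_nonneg (fun v _ => hb v)).mp hβz v (Finset.mem_univ v)
      simp [hz, hβz]
    have hβp : 0 < β := lt_of_le_of_ne hβ0 (Ne.symm hβz)
    have hterm : ∀ v, b v * Real.log (b v / (β * q v)) ≤ b v * Real.log (1 / c) := by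
      intro v
      by_cases hb0 : b v = 0
      · simp [hb0]
      have hbp : 0 < b v := lt_of_le_of_ne (hb v) (Ne.symm hb0)
      apply mul_le_mul_of_nonneg_left _ hbp.le
      apply Real.log_le_log (div_pos hbp (mul_pos hβp (hqp v)))
      rw [div_le_div_iff₀ (mul_pos hβp (hqp v)) hc]
      have h1 : b v ≤ β := Finset.single_le_sum (f := b) (fun v _ => hb v) (Finset.mem_univ v)
      have h2 := hqc v
      have h3 : c ≤ q v := h2
      nlinarith [mul_le_mul h1 h3 hc.le hβ0]
    calc ∑ v, b v * Real.log (b v / (β * q v)) ≤ ∑ v, b v * Real.log (1 / c) :=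
          Finset.sum_le_sum fun v _ => hterm v
      _ = β * Real.log (1 / c) := by rw [← Finset.sum_mul]
  calc KL p q = ∑ v, p v * Real.log (p v / q v) := rfl
    _ ≤ ∑ v, (a v * Real.log (a v / (α * q v)) + b v * Real.log (b v / (β * q v))) :=
        Finset.sum_le_sum fun v _ => hpt v
    _ = ∑ v, a v * Real.log (a v / (α * q v)) + ∑ v, b v * Real.log (b v / (β * q v)) :=
        Finset.sum_add_distrib
    _ ≤ Real.log (1 + S) + 1 + β * Real.log (1 / c) := by linarith

/-- Gibbs variational inequality. -/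
theorem KL_gibbs {p q : ι → ℝ} (ψ : ι → ℝ) (hp : IsProb p) (hq : IsProb q) (hpos : ∀ v, 0 < q v) :
    ∑ v, p v * ψ v ≤ KL p q + Real.log (∑ v, q v * Real.exp (ψ v)) := by
  classical
  have hne : (Finset.univ : Finset ι).Nonempty := by
    by_contra h
    rw [Finset.not_nonempty_iff_eq_empty] at h
    have := hp.sum_one
    rw [h] at this
    simp at this
  set S := ∑ v, q v * Real.exp (ψ v) with hS
  have hSp : 0 < S := Finset.sum_pos (fun v _ => mul_pos (hpos v) (Real.exp_pos _)) hne
  have key : ∀ v, p v * ψ v ≤ p v * Real.log (p v / q v) + p v * Real.log S +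
      q v * Real.exp (ψ v) / S - p v := by
    intro v
    by_cases hp0 : p v = 0
    · simp only [hp0, zero_mul, Real.log_zero, zero_div, mul_zero, add_zero, sub_zero]
      rw [zero_add]
      exact (div_pos (mul_pos (hpos v) (Real.exp_pos _)) hSp).le
    have hpp : 0 < p v := lt_of_le_of_ne (hp.nonneg v) (Ne.symm hp0)
    have hy : 0 < q v * Real.exp (ψ v) / p v := div_pos (mul_pos (hpos v) (Real.exp_pos _)) hpp
    have h := log_tangent hy hSp
    have e : Real.log (q v * Real.exp (ψ v) / p v) = ψ v - Real.log (p v / q v) := by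
      rw [Real.log_div (mul_pos (hpos v) (Real.exp_pos _)).ne' hpp.ne',
        Real.log_mul (hpos v).ne' (Real.exp_pos _).ne', Real.log_exp,
        Real.log_div hpp.ne' (hpos v).ne']
      ring
    rw [e] at h
    have h2 := mul_le_mul_of_nonneg_left h hpp.le
    have h3 : p v * (q v * Real.exp (ψ v) / p v / S) = q v * Real.exp (ψ v) / S := by
      field_simp
    nlinarith
  have hs := Finset.sum_le_sum fun v (_ : v ∈ Finset.univ) => key v
  have e : ∑ v, (p v * Real.log (p v / q v) + p v * Real.log S + q v * Real.exp (ψ v) / S - p v) =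
      KL p q + Real.log S + S / S - 1 := by
    rw [Finset.sum_sub_distrib, Finset.sum_add_distrib, Finset.sum_add_distrib, ← Finset.sum_mul,
      hp.sum_one, one_mul, ← Finset.sum_div]
    rfl
  rw [e, div_self hSp.ne'] at hs
  linarith

/-- `∑ p^θ ≤ card^(1-θ)`. -/
theorem sum_rpow_le_card {p : ι → ℝ} (hp : IsProb p) {θ : ℝ} (h0 : 0 ≤ θ) (h1 : θ ≤ 1) :
    ∑ v, p v ^ θ ≤ (Fintype.card ι : ℝ) ^ (1 - θ) := by
  classical
  have hne : 0 < Fintype.card ι := by
    rw [Fintype.card_pos_iff]
    by_contra h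
    rw [not_nonempty_iff] at h
    have := hp.sum_one
    simp at this
  set N : ℝ := (Fintype.card ι : ℝ) with hN
  have hNp : 0 < N := by rw [hN]; exact_mod_cast hne
  have hNr : 0 < N ^ (1 - θ) := Real.rpow_pos_of_pos hNp _
  have key : ∀ v, p v ^ θ ≤ N ^ (1 - θ) * (θ * p v + (1 - θ) * (1 / N)) := by
    intro v
    have h := Real.geom_mean_le_arith_mean2_weighted h0 (by linarith : (0 : ℝ) ≤ 1 - θ)
      (hp.nonneg v) (one_div_pos.mpr hNp).le (by ring)
    have h2 : (1 / N) ^ (1 - θ) * N ^ (1 - θ) = 1 := by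
      rw [← Real.mul_rpow (one_div_pos.mpr hNp).le hNp.le]
      have : 1 / N * N = 1 := by field_simp
      rw [this, Real.one_rpow]
    have h3 := mul_le_mul_of_nonneg_left h hNr.le
    calc p v ^ θ = N ^ (1 - θ) * (p v ^ θ * (1 / N) ^ (1 - θ)) := by
          have : N ^ (1 - θ) * (p v ^ θ * (1 / N) ^ (1 - θ)) =
              p v ^ θ * ((1 / N) ^ (1 - θ) * N ^ (1 - θ)) := by ring
          rw [this, h2, mul_one]
      _ ≤ _ := h3
  calc ∑ v, p v ^ θ ≤ ∑ v, N ^ (1 - θ) * (θ * p v + (1 - θ) * (1 / N)) :=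
        Finset.sum_le_sum fun v _ => key v
    _ = N ^ (1 - θ) * (θ * ∑ v, p v + (1 - θ)) := by
        rw [← Finset.mul_sum, Finset.sum_add_distrib, ← Finset.mul_sum]
        simp only [Finset.sum_const, Finset.card_univ, nsmul_eq_mul]
        have : (Fintype.card ι : ℝ) * ((1 - θ) * (1 / N)) = 1 - θ := by
          rw [← hN]; field_simp
        rw [this]
    _ = N ^ (1 - θ) := by rw [hp.sum_one]; ring

/-- Entropy bound. -/
theorem entropy_le {p : ι → ℝ} (hp : IsProb p) :
    ∑ v, p v * Real.log (1 / p v) ≤ Real.log (Fintype.card ι) := by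
  classical
  have hne : 0 < Fintype.card ι := by
    rw [Fintype.card_pos_iff]
    by_contra h
    rw [not_nonempty_iff] at h
    have := hp.sum_one
    simp at this
  set N : ℝ := (Fintype.card ι : ℝ) with hN
  have hNp : 0 < N := by rw [hN]; exact_mod_cast hne
  have key : ∀ v, p v * Real.log (1 / p v) ≤ p v * Real.log N + 1 / N - p v := by
    intro v
    by_cases hp0 : p v = 0
    · simp only [hp0, zero_mul, sub_zero, zero_add]
      exact (one_div_pos.mpr hNp).le
    have hpp : 0 < p v := lt_of_le_of_ne (hp.nonneg v) (Ne.symm hp0)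
    have h := log_tangent (one_div_pos.mpr hpp) hNp
    have h2 := mul_le_mul_of_nonneg_left h hpp.le
    have h3 : p v * (1 / p v / N) = 1 / N := by field_simp
    nlinarith
  have hs := Finset.sum_le_sum fun v (_ : v ∈ Finset.univ) => key v
  have e : ∑ v, (p v * Real.log N + 1 / N - p v) = Real.log N + 1 - 1 := by
    rw [Finset.sum_sub_distrib, Finset.sum_add_distrib, ← Finset.sum_mul, hp.sum_one, one_mul]
    simp only [Finset.sum_const, Finset.card_univ, nsmul_eq_mul]
    have : (Fintype.card ι : ℝ) * (1 / N) = 1 := by rw [← hN]; field_simp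
    rw [this]
  rw [e] at hs
  linarith

/-- Uniform upper bound for KL against a kernel bounded below, and measurable form of `KL`
are left to the users. Basic continuity fact: `KL` with positive `q` is a continuous function. -/
theorem KL_measurable {α : Type*} [MeasurableSpace α] {p q : α → ι → ℝ}
    (hp : ∀ v, Measurable fun a => p a v) (hq : ∀ v, Measurable fun a => q a v) :
    Measurable fun a => KL (p a) (q a) := by
  unfold KL
  refine Finset.measurable_sum _ fun v _ => ?_
  exact (hp v).mul (Real.measurable_log.comp ((hp v).div (hq v)))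

end P309
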