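import Vale.Agent.Lib.P309.Final

/-! # P309 module Main: the tradeoff -/

open MeasureTheory ProbabilityTheory
open scoped ENNReal NNReal

namespace P309

/-- The logarithm of the reference bound. -/
private theorem main_log_eq {x : ℝ} (hx : 0 < x) (m : ℕ) :
    Real.log (1 / (Real.sqrt 2 * x ^ m)) = (m : ℝ) * (-Real.log x) - 1 / 2 * Real.log 2 := by
  have h2 : Real.sqrt 2 ≠ 0 := by positivity
  have h3 : x ^ m ≠ 0 := by positivity
  rw [Real.log_div one_ne_zero (mul_ne_zero h2 h3), Real.log_one,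
    Real.log_mul h2 h3, Real.log_pow, Real.log_sqrt (by norm_num)]
  ring

/-- Pure real arithmetic of the last step. -/
private theorem main_arith {d w q T M I L Lx m : ℝ} (hd : 1048576 ≤ d) (hw : d ≤ 128 * w)
    (hw2 : 64 * w ≤ d) (hq0 : 0 ≤ q) (hq : q * w ≤ T) (hM : 0 ≤ M) (hm : m + 8 * w + 1 = d)
    (hL : 4000 ≤ L) (hLx : L - 3 ≤ Lx)
    (hlow : 1 / 2 * (m * Lx - 1 / 2 * Real.log 2) - Real.log 2 ≤ I)
    (hI : I ≤ (q + 1) * (200 * M / d + 17 * d)) :
    1 / 1638400 * d * L ≤ (T + d) * (1 + M / d ^ 2) ∧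
      (M ≤ d ^ 2 → 1 / 1638400 * d * L ≤ T) := by
  have hd0 : 0 < d := by linarith
  have hl2 : Real.log 2 < 1 := by
    have := Real.log_two_lt_d9
    linarith
  have hl2' : 0 < Real.log 2 := Real.log_pos (by norm_num)
  have hw0 : 0 ≤ w := by linarith
  have hT0 : 0 ≤ T := le_trans (mul_nonneg hq0 hw0) hq
  have hLx' : L / 2 ≤ Lx := by linarith
  have hm' : d / 2 ≤ m := by linarith
  have h1 : d / 2 * (L / 2) ≤ m * Lx :=
    mul_le_mul hm' hLx' (by linarith) (by linarith)
  have h2 : d * L / 8 - 2 ≤ I := by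
    have : d / 2 * (L / 2) = d * L / 4 := by ring
    nlinarith [h1, hlow, hl2, hl2']
  -- the conversion of the right side
  set R : ℝ := M / d ^ 2 with hR
  have hR0 : 0 ≤ R := by positivity
  have h3 : (q + 1) * (200 * M / d + 17 * d) = (q + 1) * d * (200 * R + 17) := by
    rw [hR]; field_simp
  have h4 : (q + 1) * d ≤ 128 * T + d := by
    have : q * d ≤ q * (128 * w) := mul_le_mul_of_nonneg_left hw hq0
    nlinarith
  have h5 : d * L / 8 - 2 ≤ (128 * T + d) * (200 * R + 17) := by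
    have : (q + 1) * d * (200 * R + 17) ≤ (128 * T + d) * (200 * R + 17) :=
      mul_le_mul_of_nonneg_right h4 (by positivity)
    linarith [h2, hI, h3.le, h3.ge]
  constructor
  · have hX : d ≤ (T + d) * (1 + R) := by nlinarith [mul_nonneg hT0 hR0, mul_nonneg hd0.le hR0]
    have h6 : (128 * T + d) * (200 * R + 17) ≤ 25600 * ((T + d) * (1 + R)) := by
      nlinarith [mul_nonneg hT0 hR0, mul_nonneg hd0.le hR0]
    have h7 : d * L ≤ 204816 * ((T + d) * (1 + R)) := by linarith
    have h8 : 0 ≤ (T + d) * (1 + R) := by linarith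
    have : 1 / 1638400 * d * L = d * L / 1638400 := by ring
    rw [this, div_le_iff₀ (by norm_num)]
    linarith
  · intro hMd
    have hR1 : R ≤ 1 := by
      rw [hR]; exact div_le_one_of_le₀ hMd (by positivity)
    have h6 : (128 * T + d) * (200 * R + 17) ≤ 27776 * T + 217 * d := by
      nlinarith [mul_nonneg hT0 (sub_nonneg.mpr hR1), mul_nonneg hd0.le (sub_nonneg.mpr hR1)]
    have h7 : 4000 * d ≤ d * L := by nlinarith
    have h8 : d * L / 16 ≤ 27776 * T := by linarith
    have : 1 / 1638400 * d * L = d * L / 1638400 := by ring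
    rw [this, div_le_iff₀ (by norm_num)]
    linarith

/-- Take `w = d/64` (nat division), `D = 8 w`, `e = T / w + 1`, pad the learner at `T`, combine
`potential_bound` (for `A.pad T`) and `final_lower` (with `f = law A T`):
`(d/4) log(1/(8ε)) - 2 ≤ e (200 M/d + 17 d)`, `e ≤ 128 (T+d)/d`, so
`(d/8) log(1/ε) - 2 ≤ 25600 (T+d)(1+M/d²)`. Constants: `c = 1/1638400`, `ε₀ = exp(-4000)`,
`d₀ = 2^20`. -/
theorem tradeoff : ∃ c : ℝ, 0 < c ∧ ∃ ε₀ : ℝ, 0 < ε₀ ∧ ∃ d₀ : ℕ, ∀ d, d₀ ≤ d →
    ∀ ε : ℝ, 0 < ε → ε < ε₀ → ∀ (M T : ℕ) (A : Learner d M), 2 / 3 ≤ successProb A T ε →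
      c * d * Real.log (1 / ε) ≤ ((T : ℝ) + d) * (1 + (M : ℝ) / (d : ℝ) ^ 2) ∧
      ((M : ℝ) ≤ (d : ℝ) ^ 2 → c * d * Real.log (1 / ε) ≤ T) := by
  refine ⟨1 / 1638400, by norm_num, Real.exp (-4000), Real.exp_pos _, 2 ^ 20, ?_⟩
  intro d hd ε hε hε0 M T A hs
  obtain ⟨w, hwdef⟩ : ∃ w, w = d / 64 := ⟨_, rfl⟩
  have hd' : 1048576 ≤ d := by simpa using hd
  have hw : 1 ≤ w := by omega
  have hd64 : 64 * w ≤ d := by omega
  have hd128 : d ≤ 128 * w := by omega
  have hwpos : 0 < w := hw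
  have hTe : T ≤ (T / w + 1) * w := by
    have h1 := Nat.div_add_mod T w
    have h2 := Nat.mod_lt T hwpos
    have h3 : (T / w + 1) * w = w * (T / w) + w := by ring
    rw [h3]; omega
  obtain ⟨Qt, hQm, hQp, hQl, hKL⟩ :=
    potential_bound (d := d) (M := M) hd hw hd64 hd128 (A.pad T) (T / w + 1) (Nat.le_add_left 1 _)
  have hpad : ∀ s, law (A.pad T) ((T / w + 1) * w) s = law A T s :=
    fun s => law_pad A T _ hTe s
  simp only [hpad] at hKL
  -- smallness of ε
  have hexp : Real.exp (-4000) ≤ 1 / 8 := by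
    have h1 := Real.add_one_le_exp (4000 : ℝ)
    rw [Real.exp_neg, inv_eq_one_div]
    exact one_div_le_one_div_of_le (by norm_num) (by linarith)
  have h8 : 8 * ε ≤ 1 := by linarith
  have hlow := final_lower (D := 8 * w) (by omega) (by omega) A (law A T)
    (fun v => law_measurable A T v) (law_prob A T) Qt hQm hQp hQl hε h8 hs
  obtain ⟨m, hm⟩ : ∃ m, m = d - 8 * w - 1 := ⟨_, rfl⟩
  rw [← hm, main_log_eq (by positivity : (0 : ℝ) < 8 * ε) m] at hlow
  have hmcast : (m : ℝ) + 8 * w + 1 = d := by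
    have : m + 8 * w + 1 = d := by omega
    exact_mod_cast this
  have hL : 4000 ≤ Real.log (1 / ε) := by
    rw [one_div, Real.log_inv]
    have : Real.log ε < -4000 := by
      rw [Real.log_lt_iff_lt_exp hε]; exact hε0
    linarith
  have hLx : Real.log (1 / ε) - 3 ≤ -Real.log (8 * ε) := by
    rw [one_div, Real.log_inv, Real.log_mul (by norm_num) hε.ne']
    have h83 : Real.log 8 ≤ 3 := by
      have : (8 : ℝ) = 2 ^ 3 := by norm_num
      rw [this, Real.log_pow]
      have := Real.log_two_lt_d9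
      push_cast
      linarith
    linarith
  have hqle : ((T / w : ℕ) : ℝ) * (w : ℝ) ≤ T := by
    have : T / w * w ≤ T := Nat.div_mul_le_self T w
    exact_mod_cast this
  have hmain := main_arith (d := (d : ℝ)) (w := (w : ℝ)) (q := ((T / w : ℕ) : ℝ)) (T := (T : ℝ))
    (M := (M : ℝ)) (L := Real.log (1 / ε)) (Lx := -Real.log (8 * ε)) (m := (m : ℝ))
    (by exact_mod_cast hd') (by exact_mod_cast hd128)
    (by exact_mod_cast hd64) (by positivity) hqle (by positivity) hmcast hL hLx hlow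
    (by
      have := hKL
      push_cast at this ⊢
      exact this)
  exact hmain

end P309
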