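import Mathlib

/-!
# P309: the learner model (only definitions; this file is read by the judges)

`law A t s u` is the probability that the state after `t` rows is `u`, given the signal `s`
(rows iid standard Gaussian, labels exact). `step t u x y` is the transition probability vector:
an arbitrary measurable randomized function (Markov kernel) of index, state, row and label.
-/

open MeasureTheory ProbabilityTheory

namespace P309

/-- Euclidean `d`-space. -/
abbrev E (d : ℕ) := EuclideanSpace ℝ (Fin d)

/-- The law of one row: the standard Gaussian `N(0, I_d)`. -/
noncomputable abbrev gam (d : ℕ) : Measure (E d) := stdGaussian (E d)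

/-- The uniform law on the unit sphere: the law of `g / ‖g‖` with `g` standard Gaussian. -/
noncomputable def sig (d : ℕ) : Measure (E d) := (gam d).map fun g => ‖g‖⁻¹ • g

/-- A probability vector on a finite set. -/
structure IsProb {ι : Type*} [Fintype ι] (p : ι → ℝ) : Prop where
  nonneg : ∀ v, 0 ≤ p v
  sum_one : ∑ v, p v = 1

/-- A learner with `M` bits of memory: state set `Fin (2 ^ M)`, randomized initial state `init`,
randomized measurable transition `step t u x y` (a probability vector on the next state, given the
index `t`, the state `u`, the row `x` and the label `y`), randomized output `out u`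
(a probability measure on the unit sphere, given the final state `u`). -/
structure Learner (d M : ℕ) where
  init : Fin (2 ^ M) → ℝ
  step : ℕ → Fin (2 ^ M) → E d → ℝ → Fin (2 ^ M) → ℝ
  out : Fin (2 ^ M) → Measure (E d)
  init_prob : IsProb init
  step_meas : ∀ t u v, Measurable fun p : E d × ℝ => step t u p.1 p.2 v
  step_prob : ∀ t u x y, IsProb (step t u x y)
  out_prob : ∀ u, IsProbabilityMeasure (out u)
  out_sphere : ∀ u, ∀ᵐ z ∂(out u), ‖z‖ = 1

/-- The law of the state after `t` rows given the signal `s`. -/
noncomputable def law {d M : ℕ} (A : Learner d M) : ℕ → E d → Fin (2 ^ M) → ℝ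
  | 0, _ => A.init
  | t + 1, s => fun v => ∑ u, law A t s u * ∫ x, A.step t u x (inner ℝ x s) v ∂(gam d)

/-- The probability that the output after `T` rows has angle at most `ε` with the uniform signal. -/
noncomputable def successProb {d M : ℕ} (A : Learner d M) (T : ℕ) (ε : ℝ) : ℝ :=
  ∫ s, ∑ u, law A T s u * (A.out u {z | Real.arccos (inner ℝ z s) ≤ ε}).toReal ∂(sig d)

end P309
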