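import Vale.Agent.Lib.P309.HolderReplica
import Vale.Agent.Lib.P309.KL

/-! # P309 module Piece: KL bound for one Frostman piece -/

open MeasureTheory ProbabilityTheory
open scoped ENNReal NNReal

namespace P309

variable {d n w L : ℕ}

namespace Piece

/-- The label vector is jointly measurable. -/
lemma lab_meas2 : Measurable fun p : (Fin n → E d) × E d => lab p.1 p.2 := by
  refine measurable_pi_iff.2 fun i => ?_
  unfold lab
  exact ((measurable_pi_apply i).comp measurable_fst).inner measurable_snd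

lemma lab_meas (m : E d) : Measurable fun X : Fin n → E d => lab X m :=
  lab_meas2.comp (measurable_id.prodMk measurable_const)

/-- The Gaussian density with variance `4κ²` on `ℝⁿ`. -/
noncomputable def phi (n : ℕ) (κ : ℝ) (z : Fin n → ℝ) : ℝ :=
  ∏ i, gaussianPDFReal 0 (Real.toNNReal (4 * κ ^ 2)) (z i)

lemma phi_nonneg (κ : ℝ) (z : Fin n → ℝ) : 0 ≤ phi n κ z :=
  Finset.prod_nonneg fun _ _ => gaussianPDFReal_nonneg _ _ _

lemma phi_meas (κ : ℝ) : Measurable (phi n κ) :=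
  Finset.measurable_prod _ fun i _ =>
    (measurable_gaussianPDFReal _ _).comp (measurable_pi_apply i)

lemma lintegral_phi {κ : ℝ} (hκ : 0 < κ) : ∫⁻ z, ENNReal.ofReal (phi n κ z) = 1 := by
  have hv : Real.toNNReal (4 * κ ^ 2) ≠ 0 := by
    simp only [ne_eq, Real.toNNReal_eq_zero, not_le]; positivity
  have hint : Integrable (phi n κ) := by
    unfold phi
    exact Integrable.fintype_prod (fun _ => integrable_gaussianPDFReal _ _)
  rw [← ofReal_integral_eq_lintegral_ofReal hint (Filter.Eventually.of_forall (phi_nonneg κ))]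
  unfold phi
  rw [integral_fintype_prod_volume_eq_prod (fun _ => gaussianPDFReal 0 (Real.toNNReal (4 * κ ^ 2)))]
  simp [integral_gaussianPDFReal_eq_one _ hv]

lemma lintegral_phi_sub {κ : ℝ} (hκ : 0 < κ) (c : Fin n → ℝ) :
    ∫⁻ y, ENNReal.ofReal (phi n κ (y - c)) = 1 := by
  rw [lintegral_sub_right_eq_self (fun z => ENNReal.ofReal (phi n κ z)) c]
  exact lintegral_phi hκ

/-- The minimum of the density on the ball. -/
noncomputable def phimin (n : ℕ) (κ : ℝ) : ℝ :=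
  ((Real.sqrt (8 * Real.pi * κ ^ 2))⁻¹ * Real.exp (-(1 / 2))) ^ n

lemma phimin_pos {κ : ℝ} (hκ : 0 < κ) : 0 < phimin n κ := by
  unfold phimin; positivity

lemma phi_lower {κ : ℝ} (hκ : 0 < κ) {z : Fin n → ℝ}
    (hz : ∑ i, z i ^ 2 ≤ 4 * (n : ℝ) * κ ^ 2) : phimin n κ ≤ phi n κ z := by
  have hv : ((Real.toNNReal (4 * κ ^ 2) : ℝ≥0) : ℝ) = 4 * κ ^ 2 :=
    Real.coe_toNNReal _ (by positivity)
  have h1 : phi n κ z = ((Real.sqrt (8 * Real.pi * κ ^ 2))⁻¹) ^ n *
      Real.exp (-(∑ i, z i ^ 2) / (8 * κ ^ 2)) := by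
    unfold phi
    have : ∀ i, gaussianPDFReal 0 (Real.toNNReal (4 * κ ^ 2)) (z i) =
        (Real.sqrt (8 * Real.pi * κ ^ 2))⁻¹ * Real.exp (-(z i ^ 2) / (8 * κ ^ 2)) := by
      intro i
      rw [gaussianPDFReal, hv]
      congr 2
      · ring_nf
      · ring_nf
    simp only [this]
    rw [Finset.prod_mul_distrib, Finset.prod_const, Finset.card_univ, Fintype.card_fin,
      ← Real.exp_sum, ← Finset.sum_div, ← Finset.sum_neg_distrib]
  have h2 : phimin n κ = ((Real.sqrt (8 * Real.pi * κ ^ 2))⁻¹) ^ n *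
      Real.exp (-((n : ℝ) / 2)) := by
    unfold phimin
    rw [mul_pow, ← Real.exp_nat_mul]
    congr 2
    ring
  rw [h1, h2]
  apply mul_le_mul_of_nonneg_left _ (by positivity)
  apply Real.exp_le_exp.2
  have hκ2 : 0 < 8 * κ ^ 2 := by positivity
  rw [neg_div, neg_le_neg_iff, div_le_div_iff₀ hκ2 (by norm_num)]
  nlinarith

lemma phimin_identity {κ : ℝ} (hκ : 0 < κ) :
    ((phimin n κ)⁻¹) ^ 2 * (2 / Real.pi) ^ n = (16 * Real.exp 1 * κ ^ 2) ^ n := by
  unfold phimin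
  rw [← inv_pow, ← pow_mul, mul_comm n 2, pow_mul, ← mul_pow]
  congr 1
  have hs : Real.sqrt (8 * Real.pi * κ ^ 2) ^ 2 = 8 * Real.pi * κ ^ 2 :=
    Real.sq_sqrt (by positivity)
  have he : Real.exp (-(1 / 2)) ^ 2 = (Real.exp 1)⁻¹ := by
    rw [← Real.exp_nat_mul, ← Real.exp_neg]; congr 1; norm_num
  have hpi : Real.pi ≠ 0 := Real.pi_ne_zero
  rw [mul_inv, inv_inv, mul_pow, hs, inv_pow, he, inv_inv]
  field_simp
  ring

variable {G : (Fin n → E d) × (Fin n → ℝ) → Fin L → ℝ} {κ : ℝ} {m : E d} {v : Fin L}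

lemma G_le_one (hGp : ∀ z, IsProb (G z)) (z : (Fin n → E d) × (Fin n → ℝ)) (v : Fin L) :
    G z v ≤ 1 := by
  rw [← (hGp z).sum_one]
  exact Finset.single_le_sum (f := G z) (fun i _ => (hGp z).nonneg i) (Finset.mem_univ v)

lemma inB_meas (κ : ℝ) (m : E d) : MeasurableSet {z : (Fin n → E d) × (Fin n → ℝ) |
    ∑ i, (z.2 i - inner ℝ (z.1 i) m) ^ 2 ≤ 4 * (n : ℝ) * κ ^ 2} := by
  apply measurableSet_le _ measurable_const
  refine Finset.measurable_sum _ fun i _ => ?_
  exact (((measurable_pi_apply i).comp measurable_snd).sub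
    (((measurable_pi_apply i).comp measurable_fst).inner measurable_const)).pow_const 2

/-- The truncated kernel `g_v`. -/
noncomputable def gv (G : (Fin n → E d) × (Fin n → ℝ) → Fin L → ℝ) (v : Fin L) (κ : ℝ) (m : E d)
    (z : (Fin n → E d) × (Fin n → ℝ)) : ℝ≥0∞ :=
  if ∑ i, (z.2 i - inner ℝ (z.1 i) m) ^ 2 ≤ 4 * (n : ℝ) * κ ^ 2 then ENNReal.ofReal (G z v) else 0

lemma gv_meas (hGm : ∀ v, Measurable fun z => G z v) : Measurable (gv G v κ m) :=
  Measurable.ite (inB_meas κ m) (hGm v).ennreal_ofReal measurable_const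

lemma gv_le_ofReal (z : (Fin n → E d) × (Fin n → ℝ)) :
    gv G v κ m z ≤ ENNReal.ofReal (G z v) := by
  unfold gv; split_ifs <;> simp

lemma gv_le_one (hGp : ∀ z, IsProb (G z)) (z : (Fin n → E d) × (Fin n → ℝ)) :
    gv G v κ m z ≤ 1 := by
  refine (gv_le_ofReal z).trans ?_
  exact ENNReal.ofReal_le_one.2 (G_le_one hGp z v)

/-- The unnormalized reference weight. -/
noncomputable def Rv (G : (Fin n → E d) × (Fin n → ℝ) → Fin L → ℝ) (v : Fin L) (κ : ℝ) (m : E d) :
    ℝ≥0∞ :=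
  ∫⁻ X, ∫⁻ y, ENNReal.ofReal (G (X, y) v) * ENNReal.ofReal (phi n κ (y - lab X m)) ∂volume
    ∂(gamR d n)

lemma F_meas (hGm : ∀ v, Measurable fun z => G z v) :
    Measurable fun p : (Fin n → E d) × (Fin n → ℝ) =>
      ENNReal.ofReal (G p v) * ENNReal.ofReal (phi n κ (p.2 - lab p.1 m)) := by
  refine (hGm v).ennreal_ofReal.mul (Measurable.ennreal_ofReal ?_)
  exact (phi_meas κ).comp (measurable_snd.sub ((lab_meas m).comp measurable_fst))

lemma sum_ofReal_G (hGp : ∀ z, IsProb (G z)) (z : (Fin n → E d) × (Fin n → ℝ)) :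
    ∑ v, ENNReal.ofReal (G z v) = 1 := by
  rw [← ENNReal.ofReal_sum_of_nonneg (fun i _ => (hGp z).nonneg i), (hGp z).sum_one]
  simp

lemma Rv_sum (hκ : 0 < κ) (hGm : ∀ v, Measurable fun z => G z v) (hGp : ∀ z, IsProb (G z)) :
    ∑ v, Rv G v κ m = 1 := by
  unfold Rv
  rw [← lintegral_finsetSum _ (fun v _ => (F_meas (v := v) (κ := κ) (m := m) hGm).lintegral_prod_right')]
  have key : ∀ X : Fin n → E d,
      ∑ v, ∫⁻ y, ENNReal.ofReal (G (X, y) v) * ENNReal.ofReal (phi n κ (y - lab X m)) = 1 := by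
    intro X
    have hF : ∀ v, Measurable fun y : Fin n → ℝ =>
        ENNReal.ofReal (G (X, y) v) * ENNReal.ofReal (phi n κ (y - lab X m)) := fun v =>
      (F_meas (v := v) (κ := κ) (m := m) hGm).comp (measurable_const.prodMk measurable_id)
    rw [← lintegral_finsetSum _ (fun v _ => hF v)]
    have h2 : ∀ y : Fin n → ℝ, ∑ v, ENNReal.ofReal (G (X, y) v) *
        ENNReal.ofReal (phi n κ (y - lab X m)) = ENNReal.ofReal (phi n κ (y - lab X m)) := by
      intro y
      rw [← Finset.sum_mul, sum_ofReal_G hGp, one_mul]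
    simp only [h2]
    exact lintegral_phi_sub hκ _
  simp only [key]
  simp

lemma Rv_ne_top (hκ : 0 < κ) (hGm : ∀ v, Measurable fun z => G z v) (hGp : ∀ z, IsProb (G z))
    (v : Fin L) : Rv G v κ m ≠ ⊤ := by
  have h : Rv G v κ m ≤ 1 := by
    rw [← Rv_sum (m := m) hκ hGm hGp]
    exact Finset.single_le_sum (f := fun v => Rv G v κ m) (fun _ _ => zero_le) (Finset.mem_univ v)
  exact ne_top_of_le_ne_top ENNReal.one_ne_top h

lemma Aint_le (hκ : 0 < κ) (hGm : ∀ v, Measurable fun z => G z v) :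
    ∫⁻ X, ∫⁻ y, gv G v κ m (X, y) ∂volume ∂(gamR d n) ≤
      ENNReal.ofReal ((phimin n κ)⁻¹) * Rv G v κ m := by
  unfold Rv
  rw [← lintegral_const_mul' _ _ ENNReal.ofReal_ne_top]
  refine lintegral_mono fun X => ?_
  rw [← lintegral_const_mul' _ _ ENNReal.ofReal_ne_top]
  refine lintegral_mono fun y => ?_
  unfold gv
  dsimp only
  split_ifs with h
  · have h1 : phimin n κ ≤ phi n κ (y - lab X m) := by
      apply phi_lower hκ
      simpa [lab] using h
    have hp := phimin_pos (n := n) hκ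
    have h2 : 1 ≤ (phimin n κ)⁻¹ * phi n κ (y - lab X m) := by
      rw [inv_mul_eq_div, one_le_div hp]; exact h1
    calc ENNReal.ofReal (G (X, y) v)
        = 1 * ENNReal.ofReal (G (X, y) v) := (one_mul _).symm
      _ ≤ ENNReal.ofReal ((phimin n κ)⁻¹ * phi n κ (y - lab X m)) * ENNReal.ofReal (G (X, y) v) := by
          gcongr
          simpa using h2
      _ = _ := by
          rw [ENNReal.ofReal_mul (by positivity)]
          ring
  · exact zero_le

lemma moment_le (hκ : 0 < κ) (hGm : ∀ v, Measurable fun z => G z v) (hGp : ∀ z, IsProb (G z))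
    (ν : Measure (E d)) [IsProbabilityMeasure ν] {b : ℝ≥0∞} (hb : b ≠ ⊤)
    (hflat : FlatBd ν w n b) {q : ℝ} (hq0 : 0 ≤ q) (hq : (Rv G v κ m).toReal ≤ 2 * q) :
    ∫⁻ s, (∫⁻ X, gv G v κ m (X, lab X s) ∂(gamR d n)) ^ 2 ∂ν ≤
      ENNReal.ofReal ((q ^ 2 * (4 * (16 * Real.exp 1 * κ ^ 2) ^ n * b.toReal)) ^
        (1 - 1 / ((w : ℝ) + 2))) := by
  have hθ : 0 ≤ 1 - 1 / ((w : ℝ) + 2) := by
    have : 1 / ((w : ℝ) + 2) ≤ 1 := by
      rw [div_le_one (by positivity)]; linarith [Nat.cast_nonneg (α := ℝ) w]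
    linarith
  have hR := holder_replica (w := w) ν hb hflat (gv G v κ m) (gv_meas hGm) (gv_le_one hGp)
  refine hR.trans ?_
  have hprod : 0 ≤ q ^ 2 * (4 * (16 * Real.exp 1 * κ ^ 2) ^ n * b.toReal) := by positivity
  rw [← ENNReal.ofReal_rpow_of_nonneg hprod hθ]
  refine ENNReal.rpow_le_rpow ?_ hθ
  have hpm := phimin_pos (n := n) hκ
  have h1 : ∫⁻ X, ∫⁻ y, gv G v κ m (X, y) ∂volume ∂(gamR d n) ≤
      ENNReal.ofReal ((phimin n κ)⁻¹ * (2 * q)) := by
    refine (Aint_le hκ hGm).trans ?_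
    rw [ENNReal.ofReal_mul (by positivity)]
    gcongr
    rw [← ENNReal.ofReal_toReal (Rv_ne_top hκ hGm hGp v)]
    exact ENNReal.ofReal_le_ofReal hq
  have h2 : ENNReal.ofReal (2 / Real.pi) ^ n = ENNReal.ofReal ((2 / Real.pi) ^ n) :=
    (ENNReal.ofReal_pow (by positivity) n).symm
  have h3 : b = ENNReal.ofReal b.toReal := (ENNReal.ofReal_toReal hb).symm
  calc (∫⁻ X, ∫⁻ y, gv G v κ m (X, y) ∂volume ∂(gamR d n)) ^ 2 *
        ENNReal.ofReal (2 / Real.pi) ^ n * b
      ≤ (ENNReal.ofReal ((phimin n κ)⁻¹ * (2 * q))) ^ 2 *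
        ENNReal.ofReal ((2 / Real.pi) ^ n) * ENNReal.ofReal b.toReal := by
        rw [h2, ← h3]; gcongr
    _ = ENNReal.ofReal (q ^ 2 * (4 * (16 * Real.exp 1 * κ ^ 2) ^ n * b.toReal)) := by
        rw [← ENNReal.ofReal_pow (by positivity), ← ENNReal.ofReal_mul (by positivity),
          ← ENNReal.ofReal_mul (by positivity)]
        congr 1
        rw [← phimin_identity (n := n) hκ]
        ring

/-- The main part of the kernel. -/
noncomputable def av (G : (Fin n → E d) × (Fin n → ℝ) → Fin L → ℝ) (v : Fin L) (κ : ℝ) (m : E d)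
    (s : E d) : ℝ :=
  (∫⁻ X, gv G v κ m (X, lab X s) ∂(gamR d n)).toReal

lemma Ag_le_one (hGp : ∀ z, IsProb (G z)) (s : E d) :
    ∫⁻ X, gv G v κ m (X, lab X s) ∂(gamR d n) ≤ 1 := by
  calc ∫⁻ X, gv G v κ m (X, lab X s) ∂(gamR d n)
      ≤ ∫⁻ _, 1 ∂(gamR d n) := lintegral_mono fun X => gv_le_one hGp _
    _ = 1 := by simp

lemma Ag_ne_top (hGp : ∀ z, IsProb (G z)) (s : E d) :
    ∫⁻ X, gv G v κ m (X, lab X s) ∂(gamR d n) ≠ ⊤ :=
  ne_top_of_le_ne_top ENNReal.one_ne_top (Ag_le_one hGp s)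

lemma Ag_meas (hGm : ∀ v, Measurable fun z => G z v) :
    Measurable fun s : E d => ∫⁻ X, gv G v κ m (X, lab X s) ∂(gamR d n) := by
  have h : Measurable fun p : E d × (Fin n → E d) => gv G v κ m (p.2, lab p.2 p.1) :=
    (gv_meas hGm).comp (measurable_snd.prodMk (lab_meas2.comp measurable_swap))
  exact h.lintegral_prod_right'

lemma av_nonneg (s : E d) : 0 ≤ av G v κ m s := ENNReal.toReal_nonneg

lemma av_le_one (hGp : ∀ z, IsProb (G z)) (s : E d) : av G v κ m s ≤ 1 := by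
  have := ENNReal.toReal_mono ENNReal.one_ne_top (Ag_le_one (v := v) (κ := κ) (m := m) hGp s)
  simpa [av] using this

lemma av_meas (hGm : ∀ v, Measurable fun z => G z v) : Measurable (av G v κ m) :=
  (Ag_meas hGm).ennreal_toReal

lemma lab_G_meas (hGm : ∀ v, Measurable fun z => G z v) (s : E d) (v : Fin L) :
    Measurable fun X : Fin n → E d => G (X, lab X s) v :=
  (hGm v).comp (measurable_id.prodMk (lab_meas s))

lemma Ks_eq (hGm : ∀ v, Measurable fun z => G z v) (hGp : ∀ z, IsProb (G z)) (s : E d) (v : Fin L) :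
    Ks G s v = (∫⁻ X, ENNReal.ofReal (G (X, lab X s) v) ∂(gamR d n)).toReal :=
  integral_eq_lintegral_of_nonneg_ae (Filter.Eventually.of_forall fun _ => (hGp _).nonneg v)
    (lab_G_meas hGm s v).aestronglyMeasurable

lemma ofReal_int_le_one (hGp : ∀ z, IsProb (G z)) (s : E d) (v : Fin L) :
    ∫⁻ X, ENNReal.ofReal (G (X, lab X s) v) ∂(gamR d n) ≤ 1 := by
  calc ∫⁻ X, ENNReal.ofReal (G (X, lab X s) v) ∂(gamR d n)
      ≤ ∫⁻ _, 1 ∂(gamR d n) :=
        lintegral_mono fun X => ENNReal.ofReal_le_one.2 (G_le_one hGp _ v)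
    _ = 1 := by simp

lemma av_le_Ks (hGm : ∀ v, Measurable fun z => G z v) (hGp : ∀ z, IsProb (G z)) (s : E d) :
    av G v κ m s ≤ Ks G s v := by
  rw [Ks_eq hGm hGp]
  exact ENNReal.toReal_mono (ne_top_of_le_ne_top ENNReal.one_ne_top (ofReal_int_le_one hGp s v))
    (lintegral_mono fun X => gv_le_ofReal _)

lemma sum_av (hGm : ∀ v, Measurable fun z => G z v) (hGp : ∀ z, IsProb (G z)) (s : E d) :
    ∑ v, av G v κ m s = (gamR d n {X | ∑ i, (lab X s i - inner ℝ (X i) m) ^ 2 ≤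
      4 * (n : ℝ) * κ ^ 2}).toReal := by
  classical
  unfold av
  rw [← ENNReal.toReal_sum (fun v _ => Ag_ne_top hGp s)]
  congr 1
  have hmeas : MeasurableSet {X : Fin n → E d | ∑ i, (lab X s i - inner ℝ (X i) m) ^ 2 ≤
      4 * (n : ℝ) * κ ^ 2} :=
    (inB_meas κ m).preimage (measurable_id.prodMk (lab_meas s))
  have hgm : ∀ v, Measurable fun X : Fin n → E d => gv G v κ m (X, lab X s) := fun v =>
    (gv_meas hGm).comp (measurable_id.prodMk (lab_meas s))
  rw [← lintegral_finsetSum _ (fun v _ => hgm v), ← lintegral_indicator_one hmeas]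
  refine lintegral_congr fun X => ?_
  by_cases h : ∑ i, (lab X s i - inner ℝ (X i) m) ^ 2 ≤ 4 * (n : ℝ) * κ ^ 2
  · rw [Set.indicator_of_mem (by exact h)]
    simp only [gv, h, if_true]
    simpa using sum_ofReal_G hGp (X, lab X s)
  · rw [Set.indicator_of_notMem (by exact h)]
    simp [gv, h]

lemma sum_av_lower (hκ : 0 < κ) (hGm : ∀ v, Measurable fun z => G z v) (hGp : ∀ z, IsProb (G z))
    {s : E d} (hs : ‖s - m‖ ≤ κ) :
    1 - Real.exp (-((n : ℝ) / 2)) ≤ ∑ v, av G v κ m s := by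
  rw [sum_av hGm hGp]
  set S : Set (Fin n → E d) := {X | ∑ i, (lab X s i - inner ℝ (X i) m) ^ 2 ≤
      4 * (n : ℝ) * κ ^ 2} with hSdef
  have hmeas : MeasurableSet S := (inB_meas κ m).preimage (measurable_id.prodMk (lab_meas s))
  have hcompl : gamR d n Sᶜ ≤ ENNReal.ofReal (Real.exp (-((n : ℝ) / 2))) := by
    refine (measure_mono ?_).trans (chi_upper (n := n) (s - m) hκ hs)
    intro X hX
    simp only [hSdef, Set.mem_compl_iff, Set.mem_ofPred_eq, not_le] at hX
    simp only [Set.mem_ofPred_eq]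
    have : ∀ i, (lab X s i - inner ℝ (X i) m) = inner ℝ (X i) (s - m) := by
      intro i; simp [lab, inner_sub_right]
    simpa only [this] using hX
  have hadd := prob_add_prob_compl (μ := gamR d n) hmeas
  have hne1 : gamR d n S ≠ ⊤ := measure_ne_top _ _
  have hne2 : gamR d n Sᶜ ≠ ⊤ := measure_ne_top _ _
  have hreal : (gamR d n S).toReal + (gamR d n Sᶜ).toReal = 1 := by
    rw [← ENNReal.toReal_add hne1 hne2, hadd]; simp
  have hle : (gamR d n Sᶜ).toReal ≤ Real.exp (-((n : ℝ) / 2)) :=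
    ENNReal.toReal_le_of_le_ofReal (Real.exp_pos _).le hcompl
  linarith

lemma rpow_arith {q B ρ : ℝ} (hq : 0 < q) (hB : 0 ≤ B) :
    (q ^ 2 * B) ^ (1 - 1 / ρ) / q = q ^ (1 - 2 / ρ) * B ^ (1 - 1 / ρ) := by
  rw [Real.mul_rpow (sq_nonneg q) hB, ← Real.rpow_natCast q 2, ← Real.rpow_mul hq.le]
  have : 1 - 2 / ρ = ((2 : ℕ) : ℝ) * (1 - 1 / ρ) - 1 := by push_cast; ring
  rw [this, Real.rpow_sub_one hq.ne']
  ring

lemma rpow_le_max {B θ : ℝ} (hB : 0 ≤ B) (h0 : 0 ≤ θ) (h1 : θ ≤ 1) : B ^ θ ≤ max 1 B := by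
  by_cases h : B ≤ 1
  · exact (Real.rpow_le_one hB h h0).trans (le_max_left _ _)
  · push Not at h
    calc B ^ θ ≤ B ^ (1 : ℝ) := Real.rpow_le_rpow_of_exponent_le h.le h1
      _ = B := Real.rpow_one B
      _ ≤ max 1 B := le_max_right _ _

end Piece

open Piece in
/-- Measurability of the induced kernel. -/
theorem Ks_measurable (G : (Fin n → E d) × (Fin n → ℝ) → Fin L → ℝ)
    (hGm : ∀ v, Measurable fun z => G z v) (v : Fin L) : Measurable fun s => Ks G s v := by
  have h : Measurable fun p : E d × (Fin n → E d) => G (p.2, lab p.2 p.1) v :=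
    (hGm v).comp (measurable_snd.prodMk (lab_meas2.comp measurable_swap))
  exact (h.stronglyMeasurable.integral_prod_right' (ν := gamR d n)).measurable

open Piece in
theorem Ks_prob (G : (Fin n → E d) × (Fin n → ℝ) → Fin L → ℝ)
    (hGm : ∀ v, Measurable fun z => G z v) (hGp : ∀ z, IsProb (G z)) (s : E d) :
    IsProb (Ks G s) := by
  refine ⟨fun v => integral_nonneg fun X => (hGp _).nonneg v, ?_⟩
  unfold Ks
  have hint : ∀ v, Integrable (fun X : Fin n → E d => G (X, lab X s) v) (gamR d n) := by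
    intro v
    refine Integrable.of_bound (lab_G_meas hGm s v).aestronglyMeasurable 1
      (Filter.Eventually.of_forall fun X => ?_)
    rw [Real.norm_of_nonneg ((hGp _).nonneg v)]
    exact G_le_one hGp _ v
  rw [← integral_finsetSum _ (fun v _ => hint v)]
  simp only [(hGp _).sum_one]
  simp

open Piece in
/-- Piece bound. Reference: `φ(y) = ∏ᵢ gaussianPDFReal 0 (4κ²) (yᵢ)`,
`r v = ∫ X, ∫ y, G (X,y) v * φ(y - lab X m) dy`, `∑ r = 1`, `q v = r v /2 + 1/(2L)`.
On `B_X = {y | ‖y - lab X m‖₂² ≤ 4nκ²}` (Euclidean): `φ ≥ φmin = (8π e κ²)^(-n/2)`.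
`g_v(X,y) = G(X,y)v 1_{B_X}(y)`, `a_v s = ∫ g_v(X, lab X s) dX`, `b_v s = Ks G s v - a_v s`,
`∑ b_v s = P(‖X(s-m)‖₂² > 4nκ²) ≤ exp(-n/2)` for `‖s-m‖ ≤ κ` (`chi_upper`).
`A_v = ∫∫ g_v ≤ r_v/φmin ≤ 2 q_v/φmin`. `holder_replica` : `∫ a_v² dν ≤ (q_v² B₀)^(1-1/ρ)`,
`B₀ = 4 (16 e κ²)^n b` (`φmin⁻²(2/π)^n = (16 e κ²)^n`), `ρ = w+2`.
`∑_v ∫ a_v²/q_v dν ≤ B₀^(1-1/ρ) ∑ q_v^(1-2/ρ) ≤ max 1 B₀ * L^(2/ρ)` (`sum_rpow_le_card`).
`KL_split` with `c = 1/(2L)`, integrate, `log_tangent` for Jensen. -/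
theorem piece_bound (hL : 0 < L) (hn : 0 < n) (ν : Measure (E d)) [IsProbabilityMeasure ν] (m : E d)
    {κ : ℝ} (hκ : 0 < κ) (hsupp : ∀ᵐ s ∂ν, ‖s - m‖ ≤ κ) {b : ℝ≥0∞} (hb : b ≠ ⊤)
    (hflat : FlatBd ν w n b) (G : (Fin n → E d) × (Fin n → ℝ) → Fin L → ℝ)
    (hGm : ∀ v, Measurable fun z => G z v) (hGp : ∀ z, IsProb (G z)) :
    ∃ q : Fin L → ℝ, IsProb q ∧ (∀ v, 1 / (2 * (L : ℝ)) ≤ q v) ∧
      ∫ s, KL (Ks G s) q ∂ν ≤
        2 / ((w : ℝ) + 2) * Real.log L +
          Real.log (2 * max 1 (4 * (16 * Real.exp 1 * κ ^ 2) ^ n * b.toReal)) + 1 +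
          Real.exp (-((n : ℝ) / 2)) * Real.log (2 * L) := by
  classical
  have hL' : (0 : ℝ) < L := by exact_mod_cast hL
  have hL1 : (1 : ℝ) ≤ L := by exact_mod_cast hL
  set r : Fin L → ℝ := fun v => (Rv G v κ m).toReal with hr
  have hr0 : ∀ v, 0 ≤ r v := fun v => ENNReal.toReal_nonneg
  have hrsum : ∑ v, r v = 1 := by
    simp only [hr]
    rw [← ENNReal.toReal_sum (fun v _ => Rv_ne_top hκ hGm hGp v), Rv_sum hκ hGm hGp]
    simp
  set c : ℝ := 1 / (2 * (L : ℝ)) with hc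
  have hcpos : 0 < c := by positivity
  set q : Fin L → ℝ := fun v => r v / 2 + c with hq_def
  have hqc : ∀ v, c ≤ q v := fun v => by simp only [hq_def]; linarith [hr0 v]
  have hqpos : ∀ v, 0 < q v := fun v => lt_of_lt_of_le hcpos (hqc v)
  have hqprob : IsProb q := by
    refine ⟨fun v => (hqpos v).le, ?_⟩
    simp only [hq_def]
    rw [Finset.sum_add_distrib, ← Finset.sum_div, hrsum]
    simp only [Finset.sum_const, Finset.card_univ, Fintype.card_fin, nsmul_eq_mul, hc]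
    field_simp
    norm_num
  refine ⟨q, hqprob, hqc, ?_⟩
  set ρ : ℝ := (w : ℝ) + 2 with hρ
  have hρ2 : 2 ≤ ρ := by simp only [hρ]; linarith [Nat.cast_nonneg (α := ℝ) w]
  have hρ0 : 0 < ρ := by linarith
  set B : ℝ := 4 * (16 * Real.exp 1 * κ ^ 2) ^ n * b.toReal with hB
  have hB0 : 0 ≤ B := by
    simp only [hB]; positivity
  set S : E d → ℝ := fun s => ∑ v, (av G v κ m s) ^ 2 / q v with hS
  have hterm_meas : ∀ v, Measurable fun s => (av G v κ m s) ^ 2 / q v := fun v =>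
    ((av_meas hGm).pow_const 2).div_const _
  have hsq_int : ∀ v, Integrable (fun s => (av G v κ m s) ^ 2) ν := by
    intro v
    refine Integrable.of_bound ((av_meas hGm).pow_const 2).aestronglyMeasurable 1
      (Filter.Eventually.of_forall fun s => ?_)
    rw [Real.norm_of_nonneg (sq_nonneg _)]
    have h1 := av_nonneg (G := G) (v := v) (κ := κ) (m := m) s
    have h2 := av_le_one (G := G) (v := v) (κ := κ) (m := m) hGp s
    nlinarith
  have hterm_int : ∀ v, Integrable (fun s => (av G v κ m s) ^ 2 / q v) ν := fun v =>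
    (hsq_int v).div_const _
  have hS_int : Integrable S ν := integrable_finsetSum _ fun v _ => hterm_int v
  have hSnn : ∀ s, 0 ≤ S s := fun s =>
    Finset.sum_nonneg fun v _ => div_nonneg (sq_nonneg _) (hqpos v).le
  -- the second moment bound
  have hmom : ∀ v, ∫ s, (av G v κ m s) ^ 2 ∂ν ≤ (q v ^ 2 * B) ^ (1 - 1 / ρ) := by
    intro v
    have hR : (Rv G v κ m).toReal ≤ 2 * q v := by
      have : r v = (Rv G v κ m).toReal := rfl
      rw [← this]; simp only [hq_def]; linarith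
    have hM := moment_le (w := w) (v := v) (m := m) hκ hGm hGp ν hb hflat (hqpos v).le hR
    have hconv : ∀ s, (av G v κ m s) ^ 2 =
        ((∫⁻ X, gv G v κ m (X, lab X s) ∂(gamR d n)) ^ 2).toReal := by
      intro s; simp [av, ENNReal.toReal_pow]
    simp only [hconv]
    rw [integral_toReal ((Ag_meas hGm).pow_const 2).aemeasurable
      (Filter.Eventually.of_forall fun s => ENNReal.pow_lt_top (Ag_ne_top hGp s).lt_top)]
    exact ENNReal.toReal_le_of_le_ofReal (by positivity) hM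
  set C : ℝ := max 1 B * (L : ℝ) ^ (2 / ρ) with hC
  have hLρ : 1 ≤ (L : ℝ) ^ (2 / ρ) := Real.one_le_rpow hL1 (by positivity)
  have hC1 : 1 ≤ C := by
    have : 1 ≤ max 1 B := le_max_left _ _
    simp only [hC]; nlinarith
  have hSint : ∫ s, S s ∂ν ≤ C := by
    simp only [hS]
    rw [integral_finsetSum _ (fun v _ => hterm_int v)]
    have hθ0 : 0 ≤ 1 - 2 / ρ := by
      have : 2 / ρ ≤ 1 := by rw [div_le_one hρ0]; exact hρ2
      linarith
    have hθ1 : 1 - 2 / ρ ≤ 1 := by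
      have : 0 ≤ 2 / ρ := by positivity
      linarith
    have hθ'0 : 0 ≤ 1 - 1 / ρ := by
      have : 1 / ρ ≤ 1 := by rw [div_le_one hρ0]; linarith
      linarith
    have hθ'1 : 1 - 1 / ρ ≤ 1 := by
      have : 0 ≤ 1 / ρ := by positivity
      linarith
    calc ∑ v, ∫ s, (av G v κ m s) ^ 2 / q v ∂ν
        = ∑ v, (∫ s, (av G v κ m s) ^ 2 ∂ν) / q v := by
          refine Finset.sum_congr rfl fun v _ => ?_
          rw [integral_div]
      _ ≤ ∑ v, (q v ^ 2 * B) ^ (1 - 1 / ρ) / q v := by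
          refine Finset.sum_le_sum fun v _ => ?_
          exact div_le_div_of_nonneg_right (hmom v) (hqpos v).le
      _ = ∑ v, q v ^ (1 - 2 / ρ) * B ^ (1 - 1 / ρ) := by
          refine Finset.sum_congr rfl fun v _ => ?_
          exact rpow_arith (hqpos v) hB0
      _ = (∑ v, q v ^ (1 - 2 / ρ)) * B ^ (1 - 1 / ρ) := by rw [Finset.sum_mul]
      _ ≤ ((L : ℝ) ^ (2 / ρ)) * max 1 B := by
          apply mul_le_mul _ (rpow_le_max hB0 hθ'0 hθ'1) (Real.rpow_nonneg hB0 _) (by positivity)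
          have := sum_rpow_le_card hqprob hθ0 hθ1
          simp only [Fintype.card_fin] at this
          have h2 : 1 - (1 - 2 / ρ) = 2 / ρ := by ring
          rwa [h2] at this
      _ = C := by simp only [hC]; ring
  -- the pointwise bound
  set E0 : ℝ := Real.exp (-((n : ℝ) / 2)) * Real.log (2 * L) with hE0
  have hlog2L : 0 ≤ Real.log (2 * (L : ℝ)) := Real.log_nonneg (by linarith)
  have hC' : 0 < 1 + C := by linarith
  have hpt : ∀ᵐ s ∂ν, KL (Ks G s) q ≤ (Real.log (1 + C) + 1 / (1 + C) + E0) + S s / (1 + C) := by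
    filter_upwards [hsupp] with s hs
    have hsp := KL_split (p := Ks G s) (a := fun v => av G v κ m s)
      (b := fun v => Ks G s v - av G v κ m s) hcpos hqprob hqc
      (fun v => av_nonneg s) (fun v => sub_nonneg.2 (av_le_Ks hGm hGp s))
      (fun v => by ring) (Ks_prob G hGm hGp s)
    have hsumb : ∑ v, (Ks G s v - av G v κ m s) ≤ Real.exp (-((n : ℝ) / 2)) := by
      rw [Finset.sum_sub_distrib, (Ks_prob G hGm hGp s).sum_one]
      linarith [sum_av_lower (m := m) (G := G) hκ hGm hGp hs]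
    have hlogc : Real.log (1 / c) = Real.log (2 * L) := by
      simp only [hc, one_div, inv_inv]
    rw [hlogc] at hsp
    have h1 : (∑ v, (Ks G s v - av G v κ m s)) * Real.log (2 * L) ≤ E0 :=
      mul_le_mul_of_nonneg_right hsumb hlog2L
    have h2 := log_tangent (y := 1 + S s) (c := 1 + C) (by linarith [hSnn s]) hC'
    have h3 : (1 + S s) / (1 + C) = 1 / (1 + C) + S s / (1 + C) := by ring
    have h4 : ∑ v, av G v κ m s ^ 2 / q v = S s := rfl
    rw [h4] at hsp
    linarith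
  -- integrability of the left side
  have hKLmeas : Measurable fun s => KL (Ks G s) q :=
    KL_measurable (fun v => Ks_measurable G hGm v) (fun v => measurable_const)
  have hKLint : Integrable (fun s => KL (Ks G s) q) ν := by
    refine Integrable.of_bound hKLmeas.aestronglyMeasurable (Real.log (1 / c))
      (Filter.Eventually.of_forall fun s => ?_)
    have h0 := KL_nonneg (p := Ks G s) (q := q) (Ks_prob G hGm hGp s) hqprob
      (fun v hv => absurd hv (hqpos v).ne')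
    have h1 := KL_le_log_of_lower (p := Ks G s) (q := q) hcpos (Ks_prob G hGm hGp s) hqc
    rw [Real.norm_of_nonneg h0]
    exact h1
  have hmain := integral_mono_ae hKLint
    ((integrable_const (Real.log (1 + C) + 1 / (1 + C) + E0)).add (hS_int.div_const (1 + C))) hpt
  have hRHS : ∫ s, ((Real.log (1 + C) + 1 / (1 + C) + E0) + S s / (1 + C)) ∂ν =
      (Real.log (1 + C) + 1 / (1 + C) + E0) + (∫ s, S s ∂ν) / (1 + C) := by
    rw [integral_add (integrable_const _) (hS_int.div_const _), integral_div]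
    simp
  have hmain' : ∫ s, KL (Ks G s) q ∂ν ≤
      (Real.log (1 + C) + 1 / (1 + C) + E0) + (∫ s, S s ∂ν) / (1 + C) := by
    rw [← hRHS]; exact hmain
  have hfrac : (∫ s, S s ∂ν) / (1 + C) ≤ C / (1 + C) :=
    div_le_div_of_nonneg_right hSint hC'.le
  have hone : 1 / (1 + C) + C / (1 + C) = 1 := by
    field_simp
  have hlogC : Real.log (1 + C) ≤ 2 / ρ * Real.log L + Real.log (2 * max 1 B) := by
    have h1 : Real.log (1 + C) ≤ Real.log (2 * C) :=
      Real.log_le_log hC' (by linarith)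
    have hmax : 0 < max 1 B := lt_of_lt_of_le one_pos (le_max_left _ _)
    have h2 : Real.log (2 * C) = 2 / ρ * Real.log L + Real.log (2 * max 1 B) := by
      have : 2 * C = (2 * max 1 B) * (L : ℝ) ^ (2 / ρ) := by simp only [hC]; ring
      rw [this, Real.log_mul (by positivity) (by positivity), Real.log_rpow hL']
      ring
    linarith
  linarith

end P309
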