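import Vale.Agent.Lib.P309.Epoch

/-! # P309 module Process: the learner process and the potential -/

open MeasureTheory ProbabilityTheory
open scoped ENNReal NNReal

namespace P309

variable {d M : ℕ}

theorem IsProb.process_le_one {ι : Type*} [Fintype ι] {p : ι → ℝ} (hp : IsProb p) (v : ι) : p v ≤ 1 := by
  rw [← hp.sum_one]
  exact Finset.single_le_sum (fun i _ => hp.nonneg i) (Finset.mem_univ v)

theorem Process.inner_meas : Measurable fun p : E d × E d => (inner ℝ p.2 p.1 : ℝ) :=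
  (continuous_snd.inner continuous_fst).measurable

theorem Process.step_joint (A : Learner d M) (t : ℕ) (u v : Fin (2 ^ M)) :
    Measurable fun p : E d × E d => A.step t u p.2 (inner ℝ p.2 p.1) v :=
  (A.step_meas t u v).comp (measurable_snd.prodMk Process.inner_meas)

theorem Process.step_int_meas (A : Learner d M) (t : ℕ) (u v : Fin (2 ^ M)) :
    Measurable fun s : E d => ∫ x, A.step t u x (inner ℝ x s) v ∂(gam d) :=
  (Process.step_joint A t u v).stronglyMeasurable.integral_prod_right.measurable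

theorem law_measurable (A : Learner d M) (t : ℕ) (v : Fin (2 ^ M)) :
    Measurable fun s => law A t s v := by
  induction t generalizing v with
  | zero => simp only [law]; exact measurable_const
  | succ t ih =>
    simp only [law]
    exact Finset.measurable_sum _ fun u _ => (ih u).mul (Process.step_int_meas A t u v)

theorem Process.step_integrable (A : Learner d M) (t : ℕ) (u v : Fin (2 ^ M)) (s : E d) :
    Integrable (fun x => A.step t u x (inner ℝ x s) v) (gam d) := by
  refine Integrable.of_bound (C := 1) ?_ ?_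
  · exact ((A.step_meas t u v).comp
      (measurable_id.prodMk ((continuous_id.inner continuous_const).measurable))).aestronglyMeasurable
  · refine Filter.Eventually.of_forall fun x => ?_
    rw [Real.norm_eq_abs, abs_of_nonneg ((A.step_prob t u x _).nonneg v)]
    exact (A.step_prob t u x _).process_le_one v

theorem law_prob (A : Learner d M) (t : ℕ) (s : E d) : IsProb (law A t s) := by
  induction t with
  | zero => simpa only [law] using A.init_prob
  | succ t ih =>
    refine ⟨fun v => ?_, ?_⟩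
    · simp only [law]
      exact Finset.sum_nonneg fun u _ => mul_nonneg (ih.nonneg u)
        (integral_nonneg fun x => (A.step_prob t u x _).nonneg v)
    · simp only [law]
      rw [Finset.sum_comm]
      have : ∀ u, ∑ v, law A t s u * ∫ x, A.step t u x (inner ℝ x s) v ∂(gam d) = law A t s u := by
        intro u
        rw [← Finset.mul_sum, ← integral_finsetSum _ fun v _ => Process.step_integrable A t u v s]
        simp only [(A.step_prob t u _ _).sum_one]
        simp
      simp only [this]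
      exact ih.sum_one

/-- Padded learner: the state does not move after time `T`. -/
noncomputable def Learner.pad (A : Learner d M) (T : ℕ) : Learner d M where
  init := A.init
  step t u x y v := if t < T then A.step t u x y v else if v = u then 1 else 0
  out := A.out
  init_prob := A.init_prob
  step_meas := by
    intro t u v
    by_cases h : t < T
    · simp only [h, if_true]; exact A.step_meas t u v
    · simp only [h, if_false]; exact measurable_const
  step_prob := by
    intro t u x y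
    by_cases h : t < T
    · simp only [h, if_true]; exact A.step_prob t u x y
    · simp only [h, if_false]
      refine ⟨fun v => by split_ifs <;> norm_num, ?_⟩
      simp
  out_prob := A.out_prob
  out_sphere := A.out_sphere

theorem Process.law_pad_le (A : Learner d M) (T t : ℕ) (h : t ≤ T) (s : E d) :
    law (A.pad T) t s = law A t s := by
  induction t with
  | zero => rfl
  | succ t ih =>
    have ht : t < T := h
    funext v
    have key : ∀ u, ∫ x, (A.pad T).step t u x (inner ℝ x s) v ∂(gam d) =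
        ∫ x, A.step t u x (inner ℝ x s) v ∂(gam d) := by
      intro u
      simp only [Learner.pad, ht, if_true]
    simp only [law, key, ih ht.le]

theorem law_pad (A : Learner d M) (T t : ℕ) (h : T ≤ t) (s : E d) :
    law (A.pad T) t s = law A T s := by
  induction t, h using Nat.le_induction with
  | base => exact Process.law_pad_le A T T le_rfl s
  | succ t ht ih =>
    rw [← ih]
    funext v
    have hnt : ¬ t < T := by omega
    simp only [law]
    simp only [Learner.pad, hnt, if_false, integral_const]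
    simp only [probReal_univ, smul_eq_mul, one_mul]
    rw [Finset.sum_eq_single v]
    · simp
    · intro b _ hb
      simp [Ne.symm hb]
    · simp

theorem Process.lab_meas_left {n : ℕ} (s : E d) : Measurable fun X : Fin n → E d => lab X s := by
  refine measurable_pi_iff.mpr fun i => ?_
  exact (continuous_id.inner continuous_const).measurable.comp (measurable_pi_apply i)

theorem Process.integral_split {w : ℕ} (φ : (Fin w → E d) → ℝ) (ψ : E d → ℝ) :
    ∫ X, φ (fun i : Fin w => X i.castSucc) * ψ (X (Fin.last w)) ∂(gamR d (w + 1)) =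
      (∫ X, φ X ∂(gamR d w)) * ∫ x, ψ x ∂(gam d) := by
  have mp := measurePreserving_piFinSuccAbove (fun _ : Fin (w + 1) => gam d) (Fin.last w)
  have h := mp.integral_comp (MeasurableEquiv.measurableEmbedding _)
    (fun p : E d × (Fin w → E d) => φ p.2 * ψ p.1)
  have hrw : ∀ X : Fin (w + 1) → E d, (MeasurableEquiv.piFinSuccAbove (fun _ => E d) (Fin.last w)) X
      = (X (Fin.last w), fun i : Fin w => X i.castSucc) := by
    intro X
    refine Prod.ext (by simp [MeasurableEquiv.piFinSuccAbove]) (funext fun i => ?_)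
    simp [MeasurableEquiv.piFinSuccAbove, Fin.init]
  simp only [hrw] at h
  rw [show (gamR d (w + 1)) = Measure.pi fun _ : Fin (w + 1) => gam d from rfl, h]
  have := integral_prod_mul (μ := gam d) (ν := Measure.pi fun _ : Fin w => gam d) ψ φ
  calc ∫ z : E d × (Fin w → E d), φ z.2 * ψ z.1 ∂(gam d).prod (Measure.pi fun _ : Fin w => gam d)
      = ∫ z : E d × (Fin w → E d), ψ z.1 * φ z.2 ∂(gam d).prod (Measure.pi fun _ : Fin w => gam d) := by
        simp only [mul_comm]
    _ = _ := by rw [this, mul_comm]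

theorem exists_epoch_map (A : Learner d M) (t₀ w : ℕ) :
    ∃ G : Fin (2 ^ M) → (Fin w → E d) × (Fin w → ℝ) → Fin (2 ^ M) → ℝ,
      (∀ u v, Measurable fun z => G u z v) ∧ (∀ u z, IsProb (G u z)) ∧
      ∀ s v, law A (t₀ + w) s v = ∑ u, law A t₀ s u * Ks (G u) s v := by
  induction w with
  | zero =>
    refine ⟨fun u _ v => if v = u then 1 else 0, fun u v => measurable_const, ?_, ?_⟩
    · intro u z
      refine ⟨fun v => by dsimp only; split_ifs <;> norm_num, ?_⟩
      simp
    · intro s v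
      simp only [Ks, integral_const, add_zero]
      have : (gamR d 0).real Set.univ = 1 := by simp [gamR]
      simp only [this, one_smul]
      rw [Finset.sum_eq_single v]
      · simp
      · intro b _ hb
        simp [Ne.symm hb]
      · simp
  | succ w ih =>
    obtain ⟨G, hGm, hGp, hG⟩ := ih
    have hinit : Measurable fun z : (Fin (w + 1) → E d) × (Fin (w + 1) → ℝ) =>
        ((fun i : Fin w => z.1 i.castSucc), (fun i : Fin w => z.2 i.castSucc)) := by
      refine Measurable.prodMk ?_ ?_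
      · exact measurable_pi_iff.mpr fun i => (measurable_pi_apply _).comp measurable_fst
      · exact measurable_pi_iff.mpr fun i => (measurable_pi_apply _).comp measurable_snd
    have hlast : Measurable fun z : (Fin (w + 1) → E d) × (Fin (w + 1) → ℝ) =>
        (z.1 (Fin.last w), z.2 (Fin.last w)) :=
      ((measurable_pi_apply _).comp measurable_fst).prodMk
        ((measurable_pi_apply _).comp measurable_snd)
    refine ⟨fun u z v => ∑ u', G u ((fun i : Fin w => z.1 i.castSucc),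
        (fun i : Fin w => z.2 i.castSucc)) u' *
        A.step (t₀ + w) u' (z.1 (Fin.last w)) (z.2 (Fin.last w)) v, ?_, ?_, ?_⟩
    · intro u v
      exact Finset.measurable_sum _ fun u' _ =>
        ((hGm u u').comp hinit).mul ((A.step_meas _ u' v).comp hlast)
    · intro u z
      refine ⟨fun v => Finset.sum_nonneg fun u' _ =>
        mul_nonneg ((hGp u _).nonneg u') ((A.step_prob _ _ _ _).nonneg v), ?_⟩
      rw [Finset.sum_comm]
      have : ∀ u', ∑ v, G u ((fun i : Fin w => z.1 i.castSucc),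
          (fun i : Fin w => z.2 i.castSucc)) u' *
          A.step (t₀ + w) u' (z.1 (Fin.last w)) (z.2 (Fin.last w)) v =
          G u ((fun i : Fin w => z.1 i.castSucc), (fun i : Fin w => z.2 i.castSucc)) u' := by
        intro u'
        rw [← Finset.mul_sum, (A.step_prob _ _ _ _).sum_one, mul_one]
      simp only [this]
      exact (hGp u _).sum_one
    · intro s v
      have hKs : ∀ u, Ks (fun z v => ∑ u', G u ((fun i : Fin w => z.1 i.castSucc),
          (fun i : Fin w => z.2 i.castSucc)) u' *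
          A.step (t₀ + w) u' (z.1 (Fin.last w)) (z.2 (Fin.last w)) v) s v =
          ∑ u', Ks (G u) s u' * ∫ x, A.step (t₀ + w) u' x (inner ℝ x s) v ∂(gam d) := by
        intro u
        simp only [Ks]
        rw [integral_finsetSum]
        · refine Finset.sum_congr rfl fun u' _ => ?_
          rw [← Process.integral_split]
          rfl
        · intro u' _
          refine Integrable.of_bound (C := 1) ?_ ?_
          · refine AEStronglyMeasurable.mul ?_ ?_
            · refine ((hGm u u').comp ?_).aestronglyMeasurable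
              refine Measurable.prodMk ?_ ?_
              · exact measurable_pi_iff.mpr fun i => measurable_pi_apply _
              · exact measurable_pi_iff.mpr fun i =>
                  (continuous_id.inner continuous_const).measurable.comp (measurable_pi_apply _)
            · have hm : Measurable fun X : Fin (w + 1) → E d => (X (Fin.last w), lab X s (Fin.last w)) :=
                (measurable_pi_apply _).prodMk
                  ((continuous_id.inner continuous_const).measurable.comp (measurable_pi_apply _))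
              exact ((A.step_meas (t₀ + w) u' v).comp hm).aestronglyMeasurable
          · refine Filter.Eventually.of_forall fun X => ?_
            rw [norm_mul, Real.norm_eq_abs, Real.norm_eq_abs,
              abs_of_nonneg ((hGp u _).nonneg u'), abs_of_nonneg ((A.step_prob _ _ _ _).nonneg v)]
            exact mul_le_one₀ ((hGp u _).process_le_one u') ((A.step_prob _ _ _ _).nonneg v)
              ((A.step_prob _ _ _ _).process_le_one v)
      simp only [hKs]
      show ∑ u', law A (t₀ + w) s u' * _ = _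
      simp only [hG s, Finset.sum_mul, Finset.mul_sum]
      rw [Finset.sum_comm]
      refine Finset.sum_congr rfl fun u _ => Finset.sum_congr rfl fun u' _ => ?_
      exact mul_assoc _ _ _

/-- The constant inside the number of stages. -/
noncomputable def Process.Y0 (d w M : ℕ) : ℝ :=
  (2 : ℝ) ^ (d + 4 * w + 1) * (Real.sqrt 2 * (2 * Real.sqrt d) ^ (4 * w + 1)) * ((M : ℝ) + 1)

/-- The number of stages for an atom of mass `P`. -/
noncomputable def Process.JJ (d w M : ℕ) (P : ℝ) : ℕ := ⌈Real.logb 2 (Process.Y0 d w M / P)⌉₊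

/-- The main term of the epoch bound. -/
noncomputable def Process.B0 (d w M : ℕ) : ℝ :=
  (2 / ((w : ℝ) + 2) + 2 * Real.exp (-((w : ℝ) / 2))) * ((M : ℝ) * Real.log 2) + 15 * (d : ℝ) + 8

theorem Process.Y0_ge_one (d w M : ℕ) (hd : 1 ≤ d) : 1 ≤ Process.Y0 d w M := by
  unfold Process.Y0
  have h1 : (1 : ℝ) ≤ (2 : ℝ) ^ (d + 4 * w + 1) := one_le_pow₀ (by norm_num)
  have hd' : (1 : ℝ) ≤ d := by exact_mod_cast hd
  have h2 : (1 : ℝ) ≤ Real.sqrt 2 := by
    rw [show (1 : ℝ) = Real.sqrt 1 by simp]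
    exact Real.sqrt_le_sqrt (by norm_num)
  have h3 : (1 : ℝ) ≤ Real.sqrt d := by
    rw [show (1 : ℝ) = Real.sqrt 1 by simp]
    exact Real.sqrt_le_sqrt hd'
  have h4 : (1 : ℝ) ≤ (2 * Real.sqrt d) ^ (4 * w + 1) := one_le_pow₀ (by linarith)
  have h5 : (1 : ℝ) ≤ (M : ℝ) + 1 := by
    have : (0 : ℝ) ≤ M := Nat.cast_nonneg M
    linarith
  calc (1 : ℝ) = 1 * (1 * 1) * 1 := by norm_num
    _ ≤ _ := by gcongr

theorem Process.log_Y0 (d w M : ℕ) (hd : 1 ≤ d) :
    Real.log (Process.Y0 d w M) = ((d : ℝ) + 4 * w + 1) * Real.log 2 + 1 / 2 * Real.log 2 +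
      (4 * (w : ℝ) + 1) * (Real.log 2 + 1 / 2 * Real.log d) + Real.log ((M : ℝ) + 1) := by
  unfold Process.Y0
  have hd' : (0 : ℝ) < d := by exact_mod_cast hd
  have hM : (0 : ℝ) < (M : ℝ) + 1 := by positivity
  have hs2 : (0 : ℝ) < Real.sqrt 2 := by positivity
  have hsd : (0 : ℝ) < Real.sqrt d := Real.sqrt_pos.mpr hd'
  rw [Real.log_mul (by positivity) hM.ne', Real.log_mul (by positivity) (by positivity),
    Real.log_mul hs2.ne' (by positivity), Real.log_pow, Real.log_pow,
    Real.log_mul (by norm_num) hsd.ne', Real.log_sqrt (by norm_num), Real.log_sqrt hd'.le]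
  push_cast
  ring

theorem Process.log2_bounds : (0.69 : ℝ) < Real.log 2 ∧ Real.log 2 < 0.7 := by
  have h1 := Real.log_two_gt_d9
  have h2 := Real.log_two_lt_d9
  constructor <;> linarith

/-- One term of the sum. -/
theorem Process.term_bound {d w M : ℕ} (hd1 : 3 ≤ d) {p : ℝ} (hp0 : 0 ≤ p) (hp1 : p ≤ 1) :
    p * Real.log ((Process.JJ d w M p : ℝ) * (2 * (Process.JJ d w M p : ℝ) + 1)) ≤
      p * (Real.log 3 + 2 * (Real.log d - 1)) + 2 / (d : ℝ) *
        (p * (Real.log (Process.Y0 d w M) / Real.log 2 + 1) +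
          p * Real.log (1 / p) / Real.log 2) := by
  have hdpos : (0 : ℝ) < d := by
    have : (3 : ℝ) ≤ d := by exact_mod_cast hd1
    linarith
  have hd3 : (3 : ℝ) ≤ d := by exact_mod_cast hd1
  have hY := Process.Y0_ge_one d w M (by omega)
  have hl2 := Process.log2_bounds
  have hl : 0 < Real.log 2 := by linarith [hl2.1]
  set LY := Real.log (Process.Y0 d w M) with hLY
  have hLY0 : 0 ≤ LY := Real.log_nonneg hY
  rcases hp0.eq_or_lt with h0 | hpos
  · simp [← h0]
  have hge : 1 ≤ Process.Y0 d w M / p := by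
    rw [le_div_iff₀ hpos]; linarith
  have hlogb : 0 ≤ Real.logb 2 (Process.Y0 d w M / p) :=
    Real.logb_nonneg (by norm_num) hge
  set J := Process.JJ d w M p with hJ
  have hJup : (J : ℝ) ≤ Real.logb 2 (Process.Y0 d w M / p) + 1 :=
    (Nat.ceil_lt_add_one hlogb).le
  have hlogY : Real.logb 2 (Process.Y0 d w M / p) =
      (LY + Real.log (1 / p)) / Real.log 2 := by
    rw [Real.logb, div_eq_mul_one_div (Process.Y0 d w M) p,
      Real.log_mul (by linarith) (by positivity)]
  have hlog1 : 0 ≤ Real.log (1 / p) := by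
    rw [one_div, Real.log_inv]
    have := Real.log_nonpos hpos.le hp1
    linarith
  by_cases hJ0 : J = 0
  · have hl3 : (0 : ℝ) ≤ Real.log 3 := Real.log_nonneg (by norm_num)
    have hx0 : 1 ≤ Real.log d := by
      rw [Real.le_log_iff_exp_le hdpos]
      have := Real.exp_one_lt_d9
      linarith
    have h2 : 0 ≤ p * (LY / Real.log 2 + 1) + p * Real.log (1 / p) / Real.log 2 := by
      positivity
    simp only [hJ0, Nat.cast_zero, zero_mul, Real.log_zero, mul_zero]
    have h5 : 0 ≤ p * (Real.log 3 + 2 * (Real.log d - 1)) := by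
      apply mul_nonneg hpos.le; linarith
    have h3 : 0 ≤ 2 / (d : ℝ) *
        (p * (LY / Real.log 2 + 1) + p * Real.log (1 / p) / Real.log 2) :=
      mul_nonneg (by positivity) h2
    linarith
  have hJ1 : (1 : ℝ) ≤ J := by exact_mod_cast Nat.one_le_iff_ne_zero.mpr hJ0
  have hlogJ : Real.log J ≤ Real.log d + J / d - 1 :=
    log_tangent (y := (J : ℝ)) (c := (d : ℝ)) (by linarith) hdpos
  have h3 : Real.log ((J : ℝ) * (2 * (J : ℝ) + 1)) ≤ Real.log 3 + 2 * Real.log J := by
    have hle : (J : ℝ) * (2 * (J : ℝ) + 1) ≤ 3 * (J : ℝ) ^ 2 := by nlinarith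
    calc Real.log ((J : ℝ) * (2 * (J : ℝ) + 1)) ≤ Real.log (3 * (J : ℝ) ^ 2) :=
          Real.log_le_log (by positivity) hle
      _ = Real.log 3 + 2 * Real.log J := by
          rw [Real.log_mul (by norm_num) (by positivity), Real.log_pow]; norm_num
  have hfin : Real.log ((J : ℝ) * (2 * (J : ℝ) + 1)) ≤
      Real.log 3 + 2 * (Real.log d - 1) + 2 / (d : ℝ) * (J : ℝ) := by
    have : 2 / (d : ℝ) * (J : ℝ) = 2 * (J / d) := by ring
    rw [this]; linarith
  have hJ2 : (J : ℝ) ≤ (LY + Real.log (1 / p)) / Real.log 2 + 1 := by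
    rw [← hlogY]; exact hJup
  calc p * Real.log ((J : ℝ) * (2 * (J : ℝ) + 1))
      ≤ p * (Real.log 3 + 2 * (Real.log d - 1) + 2 / (d : ℝ) * (J : ℝ)) :=
        mul_le_mul_of_nonneg_left hfin hpos.le
    _ ≤ p * (Real.log 3 + 2 * (Real.log d - 1) + 2 / (d : ℝ) *
          ((LY + Real.log (1 / p)) / Real.log 2 + 1)) := by
        gcongr
    _ = _ := by
        ring

/-- The sum, before the numerics. -/
theorem Process.sum_bound {d w M : ℕ} (hd1 : 3 ≤ d) (P : Fin (2 ^ M) → ℝ) (hP : IsProb P) :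
    ∑ u, P u * (Process.B0 d w M +
      Real.log ((Process.JJ d w M (P u) : ℝ) * (2 * (Process.JJ d w M (P u) : ℝ) + 1))) ≤
      Process.B0 d w M + Real.log 3 + 2 * (Real.log d - 1) + 2 / (d : ℝ) *
        (Real.log (Process.Y0 d w M) / Real.log 2 + 1 + (M : ℝ)) := by
  have hl2 := Process.log2_bounds
  have hl : 0 < Real.log 2 := by linarith [hl2.1]
  have hd3 : (3 : ℝ) ≤ d := by exact_mod_cast hd1
  set LY := Real.log (Process.Y0 d w M) with hLY
  set x := Real.log d with hx
  have hent : ∑ u, P u * Real.log (1 / P u) ≤ (M : ℝ) * Real.log 2 := by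
    have := entropy_le hP
    simpa [Real.log_pow] using this
  have hP1 : ∀ u, P u ≤ 1 := fun u => by
    rw [← hP.sum_one]
    exact Finset.single_le_sum (fun i _ => hP.nonneg i) (Finset.mem_univ u)
  have hbd : ∀ u, P u * (Process.B0 d w M +
      Real.log ((Process.JJ d w M (P u) : ℝ) * (2 * (Process.JJ d w M (P u) : ℝ) + 1))) ≤
      P u * (Process.B0 d w M + Real.log 3 + 2 * (x - 1) + 2 / (d : ℝ) * (LY / Real.log 2 + 1)) +
        (2 / (d : ℝ) / Real.log 2) * (P u * Real.log (1 / P u)) := by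
    intro u
    have := Process.term_bound (w := w) (M := M) hd1 (hP.nonneg u) (hP1 u)
    have e1 : 2 / (d : ℝ) * (P u * (LY / Real.log 2 + 1) + P u * Real.log (1 / P u) / Real.log 2)
        = P u * (2 / (d : ℝ) * (LY / Real.log 2 + 1)) +
          (2 / (d : ℝ) / Real.log 2) * (P u * Real.log (1 / P u)) := by
      ring
    rw [e1] at this
    rw [mul_add]
    have e2 : P u * (Process.B0 d w M + Real.log 3 + 2 * (x - 1) + 2 / (d : ℝ) * (LY / Real.log 2 + 1))
       = P u * Process.B0 d w M + P u * (Real.log 3 + 2 * (x - 1)) +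
         P u * (2 / (d : ℝ) * (LY / Real.log 2 + 1)) := by ring
    rw [e2]
    linarith
  calc _ ≤ ∑ u, (P u * (Process.B0 d w M + Real.log 3 + 2 * (x - 1) +
          2 / (d : ℝ) * (LY / Real.log 2 + 1)) +
          (2 / (d : ℝ) / Real.log 2) * (P u * Real.log (1 / P u))) :=
        Finset.sum_le_sum fun u _ => hbd u
    _ = (Process.B0 d w M + Real.log 3 + 2 * (x - 1) + 2 / (d : ℝ) * (LY / Real.log 2 + 1)) +
          (2 / (d : ℝ) / Real.log 2) * (∑ u, P u * Real.log (1 / P u)) := by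
        rw [Finset.sum_add_distrib, ← Finset.sum_mul, hP.sum_one, one_mul, ← Finset.mul_sum]
    _ ≤ (Process.B0 d w M + Real.log 3 + 2 * (x - 1) + 2 / (d : ℝ) * (LY / Real.log 2 + 1)) +
          (2 / (d : ℝ) / Real.log 2) * ((M : ℝ) * Real.log 2) := by
        gcongr
    _ = _ := by
        field_simp
        ring

theorem Process.LY_bound {d w M : ℕ} (hd1 : 1 ≤ d) :
    Real.log (Process.Y0 d w M) / Real.log 2 ≤ ((d : ℝ) + 4 * w + 1) + 1 / 2 +
      (4 * (w : ℝ) + 1) * (1 + 3 / 4 * Real.log d) + (M : ℝ) := by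
  have hl2 := Process.log2_bounds
  have hl : 0 < Real.log 2 := by linarith [hl2.1]
  have hdpos : (1 : ℝ) ≤ d := by exact_mod_cast hd1
  have hxpos : 0 ≤ Real.log d := Real.log_nonneg hdpos
  have hM0 : (0 : ℝ) ≤ M := Nat.cast_nonneg M
  have hlogM : Real.log ((M : ℝ) + 1) ≤ (M : ℝ) * Real.log 2 := by
    have h2M : (M : ℝ) + 1 ≤ (2 : ℝ) ^ M := by
      have : M + 1 ≤ 2 ^ M := Nat.lt_two_pow_self
      exact_mod_cast this
    calc Real.log ((M : ℝ) + 1) ≤ Real.log ((2 : ℝ) ^ M) := Real.log_le_log (by positivity) h2M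
      _ = _ := by rw [Real.log_pow]
  rw [div_le_iff₀ hl, Process.log_Y0 d w M hd1]
  have h4 : (4 * (w : ℝ) + 1) * (1 / 2 * Real.log d) ≤
      (4 * (w : ℝ) + 1) * (3 / 4 * Real.log d * Real.log 2) := by
    have : 1 / 2 * Real.log d ≤ 3 / 4 * Real.log d * Real.log 2 := by nlinarith [hl2.1]
    gcongr
  nlinarith

theorem Process.coef_bound {d w : ℕ} (hd0 : 2 ^ 20 ≤ d) (hw : 1 ≤ w) (hdw : d ≤ 128 * w) :
    (2 / ((w : ℝ) + 2) + 2 * Real.exp (-((w : ℝ) / 2))) * Real.log 2 ≤ 196 / (d : ℝ) := by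
  have hl2 := Process.log2_bounds
  have hdR : (1048576 : ℝ) ≤ d := by
    have : ((2 ^ 20 : ℕ) : ℝ) ≤ d := by exact_mod_cast hd0
    norm_num at this ⊢
    linarith
  have hdpos : (0 : ℝ) < d := by linarith
  have hw0 : (1 : ℝ) ≤ w := by exact_mod_cast hw
  have h128 : (d : ℝ) ≤ 128 * w := by exact_mod_cast hdw
  have hexp : Real.exp (-((w : ℝ) / 2)) ≤ 12 / (d : ℝ) := by
    rw [Real.exp_neg, inv_le_comm₀ (Real.exp_pos _) (by positivity), inv_div]
    have hq := Real.quadratic_le_exp_of_nonneg (x := (w : ℝ) / 2) (by positivity)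
    have hw13 : (8192 : ℝ) ≤ w := by nlinarith
    have : (d : ℝ) / 12 ≤ 1 + (w : ℝ) / 2 + ((w : ℝ) / 2) ^ 2 / 2 := by nlinarith
    linarith
  have h1 : 2 / ((w : ℝ) + 2) ≤ 256 / (d : ℝ) := by
    rw [div_le_div_iff₀ (by linarith) hdpos]
    nlinarith
  have h2 : 2 * Real.exp (-((w : ℝ) / 2)) ≤ 24 / (d : ℝ) := by
    have : (24 : ℝ) / d = 2 * (12 / d) := by ring
    rw [this]; linarith
  have h3 : 2 / ((w : ℝ) + 2) + 2 * Real.exp (-((w : ℝ) / 2)) ≤ 280 / (d : ℝ) := by
    have : (280 : ℝ) / d = 256 / d + 24 / d := by ring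
    rw [this]; linarith
  have hpos : 0 ≤ 2 / ((w : ℝ) + 2) + 2 * Real.exp (-((w : ℝ) / 2)) := by positivity
  calc _ ≤ 280 / (d : ℝ) * 0.7 := by
        apply mul_le_mul h3 hl2.2.le (by linarith [hl2.1]) (by positivity)
    _ = _ := by ring

theorem Process.numeric {d w M : ℕ} (hd0 : 2 ^ 20 ≤ d) (hw : 1 ≤ w) (hd : 64 * w ≤ d)
    (hdw : d ≤ 128 * w) :
    Process.B0 d w M + Real.log 3 + 2 * (Real.log d - 1) + 2 / (d : ℝ) *
        (Real.log (Process.Y0 d w M) / Real.log 2 + 1 + (M : ℝ)) ≤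
      200 * (M : ℝ) / d + 17 * (d : ℝ) := by
  have hd1 : (1 : ℕ) ≤ d := le_trans (by norm_num) hd0
  have hdR : (1048576 : ℝ) ≤ d := by
    have : ((2 ^ 20 : ℕ) : ℝ) ≤ d := by exact_mod_cast hd0
    norm_num at this ⊢
    linarith
  have hdpos : (0 : ℝ) < d := by linarith
  have hl2 := Process.log2_bounds
  have hM0 : (0 : ℝ) ≤ M := Nat.cast_nonneg M
  have h64 : 64 * (w : ℝ) ≤ d := by exact_mod_cast hd
  have hxpos : 0 ≤ Real.log d := Real.log_nonneg (by linarith)
  have hLY' := Process.LY_bound (w := w) (M := M) hd1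
  have hcoef := Process.coef_bound hd0 hw hdw
  have hlog3 : Real.log 3 ≤ 1.11 := by
    have := Real.log_le_sub_one_of_pos (x := 3 / Real.exp 1) (by positivity)
    rw [Real.log_div (by norm_num) (Real.exp_pos _).ne', Real.log_exp] at this
    have he := Real.exp_one_gt_d9
    have h4 : 3 / Real.exp 1 ≤ 1.1037 := by
      rw [div_le_iff₀ (Real.exp_pos _)]
      nlinarith
    linarith
  have hlogd : Real.log d ≤ (d : ℝ) / 8 + 1.1 := by
    have h8 := Real.log_le_sub_one_of_pos (x := (d : ℝ) / 8) (by positivity)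
    rw [Real.log_div hdpos.ne' (by norm_num)] at h8
    have : Real.log 8 = 3 * Real.log 2 := by
      rw [show (8 : ℝ) = 2 ^ 3 by norm_num, Real.log_pow]; norm_num
    rw [this] at h8
    linarith [hl2.2]
  have hB : Process.B0 d w M = (2 / ((w : ℝ) + 2) + 2 * Real.exp (-((w : ℝ) / 2))) * Real.log 2 * M +
      15 * (d : ℝ) + 8 := by
    unfold Process.B0; ring
  have hMpart : (2 / ((w : ℝ) + 2) + 2 * Real.exp (-((w : ℝ) / 2))) * Real.log 2 * M ≤
      196 / (d : ℝ) * M := mul_le_mul_of_nonneg_right hcoef hM0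
  have h41 : 4 * (w : ℝ) + 1 ≤ (d : ℝ) / 8 := by nlinarith
  have h42 : (4 * (w : ℝ) + 1) * (1 + 3 / 4 * Real.log d) ≤
      (d : ℝ) / 8 * (1 + 3 / 4 * Real.log d) := by
    gcongr
  have hstep : Real.log (Process.Y0 d w M) / Real.log 2 + 1 + (M : ℝ) ≤
      ((d : ℝ) + 4 * w + 1) + 1 / 2 + 1 + (d : ℝ) / 8 * (1 + 3 / 4 * Real.log d) + 2 * (M : ℝ) := by
    linarith
  have h2d : 0 ≤ 2 / (d : ℝ) := by positivity
  have hm := mul_le_mul_of_nonneg_left hstep h2d
  have e1 : 2 / (d : ℝ) * (((d : ℝ) + 4 * w + 1) + 1 / 2 + 1 +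
      (d : ℝ) / 8 * (1 + 3 / 4 * Real.log d) + 2 * (M : ℝ)) =
      2 * (((d : ℝ) + 4 * w + 1 + 1 / 2 + 1) / d) + (1 / 4) * (1 + 3 / 4 * Real.log d) +
        4 / (d : ℝ) * M := by
    field_simp
    ring
  have e2 : ((d : ℝ) + 4 * w + 1 + 1 / 2 + 1) / d ≤ 3 / 2 := by
    rw [div_le_iff₀ hdpos]; nlinarith
  have hfinalM : 196 / (d : ℝ) * M + 4 / (d : ℝ) * M = 200 * (M : ℝ) / d := by ring
  rw [hB]
  rw [e1] at hm
  linarith

/-- The arithmetic of one epoch. -/
theorem Process.arith {d w M : ℕ} (hd0 : 2 ^ 20 ≤ d) (hw : 1 ≤ w) (hd : 64 * w ≤ d)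
    (hdw : d ≤ 128 * w) (P : Fin (2 ^ M) → ℝ) (hP : IsProb P) :
    ∑ u, P u * (Process.B0 d w M +
      Real.log ((Process.JJ d w M (P u) : ℝ) * (2 * (Process.JJ d w M (P u) : ℝ) + 1))) ≤
      200 * (M : ℝ) / d + 17 * (d : ℝ) :=
  (Process.sum_bound (le_trans (by norm_num) hd0) P hP).trans (Process.numeric hd0 hw hd hdw)

theorem Process.iter_integrable {Ω₁ Ω₂ : Type*} [MeasurableSpace Ω₁] [MeasurableSpace Ω₂]
    (μ₁ : Measure Ω₁) (μ₂ : Measure Ω₂) [IsProbabilityMeasure μ₁] [IsProbabilityMeasure μ₂]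
    (Φ : Ω₁ → Ω₂ → ℝ) (hm : Measurable (Function.uncurry Φ)) {C : ℝ}
    (hb : ∀ a b, |Φ a b| ≤ C) :
    (∀ a, Integrable (Φ a) μ₂) ∧ Integrable (fun a => ∫ b, Φ a b ∂μ₂) μ₁ := by
  refine ⟨fun a => ?_, ?_⟩
  · refine Integrable.of_bound (C := C) ?_ (Filter.Eventually.of_forall fun b => hb a b)
    exact (hm.comp (measurable_const.prodMk measurable_id)).aestronglyMeasurable
  · refine Integrable.of_bound (C := C) ?_ (Filter.Eventually.of_forall fun a => ?_)
    · exact hm.stronglyMeasurable.integral_prod_right.aestronglyMeasurable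
    · have := norm_integral_le_of_norm_le_const (μ := μ₂) (f := Φ a) (C := C)
        (Filter.Eventually.of_forall fun b => hb a b)
      simpa using this

theorem Process.iter_mono {Ω₁ Ω₂ : Type*} [MeasurableSpace Ω₁] [MeasurableSpace Ω₂]
    (μ₁ : Measure Ω₁) (μ₂ : Measure Ω₂) [IsProbabilityMeasure μ₁] [IsProbabilityMeasure μ₂]
    (Φ Ψ : Ω₁ → Ω₂ → ℝ) (hm : Measurable (Function.uncurry Φ))
    (hm' : Measurable (Function.uncurry Ψ)) {C C' : ℝ}
    (hb : ∀ a b, |Φ a b| ≤ C) (hb' : ∀ a b, |Ψ a b| ≤ C') (hle : ∀ a b, Φ a b ≤ Ψ a b) :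
    ∫ a, ∫ b, Φ a b ∂μ₂ ∂μ₁ ≤ ∫ a, ∫ b, Ψ a b ∂μ₂ ∂μ₁ := by
  have h := Process.iter_integrable μ₁ μ₂ Φ hm hb
  have h' := Process.iter_integrable μ₁ μ₂ Ψ hm' hb'
  exact integral_mono h.2 h'.2 fun a => integral_mono (h.1 a) (h'.1 a) fun b => hle a b

theorem Process.iter_add_sum {Ω₁ Ω₂ ι : Type*} [Fintype ι] [MeasurableSpace Ω₁] [MeasurableSpace Ω₂]
    (μ₁ : Measure Ω₁) (μ₂ : Measure Ω₂) [IsProbabilityMeasure μ₁] [IsProbabilityMeasure μ₂]
    (Ψ : Ω₁ → Ω₂ → ℝ) (Φ : ι → Ω₁ → Ω₂ → ℝ) (hm : Measurable (Function.uncurry Ψ))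
    (hm' : ∀ u, Measurable (Function.uncurry (Φ u))) {C : ℝ} {C' : ι → ℝ}
    (hb : ∀ a b, |Ψ a b| ≤ C) (hb' : ∀ u a b, |Φ u a b| ≤ C' u) :
    ∫ a, ∫ b, (Ψ a b + ∑ u, Φ u a b) ∂μ₂ ∂μ₁ =
      ∫ a, ∫ b, Ψ a b ∂μ₂ ∂μ₁ + ∑ u, ∫ a, ∫ b, Φ u a b ∂μ₂ ∂μ₁ := by
  have h := Process.iter_integrable μ₁ μ₂ Ψ hm hb
  have h' := fun u => Process.iter_integrable μ₁ μ₂ (Φ u) (hm' u) (hb' u)
  have hinner : ∀ a, ∫ b, (Ψ a b + ∑ u, Φ u a b) ∂μ₂ = ∫ b, Ψ a b ∂μ₂ + ∑ u, ∫ b, Φ u a b ∂μ₂ := by
    intro a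
    rw [integral_add (h.1 a) (integrable_finsetSum _ fun u _ => (h' u).1 a),
      integral_finsetSum _ fun u _ => (h' u).1 a]
  simp only [hinner]
  rw [integral_add h.2 (integrable_finsetSum _ fun u _ => (h' u).2),
    integral_finsetSum _ fun u _ => (h' u).2]

/-- The uniform kernel. -/
theorem Process.unif_prob (M : ℕ) : IsProb (fun _ : Fin (2 ^ M) => 1 / (2 : ℝ) ^ M) := by
  refine ⟨fun v => by positivity, ?_⟩
  simp

theorem Process.unif_lower (M : ℕ) : 1 / (2 * (2 : ℝ) ^ M) ≤ 1 / (2 : ℝ) ^ M := by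
  apply one_div_le_one_div_of_le (by positivity)
  have : (0 : ℝ) < (2 : ℝ) ^ M := by positivity
  linarith

theorem Process.hJ_bound {d w M : ℕ} {P : ℝ} (hP0 : 0 < P) (hd : 1 ≤ d) :
    (2 : ℝ) ^ (d + 4 * w + 1) * (P⁻¹ * Real.sqrt 2 * (2 * Real.sqrt d) ^ (4 * w + 1)) *
      ((M : ℝ) + 1) ≤ 2 ^ (Process.JJ d w M P) := by
  have hY := Process.Y0_ge_one d w M hd
  have hYP : 0 < Process.Y0 d w M / P := by positivity
  have e : (2 : ℝ) ^ (d + 4 * w + 1) * (P⁻¹ * Real.sqrt 2 * (2 * Real.sqrt d) ^ (4 * w + 1)) *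
      ((M : ℝ) + 1) = Process.Y0 d w M / P := by
    unfold Process.Y0; field_simp
  rw [e]
  calc Process.Y0 d w M / P = (2 : ℝ) ^ (Real.logb 2 (Process.Y0 d w M / P)) :=
        (Real.rpow_logb (by norm_num) (by norm_num) hYP).symm
    _ ≤ (2 : ℝ) ^ ((Process.JJ d w M P : ℕ) : ℝ) :=
        Real.rpow_le_rpow_of_exponent_le (by norm_num) (Nat.le_ceil _)
    _ = _ := Real.rpow_natCast _ _

theorem Process.epoch_weighted {d w M : ℕ} (hw : 1 ≤ w) (hd : 64 * w ≤ d) (ℓ : E d → ℝ)
    (hℓm : Measurable ℓ) (hℓ0 : ∀ s, 0 ≤ ℓ s) (hℓ1 : ∀ s, ℓ s ≤ 1)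
    (G : (Fin w → E d) × (Fin w → ℝ) → Fin (2 ^ M) → ℝ) (hGm : ∀ v, Measurable fun z => G z v)
    (hGp : ∀ z, IsProb (G z)) :
    ∃ Qt : (Fin (8 * w) → E d) × (Fin (8 * w) → ℝ) → Fin (2 ^ M) → ℝ,
      (∀ v, Measurable fun z => Qt z v) ∧ (∀ z, IsProb (Qt z)) ∧
      (∀ z v, 1 / (2 * (2 : ℝ) ^ M) ≤ Qt z v) ∧
      ∫ s, ℓ s * ∫ Z, KL (Ks G s) (Qt (Z, lab Z s)) ∂(gamR d (8 * w)) ∂(sig d) ≤
        (∫ s, ℓ s ∂(sig d)) * (Process.B0 d w M +
          Real.log ((Process.JJ d w M (∫ s, ℓ s ∂(sig d)) : ℝ) *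
            (2 * (Process.JJ d w M (∫ s, ℓ s ∂(sig d)) : ℝ) + 1))) := by
  have hint : Integrable ℓ (sig d) := by
    refine Integrable.of_bound (C := 1) hℓm.aestronglyMeasurable
      (Filter.Eventually.of_forall fun s => ?_)
    rw [Real.norm_eq_abs, abs_of_nonneg (hℓ0 s)]
    exact hℓ1 s
  set P := ∫ s, ℓ s ∂(sig d) with hPdef
  have hP0 : 0 ≤ P := integral_nonneg hℓ0
  have hP1 : P ≤ 1 := by
    calc P ≤ ∫ _, (1 : ℝ) ∂(sig d) := integral_mono hint (integrable_const _) hℓ1
      _ = 1 := by simp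
  rcases hP0.eq_or_lt with h0 | hpos
  · -- the zero atom: uniform kernel
    refine ⟨fun _ _ => 1 / (2 : ℝ) ^ M, fun v => measurable_const,
      fun z => Process.unif_prob M, fun z v => Process.unif_lower M, ?_⟩
    have hae : ℓ =ᵐ[sig d] 0 := (integral_eq_zero_iff_of_nonneg hℓ0 hint).mp h0.symm
    have : ∫ s, ℓ s * ∫ Z, KL (Ks G s) (fun _ => 1 / (2 : ℝ) ^ M) ∂(gamR d (8 * w)) ∂(sig d) = 0 := by
      rw [integral_eq_zero_of_ae]
      filter_upwards [hae] with s hs
      simp [hs]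
    rw [this, ← h0]
    simp
  · -- the genuine case
    have hd1 : 1 ≤ d := by omega
    set f : E d → ℝ≥0∞ := fun s => ENNReal.ofReal (ℓ s) with hf
    have hfm : Measurable f := hℓm.ennreal_ofReal
    have hmass : ∫⁻ s, f s ∂(sig d) = ENNReal.ofReal P := by
      rw [hPdef, ofReal_integral_eq_lintegral_ofReal hint
        (Filter.Eventually.of_forall fun s => hℓ0 s)]
    set c : ℝ≥0∞ := ENNReal.ofReal P⁻¹ with hc
    have hc1 : c * ENNReal.ofReal P = 1 := by
      rw [hc, ← ENNReal.ofReal_mul (by positivity), inv_mul_cancel₀ hpos.ne']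
      simp
    set μ : Measure (E d) := c • (sig d).withDensity f with hμ
    have hprob : IsProbabilityMeasure μ := by
      refine ⟨?_⟩
      rw [hμ, Measure.smul_apply, smul_eq_mul, withDensity_apply _ MeasurableSet.univ,
        Measure.restrict_univ, hmass, hc1]
    have hF1 : 1 ≤ P⁻¹ := (one_le_inv₀ hpos).mpr hP1
    have hF : ∀ A, MeasurableSet A → μ A ≤ ENNReal.ofReal P⁻¹ * sig d A := by
      intro A hA
      rw [hμ, Measure.smul_apply, smul_eq_mul, withDensity_apply _ hA]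
      gcongr
      calc ∫⁻ s in A, f s ∂(sig d) ≤ ∫⁻ _ in A, 1 ∂(sig d) := by
            refine lintegral_mono fun s => ?_
            rw [hf]
            exact ENNReal.ofReal_le_one.mpr (hℓ1 s)
        _ = sig d A := by simp
    obtain ⟨Qt, hQm, hQp, hQl, hQb⟩ := epoch_kernel hw hd μ hF1 hF G hGm hGp (Process.JJ d w M P)
      (Process.hJ_bound hpos hd1)
    refine ⟨Qt, hQm, hQp, hQl, ?_⟩
    have hconv : ∀ h : E d → ℝ, ∫ s, ℓ s * h s ∂(sig d) = P * ∫ s, h s ∂μ := by
      intro h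
      rw [hμ, integral_smul_measure, integral_withDensity_eq_integral_toReal_smul hfm
        (Filter.Eventually.of_forall fun s => ENNReal.ofReal_lt_top)]
      have hc' : c.toReal = P⁻¹ := by
        rw [hc, ENNReal.toReal_ofReal (by positivity)]
      rw [hc', smul_eq_mul, ← mul_assoc, mul_inv_cancel₀ hpos.ne', one_mul]
      refine integral_congr_ae (Filter.Eventually.of_forall fun s => ?_)
      simp only [hf, smul_eq_mul]
      rw [ENNReal.toReal_ofReal (hℓ0 s)]
    rw [hconv]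
    apply mul_le_mul_of_nonneg_left _ hpos.le
    refine hQb.trans (le_of_eq ?_)
    unfold Process.B0
    ring


theorem Process.lab_joint {D : ℕ} : Measurable fun p : E d × (Fin D → E d) => (p.2, lab p.2 p.1) := by
  refine measurable_snd.prodMk (measurable_pi_iff.mpr fun i => ?_)
  exact ((measurable_pi_apply i).comp measurable_snd).inner measurable_fst

theorem Process.KL_abs_le {ι : Type*} [Fintype ι] {p q : ι → ℝ} {c : ℝ} (hc : 0 < c) (hp : IsProb p)
    (hq : IsProb q) (hlow : ∀ v, c ≤ q v) : |KL p q| ≤ Real.log (1 / c) := by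
  have h0 : 0 ≤ KL p q := KL_nonneg hp hq fun v hv => by
    have := hlow v
    linarith
  rw [abs_of_nonneg h0]
  exact KL_le_log_of_lower hc hp hlow

theorem potential_step (hd0 : 2 ^ 20 ≤ d) {w : ℕ} (hw : 1 ≤ w) (hd : 64 * w ≤ d) (hdw : d ≤ 128 * w)
    (A : Learner d M) (t₀ : ℕ)
    (Qt : (Fin (8 * w) → E d) × (Fin (8 * w) → ℝ) → Fin (2 ^ M) → ℝ)
    (hQm : ∀ v, Measurable fun z => Qt z v) (hQp : ∀ z, IsProb (Qt z))
    (hQac : ∀ z u s, Qt z u = 0 → law A t₀ s u = 0)
    (hQb : ∃ C : ℝ, ∀ s Z, |KL (law A t₀ s) (Qt (Z, lab Z s))| ≤ C) :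
    ∃ Qt' : (Fin (8 * w) → E d) × (Fin (8 * w) → ℝ) → Fin (2 ^ M) → ℝ,
      (∀ v, Measurable fun z => Qt' z v) ∧ (∀ z, IsProb (Qt' z)) ∧
      (∀ z v, 1 / (2 * (2 : ℝ) ^ M) ≤ Qt' z v) ∧
      ∫ s, ∫ Z, KL (law A (t₀ + w) s) (Qt' (Z, lab Z s)) ∂(gamR d (8 * w)) ∂(sig d) ≤
        ∫ s, ∫ Z, KL (law A t₀ s) (Qt (Z, lab Z s)) ∂(gamR d (8 * w)) ∂(sig d) +
          (200 * (M : ℝ) / d + 17 * (d : ℝ)) := by
  obtain ⟨G, hGm, hGp, hG⟩ := exists_epoch_map A t₀ w
  obtain ⟨C, hC⟩ := hQb
  have hℓm := fun u => law_measurable A t₀ u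
  choose Qu hQum hQup hQul hQub using fun u =>
    Process.epoch_weighted (M := M) hw hd (fun s => law A t₀ s u) (hℓm u)
      (fun s => (law_prob A t₀ s).nonneg u) (fun s => (law_prob A t₀ s).process_le_one u) (G u)
      (hGm u) (hGp u)
  set c : ℝ := 1 / (2 * (2 : ℝ) ^ M) with hc
  have hcpos : 0 < c := by positivity
  set Qt' : (Fin (8 * w) → E d) × (Fin (8 * w) → ℝ) → Fin (2 ^ M) → ℝ :=
    fun z v => ∑ u, Qt z u * Qu u z v with hQt'
  have hQ'm : ∀ v, Measurable fun z => Qt' z v := fun v =>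
    Finset.measurable_sum _ fun u _ => (hQm u).mul (hQum u v)
  have hQ'p : ∀ z, IsProb (Qt' z) := by
    intro z
    refine ⟨fun v => Finset.sum_nonneg fun u _ =>
      mul_nonneg ((hQp z).nonneg u) ((hQup u z).nonneg v), ?_⟩
    simp only [hQt']
    rw [Finset.sum_comm]
    have : ∀ u, ∑ v, Qt z u * Qu u z v = Qt z u := fun u => by
      rw [← Finset.mul_sum, (hQup u z).sum_one, mul_one]
    simp only [this]
    exact (hQp z).sum_one
  have hQ'l : ∀ z v, c ≤ Qt' z v := by
    intro z v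
    calc c = ∑ u, Qt z u * c := by rw [← Finset.sum_mul, (hQp z).sum_one, one_mul]
      _ ≤ _ := Finset.sum_le_sum fun u _ =>
          mul_le_mul_of_nonneg_left (hQul u z v) ((hQp z).nonneg u)
  refine ⟨Qt', hQ'm, hQ'p, hQ'l, ?_⟩
  -- notation for the three integrands
  set γ := gamR d (8 * w) with hγ
  set σ := sig d with hσ
  have hlabm := Process.lab_joint (d := d) (D := 8 * w)
  have hKsm : ∀ u v, Measurable fun p : E d × (Fin (8 * w) → E d) => Ks (G u) p.1 v := fun u v =>
    (Ks_measurable (G u) (hGm u) v).comp measurable_fst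
  have hLm : ∀ (t : ℕ) v, Measurable fun p : E d × (Fin (8 * w) → E d) => law A t p.1 v := fun t v =>
    (law_measurable A t v).comp measurable_fst
  have hm1 : Measurable (Function.uncurry fun (s : E d) (Z : Fin (8 * w) → E d) =>
      KL (law A (t₀ + w) s) (Qt' (Z, lab Z s))) :=
    KL_measurable (fun v => hLm _ v) (fun v => (hQ'm v).comp hlabm)
  have hm2 : Measurable (Function.uncurry fun (s : E d) (Z : Fin (8 * w) → E d) =>
      KL (law A t₀ s) (Qt (Z, lab Z s))) :=
    KL_measurable (fun v => hLm _ v) (fun v => (hQm v).comp hlabm)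
  have hm3 : ∀ u, Measurable (Function.uncurry fun (s : E d) (Z : Fin (8 * w) → E d) =>
      law A t₀ s u * KL (Ks (G u) s) (Qu u (Z, lab Z s))) := fun u =>
    (hLm _ u).mul (KL_measurable (fun v => hKsm u v) (fun v => (hQum u v).comp hlabm))
  have hb1 : ∀ s Z, |KL (law A (t₀ + w) s) (Qt' (Z, lab Z s))| ≤ Real.log (1 / c) := fun s Z =>
    Process.KL_abs_le hcpos (law_prob _ _ _) (hQ'p _) (hQ'l _)
  have hb3 : ∀ u s Z, |law A t₀ s u * KL (Ks (G u) s) (Qu u (Z, lab Z s))| ≤ Real.log (1 / c) := by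
    intro u s Z
    rw [abs_mul, abs_of_nonneg ((law_prob A t₀ s).nonneg u)]
    have h := Process.KL_abs_le hcpos (Ks_prob (G u) (hGm u) (hGp u) s) (hQup u (Z, lab Z s))
      (hQul u (Z, lab Z s))
    calc _ ≤ 1 * Real.log (1 / c) := mul_le_mul ((law_prob A t₀ s).process_le_one u) h (abs_nonneg _) zero_le_one
      _ = _ := one_mul _
  have hb23 : ∀ s Z, |KL (law A t₀ s) (Qt (Z, lab Z s)) +
      ∑ u, law A t₀ s u * KL (Ks (G u) s) (Qu u (Z, lab Z s))| ≤
      C + ∑ _u : Fin (2 ^ M), Real.log (1 / c) := by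
    intro s Z
    refine (abs_add_le _ _).trans (add_le_add (hC s Z) ?_)
    exact (Finset.abs_sum_le_sum_abs _ _).trans (Finset.sum_le_sum fun u _ => hb3 u s Z)
  have hm23 : Measurable (Function.uncurry fun (s : E d) (Z : Fin (8 * w) → E d) =>
      KL (law A t₀ s) (Qt (Z, lab Z s)) +
        ∑ u, law A t₀ s u * KL (Ks (G u) s) (Qu u (Z, lab Z s))) := by
    refine Measurable.add hm2 ?_
    exact Finset.measurable_sum _ fun u _ => hm3 u
  -- pointwise chain
  have hchain : ∀ s Z, KL (law A (t₀ + w) s) (Qt' (Z, lab Z s)) ≤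
      KL (law A t₀ s) (Qt (Z, lab Z s)) +
        ∑ u, law A t₀ s u * KL (Ks (G u) s) (Qu u (Z, lab Z s)) := by
    intro s Z
    have e : law A (t₀ + w) s = fun v => ∑ u, law A t₀ s u * Ks (G u) s v := funext (hG s)
    rw [e]
    exact KL_chain (law A t₀ s) (Qt (Z, lab Z s)) (fun u => Ks (G u) s)
      (fun u => Qu u (Z, lab Z s)) (law_prob _ _ _) (hQp _) (fun u hu => hQac _ u s hu)
      (fun u => Ks_prob (G u) (hGm u) (hGp u) s) (fun u => hQup u _)
      (fun u v => lt_of_lt_of_le hcpos (hQul u _ v))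
  have hstep1 := Process.iter_mono σ γ _ _ hm1 hm23 hb1 hb23 hchain
  have hstep2 := Process.iter_add_sum σ γ
    (fun (s : E d) (Z : Fin (8 * w) → E d) => KL (law A t₀ s) (Qt (Z, lab Z s)))
    (fun (u : Fin (2 ^ M)) (s : E d) (Z : Fin (8 * w) → E d) =>
      law A t₀ s u * KL (Ks (G u) s) (Qu u (Z, lab Z s))) hm2 hm3 hC hb3
  refine hstep1.trans ?_
  rw [hstep2]
  -- the epoch bounds
  set P : Fin (2 ^ M) → ℝ := fun u => ∫ s, law A t₀ s u ∂σ with hP
  have hint : ∀ u, Integrable (fun s => law A t₀ s u) σ := fun u => by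
    refine Integrable.of_bound (C := 1) (hℓm u).aestronglyMeasurable
      (Filter.Eventually.of_forall fun s => ?_)
    rw [Real.norm_eq_abs, abs_of_nonneg ((law_prob A t₀ s).nonneg u)]
    exact (law_prob A t₀ s).process_le_one u
  have hPprob : IsProb P := by
    refine ⟨fun u => integral_nonneg fun s => (law_prob A t₀ s).nonneg u, ?_⟩
    simp only [hP]
    rw [← integral_finsetSum _ fun u _ => hint u]
    simp only [(law_prob A t₀ _).sum_one]
    simp
  have hterm : ∀ u, ∫ s, ∫ Z, law A t₀ s u * KL (Ks (G u) s) (Qu u (Z, lab Z s)) ∂γ ∂σ ≤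
      P u * (Process.B0 d w M + Real.log ((Process.JJ d w M (P u) : ℝ) *
        (2 * (Process.JJ d w M (P u) : ℝ) + 1))) := by
    intro u
    have := hQub u
    simp only [integral_const_mul]
    exact this
  have hfinal := Process.arith (M := M) hd0 hw hd hdw P hPprob
  have hsum : ∑ u, ∫ s, ∫ Z, law A t₀ s u * KL (Ks (G u) s) (Qu u (Z, lab Z s)) ∂γ ∂σ ≤
      200 * (M : ℝ) / d + 17 * (d : ℝ) :=
    (Finset.sum_le_sum fun u _ => hterm u).trans hfinal
  linarith

theorem Process.KL_self {ι : Type*} [Fintype ι] (p : ι → ℝ) : KL p p = 0 := by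
  unfold KL
  refine Finset.sum_eq_zero fun v _ => ?_
  by_cases h : p v = 0
  · simp [h]
  · rw [div_self h]; simp

theorem potential_bound (hd0 : 2 ^ 20 ≤ d) {w : ℕ} (hw : 1 ≤ w) (hd : 64 * w ≤ d)
    (hdw : d ≤ 128 * w) (A : Learner d M) (e : ℕ) (he : 1 ≤ e) :
    ∃ Qt : (Fin (8 * w) → E d) × (Fin (8 * w) → ℝ) → Fin (2 ^ M) → ℝ,
      (∀ v, Measurable fun z => Qt z v) ∧ (∀ z, IsProb (Qt z)) ∧
      (∀ z v, 1 / (2 * (2 : ℝ) ^ M) ≤ Qt z v) ∧
      ∫ s, ∫ Z, KL (law A (e * w) s) (Qt (Z, lab Z s)) ∂(gamR d (8 * w)) ∂(sig d) ≤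
        (e : ℝ) * (200 * (M : ℝ) / d + 17 * (d : ℝ)) := by
  induction e, he using Nat.le_induction with
  | base =>
    obtain ⟨Qt', h1, h2, h3, h4⟩ := potential_step hd0 hw hd hdw A 0 (fun _ => A.init)
      (fun v => measurable_const) (fun z => A.init_prob) (fun z u s h => by simpa [law] using h)
      ⟨0, fun s Z => by
        have : law A 0 s = A.init := rfl
        rw [this, Process.KL_self]; simp⟩
    refine ⟨Qt', h1, h2, h3, ?_⟩
    have e0 : ∀ s : E d, law A 0 s = A.init := fun s => rfl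
    simp only [e0, Process.KL_self] at h4
    simp only [integral_const, smul_zero, zero_add] at h4
    simpa using h4
  | succ e he ih =>
    obtain ⟨Qt, h1, h2, h3, h4⟩ := ih
    have hcpos : (0 : ℝ) < 1 / (2 * (2 : ℝ) ^ M) := by positivity
    obtain ⟨Qt', h1', h2', h3', h4'⟩ := potential_step hd0 hw hd hdw A (e * w) Qt h1 h2
      (fun z u s hu => by
        have := h3 z u
        rw [hu] at this
        linarith)
      ⟨_, fun s Z => Process.KL_abs_le hcpos (law_prob _ _ _) (h2 _) (h3 _)⟩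
    refine ⟨Qt', h1', h2', h3', ?_⟩
    have e1 : (e + 1) * w = e * w + w := Nat.succ_mul e w
    rw [e1]
    push_cast
    linarith

end P309
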