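import Vale.Agent.Lib.P309.SmallBall

/-! # P309 module Replica: the moment computation with `w+2` replicas -/

open MeasureTheory ProbabilityTheory
open scoped ENNReal NNReal

namespace P309

variable {d n w : ℕ}

/-- The pair of row matrices, and the pair of label vectors (product sup metric: balls are
products of cubes). -/
noncomputable def lab2 (XX : (Fin n → E d) × (Fin n → E d)) (s : E d) :
    (Fin n → ℝ) × (Fin n → ℝ) := (lab XX.1 s, lab XX.2 s)

/-- The sample space of pairs of row matrices and label points. -/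
abbrev RepΩ (d n : ℕ) := ((Fin n → E d) × (Fin n → E d)) × ((Fin n → ℝ) × (Fin n → ℝ))

/-- The product measure on `RepΩ`. -/
noncomputable abbrev repP (d n : ℕ) : Measure (RepΩ d n) :=
  ((gamR d n).prod (gamR d n)).prod volume

open scoped Classical in
/-- The indicator of `dist (lab2 XX s) y < t`. -/
noncomputable def repI (t : ℝ) (ω : RepΩ d n) (s : E d) : ℝ≥0∞ :=
  if dist (lab2 ω.1 s) ω.2 < t then 1 else 0

theorem continuous_lab2_joint :
    Continuous fun z : RepΩ d n × E d => dist (lab2 z.1.1 z.2) z.1.2 := by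
  refine Continuous.dist ?_ (continuous_snd.comp continuous_fst)
  refine Continuous.prodMk ?_ ?_
  · refine continuous_pi fun i => ?_
    unfold lab
    refine Continuous.inner ?_ continuous_snd
    exact (continuous_apply i).comp (continuous_fst.comp (continuous_fst.comp continuous_fst))
  · refine continuous_pi fun i => ?_
    unfold lab
    refine Continuous.inner ?_ continuous_snd
    exact (continuous_apply i).comp (continuous_snd.comp (continuous_fst.comp continuous_fst))

theorem measurable_repI (t : ℝ) :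
    Measurable fun z : RepΩ d n × E d => repI t z.1 z.2 := by
  unfold repI
  refine Measurable.ite ?_ measurable_const measurable_const
  exact (isOpen_lt continuous_lab2_joint continuous_const).measurableSet

theorem measurable_repI_left (t : ℝ) (s : E d) :
    Measurable fun ω : RepΩ d n => repI t ω s := by
  unfold repI
  refine Measurable.ite ?_ measurable_const measurable_const
  have hc : Continuous fun ω : RepΩ d n => dist (lab2 ω.1 s) ω.2 := by
    refine Continuous.dist ?_ continuous_snd
    refine Continuous.prodMk ?_ ?_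
    · refine continuous_pi fun i => ?_
      unfold lab
      exact Continuous.inner ((continuous_apply i).comp (continuous_fst.comp continuous_fst))
        continuous_const
    · refine continuous_pi fun i => ?_
      unfold lab
      exact Continuous.inner ((continuous_apply i).comp (continuous_snd.comp continuous_fst))
        continuous_const
  exact (isOpen_lt hc continuous_const).measurableSet

theorem continuous_lab2_right (ω : RepΩ d n) :
    Continuous fun s : E d => dist (lab2 ω.1 s) ω.2 := by
  refine Continuous.dist ?_ continuous_const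
  refine Continuous.prodMk ?_ ?_
  · refine continuous_pi fun i => ?_
    unfold lab
    exact Continuous.inner continuous_const continuous_id
  · refine continuous_pi fun i => ?_
    unfold lab
    exact Continuous.inner continuous_const continuous_id

theorem measurable_repI_right (t : ℝ) (ω : RepΩ d n) :
    Measurable fun s : E d => repI t ω s := by
  unfold repI
  refine Measurable.ite ?_ measurable_const measurable_const
  exact (isOpen_lt (continuous_lab2_right ω) continuous_const).measurableSet

/-- The mass of the `ν`-slice. -/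
noncomputable def repF (ν : Measure (E d)) (t : ℝ) (ω : RepΩ d n) : ℝ≥0∞ :=
  ∫⁻ s, repI t ω s ∂ν

theorem measurable_repF (ν : Measure (E d)) [SFinite ν] (t : ℝ) :
    Measurable fun ω : RepΩ d n => repF ν t ω :=
  (measurable_repI t).lintegral_prod_right'

theorem repF_eq (ν : Measure (E d)) (t : ℝ) (ω : RepΩ d n) :
    repF ν t ω = ν {s | dist (lab2 ω.1 s) ω.2 < t} := by
  have hset : MeasurableSet {s : E d | dist (lab2 ω.1 s) ω.2 < t} := by
    exact (isOpen_lt (continuous_lab2_right ω) continuous_const).measurableSet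
  unfold repF repI
  rw [← lintegral_indicator_one hset]
  refine lintegral_congr fun s => ?_
  by_cases h : dist (lab2 ω.1 s) ω.2 < t
  · simp [h]
  · simp [h]

/-- The product of the indicators along a list. -/
noncomputable def repA (t : ℝ) (p : E d) (L : List (E d)) (ω : RepΩ d n) : ℝ≥0∞ :=
  repI t ω p * (L.map fun v => repI t ω (p + v)).prod

theorem measurable_repA (t : ℝ) (p : E d) (L : List (E d)) :
    Measurable fun ω : RepΩ d n => repA t p L ω := by
  unfold repA
  refine (measurable_repI_left t p).mul ?_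
  induction L with
  | nil => simp
  | cons v L ih =>
    simp only [List.map_cons, List.prod_cons]
    exact (measurable_repI_left t (p + v)).mul ih

/-- The replica sum. -/
noncomputable def repS (ν : Measure (E d)) (t : ℝ) (k : ℕ) (p : E d) (L : List (E d)) : ℝ≥0∞ :=
  ∫⁻ ω : RepΩ d n, repA t p L ω * repF ν t ω ^ k ∂(repP d n)

/-- The basic swap: insertion of one new replica. -/
theorem repS_succ (ν : Measure (E d)) [SFinite ν] (t : ℝ) (k : ℕ) (p : E d) (L : List (E d)) :
    repS (n := n) ν t (k + 1) p L = ∫⁻ s, repS (n := n) ν t k p ((s - p) :: L) ∂ν := by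
  unfold repS
  have h1 : ∀ ω : RepΩ d n, repA t p L ω * repF ν t ω ^ (k + 1) =
      ∫⁻ s, repA t p L ω * repF ν t ω ^ k * repI t ω s ∂ν := by
    intro ω
    rw [lintegral_const_mul _ (measurable_repI_right t ω), pow_succ]
    unfold repF
    ring
  simp_rw [h1]
  rw [lintegral_lintegral_swap]
  · refine lintegral_congr fun s => ?_
    refine lintegral_congr fun ω => ?_
    unfold repA
    simp only [List.map_cons, List.prod_cons, add_sub_cancel]
    ring
  · apply Measurable.aemeasurable
    refine Measurable.mul ?_ (measurable_repI t)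
    exact ((measurable_repA t p L).comp measurable_fst).mul
      (((measurable_repF ν t).comp measurable_fst).pow_const k)

theorem repI_le_one (t : ℝ) (ω : RepΩ d n) (s : E d) : repI t ω s ≤ 1 := by
  unfold repI; split_ifs <;> simp

theorem rep_list_prod_le_one (l : List ℝ≥0∞) (h : ∀ x ∈ l, x ≤ 1) : l.prod ≤ 1 := by
  induction l with
  | nil => simp
  | cons a l ih =>
    simp only [List.prod_cons]
    calc a * l.prod ≤ 1 * 1 := by
          gcongr
          · exact h a (by simp)
          · exact ih fun x hx => h x (by simp [hx])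
      _ = 1 := by simp

/-- Volume of a ball in the sup metric. -/
theorem volume_ball_prod (y : (Fin n → ℝ) × (Fin n → ℝ)) (t : ℝ) (ht : 0 < t) :
    (volume : Measure ((Fin n → ℝ) × (Fin n → ℝ))) (Metric.ball y t) =
      ENNReal.ofReal ((2 * t) ^ (2 * n)) := by
  have hb : Metric.ball y t = Metric.ball y.1 t ×ˢ Metric.ball y.2 t := by
    ext z
    simp [Metric.mem_ball, Prod.dist_eq]
  rw [hb, Measure.volume_eq_prod, Measure.prod_prod, Real.volume_pi_ball _ ht,
    Real.volume_pi_ball _ ht, ← ENNReal.ofReal_mul (by positivity)]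
  simp only [Fintype.card_fin]
  congr 1
  ring

/-- The good set of pairs of row matrices. -/
def repG (t : ℝ) (L : List (E d)) : Set ((Fin n → E d) × (Fin n → E d)) :=
  Set.pi Set.univ (fun _ => {x : E d | ∀ v ∈ L, |(inner ℝ x v : ℝ)| < 2 * t}) ×ˢ
    Set.pi Set.univ (fun _ => {x : E d | ∀ v ∈ L, |(inner ℝ x v : ℝ)| < 2 * t})

theorem repG_mass (t : ℝ) (ht : 0 < t) (L : List (E d)) :
    ((gamR d n).prod (gamR d n)) (repG t L) ≤
      sb (ENNReal.ofReal (2 * (2 * t) / Real.sqrt (2 * Real.pi))) L ^ (2 * n) := by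
  unfold repG
  rw [Measure.prod_prod, Measure.pi_pi, Finset.prod_const]
  simp only [Finset.card_univ, Fintype.card_fin]
  have h := small_ball (d := d) (2 * t) (by positivity) L
  calc _ ≤ sb (ENNReal.ofReal (2 * (2 * t) / Real.sqrt (2 * Real.pi))) L ^ n *
        sb (ENNReal.ofReal (2 * (2 * t) / Real.sqrt (2 * Real.pi))) L ^ n := by
        gcongr
    _ = _ := by rw [← pow_add]; congr 1; ring

/-- The lab2 is additive: bound for the difference of labels. -/
theorem repG_of_dist (t : ℝ) (XX : (Fin n → E d) × (Fin n → E d))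
    (y : (Fin n → ℝ) × (Fin n → ℝ)) (p v : E d)
    (hp : dist (lab2 XX p) y < t) (hv : dist (lab2 XX (p + v)) y < t) (ht : 0 < t) :
    (∀ i, |(inner ℝ (XX.1 i) v : ℝ)| < 2 * t) ∧ (∀ i, |(inner ℝ (XX.2 i) v : ℝ)| < 2 * t) := by
  have hd : dist (lab2 XX (p + v)) (lab2 XX p) < 2 * t := by
    calc _ ≤ dist (lab2 XX (p + v)) y + dist (lab2 XX p) y := dist_triangle_right _ _ _
      _ < 2 * t := by linarith
  rw [Prod.dist_eq, max_lt_iff, dist_pi_lt_iff (by positivity), dist_pi_lt_iff (by positivity)] at hd
  constructor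
  · intro i
    have h := hd.1 i
    simp only [lab2, lab, inner_add_right, Real.dist_eq] at h
    simpa using h
  · intro i
    have h := hd.2 i
    simp only [lab2, lab, inner_add_right, Real.dist_eq] at h
    simpa using h

/-- Base case `k = 0`. -/
theorem repS_zero_le (ν : Measure (E d)) (t : ℝ) (ht : 0 < t) (p : E d) (L : List (E d)) :
    repS (n := n) ν t 0 p L ≤ ENNReal.ofReal ((2 * t) ^ (2 * n)) *
      sb (ENNReal.ofReal (2 * (2 * t) / Real.sqrt (2 * Real.pi))) L ^ (2 * n) := by
  classical
  unfold repS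
  simp only [pow_zero, mul_one]
  rw [lintegral_prod _ (measurable_repA t p L).aemeasurable]
  have hinner : ∀ XX : (Fin n → E d) × (Fin n → E d),
      ∫⁻ y, repA t p L (XX, y) ∂(volume : Measure ((Fin n → ℝ) × (Fin n → ℝ))) ≤
        (repG t L).indicator (fun _ => ENNReal.ofReal ((2 * t) ^ (2 * n))) XX := by
    intro XX
    by_cases hXX : XX ∈ repG t L
    · rw [Set.indicator_of_mem hXX]
      calc _ ≤ ∫⁻ y, (Metric.ball (lab2 XX p) t).indicator 1 y
            ∂(volume : Measure ((Fin n → ℝ) × (Fin n → ℝ))) := by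
            refine lintegral_mono fun y => ?_
            unfold repA
            by_cases hy : y ∈ Metric.ball (lab2 XX p) t
            · rw [Set.indicator_of_mem hy]
              calc _ ≤ (1 : ℝ≥0∞) * 1 := by
                    gcongr
                    · exact repI_le_one _ _ _
                    · refine rep_list_prod_le_one _ fun x hx => ?_
                      obtain ⟨v, -, rfl⟩ := List.mem_map.1 hx
                      exact repI_le_one _ _ _
                _ = 1 := by simp
            · have : repI t (XX, y) p = 0 := by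
                unfold repI
                have : ¬ dist (lab2 XX p) y < t := by
                  simpa [Metric.mem_ball, dist_comm] using hy
                simp [this]
              simp [this, Set.indicator_of_notMem hy]
        _ = (volume : Measure ((Fin n → ℝ) × (Fin n → ℝ))) (Metric.ball (lab2 XX p) t) :=
            lintegral_indicator_one Metric.isOpen_ball.measurableSet
        _ = _ := volume_ball_prod _ _ ht
    · rw [Set.indicator_of_notMem hXX]
      have h0 : ∀ y, repA t p L (XX, y) = 0 := by
        intro y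
        by_contra hne
        unfold repA at hne
        have h1 : repI t (XX, y) p ≠ 0 := left_ne_zero_of_mul hne
        have h2 := right_ne_zero_of_mul hne
        have hp : dist (lab2 XX p) y < t := by
          by_contra hh
          exact h1 (by simp [repI, hh])
        have hv : ∀ v ∈ L, dist (lab2 XX (p + v)) y < t := by
          intro v hv
          by_contra hh
          refine h2 (List.prod_eq_zero ?_)
          exact List.mem_map.2 ⟨v, hv, by simp [repI, hh]⟩
        apply hXX
        unfold repG
        refine ⟨?_, ?_⟩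
        · intro i _ v hv'
          exact (repG_of_dist t XX y p v hp (hv v hv') ht).1 i
        · intro i _ v hv'
          exact (repG_of_dist t XX y p v hp (hv v hv') ht).2 i
      simp [h0]
  calc _ ≤ ∫⁻ XX, (repG t L).indicator (fun _ => ENNReal.ofReal ((2 * t) ^ (2 * n))) XX
        ∂((gamR d n).prod (gamR d n)) := lintegral_mono hinner
    _ ≤ ENNReal.ofReal ((2 * t) ^ (2 * n)) * ((gamR d n).prod (gamR d n)) (repG t L) :=
        lintegral_indicator_const_le _ _
    _ ≤ _ := by
        gcongr
        exact repG_mass t ht L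

/-- The induction. -/
theorem repS_le (ν : Measure (E d)) [IsProbabilityMeasure ν] {b : ℝ≥0∞} (hflat : FlatBd ν w n b)
    (t : ℝ) (ht : 0 < t) (k : ℕ) :
    ∀ (p : E d) (L : List (E d)), L.length + k ≤ w + 1 →
      repS (n := n) ν t k p L ≤ ENNReal.ofReal ((2 * t) ^ (2 * n)) *
        sb (ENNReal.ofReal (2 * (2 * t) / Real.sqrt (2 * Real.pi))) L ^ (2 * n) *
        (ENNReal.ofReal (2 * (2 * t) / Real.sqrt (2 * Real.pi)) ^ (2 * n) * b) ^ k := by
  induction k with
  | zero =>
    intro p L _
    simpa using repS_zero_le ν t ht p L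
  | succ k ih =>
    intro p L hL
    set c' := ENNReal.ofReal (2 * (2 * t) / Real.sqrt (2 * Real.pi)) with hc'
    set c := ENNReal.ofReal ((2 * t) ^ (2 * n)) with hc
    rw [repS_succ]
    have hlen : (((fun s => s - p) p :: L).length) + k ≤ w + 1 := by
      simp only [List.length_cons]; omega
    have hbd : ∀ s, repS (n := n) ν t k p ((s - p) :: L) ≤
        (c * sb c' L ^ (2 * n) * c' ^ (2 * n) * (c' ^ (2 * n) * b) ^ k) *
          ((ENNReal.ofReal (dsub (spanL L) (s - p)))⁻¹) ^ (2 * n) := by
      intro s
      refine (ih p ((s - p) :: L) (by simp only [List.length_cons]; omega)).trans_eq ?_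
      simp only [sb, mul_pow]
      ring
    have hmeas : Measurable fun s : E d =>
        ((ENNReal.ofReal (dsub (spanL L) (s - p)))⁻¹) ^ (2 * n) := by
      refine Measurable.pow_const (Measurable.inv (ENNReal.measurable_ofReal.comp ?_)) _
      unfold dsub
      exact (Metric.continuous_infDist_pt _).measurable.comp (measurable_id.sub_const p)
    have hW : Module.finrank ℝ (spanL L) ≤ w := by
      have := finrank_spanL_le L
      omega
    calc _ ≤ ∫⁻ s, (c * sb c' L ^ (2 * n) * c' ^ (2 * n) * (c' ^ (2 * n) * b) ^ k) *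
          ((ENNReal.ofReal (dsub (spanL L) (s - p)))⁻¹) ^ (2 * n) ∂ν := lintegral_mono hbd
      _ = (c * sb c' L ^ (2 * n) * c' ^ (2 * n) * (c' ^ (2 * n) * b) ^ k) *
          ∫⁻ s, ((ENNReal.ofReal (dsub (spanL L) (s - p)))⁻¹) ^ (2 * n) ∂ν :=
          lintegral_const_mul _ hmeas
      _ ≤ (c * sb c' L ^ (2 * n) * c' ^ (2 * n) * (c' ^ (2 * n) * b) ^ k) * b := by
          gcongr
          exact hflat p (spanL L) hW
      _ = _ := by rw [pow_succ]; ring

/-- Constant arithmetic. -/
theorem rep_const (t : ℝ) (ht : 0 < t) :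
    (ENNReal.ofReal ((2 * t) ^ (2 * n)))⁻¹ *
        ENNReal.ofReal (2 * (2 * t) / Real.sqrt (2 * Real.pi)) ^ (2 * n) =
      ENNReal.ofReal (2 / Real.pi) ^ n := by
  have hpos : 0 < (2 * t) ^ (2 * n) := by positivity
  have hs : 0 < Real.sqrt (2 * Real.pi) := Real.sqrt_pos.2 (by positivity)
  rw [← ENNReal.ofReal_inv_of_pos hpos, ← ENNReal.ofReal_pow (by positivity),
    ← ENNReal.ofReal_mul (by positivity), ← ENNReal.ofReal_pow (by positivity)]
  congr 1
  have h1 : (2 * t) ^ (2 * n) = ((2 * t) ^ 2) ^ n := by rw [pow_mul]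
  have h2 : (2 * (2 * t) / Real.sqrt (2 * Real.pi)) ^ (2 * n) =
      ((2 * (2 * t) / Real.sqrt (2 * Real.pi)) ^ 2) ^ n := by rw [pow_mul]
  rw [h1, h2, ← inv_pow, ← mul_pow]
  congr 1
  have h3 : Real.sqrt (2 * Real.pi) ^ 2 = 2 * Real.pi := Real.sq_sqrt (by positivity)
  rw [div_pow, h3]
  have hpi := Real.pi_pos
  field_simp

/-- Replica moment. Write `F(y) = ν {s | dist (lab2 XX s) y < t}`. By induction on `k` prove, for
`p : E d`, `L : List (E d)` with `L.length + k ≤ w + 1`, and `S k p L :=
 E_XX ∫ dy 1{dist (lab2 XX p) y < t} ∏_{v∈L} 1{dist (lab2 XX (p+v)) y < t} F(y)^k`: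
 `S k p L ≤ c_t * (sb c' L)^(2n) * (c'^(2n) b)^k`, where `c_t = (2t)^(2n)`, `c' = ofReal (4t/√(2π))`.
 `k = 0`: the `y`-integral is at most `c_t 1{∀ v ∈ L, ∀ rows, |⟨x,v⟩| < 2t}`, rows are iid, use
 `small_ball` with `2t`. Step: `F(y)^(k+1) = F(y)^k ∫ 1{dist (lab2 XX s) y < t} dν(s)`, Tonelli,
 so `S (k+1) p L = ∫ dν(s) S k p ((s-p) :: L)`, then `sb c' ((s-p)::L) = sb c' L * (c' * dsub⁻¹)`
 and `FlatBd` with `W = spanL L` (`finrank_spanL_le`).
 Finally `E ∫ F^(w+2) dy = ∫ dν(p) S (w+1) p []`. Divide by `c_t^(w+2)`: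
 `(c'^(2n)/c_t) = (4/(2π))^n = (2/π)^n`. -/
theorem replica (ν : Measure (E d)) [IsProbabilityMeasure ν] {b : ℝ≥0∞} (hflat : FlatBd ν w n b)
    (t : ℝ) (ht : 0 < t) :
    ∫⁻ XX : (Fin n → E d) × (Fin n → E d),
        ∫⁻ y : (Fin n → ℝ) × (Fin n → ℝ),
          (ν {s | dist (lab2 XX s) y < t} / ENNReal.ofReal ((2 * t) ^ (2 * n))) ^ (w + 2)
        ∂volume ∂((gamR d n).prod (gamR d n)) ≤
      ((ENNReal.ofReal (2 / Real.pi)) ^ n * b) ^ (w + 1) := by
  set c' := ENNReal.ofReal (2 * (2 * t) / Real.sqrt (2 * Real.pi)) with hc'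
  set c := ENNReal.ofReal ((2 * t) ^ (2 * n)) with hc
  have hcpos : c ≠ 0 := by
    rw [hc]
    simp only [ne_eq, ENNReal.ofReal_eq_zero, not_le]
    positivity
  have hctop : c ≠ ⊤ := ENNReal.ofReal_ne_top
  -- rewrite as a single integral
  have hfm : Measurable fun ω : RepΩ d n => (repF ν t ω / c) ^ (w + 2) :=
    ((measurable_repF ν t).div_const c).pow_const _
  have h1 : ∫⁻ XX : (Fin n → E d) × (Fin n → E d),
        ∫⁻ y : (Fin n → ℝ) × (Fin n → ℝ),
          (ν {s | dist (lab2 XX s) y < t} / c) ^ (w + 2)
        ∂volume ∂((gamR d n).prod (gamR d n)) =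
      ∫⁻ ω : RepΩ d n, (repF ν t ω / c) ^ (w + 2) ∂(repP d n) := by
    rw [lintegral_prod _ hfm.aemeasurable]
    refine lintegral_congr fun XX => lintegral_congr fun y => ?_
    rw [repF_eq]
  rw [h1]
  have h2 : ∀ ω : RepΩ d n, (repF ν t ω / c) ^ (w + 2) =
      repF ν t ω ^ (w + 2) * (c⁻¹) ^ (w + 2) := by
    intro ω
    rw [div_eq_mul_inv, mul_pow]
  simp_rw [h2]
  rw [lintegral_mul_const _ ((measurable_repF ν t).pow_const _)]
  -- peel one factor of `F`
  have h3 : ∫⁻ ω : RepΩ d n, repF ν t ω ^ (w + 2) ∂(repP d n) =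
      ∫⁻ p, repS (n := n) ν t (w + 1) p [] ∂ν := by
    unfold repS
    have h1' : ∀ ω : RepΩ d n, repF ν t ω ^ (w + 2) =
        ∫⁻ s, repF ν t ω ^ (w + 1) * repI t ω s ∂ν := by
      intro ω
      rw [lintegral_const_mul _ (measurable_repI_right t ω), pow_succ]
      rfl
    simp_rw [h1']
    rw [lintegral_lintegral_swap]
    · refine lintegral_congr fun s => lintegral_congr fun ω => ?_
      unfold repA
      simp only [List.map_nil, List.prod_nil, mul_one]
      ring
    · apply Measurable.aemeasurable
      exact (((measurable_repF ν t).comp measurable_fst).pow_const (w + 1)).mul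
        (measurable_repI t)
  rw [h3]
  have h4 : ∀ p, repS (n := n) ν t (w + 1) p [] ≤ c * (c' ^ (2 * n) * b) ^ (w + 1) := by
    intro p
    refine (repS_le ν hflat t ht (w + 1) p [] (by simp)).trans_eq ?_
    simp only [sb, one_pow, mul_one]
    rfl
  calc _ ≤ (∫⁻ _p, c * (c' ^ (2 * n) * b) ^ (w + 1) ∂ν) * (c⁻¹) ^ (w + 2) := by
        gcongr
        exact h4 _
    _ = c * (c' ^ (2 * n) * b) ^ (w + 1) * (c⁻¹) ^ (w + 2) := by
        simp
    _ = (c * c⁻¹) * ((c⁻¹ * c' ^ (2 * n)) * b) ^ (w + 1) := by
        rw [mul_assoc c⁻¹, mul_pow c⁻¹, pow_succ c⁻¹ (w + 1)]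
        ring
    _ = _ := by
        rw [ENNReal.mul_inv_cancel hcpos hctop, one_mul, rep_const t ht]

end P309
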