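import Vale.Agent.Lib.P309.Gauss1

/-! # P309 module SmallBall: Gaussian small ball via Gram-Schmidt -/

open MeasureTheory ProbabilityTheory
open scoped ENNReal NNReal

namespace P309

variable {d : ℕ}

private theorem smallBall_sb_ne_zero {c : ℝ≥0∞} (hc : c ≠ 0) (L : List (E d)) : sb c L ≠ 0 := by
  induction L with
  | nil => simp [sb]
  | cons v L ih =>
    simp only [sb]
    refine mul_ne_zero ih (mul_ne_zero hc ?_)
    exact ENNReal.inv_ne_zero.2 ENNReal.ofReal_ne_top

/-- The standard normal law of an open interval of `a ↦ δ a + b`. -/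
private theorem smallBall_gauss_interval {t δ : ℝ} (ht : 0 < t) (hδ : 0 < δ) (b : ℝ) :
    gaussianReal 0 1 {a : ℝ | |δ * a + b| < t} ≤
      ENNReal.ofReal (2 * t / Real.sqrt (2 * Real.pi)) * (ENNReal.ofReal δ)⁻¹ := by
  have hset : {a : ℝ | |δ * a + b| < t} = Set.Ioo ((-t - b) / δ) ((t - b) / δ) := by
    ext a
    simp only [Set.mem_setOf_eq, Set.mem_Ioo, abs_lt, div_lt_iff₀ hδ, lt_div_iff₀ hδ]
    constructor
    · rintro ⟨h1, h2⟩
      constructor <;> nlinarith
    · rintro ⟨h1, h2⟩
      constructor <;> nlinarith
  rw [hset, gaussianReal_apply 0 one_ne_zero]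
  have hpdf : ∀ x, gaussianPDF 0 1 x ≤ ENNReal.ofReal (1 / Real.sqrt (2 * Real.pi)) := by
    intro x
    rw [gaussianPDF]
    apply ENNReal.ofReal_le_ofReal
    rw [gaussianPDFReal]
    have h1 : Real.exp (-(x - 0) ^ 2 / (2 * ((1 : ℝ≥0) : ℝ))) ≤ 1 := by
      apply Real.exp_le_one_iff.2
      have := sq_nonneg (x - 0)
      simp only [NNReal.coe_one, mul_one]
      linarith
    simp only [NNReal.coe_one, mul_one] at h1 ⊢
    have h2 : 0 < (Real.sqrt (2 * Real.pi))⁻¹ := by positivity
    rw [one_div]
    nlinarith
  calc ∫⁻ x in Set.Ioo ((-t - b) / δ) ((t - b) / δ), gaussianPDF 0 1 x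
      ≤ ∫⁻ _ in Set.Ioo ((-t - b) / δ) ((t - b) / δ),
          ENNReal.ofReal (1 / Real.sqrt (2 * Real.pi)) := lintegral_mono hpdf
    _ = ENNReal.ofReal (1 / Real.sqrt (2 * Real.pi)) *
          ENNReal.ofReal ((t - b) / δ - (-t - b) / δ) := by
        rw [setLIntegral_const, Real.volume_Ioo]
    _ = ENNReal.ofReal (2 * t / Real.sqrt (2 * Real.pi)) * (ENNReal.ofReal δ)⁻¹ := by
        have h3 : (t - b) / δ - (-t - b) / δ = 2 * t / δ := by
          field_simp
          ring
        rw [h3, ← ENNReal.ofReal_mul (by positivity),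
          ← ENNReal.ofReal_inv_of_pos hδ, ← ENNReal.ofReal_mul (by positivity)]
        congr 1
        field_simp

/-- Independence of `⟨x,e⟩` and `P x` for `e ⟂ W`. -/
private theorem smallBall_indep (W : Submodule ℝ (E d)) (e : E d) (he : e ∈ Wᗮ) :
    (gam d).map (fun x => ((inner ℝ e x : ℝ), W.starProjection x)) =
      ((gam d).map (fun x => (inner ℝ e x : ℝ))).prod ((gam d).map (fun x => W.starProjection x)) := by
  have hG : HasGaussianLaw (fun x : E d => ((inner ℝ e x : ℝ), W.starProjection x)) (gam d) := by
    let L : E d →L[ℝ] ℝ × E d := (innerSL ℝ e).prod W.starProjection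
    exact (IsGaussian.hasGaussianLaw_id (μ := gam d)).map_fun L
  have hI : IndepFun (fun x : E d => (inner ℝ e x : ℝ)) (fun x => W.starProjection x) (gam d) := by
    apply hG.indepFun_of_covariance_inner
    intro a b
    have hmem : MemLp id 2 (gam d) := IsGaussian.memLp_two_id
    have h0 := covarianceBilin_apply_eq_cov (μ := gam d) hmem (a • e) (W.starProjection b)
    rw [covarianceBilin_stdGaussian] at h0
    have h1 : (innerSL ℝ (a • e)) (W.starProjection b) = 0 := by
      rw [innerSL_apply_apply, inner_smul_left]
      have h2 : (inner ℝ e (W.starProjection b) : ℝ) = 0 := by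
        have hmemW : W.starProjection b ∈ W := by simp
        exact (Submodule.mem_orthogonal' _ _).1 he _ hmemW
      simp [h2]
    rw [h1] at h0
    have h3 : (fun x : E d => (inner ℝ a (inner ℝ e x : ℝ) : ℝ)) = fun x => inner ℝ (a • e) x := by
      funext x
      simp [inner_smul_left, mul_comm]
    have h4 : (fun x : E d => (inner ℝ b (W.starProjection x) : ℝ)) =
        fun x => inner ℝ (W.starProjection b) x := by
      funext x
      rw [Submodule.inner_starProjection_left_eq_right]
    rw [h3, h4, ← h0]
  exact (indepFun_iff_map_prod_eq_prod_map_map (by fun_prop) (by fun_prop)).1 hI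

/-- One Gram-Schmidt step: with `W = spanL L`, `δ = dsub W v > 0`, `e = (v - P_W v)/δ`:
`⟨x, e⟩` is `N(0,1)` and independent of `(⟨x,u⟩)_{u ∈ L}` (`HasGaussianLaw.indepFun...` or
`stdGaussian_eq_map_pi_orthonormalBasis` with a basis containing `e`), and
`⟨x, v⟩ = δ ⟨x, e⟩ + ⟨x, P_W v⟩` where `⟨x, P_W v⟩` is a function of `(⟨x,u⟩)_{u∈L}`,
so given those values `⟨x,e⟩` must lie in an interval of length `2t/δ`; the density of `N(0,1)`
is at most `1/√(2π)`. -/
theorem small_ball (t : ℝ) (ht : 0 < t) (L : List (E d)) :
    gam d {x | ∀ v ∈ L, |(inner ℝ x v : ℝ)| < t} ≤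
      sb (ENNReal.ofReal (2 * t / Real.sqrt (2 * Real.pi))) L := by
  set c := ENNReal.ofReal (2 * t / Real.sqrt (2 * Real.pi)) with hc
  have hc0 : c ≠ 0 := by
    rw [hc]
    simp only [ne_eq, ENNReal.ofReal_eq_zero, not_le]
    positivity
  induction L with
  | nil => simp [sb]
  | cons v L ih =>
    simp only [sb]
    set W := spanL L with hW
    set δ := dsub W v with hδ
    by_cases hδ0 : δ ≤ 0
    · have h1 : (ENNReal.ofReal δ)⁻¹ = ⊤ := by
        rw [ENNReal.ofReal_of_nonpos hδ0]
        simp
      rw [h1, ENNReal.mul_top hc0, ENNReal.mul_top (smallBall_sb_ne_zero hc0 L)]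
      exact le_top
    have hδpos : 0 < δ := not_le.1 hδ0
    -- the unit vector
    set w := v - W.starProjection v with hw
    have hwW : w ∈ Wᗮ := by
      rw [hw]
      exact Submodule.sub_starProjection_mem_orthogonal v
    have hnorm : ‖w‖ = δ := by
      rw [hδ, dsub, Metric.infDist_eq_iInf, hw]
      rw [Submodule.starProjection_minimal]
      simp [dist_eq_norm]
    set e := δ⁻¹ • w with he
    have heW : e ∈ Wᗮ := Submodule.smul_mem _ _ hwW
    have henorm : ‖e‖ = 1 := by
      rw [he, norm_smul, hnorm, norm_inv, Real.norm_of_nonneg hδpos.le]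
      exact inv_mul_cancel₀ hδpos.ne'
    -- the decomposition of `⟨x,v⟩`
    have hdec : ∀ x : E d, (inner ℝ x v : ℝ) =
        δ * inner ℝ e x + inner ℝ (W.starProjection x) v := by
      intro x
      have h1 : (inner ℝ (W.starProjection x) v : ℝ) = inner ℝ x (W.starProjection v) :=
        Submodule.inner_starProjection_left_eq_right _ _ _
      have h2 : δ * (inner ℝ e x : ℝ) = inner ℝ x w := by
        rw [he, inner_smul_left]
        simp only [map_inv₀, conj_trivial]
        rw [real_inner_comm]
        field_simp
      rw [h1, h2, ← inner_add_right, hw]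
      simp
    have hproj : ∀ x : E d, ∀ u ∈ L, (inner ℝ x u : ℝ) = inner ℝ (W.starProjection x) u := by
      intro x u hu
      have huW : u ∈ W := Submodule.subset_span hu
      rw [Submodule.inner_starProjection_left_eq_right]
      rw [Submodule.starProjection_eq_self_iff.2 huW]
    -- the set in the product
    set B : Set (E d) := {y | ∀ u ∈ L, |(inner ℝ y u : ℝ)| < t} with hB
    have hBm : MeasurableSet B := by
      have : B = ⋂ u ∈ L, {y | |(inner ℝ y u : ℝ)| < t} := by
        ext y; simp [hB]
      rw [this]
      refine Set.Finite.measurableSet_biInter L.finite_toSet fun u _ => ?_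
      exact measurableSet_lt (by fun_prop) measurable_const
    set S : Set (ℝ × E d) := {p | p.2 ∈ B ∧ |δ * p.1 + inner ℝ p.2 v| < t} with hS
    have hSm : MeasurableSet S := by
      have h1 : Measurable fun p : ℝ × E d => |δ * p.1 + (inner ℝ p.2 v : ℝ)| := by fun_prop
      have h2 : MeasurableSet {p : ℝ × E d | |δ * p.1 + (inner ℝ p.2 v : ℝ)| < t} :=
        measurableSet_lt h1 measurable_const
      exact (measurable_snd hBm).inter h2
    have hsub : {x | ∀ u ∈ v :: L, |(inner ℝ x u : ℝ)| < t} ⊆
        (fun x : E d => ((inner ℝ e x : ℝ), W.starProjection x)) ⁻¹' S := by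
      intro x hx
      simp only [List.mem_cons, forall_eq_or_imp, Set.mem_setOf_eq] at hx
      refine ⟨fun u hu => ?_, ?_⟩
      · rw [← hproj x u hu]
        exact hx.2 u hu
      · change |δ * inner ℝ e x + inner ℝ (W.starProjection x) v| < t
        rw [← hdec x]
        exact hx.1
    have hmeas : Measurable (fun x : E d => ((inner ℝ e x : ℝ), W.starProjection x)) := by
      fun_prop
    have hlaw : (gam d).map (fun x => (inner ℝ e x : ℝ)) = gaussianReal 0 1 := by
      have h0 := gam_map_inner (d := d) e
      have h1 : (fun x : E d => (inner ℝ e x : ℝ)) = fun x => inner ℝ x e := by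
        funext x
        exact real_inner_comm _ _
      rw [h1, h0]
      have h2 : ‖e‖₊ = 1 := by
        ext
        simpa using henorm
      rw [h2, one_pow]
    calc gam d {x | ∀ u ∈ v :: L, |(inner ℝ x u : ℝ)| < t}
        ≤ gam d ((fun x : E d => ((inner ℝ e x : ℝ), W.starProjection x)) ⁻¹' S) :=
          measure_mono hsub
      _ = ((gam d).map (fun x => ((inner ℝ e x : ℝ), W.starProjection x))) S :=
          (Measure.map_apply hmeas hSm).symm
      _ = ((gaussianReal 0 1).prod ((gam d).map (fun x => W.starProjection x))) S := by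
          rw [smallBall_indep W e heW, hlaw]
      _ = ∫⁻ y, gaussianReal 0 1 ((fun a => (a, y)) ⁻¹' S)
            ∂((gam d).map (fun x => W.starProjection x)) :=
          Measure.prod_apply_symm hSm
      _ ≤ ∫⁻ y, B.indicator (fun _ => c * (ENNReal.ofReal δ)⁻¹) y
            ∂((gam d).map (fun x => W.starProjection x)) := by
          refine lintegral_mono fun y => ?_
          by_cases hy : y ∈ B
          · rw [Set.indicator_of_mem hy]
            have hset : (fun a : ℝ => (a, y)) ⁻¹' S = {a | |δ * a + inner ℝ y v| < t} := by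
              ext a
              simp [hS, hy]
            rw [hset]
            exact smallBall_gauss_interval ht hδpos _
          · rw [Set.indicator_of_notMem hy]
            have hset : (fun a : ℝ => (a, y)) ⁻¹' S = ∅ := by
              ext a
              simp [hS, hy]
            rw [hset]
            simp
      _ = c * (ENNReal.ofReal δ)⁻¹ * ((gam d).map (fun x => W.starProjection x)) B := by
          rw [lintegral_indicator hBm, setLIntegral_const]
      _ = c * (ENNReal.ofReal δ)⁻¹ * gam d {x | ∀ u ∈ L, |(inner ℝ x u : ℝ)| < t} := by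
          rw [Measure.map_apply (by fun_prop) hBm]
          congr 2
          ext x
          simp only [Set.mem_preimage, hB, Set.mem_setOf_eq]
          constructor
          · intro h u hu
            rw [hproj x u hu]
            exact h u hu
          · intro h u hu
            rw [← hproj x u hu]
            exact h u hu
      _ ≤ c * (ENNReal.ofReal δ)⁻¹ * sb c L := by gcongr
      _ = sb c L * (c * (ENNReal.ofReal δ)⁻¹) := mul_comm _ _

/-- `spanL L` has dimension at most the length of `L`. -/
theorem finrank_spanL_le (L : List (E d)) : Module.finrank ℝ (spanL L) ≤ L.length := by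
  classical
  have h1 : spanL L = Submodule.span ℝ ((L.toFinset : Finset (E d)) : Set (E d)) := by
    simp [spanL]
  rw [h1]
  exact (finrank_span_finset_le_card _).trans (List.toFinset_card_le L)

end P309
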