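import Vale.Agent.Lib.P309.StopModel
import Vale.Agent.Lib.P309.Main

/-! # P309: learners with stopping decisions are simulated with one more bit -/

open MeasureTheory ProbabilityTheory

namespace P309

variable {d M : ℕ}

/-- The state set of the simulation. -/
noncomputable def stopEquiv (M : ℕ) : Fin (2 ^ (M + 1)) ≃ Fin (2 ^ M) × Bool :=
  Fintype.equivOfCardEq (by simp [pow_succ])

/-- The simulating learner: one more bit records whether the learner has stopped; a stopped learner
keeps its state. -/
noncomputable def StopLearner.toLearner (S : StopLearner d M) : Learner d (M + 1) where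
  init w := if (stopEquiv M w).2 then 0 else S.init (stopEquiv M w).1
  step t w x y w' :=
    if (stopEquiv M w).2 then (if w' = w then 1 else 0)
    else S.step t (stopEquiv M w).1 x y (stopEquiv M w')
  out w := S.out (stopEquiv M w).1
  init_prob := by
    constructor
    · intro w
      split_ifs
      · exact le_rfl
      · exact S.init_prob.nonneg _
    · have h := (stopEquiv M).sum_comp
        (fun v : Fin (2 ^ M) × Bool => if v.2 = true then (0 : ℝ) else S.init v.1)
      rw [h, Fintype.sum_prod_type]
      simp only [Fintype.sum_bool, if_true, Bool.false_eq_true, if_false, zero_add]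
      exact S.init_prob.sum_one
  step_meas := by
    intro t u v
    by_cases h : (stopEquiv M u).2 = true
    · simp only [h, if_true]
      exact measurable_const
    · simp only [if_neg h]
      exact S.step_meas t _ _
  step_prob := by
    intro t w x y
    by_cases h : (stopEquiv M w).2 = true
    · constructor
      · intro v
        simp only [h, if_true]
        split_ifs <;> norm_num
      · simp only [h, if_true]
        simp
    · constructor
      · intro v
        simp only [if_neg h]
        exact (S.step_prob t _ x y).nonneg _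
      · simp only [if_neg h]
        rw [(stopEquiv M).sum_comp (S.step t (stopEquiv M w).1 x y)]
        exact (S.step_prob t _ x y).sum_one
  out_prob w := S.out_prob _
  out_sphere w := S.out_sphere _

theorem law_toLearner (S : StopLearner d M) (t : ℕ) (s : E d) (w : Fin (2 ^ (M + 1))) :
    law S.toLearner t s w = slaw S t s (stopEquiv M w) := by
  induction t generalizing w with
  | zero => rfl
  | succ t ih =>
    simp only [law, ih]
    have h := (stopEquiv M).sum_comp (fun p : Fin (2 ^ M) × Bool =>
      slaw S t s p * ∫ x, S.toLearner.step t ((stopEquiv M).symm p) x (inner ℝ x s) w ∂(gam d))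
    simp only [Equiv.symm_apply_apply] at h
    rw [h, Fintype.sum_prod_type]
    simp only [Fintype.sum_bool]
    have hT : ∀ u : Fin (2 ^ M), (∫ x, S.toLearner.step t ((stopEquiv M).symm (u, true)) x
        (inner ℝ x s) w ∂(gam d)) = if w = (stopEquiv M).symm (u, true) then 1 else 0 := by
      intro u
      simp only [StopLearner.toLearner, Equiv.apply_symm_apply, if_true]
      simp
    have hF : ∀ u : Fin (2 ^ M), (∫ x, S.toLearner.step t ((stopEquiv M).symm (u, false)) x
        (inner ℝ x s) w ∂(gam d)) = ∫ x, S.step t u x (inner ℝ x s) (stopEquiv M w) ∂(gam d) := by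
      intro u
      simp [StopLearner.toLearner]
    simp only [hT, hF]
    rw [Finset.sum_add_distrib]
    have hsum : ∑ u : Fin (2 ^ M), slaw S t s (u, true) *
        (if w = (stopEquiv M).symm (u, true) then (1 : ℝ) else 0) =
        if (stopEquiv M w).2 = true then slaw S t s (stopEquiv M w) else 0 := by
      by_cases hb : (stopEquiv M w).2 = true
      · rw [if_pos hb, Finset.sum_eq_single (stopEquiv M w).1]
        · have : (stopEquiv M w) = ((stopEquiv M w).1, true) := by
            ext
            · rfl
            · simp [hb]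
          rw [← this]
          simp
        · intro u _ hu
          rw [if_neg, mul_zero]
          intro hw
          apply hu
          rw [hw]
          simp
        · simp
      · rw [if_neg hb]
        refine Finset.sum_eq_zero fun u _ => ?_
        rw [if_neg, mul_zero]
        intro hw
        apply hb
        rw [hw]
        simp
    rw [hsum]
    rw [slaw]

theorem successProb_toLearner (S : StopLearner d M) (T : ℕ) (ε : ℝ) :
    successProb S.toLearner T ε = stopSuccessProb S T ε := by
  unfold successProb stopSuccessProb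
  congr 1
  funext s
  simp only [law_toLearner]
  have h := (stopEquiv M).sum_comp (fun p : Fin (2 ^ M) × Bool =>
    slaw S T s p * (S.out p.1 {z | Real.arccos (inner ℝ z s) ≤ ε}).toReal)
  have h2 : ∀ w : Fin (2 ^ (M + 1)), S.toLearner.out w = S.out (stopEquiv M w).1 := fun _ => rfl
  simp only [h2]
  rw [h, Fintype.sum_prod_type]
  simp only [Fintype.sum_bool]
  refine Finset.sum_congr rfl fun u _ => ?_
  ring

/-- The tradeoff for learners with explicit stopping decisions. -/
theorem stop_tradeoff : ∃ c : ℝ, 0 < c ∧ ∃ ε₀ : ℝ, 0 < ε₀ ∧ ∃ d₀ : ℕ, ∀ d, d₀ ≤ d →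
    ∀ ε : ℝ, 0 < ε → ε < ε₀ → ∀ (M T : ℕ) (S : StopLearner d M), 2 / 3 ≤ stopSuccessProb S T ε →
      c * d * Real.log (1 / ε) ≤ ((T : ℝ) + d) * (1 + (M : ℝ) / (d : ℝ) ^ 2) ∧
      ((M : ℝ) ≤ (d : ℝ) ^ 2 → c * d * Real.log (1 / ε) ≤ T) := by
  obtain ⟨c, hc, ε₀, hε₀, d₀, H⟩ := tradeoff
  refine ⟨c / 6, by positivity, min ε₀ (Real.exp (-(6 / c))), lt_min hε₀ (Real.exp_pos _),
    max d₀ 1, ?_⟩
  intro d hd ε hε hεlt M T S hS
  have hd₀ : d₀ ≤ d := le_trans (le_max_left _ _) hd
  have hd1 : 1 ≤ d := le_trans (le_max_right _ _) hd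
  have hdR : (1 : ℝ) ≤ d := by exact_mod_cast hd1
  have hdp : (0 : ℝ) < d := by linarith
  have hh := (H d hd₀ ε hε (lt_of_lt_of_le hεlt (min_le_left _ _)) (M + 1) T S.toLearner
    (by rw [successProb_toLearner]; exact hS)).1
  set L := Real.log (1 / ε) with hL
  have hLb : 6 / c < L := by
    have h1 : ε < Real.exp (-(6 / c)) := lt_of_lt_of_le hεlt (min_le_right _ _)
    have h2 : Real.log ε < -(6 / c) := by
      rw [Real.log_lt_iff_lt_exp hε]; exact h1
    rw [hL, one_div, Real.log_inv]
    linarith
  have hLp : 0 < L := lt_trans (by positivity) hLb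
  have hd2 : (1 : ℝ) ≤ (d : ℝ) ^ 2 := by nlinarith
  have hd2p : (0 : ℝ) < (d : ℝ) ^ 2 := by linarith
  have hT0 : (0 : ℝ) ≤ (T : ℝ) + d := by positivity
  push_cast at hh
  have hM0 : (0 : ℝ) ≤ (M : ℝ) / (d : ℝ) ^ 2 := by positivity
  have e1 : ((M : ℝ) + 1) / (d : ℝ) ^ 2 = (M : ℝ) / (d : ℝ) ^ 2 + 1 / (d : ℝ) ^ 2 := by ring
  have e2 : 1 / (d : ℝ) ^ 2 ≤ 1 := by
    rw [div_le_one hd2p]; exact hd2
  have hcdL : 0 < c * d * L := by positivity
  constructor
  · have h1 : ((T : ℝ) + d) * (1 + ((M : ℝ) + 1) / (d : ℝ) ^ 2) ≤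
        2 * (((T : ℝ) + d) * (1 + (M : ℝ) / (d : ℝ) ^ 2)) := by
      rw [e1]
      nlinarith [mul_nonneg hT0 hM0, mul_nonneg hT0 (sub_nonneg.mpr e2)]
    have h2 : c / 6 * d * L = (c * d * L) / 6 := by ring
    rw [h2]
    have h3 : 0 ≤ ((T : ℝ) + d) * (1 + (M : ℝ) / (d : ℝ) ^ 2) := by positivity
    linarith
  · intro hMd
    have h1 : ((M : ℝ) + 1) / (d : ℝ) ^ 2 ≤ 2 := by
      rw [div_le_iff₀ hd2p]; linarith
    have h2 : c * d * L ≤ 3 * ((T : ℝ) + d) := by
      calc c * d * L ≤ ((T : ℝ) + d) * (1 + ((M : ℝ) + 1) / (d : ℝ) ^ 2) := hh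
        _ ≤ ((T : ℝ) + d) * 3 := by
            apply mul_le_mul_of_nonneg_left _ hT0
            linarith
        _ = 3 * ((T : ℝ) + d) := by ring
    have h3 : (6 : ℝ) ≤ c * L := by
      rw [div_lt_iff₀ hc] at hLb
      linarith
    have h4 : 6 * (d : ℝ) ≤ c * d * L := by nlinarith
    have h5 : c / 6 * d * L = (c * d * L) / 6 := by ring
    rw [h5]
    linarith

end P309
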