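import Vale.Agent.Lib.P309.Model

/-!
# P309: the learner model with explicit stopping decisions (only definitions)

A `StopLearner d M` has `2 ^ M` persistent states. At each index it reads the current pair and
makes a randomized measurable decision `(v, b)`: `v` is the new state and `b = true` means stop
now (no more samples are read, the final state is `v`). `slaw S t s (u, false)` is the probability
that after `t` rows the learner is still running in state `u`, given the signal `s`, and
`slaw S t s (u, true)` is the probability that it has stopped, within the first `t` rows, with
final state `u`.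
-/

open MeasureTheory ProbabilityTheory

namespace P309

/-- A learner with `M` bits of memory and a randomized stopping rule. -/
structure StopLearner (d M : ℕ) where
  init : Fin (2 ^ M) → ℝ
  step : ℕ → Fin (2 ^ M) → E d → ℝ → Fin (2 ^ M) × Bool → ℝ
  out : Fin (2 ^ M) → Measure (E d)
  init_prob : IsProb init
  step_meas : ∀ t u v, Measurable fun p : E d × ℝ => step t u p.1 p.2 v
  step_prob : ∀ t u x y, IsProb (step t u x y)
  out_prob : ∀ u, IsProbabilityMeasure (out u)
  out_sphere : ∀ u, ∀ᵐ z ∂(out u), ‖z‖ = 1

/-- The joint law of the state and of the stopped flag after `t` rows, given the signal `s`. -/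
noncomputable def slaw {d M : ℕ} (S : StopLearner d M) : ℕ → E d → Fin (2 ^ M) × Bool → ℝ
  | 0, _ => fun v => if v.2 then 0 else S.init v.1
  | t + 1, s => fun v =>
      (if v.2 then slaw S t s v else 0) +
        ∑ u, slaw S t s (u, false) * ∫ x, S.step t u x (inner ℝ x s) v ∂(gam d)

/-- The probability that the output, given after at most `T` rows, has angle at most `ε` with
the uniform signal. -/
noncomputable def stopSuccessProb {d M : ℕ} (S : StopLearner d M) (T : ℕ) (ε : ℝ) : ℝ :=
  ∫ s, ∑ u, (slaw S T s (u, false) + slaw S T s (u, true)) *
    (S.out u {z | Real.arccos (inner ℝ z s) ≤ ε}).toReal ∂(sig d)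

end P309
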